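import Crest.Agent.Switch.Kernel

/-!
Mixing from a Poincare inequality (row 299, S0453): part 1 of the statement follows from part 2.
-/

set_option autoImplicit false
open Finset

namespace Crest.Agent.Switch.Mix
open Crest.SwitchChain Crest.Agent.Switch.Ker

section abstract

variable {α : Type*} [Fintype α] [DecidableEq α]

/-- weighted Jensen for the square -/
lemma sq_wsum_le (w f : α → ℝ) (hw : ∀ z, 0 ≤ w z) (hsum : ∑ z, w z = 1) :
    (∑ z, w z * f z) ^ 2 ≤ ∑ z, w z * f z ^ 2 := by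
  have h1 : ∀ m : ℝ, ∑ z, w z * (f z - m) ^ 2 =
      ∑ z, w z * f z ^ 2 - 2 * m * ∑ z, w z * f z + m ^ 2 * ∑ z, w z := by
    intro m
    rw [Finset.mul_sum, Finset.mul_sum, ← Finset.sum_sub_distrib, ← Finset.sum_add_distrib]
    apply Finset.sum_congr rfl
    intro z _
    ring
  have h0 : 0 ≤ ∑ z, w z * (f z - ∑ z, w z * f z) ^ 2 :=
    Finset.sum_nonneg fun z _ => mul_nonneg (hw z) (sq_nonneg _)
  rw [h1, hsum] at h0
  nlinarith

variable (K : Matrix α α ℝ)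

/-- one step -/
noncomputable def stepOp (f : α → ℝ) : α → ℝ := fun y => ∑ z, K y z * f z

variable {K}

lemma lazy_contract (hsymm : ∀ x y, K x y = K y x)
    (hlazy : ∀ x y, 0 ≤ K x y - (if x = y then 1 / 2 else 0))
    (hrow : ∀ x, ∑ y, K x y = 1) (f : α → ℝ) :
    ∑ y, (stepOp K f y) ^ 2 ≤ ∑ y, f y * stepOp K f y := by
  -- K' = 2 K - 1
  set K' : α → α → ℝ := fun x y => 2 * (K x y - (if x = y then 1 / 2 else 0)) with hK'
  have hK'0 : ∀ x y, 0 ≤ K' x y := fun x y => mul_nonneg (by norm_num) (hlazy x y)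
  have hK'row : ∀ x, ∑ y, K' x y = 1 := by
    intro x
    simp only [hK', ← Finset.mul_sum, Finset.sum_sub_distrib, hrow, Finset.sum_ite_eq,
      Finset.mem_univ, if_true]
    norm_num
  have hK'symm : ∀ x y, K' x y = K' y x := by
    intro x y
    simp only [hK', hsymm x y, eq_comm]
  set g : α → ℝ := fun y => ∑ z, K' y z * f z with hg
  have hstep : ∀ y, stepOp K f y = (f y + g y) / 2 := by
    intro y
    have : g y = 2 * ∑ z, K y z * f z - f y := by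
      simp only [hg, hK']
      have : ∀ z, 2 * (K y z - (if y = z then 1 / 2 else 0)) * f z =
          2 * (K y z * f z) - (if y = z then f z else 0) := by
        intro z
        split_ifs <;> ring
      simp only [this, Finset.sum_sub_distrib, ← Finset.mul_sum, Finset.sum_ite_eq,
        Finset.mem_univ, if_true]
    rw [this]
    unfold stepOp
    ring
  have hg2 : ∑ y, g y ^ 2 ≤ ∑ y, f y ^ 2 := by
    calc ∑ y, g y ^ 2 ≤ ∑ y, ∑ z, K' y z * f z ^ 2 :=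
          Finset.sum_le_sum fun y _ => sq_wsum_le (K' y) f (hK'0 y) (hK'row y)
      _ = ∑ z, ∑ y, K' y z * f z ^ 2 := Finset.sum_comm
      _ = ∑ z, f z ^ 2 := by
          apply Finset.sum_congr rfl
          intro z _
          rw [← Finset.sum_mul]
          have : ∑ y, K' y z = 1 := by
            rw [← hK'row z]
            exact Finset.sum_congr rfl fun y _ => hK'symm y z
          rw [this, one_mul]
  have e1 : ∑ y, (stepOp K f y) ^ 2 =
      (∑ y, f y ^ 2 + 2 * ∑ y, f y * g y + ∑ y, g y ^ 2) / 4 := by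
    rw [Finset.mul_sum, ← Finset.sum_add_distrib, ← Finset.sum_add_distrib, Finset.sum_div]
    apply Finset.sum_congr rfl
    intro y _
    rw [hstep]
    ring
  have e2 : ∑ y, f y * stepOp K f y = (∑ y, f y ^ 2 + ∑ y, f y * g y) / 2 := by
    rw [← Finset.sum_add_distrib, Finset.sum_div]
    apply Finset.sum_congr rfl
    intro y _
    rw [hstep]
    ring
  rw [e1, e2]
  linarith

lemma step_supp {Ω : Finset α} (hsymm : ∀ x y, K x y = K y x)
    (hinv : ∀ x ∈ Ω, ∀ y ∉ Ω, K x y = 0) {f : α → ℝ} (hf : ∀ y ∉ Ω, f y = 0) :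
    ∀ y ∉ Ω, stepOp K f y = 0 := by
  intro y hy
  unfold stepOp
  apply Finset.sum_eq_zero
  intro z _
  by_cases hz : z ∈ Ω
  · rw [hsymm y z, hinv z hz y hy, zero_mul]
  · rw [hf z hz, mul_zero]

lemma step_mean (hsymm : ∀ x y, K x y = K y x) (hrow : ∀ x, ∑ y, K x y = 1) (f : α → ℝ) :
    ∑ y, stepOp K f y = ∑ y, f y := by
  unfold stepOp
  rw [Finset.sum_comm]
  apply Finset.sum_congr rfl
  intro z _
  rw [← Finset.sum_mul]
  have : ∑ y, K y z = 1 := by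
    rw [← hrow z]
    exact Finset.sum_congr rfl fun y _ => hsymm y z
  rw [this, one_mul]

lemma step_norm {Ω : Finset α} {Cst : ℝ} (hΩ : Ω.Nonempty) (hC : 0 < Cst)
    (hsymm : ∀ x y, K x y = K y x)
    (hlazy : ∀ x y, 0 ≤ K x y - (if x = y then 1 / 2 else 0))
    (hrow : ∀ x, ∑ y, K x y = 1)
    (hP : ∀ f : α → ℝ, (Ω.card : ℝ) * (∑ x ∈ Ω, f x ^ 2) - (∑ x ∈ Ω, f x) ^ 2 ≤
      Cst * Ω.card * ∑ x ∈ Ω, f x * (f x - ∑ y ∈ Ω, K x y * f y))
    {f : α → ℝ} (hf : ∀ y ∉ Ω, f y = 0) (hmean : ∑ y, f y = 0) :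
    ∑ y, (stepOp K f y) ^ 2 ≤ (1 - 1 / Cst) * ∑ y, f y ^ 2 := by
  have hcard : (0 : ℝ) < Ω.card := by exact_mod_cast Finset.card_pos.2 hΩ
  have s1 : ∑ x ∈ Ω, f x ^ 2 = ∑ x, f x ^ 2 :=
    Finset.sum_subset (Finset.subset_univ _) fun y _ hy => by rw [hf y hy]; norm_num
  have s2 : ∑ x ∈ Ω, f x = 0 := by
    rw [← hmean]
    exact Finset.sum_subset (Finset.subset_univ _) fun y _ hy => hf y hy
  have s3 : ∀ x, ∑ y ∈ Ω, K x y * f y = stepOp K f x := fun x =>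
    Finset.sum_subset (Finset.subset_univ _) fun y _ hy => by rw [hf y hy, mul_zero]
  have s4 : ∑ x ∈ Ω, f x * (f x - ∑ y ∈ Ω, K x y * f y) =
      ∑ x, f x ^ 2 - ∑ x, f x * stepOp K f x := by
    rw [← Finset.sum_sub_distrib]
    rw [Finset.sum_subset (Finset.subset_univ Ω) fun y _ hy => by rw [hf y hy, zero_mul]]
    apply Finset.sum_congr rfl
    intro x _
    rw [s3]
    ring
  have h := hP f
  rw [s1, s2, s4] at h
  have h' : ∑ x, f x ^ 2 ≤ Cst * (∑ x, f x ^ 2 - ∑ x, f x * stepOp K f x) := by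
    have : (Ω.card : ℝ) * ∑ x, f x ^ 2 ≤
        (Ω.card : ℝ) * (Cst * (∑ x, f x ^ 2 - ∑ x, f x * stepOp K f x)) := by
      nlinarith
    exact le_of_mul_le_mul_left this hcard
  have h2 := lazy_contract hsymm hlazy hrow f
  have h3 : ∑ x, f x * stepOp K f x ≤ (1 - 1 / Cst) * ∑ y, f y ^ 2 := by
    have : (1 / Cst) * ∑ x, f x ^ 2 ≤ ∑ x, f x ^ 2 - ∑ x, f x * stepOp K f x := by
      rw [div_mul_eq_mul_div, one_mul, div_le_iff₀ hC]
      linarith
    linarith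
  exact h2.trans h3

lemma unif_stationary {Ω : Finset α} (hsymm : ∀ x y, K x y = K y x)
    (hrow : ∀ x, ∑ y, K x y = 1) (hinv : ∀ x ∈ Ω, ∀ y ∉ Ω, K x y = 0) (y : α) :
    ∑ z, K y z * unifOn Ω z = unifOn Ω y := by
  unfold unifOn
  by_cases hy : y ∈ Ω
  · rw [if_pos hy]
    have : ∀ z, K y z * (if z ∈ Ω then 1 / (Ω.card : ℝ) else 0) = K y z * (1 / (Ω.card : ℝ)) := by
      intro z
      by_cases hz : z ∈ Ω
      · rw [if_pos hz]
      · rw [hinv y hy z hz, zero_mul, zero_mul]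
    simp only [this, ← Finset.sum_mul, hrow, one_mul]
  · rw [if_neg hy]
    apply Finset.sum_eq_zero
    intro z _
    by_cases hz : z ∈ Ω
    · rw [hsymm y z, hinv z hz y hy, zero_mul]
    · rw [if_neg hz, mul_zero]

lemma sum_unifOn {Ω : Finset α} (hΩ : Ω.Nonempty) : ∑ y, unifOn Ω y = 1 := by
  have hcard : (Ω.card : ℝ) ≠ 0 := by exact_mod_cast (Finset.card_pos.2 hΩ).ne'
  unfold unifOn
  rw [Finset.sum_ite_mem, Finset.univ_inter, Finset.sum_const, nsmul_eq_mul]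
  field_simp

/-- error after `t` steps -/
noncomputable def errAt (K : Matrix α α ℝ) (Ω : Finset α) (x : α) (t : ℕ) : α → ℝ :=
  fun y => (K ^ t) x y - unifOn Ω y

lemma errAt_succ {Ω : Finset α} (hsymm : ∀ x y, K x y = K y x)
    (hrow : ∀ x, ∑ y, K x y = 1) (hinv : ∀ x ∈ Ω, ∀ y ∉ Ω, K x y = 0) (x : α) (t : ℕ) :
    errAt K Ω x (t + 1) = stepOp K (errAt K Ω x t) := by
  funext y
  unfold errAt stepOp
  rw [pow_succ, Matrix.mul_apply]
  simp only [mul_sub, Finset.sum_sub_distrib]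
  rw [unif_stationary hsymm hrow hinv]
  congr 1
  apply Finset.sum_congr rfl
  intro z _
  rw [hsymm z y, mul_comm]

lemma errAt_props {Ω : Finset α} {Cst : ℝ} (hC : 1 ≤ Cst)
    (hsymm : ∀ x y, K x y = K y x)
    (hlazy : ∀ x y, 0 ≤ K x y - (if x = y then 1 / 2 else 0))
    (hrow : ∀ x, ∑ y, K x y = 1) (hinv : ∀ x ∈ Ω, ∀ y ∉ Ω, K x y = 0)
    (hP : ∀ f : α → ℝ, (Ω.card : ℝ) * (∑ x ∈ Ω, f x ^ 2) - (∑ x ∈ Ω, f x) ^ 2 ≤
      Cst * Ω.card * ∑ x ∈ Ω, f x * (f x - ∑ y ∈ Ω, K x y * f y))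
    {x : α} (hx : x ∈ Ω) (t : ℕ) :
    (∀ y ∉ Ω, errAt K Ω x t y = 0) ∧ ∑ y, errAt K Ω x t y = 0 ∧
      ∑ y, (errAt K Ω x t y) ^ 2 ≤ (1 - 1 / Cst) ^ t := by
  have hΩ : Ω.Nonempty := ⟨x, hx⟩
  have hcard : (0 : ℝ) < Ω.card := by exact_mod_cast Finset.card_pos.2 hΩ
  induction t with
  | zero =>
    refine ⟨?_, ?_, ?_⟩
    · intro y hy
      have hxy : x ≠ y := fun h => hy (h ▸ hx)
      simp [errAt, unifOn, hy, hxy]
    · simp only [errAt, pow_zero, Finset.sum_sub_distrib, sum_unifOn hΩ, Matrix.one_apply,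
        Finset.sum_ite_eq, Finset.mem_univ, if_true, sub_self]
    · have e : ∀ y, (errAt K Ω x 0 y) ^ 2 =
          (if x = y then (1 - 2 * unifOn Ω y) else 0) + unifOn Ω y * unifOn Ω y := by
        intro y
        simp only [errAt, pow_zero, Matrix.one_apply]
        split_ifs <;> ring
      simp only [e, Finset.sum_add_distrib, Finset.sum_ite_eq, Finset.mem_univ, if_true, pow_zero]
      have e2 : ∑ y, unifOn Ω y * unifOn Ω y = 1 / (Ω.card : ℝ) := by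
        have : ∀ y, unifOn Ω y * unifOn Ω y = (1 / (Ω.card : ℝ)) * unifOn Ω y := by
          intro y
          unfold unifOn
          split_ifs <;> ring
        simp only [this, ← Finset.mul_sum, sum_unifOn hΩ, mul_one]
      rw [e2]
      simp only [unifOn, if_pos hx]
      have : 0 < 1 / (Ω.card : ℝ) := by positivity
      linarith
  | succ t ih =>
    obtain ⟨h1, h2, h3⟩ := ih
    rw [errAt_succ hsymm hrow hinv]
    refine ⟨step_supp hsymm hinv h1, ?_, ?_⟩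
    · rw [step_mean hsymm hrow, h2]
    · have hC0 : 0 < Cst := by linarith
      have hnn : 0 ≤ 1 - 1 / Cst := by
        rw [sub_nonneg, div_le_one hC0]
        exact hC
      calc ∑ y, (stepOp K (errAt K Ω x t) y) ^ 2
          ≤ (1 - 1 / Cst) * ∑ y, (errAt K Ω x t y) ^ 2 :=
            step_norm hΩ hC0 hsymm hlazy hrow hP h1 h2
        _ ≤ (1 - 1 / Cst) * (1 - 1 / Cst) ^ t := mul_le_mul_of_nonneg_left h3 hnn
        _ = (1 - 1 / Cst) ^ (t + 1) := by ring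

theorem tv_sq_le {Ω : Finset α} {Cst : ℝ} (hC : 1 ≤ Cst)
    (hsymm : ∀ x y, K x y = K y x)
    (hlazy : ∀ x y, 0 ≤ K x y - (if x = y then 1 / 2 else 0))
    (hrow : ∀ x, ∑ y, K x y = 1) (hinv : ∀ x ∈ Ω, ∀ y ∉ Ω, K x y = 0)
    (hP : ∀ f : α → ℝ, (Ω.card : ℝ) * (∑ x ∈ Ω, f x ^ 2) - (∑ x ∈ Ω, f x) ^ 2 ≤
      Cst * Ω.card * ∑ x ∈ Ω, f x * (f x - ∑ y ∈ Ω, K x y * f y))
    {x : α} (hx : x ∈ Ω) (t : ℕ) :
    (2 * tvDist (fun y => (K ^ t) x y) (unifOn Ω)) ^ 2 ≤ Ω.card * (1 - 1 / Cst) ^ t := by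
  obtain ⟨h1, _, h3⟩ := errAt_props hC hsymm hlazy hrow hinv hP hx t
  have e : 2 * tvDist (fun y => (K ^ t) x y) (unifOn Ω) = ∑ y ∈ Ω, |errAt K Ω x t y| := by
    unfold tvDist
    rw [mul_div_cancel₀ _ (two_ne_zero)]
    symm
    apply Finset.sum_subset (Finset.subset_univ _)
    intro y _ hy
    rw [h1 y hy, abs_zero]
  rw [e]
  calc (∑ y ∈ Ω, |errAt K Ω x t y|) ^ 2 ≤ Ω.card * ∑ y ∈ Ω, |errAt K Ω x t y| ^ 2 :=
        sq_sum_le_card_mul_sum_sq
    _ ≤ Ω.card * ∑ y, (errAt K Ω x t y) ^ 2 := by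
        apply mul_le_mul_of_nonneg_left _ (Nat.cast_nonneg _)
        simp only [sq_abs]
        exact Finset.sum_le_sum_of_subset_of_nonneg (Finset.subset_univ _)
          fun y _ _ => sq_nonneg _
    _ ≤ Ω.card * (1 - 1 / Cst) ^ t := mul_le_mul_of_nonneg_left h3 (Nat.cast_nonneg _)

end abstract

lemma numeric_bound (n : ℕ) (hn : 4 ≤ n) :
    (2 : ℝ) ^ (n.choose 2) * (1 - 1 / (24 * (n : ℝ) ^ 2 * (n.choose 4 : ℝ))) ^ (2 * n ^ 8) ≤ 1 / 4 := by
  set Cst : ℝ := 24 * (n : ℝ) ^ 2 * (n.choose 4 : ℝ) with hCst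
  have hn0 : (0 : ℝ) < n := by exact_mod_cast (by omega : 0 < n)
  have hch : (1 : ℝ) ≤ (n.choose 4 : ℝ) := by exact_mod_cast Nat.choose_pos hn
  have hC1 : 1 ≤ Cst := by
    have : (1 : ℝ) ≤ (n : ℝ) ^ 2 := by
      have : (1 : ℝ) ≤ n := by exact_mod_cast (by omega : 1 ≤ n)
      nlinarith
    rw [hCst]
    nlinarith
  have hC0 : 0 < Cst := by linarith
  have hCle : Cst ≤ (n : ℝ) ^ 6 := by
    have h := Nat.choose_le_pow_div (α := ℝ) 4 n
    have h4 : ((4 : ℕ).factorial : ℝ) = 24 := by norm_num [Nat.factorial]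
    rw [h4, le_div_iff₀ (by norm_num)] at h
    rw [hCst]
    have hn2 : (0 : ℝ) ≤ (n : ℝ) ^ 2 := by positivity
    nlinarith
  have hnn : 0 ≤ 1 - 1 / Cst := by
    rw [sub_nonneg, div_le_one hC0]; exact hC1
  -- exponent
  set k : ℕ := n.choose 2 + 2 with hk
  have hk_le : (k : ℝ) ≤ (2 * n ^ 8 : ℕ) * (1 / Cst) := by
    have h2 : (n.choose 2 : ℝ) ≤ (n : ℝ) ^ 2 := by
      have h := Nat.choose_le_pow_div (α := ℝ) 2 n
      have h2' : ((2 : ℕ).factorial : ℝ) = 2 := by norm_num [Nat.factorial]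
      rw [h2'] at h
      have : (n : ℝ) ^ 2 / 2 ≤ (n : ℝ) ^ 2 := by
        have : (0 : ℝ) ≤ (n : ℝ) ^ 2 := by positivity
        linarith
      linarith
    have h3 : (2 : ℝ) ≤ (n : ℝ) ^ 2 := by
      have : (4 : ℝ) ≤ n := by exact_mod_cast hn
      nlinarith
    have h4 : (k : ℝ) ≤ 2 * (n : ℝ) ^ 2 := by
      rw [hk]; push_cast; linarith
    have h5 : 2 * (n : ℝ) ^ 2 ≤ (2 * n ^ 8 : ℕ) * (1 / Cst) := by
      rw [mul_one_div, le_div_iff₀ hC0]
      push_cast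
      calc 2 * (n : ℝ) ^ 2 * Cst ≤ 2 * (n : ℝ) ^ 2 * (n : ℝ) ^ 6 := by
            apply mul_le_mul_of_nonneg_left hCle; positivity
        _ = 2 * (n : ℝ) ^ 8 := by ring
    linarith
  have h1 : (1 - 1 / Cst) ^ (2 * n ^ 8) ≤ Real.exp (-(k : ℝ)) := by
    calc (1 - 1 / Cst) ^ (2 * n ^ 8) ≤ (Real.exp (-(1 / Cst))) ^ (2 * n ^ 8) :=
          pow_le_pow_left₀ hnn (Real.one_sub_le_exp_neg _) _
      _ = Real.exp ((2 * n ^ 8 : ℕ) * (-(1 / Cst))) := by rw [Real.exp_nat_mul]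
      _ ≤ Real.exp (-(k : ℝ)) := by
          apply Real.exp_le_exp.2
          linarith
  have h2 : Real.exp (-(k : ℝ)) ≤ (1 / 2 : ℝ) ^ k := by
    have he : Real.exp (-1) ≤ 1 / 2 := by
      rw [Real.exp_neg, one_div]
      apply inv_anti₀ (by norm_num)
      have := Real.add_one_le_exp (1 : ℝ)
      linarith
    calc Real.exp (-(k : ℝ)) = (Real.exp (-1)) ^ k := by
          rw [← Real.exp_nat_mul]; congr 1; ring
      _ ≤ (1 / 2 : ℝ) ^ k := pow_le_pow_left₀ (Real.exp_pos _).le he _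
  calc (2 : ℝ) ^ (n.choose 2) * (1 - 1 / Cst) ^ (2 * n ^ 8)
      ≤ (2 : ℝ) ^ (n.choose 2) * (1 / 2 : ℝ) ^ k :=
        mul_le_mul_of_nonneg_left (h1.trans h2) (by positivity)
    _ = 1 / 4 := by
        rw [hk, pow_add, ← mul_assoc, ← mul_pow]
        norm_num

end Crest.Agent.Switch.Mix

namespace Crest.Agent.Switch
open Crest.SwitchChain Crest.Agent.Switch.Ker Crest.Agent.Switch.Mix

/-- Part 1 of S0453 from part 2. -/
theorem mixing_of_poincare (n : ℕ) (hn : 4 ≤ n) (d : Fin n → ℕ)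
    (hP : ∀ f : Finset (Edge n) → ℝ,
        ((realizations d).card : ℝ) * (∑ G ∈ realizations d, f G ^ 2) -
            (∑ G ∈ realizations d, f G) ^ 2 ≤
          24 * (n : ℝ) ^ 2 * (n.choose 4 : ℝ) * (realizations d).card *
            ∑ G ∈ realizations d,
              f G * (f G - ∑ G' ∈ realizations d, kernel n G G' * f G')) :
    ∃ t : ℕ, t ≤ 2 * n ^ 8 ∧ ∀ G ∈ realizations d,
        tvDist (fun G' => (kernel n ^ t) G G') (unifOn (realizations d)) ≤ 1 / 4 := by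
  refine ⟨2 * n ^ 8, le_rfl, ?_⟩
  intro G hG
  have hch : (1 : ℝ) ≤ (n.choose 4 : ℝ) := by exact_mod_cast Nat.choose_pos hn
  have hC1 : (1 : ℝ) ≤ 24 * (n : ℝ) ^ 2 * (n.choose 4 : ℝ) := by
    have : (1 : ℝ) ≤ (n : ℝ) ^ 2 := by
      have : (1 : ℝ) ≤ n := by exact_mod_cast (by omega : 1 ≤ n)
      nlinarith
    nlinarith
  have hnn : 0 ≤ 1 - 1 / (24 * (n : ℝ) ^ 2 * (n.choose 4 : ℝ)) := by
    rw [sub_nonneg, div_le_one (by linarith)]; exact hC1
  have h := tv_sq_le (K := kernel n) (Ω := realizations d) hC1 kernel_symm kernel_lazy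
    (kernel_row_sum hn) (fun x hx y hy => kernel_eq_zero hx hy) hP hG (2 * n ^ 8)
  have hcard : ((realizations d).card : ℝ) ≤ (2 : ℝ) ^ (n.choose 2) := by
    exact_mod_cast card_realizations_le d
  have h2 : (2 * tvDist (fun G' => (kernel n ^ (2 * n ^ 8)) G G') (unifOn (realizations d))) ^ 2
      ≤ (1 / 2 : ℝ) ^ 2 := by
    calc _ ≤ ((realizations d).card : ℝ) *
          (1 - 1 / (24 * (n : ℝ) ^ 2 * (n.choose 4 : ℝ))) ^ (2 * n ^ 8) := h
      _ ≤ (2 : ℝ) ^ (n.choose 2) *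
          (1 - 1 / (24 * (n : ℝ) ^ 2 * (n.choose 4 : ℝ))) ^ (2 * n ^ 8) :=
          mul_le_mul_of_nonneg_right hcard (pow_nonneg hnn _)
      _ ≤ 1 / 4 := numeric_bound n hn
      _ = (1 / 2 : ℝ) ^ 2 := by norm_num
  have h3 := abs_le_of_sq_le_sq' h2 (by norm_num)
  linarith [h3.2]

end Crest.Agent.Switch
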