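import Mathlib
import Crest.Prelude.Def_SwitchChain

/-!
# Connectivity of the switch graph (module M10 of the S0453 formalisation)

Any two simple graphs on `Fin n` with the same degrees are joined by a sequence of switches.
-/

set_option autoImplicit false

namespace Crest.Agent.Switch.Conn

open Finset Crest.SwitchChain

variable {n : ℕ}

/-- The edge `{a,b}` for `a ≠ b`. -/
def mkE (a b : Fin n) (h : a ≠ b) : Edge n := ⟨s(a, b), by simpa using h⟩

@[simp] lemma mkE_val (a b : Fin n) (h : a ≠ b) : (mkE a b h).1 = s(a, b) := rfl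

lemma mkE_comm (a b : Fin n) (h : a ≠ b) : mkE a b h = mkE b a h.symm :=
  Subtype.ext Sym2.eq_swap

lemma mem_mkE {a b x : Fin n} (h : a ≠ b) : x ∈ (mkE a b h).1 ↔ x = a ∨ x = b := by
  simp

lemma mkE_eq_iff {a b c d : Fin n} (h : a ≠ b) (h' : c ≠ d) :
    mkE a b h = mkE c d h' ↔ (a = c ∧ b = d) ∨ (a = d ∧ b = c) := by
  rw [Subtype.ext_iff]; simp

/-- every edge is some `mkE a b` -/
lemma exists_mkE (e : Edge n) : ∃ a b, ∃ h : a ≠ b, e = mkE a b h := by
  obtain ⟨e, he⟩ := e
  induction e using Sym2.ind with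
  | _ a b => exact ⟨a, b, by simpa using he, rfl⟩

/-- adjacency in the graph with edge set `E` -/
def Adj (E : Finset (Edge n)) (a b : Fin n) : Prop := ∃ h : a ≠ b, mkE a b h ∈ E

lemma Adj.ne {E : Finset (Edge n)} {a b : Fin n} (h : Adj E a b) : a ≠ b := h.1

lemma Adj.symm {E : Finset (Edge n)} {a b : Fin n} (h : Adj E a b) : Adj E b a :=
  ⟨h.1.symm, by rw [← mkE_comm]; exact h.2⟩

lemma adj_comm {E : Finset (Edge n)} {a b : Fin n} : Adj E a b ↔ Adj E b a :=
  ⟨Adj.symm, Adj.symm⟩

lemma adj_iff {E : Finset (Edge n)} {a b : Fin n} (h : a ≠ b) : Adj E a b ↔ mkE a b h ∈ E :=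
  ⟨fun h' => h'.2, fun h' => ⟨h, h'⟩⟩

noncomputable instance (E : Finset (Edge n)) (a b : Fin n) : Decidable (Adj E a b) :=
  Classical.dec _

/-- neighbourhood of `v` -/
noncomputable def nbr (E : Finset (Edge n)) (v : Fin n) : Finset (Fin n) :=
  univ.filter fun u => Adj E v u

@[simp] lemma mem_nbr {E : Finset (Edge n)} {v u : Fin n} : u ∈ nbr E v ↔ Adj E v u := by
  simp [nbr]

lemma deg_eq_card_nbr (E : Finset (Edge n)) (v : Fin n) : deg E v = (nbr E v).card := by
  unfold deg
  symm
  refine Finset.card_bij (fun u hu => mkE v u (mem_nbr.1 hu).ne) ?_ ?_ ?_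
  · intro u hu
    have := (mem_nbr.1 hu)
    simp only [mem_filter]
    exact ⟨this.2, by simp⟩
  · intro u hu w hw h
    rw [mkE_eq_iff] at h
    rcases h with h | h
    · exact h.2
    · exact absurd h.1 (mem_nbr.1 hw).ne
  · intro e he
    simp only [mem_filter] at he
    obtain ⟨a, b, hab, rfl⟩ := exists_mkE e
    rcases (mem_mkE hab).1 he.2 with rfl | rfl
    · exact ⟨b, mem_nbr.2 ⟨hab, he.1⟩, rfl⟩
    · exact ⟨a, mem_nbr.2 ⟨hab.symm, by rw [← mkE_comm]; exact he.1⟩, (mkE_comm _ _ _).symm⟩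

/-- One switch: `ab, cd` present, `ac, bd` absent; replace the former by the latter. -/
def SwAdj (E E' : Finset (Edge n)) : Prop :=
  ∃ (a b c d : Fin n) (hab : a ≠ b) (hcd : c ≠ d) (hac : a ≠ c) (hbd : b ≠ d)
    (_ : a ≠ d) (_ : b ≠ c),
    mkE a b hab ∈ E ∧ mkE c d hcd ∈ E ∧ mkE a c hac ∉ E ∧ mkE b d hbd ∉ E ∧
      E' = (E \ {mkE a b hab, mkE c d hcd}) ∪ {mkE a c hac, mkE b d hbd}


lemma deg_eq_sum (E : Finset (Edge n)) (x : Fin n) :
    deg E x = ∑ e ∈ E, if x ∈ e.1 then 1 else 0 := by
  unfold deg; rw [Finset.card_filter]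

lemma deg_switch {E F F' : Finset (Edge n)} (hF : F ⊆ E) (hF' : Disjoint F' E) (x : Fin n) :
    deg (E \ F ∪ F') x + deg F x = deg E x + deg F' x := by
  have hd : Disjoint (E \ F) F' :=
    (hF'.mono_right Finset.sdiff_subset).symm
  simp only [deg_eq_sum]
  rw [Finset.sum_union hd, ← Finset.sum_sdiff hF]
  ring

lemma deg_pair {a b c d : Fin n} (hab : a ≠ b) (hcd : c ≠ d) (hne : mkE a b hab ≠ mkE c d hcd)
    (x : Fin n) :
    deg ({mkE a b hab, mkE c d hcd} : Finset (Edge n)) x
      = (if x = a ∨ x = b then 1 else 0) + (if x = c ∨ x = d then 1 else 0) := by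
  rw [deg_eq_sum, Finset.sum_pair hne]
  simp only [mem_mkE]

/-- the four edges of a switch are pairwise distinct as needed -/
lemma SwAdj.deg_eq {E E' : Finset (Edge n)} (h : SwAdj E E') (x : Fin n) : deg E' x = deg E x := by
  obtain ⟨a, b, c, d, hab, hcd, hac, hbd, had, hbc, h1, h2, h3, h4, rfl⟩ := h
  have hF : ({mkE a b hab, mkE c d hcd} : Finset (Edge n)) ⊆ E := by
    intro e he
    simp only [mem_insert, mem_singleton] at he
    rcases he with rfl | rfl <;> assumption
  have hF' : Disjoint ({mkE a c hac, mkE b d hbd} : Finset (Edge n)) E := by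
    rw [Finset.disjoint_left]
    intro e he
    simp only [mem_insert, mem_singleton] at he
    rcases he with rfl | rfl <;> assumption
  have key := deg_switch hF hF' x
  have n1 : mkE a b hab ≠ mkE c d hcd := by
    rw [Ne, mkE_eq_iff]; rintro (⟨h, -⟩ | ⟨h, -⟩) <;> contradiction
  have n2 : mkE a c hac ≠ mkE b d hbd := by
    rw [Ne, mkE_eq_iff]; rintro (⟨h, -⟩ | ⟨h, -⟩) <;> contradiction
  rw [deg_pair hab hcd n1, deg_pair hac hbd n2] at key
  have : (if x = a ∨ x = b then 1 else 0) + (if x = c ∨ x = d then 1 else 0)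
      = (if x = a ∨ x = c then 1 else 0) + (if x = b ∨ x = d then (1:ℕ) else 0) := by
    by_cases xa : x = a
    · subst xa; simp [hab, hac, had]
    · by_cases xb : x = b
      · subst xb; simp [hab.symm, hbc, hbd]
      · by_cases xc : x = c
        · subst xc; simp [hac.symm, hbc.symm, hcd]
        · simp [xa, xb, xc]
  omega

lemma SwAdj.symm {E E' : Finset (Edge n)} (h : SwAdj E E') : SwAdj E' E := by
  obtain ⟨a, b, c, d, hab, hcd, hac, hbd, had, hbc, h1, h2, h3, h4, rfl⟩ := h
  have e1 : mkE a b hab ≠ mkE a c hac := by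
    rw [Ne, mkE_eq_iff]; rintro (⟨-, h⟩ | ⟨h, -⟩) <;> contradiction
  have e2 : mkE a b hab ≠ mkE b d hbd := by
    rw [Ne, mkE_eq_iff]; rintro (⟨h, -⟩ | ⟨h, -⟩) <;> contradiction
  have e3 : mkE c d hcd ≠ mkE a c hac := by
    rw [Ne, mkE_eq_iff]; rintro (⟨h, -⟩ | ⟨-, h⟩)
    · exact hac h.symm
    · exact had h.symm
  have e4 : mkE c d hcd ≠ mkE b d hbd := by
    rw [Ne, mkE_eq_iff]; rintro (⟨h, -⟩ | ⟨h, -⟩)
    · exact hbc h.symm
    · exact hcd h
  refine ⟨a, c, b, d, hac, hbd, hab, hcd, had, hbc.symm, ?_, ?_, ?_, ?_, ?_⟩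
  · simp
  · simp
  · simp [e1, e2]
  · simp [e3, e4]
  · ext e
    simp only [mem_union, mem_sdiff, mem_insert, mem_singleton]
    by_cases q1 : e = mkE a b hab
    · subst q1; simp [e1, e2, h1]
    · by_cases q2 : e = mkE c d hcd
      · subst q2; simp [e3, e4, h2]
      · by_cases q3 : e = mkE a c hac
        · subst q3; simp [h3, q1, q2]
        · by_cases q4 : e = mkE b d hbd
          · subst q4; simp [h4, q1, q2]
          · simp [q1, q2, q3, q4]

/-- the reachability relation -/
def Reach (E E' : Finset (Edge n)) : Prop := Relation.ReflTransGen SwAdj E E'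

lemma Reach.refl (E : Finset (Edge n)) : Reach E E := Relation.ReflTransGen.refl

lemma Reach.trans {E E' E'' : Finset (Edge n)} (h : Reach E E') (h' : Reach E' E'') :
    Reach E E'' := Relation.ReflTransGen.trans h h'

lemma Reach.symm {E E' : Finset (Edge n)} (h : Reach E E') : Reach E' E := by
  induction h with
  | refl => exact Reach.refl _
  | tail _ h2 ih => exact Relation.ReflTransGen.head h2.symm ih

lemma SwAdj.reach {E E' : Finset (Edge n)} (h : SwAdj E E') : Reach E E' :=
  Relation.ReflTransGen.single h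

lemma Reach.deg_eq {E E' : Finset (Edge n)} (h : Reach E E') (x : Fin n) : deg E' x = deg E x := by
  induction h with
  | refl => rfl
  | tail _ h2 ih => rw [h2.deg_eq, ih]


/-- Havel–Hakimi exchange vertex. -/
lemma exists_exchange {E : Finset (Edge n)} {v w u : Fin n} (hvw : Adj E v w) (hvu : ¬ Adj E v u)
    (huv : u ≠ v) (hdeg : deg E w ≤ deg E u) :
    ∃ x, Adj E u x ∧ ¬ Adj E w x ∧ x ≠ w := by
  by_contra hcon
  push Not at hcon
  rw [deg_eq_card_nbr, deg_eq_card_nbr] at hdeg
  have hvw' : v ∈ nbr E w := mem_nbr.2 hvw.symm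
  have hvu' : v ∉ nbr E u := fun h => hvu (mem_nbr.1 h).symm
  by_cases huw : Adj E u w
  · -- closed neighbourhoods
    have hsub : insert u (nbr E u) ⊆ insert w (nbr E w) := by
      intro y hy
      rcases Finset.mem_insert.1 hy with rfl | hy
      · exact Finset.mem_insert_of_mem (mem_nbr.2 huw.symm)
      · by_cases hyw : y = w
        · subst hyw; exact Finset.mem_insert_self _ _
        · by_contra hy'
          have h1 : ¬ Adj E w y := fun h => hy' (Finset.mem_insert_of_mem (mem_nbr.2 h))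
          exact hyw (hcon y (mem_nbr.1 hy) h1)
    have hss : insert u (nbr E u) ⊂ insert w (nbr E w) := by
      refine Finset.ssubset_iff_subset_ne.2 ⟨hsub, fun heq => ?_⟩
      have : v ∈ insert u (nbr E u) := heq ▸ Finset.mem_insert_of_mem hvw'
      rcases Finset.mem_insert.1 this with h | h
      · exact huv h.symm
      · exact hvu' h
    have hc := Finset.card_lt_card hss
    rw [Finset.card_insert_of_notMem (fun h => (mem_nbr.1 h).ne rfl),
      Finset.card_insert_of_notMem (fun h => (mem_nbr.1 h).ne rfl)] at hc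
    omega
  · have hsub : nbr E u ⊆ nbr E w := by
      intro y hy
      by_contra hy'
      have h1 : ¬ Adj E w y := fun h => hy' (mem_nbr.2 h)
      have := hcon y (mem_nbr.1 hy) h1
      subst this
      exact huw (mem_nbr.1 hy)
    have hss : nbr E u ⊂ nbr E w :=
      Finset.ssubset_iff_subset_ne.2 ⟨hsub, fun heq => hvu' (heq ▸ hvw')⟩
    have hc := Finset.card_lt_card hss
    omega

/-- Havel–Hakimi switch: replace the neighbour `w` of `v` by the non-neighbour `u` of at least the
same degree. -/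
lemma exists_switch_nbr {E : Finset (Edge n)} {v w u : Fin n} (hvw : Adj E v w)
    (hvu : ¬ Adj E v u) (huv : u ≠ v) (hdeg : deg E w ≤ deg E u) :
    ∃ E₂, SwAdj E E₂ ∧ nbr E₂ v = insert u ((nbr E v).erase w) := by
  obtain ⟨x, hux, hwx, hxw⟩ := exists_exchange hvw hvu huv hdeg
  have hvw_ne : v ≠ w := hvw.ne
  have hux_ne : u ≠ x := hux.ne
  have hvx : v ≠ x := by rintro rfl; exact hvu hux.symm
  have hwu : w ≠ u := by rintro rfl; exact hvu hvw
  refine ⟨(E \ {mkE v w hvw_ne, mkE u x hux_ne}) ∪ {mkE v u huv.symm, mkE w x hxw.symm},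
    ⟨v, w, u, x, hvw_ne, hux_ne, huv.symm, hxw.symm, hvx, hwu, hvw.2, hux.2, ?_, ?_, rfl⟩, ?_⟩
  · exact fun h => hvu ⟨_, h⟩
  · exact fun h => hwx ⟨_, h⟩
  · ext y
    simp only [mem_nbr, Finset.mem_insert, Finset.mem_erase]
    by_cases hy : v = y
    · subst hy
      constructor
      · intro h; exact absurd rfl h.ne
      · rintro (h | ⟨-, h⟩)
        · exact absurd h.symm huv
        · exact absurd rfl h.ne
    · rw [adj_iff hy, adj_iff hy]
      simp only [mem_union, mem_sdiff, mem_insert, mem_singleton, mkE_eq_iff]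
      constructor
      · rintro (⟨h1, h2⟩ | h)
        · right
          refine ⟨fun hyw => h2 (Or.inl (Or.inl ⟨trivial, hyw⟩)), h1⟩
        · rcases h with (⟨-, h⟩ | ⟨h, -⟩) | (⟨h, -⟩ | ⟨h, -⟩)
          · exact Or.inl h
          · exact absurd h.symm huv
          · exact absurd h hvw_ne
          · exact absurd h hvx
      · rintro (h | ⟨h1, h2⟩)
        · exact Or.inr (Or.inl (Or.inl ⟨trivial, h⟩))
        · left
          refine ⟨h2, ?_⟩
          rintro ((⟨-, h⟩ | ⟨h, -⟩) | (⟨h, -⟩ | ⟨h, -⟩))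
          · exact h1 h
          · exact hvw_ne h
          · exact huv h.symm
          · exact hvx h


/-- Two graphs with the same degrees can be switched so that a given vertex has the same
neighbourhood in both. -/
lemma align (v : Fin n) : ∀ (k : ℕ) (E E' : Finset (Edge n)), (∀ x, deg E x = deg E' x) →
    (nbr E v \ nbr E' v).card = k →
    ∃ E₁ E₁', Reach E E₁ ∧ Reach E' E₁' ∧ nbr E₁ v = nbr E₁' v := by
  intro k
  induction k with
  | zero =>
    intro E E' hdeg hk
    refine ⟨E, E', Reach.refl _, Reach.refl _, ?_⟩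
    have hsub : nbr E v ⊆ nbr E' v := by
      rw [← Finset.sdiff_eq_empty_iff_subset]; exact Finset.card_eq_zero.1 hk
    refine Finset.eq_of_subset_of_card_le hsub ?_
    rw [← deg_eq_card_nbr, ← deg_eq_card_nbr, hdeg]
  | succ k ih =>
    intro E E' hdeg hk
    have hcard : (nbr E v).card = (nbr E' v).card := by
      rw [← deg_eq_card_nbr, ← deg_eq_card_nbr, hdeg]
    have hk' : (nbr E' v \ nbr E v).card = k + 1 := by
      rw [← hk]; exact Finset.card_sdiff_comm hcard.symm
    obtain ⟨w, hw⟩ : (nbr E v \ nbr E' v).Nonempty := by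
      rw [← Finset.card_pos]; omega
    obtain ⟨u, hu⟩ : (nbr E' v \ nbr E v).Nonempty := by
      rw [← Finset.card_pos]; omega
    rw [Finset.mem_sdiff, mem_nbr, mem_nbr] at hw hu
    by_cases hc : deg E w ≤ deg E u
    · obtain ⟨E₂, hsw, hn⟩ := exists_switch_nbr hw.1 hu.2 hu.1.ne.symm hc
      have hcard2 : (nbr E₂ v \ nbr E' v).card = k := by
        have : nbr E₂ v \ nbr E' v = (nbr E v \ nbr E' v).erase w := by
          rw [hn]
          ext y
          simp only [Finset.mem_sdiff, Finset.mem_insert, Finset.mem_erase, mem_nbr]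
          constructor
          · rintro ⟨rfl | ⟨h1, h2⟩, h3⟩
            · exact absurd hu.1 h3
            · exact ⟨h1, h2, h3⟩
          · rintro ⟨h1, h2, h3⟩
            exact ⟨Or.inr ⟨h1, h2⟩, h3⟩
        rw [this, Finset.card_erase_of_mem (by simp [hw.1, hw.2]), hk]; rfl
      obtain ⟨E₁, E₁', r1, r2, r3⟩ := ih E₂ E' (fun x => by rw [hsw.deg_eq, hdeg]) hcard2
      exact ⟨E₁, E₁', hsw.reach.trans r1, r2, r3⟩
    · have hc' : deg E' u ≤ deg E' w := by rw [← hdeg, ← hdeg]; omega
      obtain ⟨E₂, hsw, hn⟩ := exists_switch_nbr hu.1 hw.2 hw.1.ne.symm hc'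
      have hcard2 : (nbr E v \ nbr E₂ v).card = k := by
        have : nbr E v \ nbr E₂ v = (nbr E v \ nbr E' v).erase w := by
          rw [hn]
          ext y
          simp only [Finset.mem_sdiff, Finset.mem_insert, Finset.mem_erase, mem_nbr, not_or,
            not_and]
          constructor
          · rintro ⟨h1, h2, h3⟩
            refine ⟨h2, h1, fun h4 => ?_⟩
            have : y ≠ u := by rintro rfl; exact hu.2 h1
            exact h3 this h4
          · rintro ⟨h1, h2, h3⟩
            exact ⟨h2, h1, fun _ => h3⟩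
        rw [this, Finset.card_erase_of_mem (by simp [hw.1, hw.2]), hk]; rfl
      obtain ⟨E₁, E₁', r1, r2, r3⟩ := ih E E₂ (fun x => by rw [hsw.deg_eq, hdeg]) hcard2
      exact ⟨E₁, E₁', r1, hsw.reach.trans r2, r3⟩


/-- edges at `v` -/
def star (E : Finset (Edge n)) (v : Fin n) : Finset (Edge n) := E.filter fun e => v ∈ e.1

/-- edges not at `v` -/
def rest (E : Finset (Edge n)) (v : Fin n) : Finset (Edge n) := E.filter fun e => v ∉ e.1

lemma rest_union_star (E : Finset (Edge n)) (v : Fin n) : rest E v ∪ star E v = E := by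
  unfold rest star
  rw [Finset.union_comm]
  exact Finset.filter_union_filter_not_eq _ _

lemma disjoint_rest_star (E : Finset (Edge n)) (v : Fin n) : Disjoint (rest E v) (star E v) := by
  unfold rest star
  exact (Finset.disjoint_filter_filter_not _ _ _).symm

lemma deg_rest_add (E : Finset (Edge n)) (v x : Fin n) :
    deg (rest E v) x + deg (star E v) x = deg E x := by
  conv_rhs => rw [← rest_union_star E v]
  simp only [deg_eq_sum]
  rw [Finset.sum_union (disjoint_rest_star E v)]

lemma deg_rest_self (E : Finset (Edge n)) (v : Fin n) : deg (rest E v) v = 0 := by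
  unfold deg rest
  rw [Finset.card_eq_zero, Finset.filter_filter, Finset.filter_eq_empty_iff]
  intro e _ h
  exact h.1 h.2

lemma star_eq_of_nbr_eq {E E' : Finset (Edge n)} {v : Fin n} (h : nbr E v = nbr E' v) :
    star E v = star E' v := by
  have key : ∀ y, Adj E v y ↔ Adj E' v y := fun y => by rw [← mem_nbr, h, mem_nbr]
  ext e
  obtain ⟨a, b, hab, rfl⟩ := exists_mkE e
  simp only [star, Finset.mem_filter, mem_mkE]
  constructor
  · rintro ⟨h1, rfl | rfl⟩
    · exact ⟨((key b).1 ⟨hab, h1⟩).2, Or.inl rfl⟩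
    · refine ⟨?_, Or.inr rfl⟩
      have := ((key a).1 ⟨hab.symm, by rw [← mkE_comm]; exact h1⟩).2
      rwa [← mkE_comm] at this
  · rintro ⟨h1, rfl | rfl⟩
    · exact ⟨((key b).2 ⟨hab, h1⟩).2, Or.inl rfl⟩
    · refine ⟨?_, Or.inr rfl⟩
      have := ((key a).2 ⟨hab.symm, by rw [← mkE_comm]; exact h1⟩).2
      rwa [← mkE_comm] at this

lemma SwAdj.lift {X Y T : Finset (Edge n)} {v : Fin n} (h : SwAdj X Y)
    (hX : ∀ e ∈ X, v ∉ e.1) (hT : ∀ e ∈ T, v ∈ e.1) :
    SwAdj (X ∪ T) (Y ∪ T) ∧ ∀ e ∈ Y, v ∉ e.1 := by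
  obtain ⟨a, b, c, d, hab, hcd, hac, hbd, had, hbc, h1, h2, h3, h4, rfl⟩ := h
  have v1 := hX _ h1
  have v2 := hX _ h2
  rw [mem_mkE, not_or] at v1 v2
  have t1 : mkE a b hab ∉ T := fun h => by
    have := hT _ h; rw [mem_mkE] at this; tauto
  have t2 : mkE c d hcd ∉ T := fun h => by
    have := hT _ h; rw [mem_mkE] at this; tauto
  have t3 : mkE a c hac ∉ T := fun h => by
    have := hT _ h; rw [mem_mkE] at this; tauto
  have t4 : mkE b d hbd ∉ T := fun h => by
    have := hT _ h; rw [mem_mkE] at this; tauto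
  refine ⟨⟨a, b, c, d, hab, hcd, hac, hbd, had, hbc, ?_, ?_, ?_, ?_, ?_⟩, ?_⟩
  · exact Finset.mem_union_left _ h1
  · exact Finset.mem_union_left _ h2
  · simp [h3, t3]
  · simp [h4, t4]
  · ext e
    simp only [mem_union, mem_sdiff, mem_insert, mem_singleton]
    by_cases q1 : e = mkE a b hab
    · subst q1; simp [t1]
    · by_cases q2 : e = mkE c d hcd
      · subst q2; simp [t2]
      · simp only [q1, q2, or_self, not_false_eq_true, and_true]
        tauto
  · intro e he
    simp only [mem_union, mem_sdiff, mem_insert, mem_singleton] at he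
    rcases he with ⟨he, -⟩ | rfl | rfl
    · exact hX e he
    · rw [mem_mkE]; tauto
    · rw [mem_mkE]; tauto

lemma Reach.lift {X Y T : Finset (Edge n)} {v : Fin n} (h : Reach X Y)
    (hX : ∀ e ∈ X, v ∉ e.1) (hT : ∀ e ∈ T, v ∈ e.1) :
    Reach (X ∪ T) (Y ∪ T) ∧ ∀ e ∈ Y, v ∉ e.1 := by
  induction h with
  | refl => exact ⟨Reach.refl _, hX⟩
  | tail _ h2 ih =>
    obtain ⟨r, hY⟩ := ih
    obtain ⟨s, hZ⟩ := h2.lift hY hT
    exact ⟨r.trans s.reach, hZ⟩

lemma eq_empty_of_deg_eq_zero {E : Finset (Edge n)} (h : ∀ x, deg E x = 0) : E = ∅ := by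
  rw [Finset.eq_empty_iff_forall_notMem]
  intro e he
  obtain ⟨a, b, hab, rfl⟩ := exists_mkE e
  have : 0 < deg E a := Finset.card_pos.2 ⟨_, Finset.mem_filter.2 ⟨he, by simp⟩⟩
  rw [h a] at this
  exact lt_irrefl _ this

/-- **Connectivity of the switch graph**: graphs with equal degrees are joined by switches. -/
theorem reach_of_deg_eq : ∀ (m : ℕ) (E E' : Finset (Edge n)), (∑ x, deg E x) = m →
    (∀ x, deg E x = deg E' x) → Reach E E' := by
  intro m
  induction m using Nat.strong_induction_on with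
  | _ m ih =>
    intro E E' hm hdeg
    by_cases hv : ∃ v, 0 < deg E v
    · obtain ⟨v, hv⟩ := hv
      obtain ⟨E₁, E₁', r1, r2, hn⟩ := align v _ E E' hdeg rfl
      have hstar := star_eq_of_nbr_eq hn
      have hd1 : ∀ x, deg E₁ x = deg E₁' x := fun x => by
        rw [r1.deg_eq, r2.deg_eq, hdeg]
      have hdr : ∀ x, deg (rest E₁ v) x = deg (rest E₁' v) x := fun x => by
        have a1 := deg_rest_add E₁ v x
        have a2 := deg_rest_add E₁' v x
        rw [hstar] at a1
        have := hd1 x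
        omega
      have hlt : (∑ x, deg (rest E₁ v) x) < m := by
        rw [← hm]
        have : (∑ x, deg E x) = ∑ x, deg E₁ x :=
          Finset.sum_congr rfl fun x _ => (r1.deg_eq x).symm
        rw [this]
        refine Finset.sum_lt_sum (fun x _ => ?_) ⟨v, Finset.mem_univ _, ?_⟩
        · have := deg_rest_add E₁ v x; omega
        · rw [deg_rest_self, r1.deg_eq]; exact hv
      have r3 := ih _ hlt (rest E₁ v) (rest E₁' v) rfl hdr
      have r4 := (r3.lift (T := star E₁ v) (v := v)
        (fun e he => (Finset.mem_filter.1 he).2) (fun e he => (Finset.mem_filter.1 he).2)).1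
      rw [rest_union_star] at r4
      conv at r4 => rw [hstar, rest_union_star]
      exact r1.trans (r4.trans r2.symm)
    · push Not at hv
      have h0 : ∀ x, deg E x = 0 := fun x => Nat.le_zero.1 (hv x)
      have h0' : ∀ x, deg E' x = 0 := fun x => by rw [← hdeg, h0]
      rw [eq_empty_of_deg_eq_zero h0, eq_empty_of_deg_eq_zero h0']
      exact Reach.refl _

theorem swAdj_mem_realizations {d : Fin n → ℕ} {E E' : Finset (Edge n)}
    (hE : E ∈ realizations d) (h : SwAdj E E') : E' ∈ realizations d := by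
  simp only [realizations, Finset.mem_filter, Finset.mem_univ, true_and] at hE ⊢
  intro v; rw [h.deg_eq, hE]

/-- **M10**: the switch graph on the realizations of `d` is connected. -/
theorem switch_connected {d : Fin n → ℕ} {E E' : Finset (Edge n)}
    (hE : E ∈ realizations d) (hE' : E' ∈ realizations d) :
    Relation.ReflTransGen SwAdj E E' := by
  simp only [realizations, Finset.mem_filter, Finset.mem_univ, true_and] at hE hE'
  exact reach_of_deg_eq _ E E' rfl fun x => by rw [hE, hE']

/-- A function on graphs that is invariant under switches inside `realizations d` is constant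
there. -/
theorem const_of_switch_invariant {α : Type*} {d : Fin n → ℕ} (f : Finset (Edge n) → α)
    (hf : ∀ E ∈ realizations d, ∀ E', SwAdj E E' → f E = f E')
    {E E' : Finset (Edge n)} (hE : E ∈ realizations d) (hE' : E' ∈ realizations d) :
    f E = f E' := by
  have h := switch_connected hE hE'
  have : E' ∈ realizations d ∧ f E = f E' := by
    clear hE'
    induction h with
    | refl => exact ⟨hE, rfl⟩
    | tail _ h2 ih => exact ⟨swAdj_mem_realizations ih.1 h2, ih.2.trans (hf _ ih.1 _ h2)⟩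
  exact this.2

end Crest.Agent.Switch.Conn
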