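import Crest.Agent.Switch.Graph
import Crest.Agent.Switch.ConnectedAux

/-! # Module M10: connectivity of the switch graph -/

set_option autoImplicit false
open Finset Crest.SwitchChain

namespace Crest.Agent.Switch

variable {n : ℕ}

lemma cell_eq_mkE (a b : Fin n) (h : a ≠ b) : cell a b = {Conn.mkE a b h} := by
  ext e
  simp only [cell, mem_filter, mem_univ, true_and, mem_singleton]
  rw [Subtype.ext_iff]; rfl

lemma adj_iff_mkE (G : Gr n) (a b : Fin n) (h : a ≠ b) : adj G a b ↔ Conn.mkE a b h ∈ G := by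
  constructor
  · rintro ⟨e, he, hs⟩
    have : e = Conn.mkE a b h := Subtype.ext hs
    rwa [← this]
  · intro hm
    exact ⟨_, hm, rfl⟩

/-- every `Conn.SwAdj` step is a `sw` step of the skeleton. -/
lemma exists_sw_of_swAdj {G G' : Gr n} (h : Conn.SwAdj G G') :
    ∃ a b c e, dist4 a b c e ∧ swOK G a b c e ∧ G' = sw G a b c e := by
  obtain ⟨a, b, c, d, hab, hcd, hac, hbd, had, hbc, h1, h2, h3, h4, rfl⟩ := h
  refine ⟨a, d, b, c, ⟨had, hab, hac, hbd.symm, hcd.symm, hbc⟩, ⟨?_, ?_, ?_, ?_⟩, ?_⟩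
  · exact (adj_iff_mkE _ _ _ hab).2 h1
  · rw [adj_iff_mkE _ _ _ hcd.symm, ← Conn.mkE_comm]; exact h2
  · rw [adj_iff_mkE _ _ _ hac]; exact h3
  · rw [adj_iff_mkE _ _ _ hbd.symm, ← Conn.mkE_comm]; exact h4
  · unfold sw
    rw [cell_eq_mkE a b hab, cell_eq_mkE d c hcd.symm, cell_eq_mkE a c hac,
      cell_eq_mkE d b hbd.symm, ← Conn.mkE_comm c d hcd, ← Conn.mkE_comm b d hbd]
    rfl

/-- M10 -/
theorem switch_connected (d : Fin n → ℕ) (f : Gr n → ℝ)
    (hf : ∀ G ∈ realizations d, ∀ a b c e, dist4 a b c e → swOK G a b c e →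
      f (sw G a b c e) = f G) :
    ∀ G ∈ realizations d, ∀ G' ∈ realizations d, f G = f G' := by
  intro G hG G' hG'
  refine Conn.const_of_switch_invariant f ?_ hG hG'
  intro E hE E' hsw
  obtain ⟨a, b, c, e, h4, hok, rfl⟩ := exists_sw_of_swAdj hsw
  exact (hf E hE a b c e h4 hok).symm

end Crest.Agent.Switch
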