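import Mathlib

/-!
# Generic finite conditional expectations (module M2 of the S0453 development)

`Ω : Finset α` carries the counting measure.  `ce Ω φ f` is the conditional expectation of `f`
given the map `φ` (average over the fibre of `φ` inside `Ω`), `ip Ω f g = ∑_{x ∈ Ω} f x * g x`.
-/

set_option autoImplicit false
open Finset

namespace Crest.Agent.Switch

variable {α β γ δ : Type*}

/-- inner product on `Ω` (counting measure). -/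
def ip (Ω : Finset α) (f g : α → ℝ) : ℝ := ∑ x ∈ Ω, f x * g x

/-- the fibre of `φ` through `x` inside `Ω`. -/
def fib [DecidableEq β] (Ω : Finset α) (φ : α → β) (x : α) : Finset α :=
  Ω.filter fun y => φ y = φ x

/-- conditional expectation of `f` given `φ` on `Ω` (uniform measure). -/
noncomputable def ce [DecidableEq β] (Ω : Finset α) (φ : α → β) (f : α → ℝ) (x : α) : ℝ :=
  (∑ y ∈ fib Ω φ x, f y) / ((fib Ω φ x).card : ℝ)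

/-- `f - E[f | φ]`. -/
noncomputable def qe [DecidableEq β] (Ω : Finset α) (φ : α → β) (f : α → ℝ) (x : α) : ℝ :=
  f x - ce Ω φ f x

/-- `∑_{fibres F of φ} |F| Cov_F(f,g)^2 / E_F g`  (with `0/0 = 0`). -/
noncomputable def yterm [DecidableEq β] (Ω : Finset α) (φ : α → β) (g f : α → ℝ) : ℝ :=
  ∑ x ∈ Ω, (ce Ω φ (fun y => f y * g y) x - ce Ω φ f x * ce Ω φ g x) ^ 2 / ce Ω φ g x

/-! ## API -/

section
variable [DecidableEq β] (Ω : Finset α) (φ : α → β)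

@[simp] theorem mem_fib {x y : α} : y ∈ fib Ω φ x ↔ y ∈ Ω ∧ φ y = φ x := by
  simp [fib]

theorem self_mem_fib {x : α} (hx : x ∈ Ω) : x ∈ fib Ω φ x := by simp [hx]

theorem fib_subset (x : α) : fib Ω φ x ⊆ Ω := filter_subset _ _

theorem fib_card_pos {x : α} (hx : x ∈ Ω) : 0 < ((fib Ω φ x).card : ℝ) := by
  exact_mod_cast card_pos.mpr ⟨x, self_mem_fib Ω φ hx⟩

theorem fib_congr {x y : α} (h : φ x = φ y) : fib Ω φ x = fib Ω φ y := by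
  simp [fib, h]

theorem ce_eq_of_eq (f : α → ℝ) {x y : α} (h : φ x = φ y) : ce Ω φ f x = ce Ω φ f y := by
  simp [ce, fib_congr Ω φ h]

theorem ce_congr {f g : α → ℝ} (h : ∀ y ∈ Ω, f y = g y) (x : α) : ce Ω φ f x = ce Ω φ g x := by
  unfold ce
  congr 1
  exact sum_congr rfl fun y hy => h y (fib_subset Ω φ x hy)

theorem ce_add (f g : α → ℝ) (x : α) : ce Ω φ (f + g) x = ce Ω φ f x + ce Ω φ g x := by
  simp [ce, sum_add_distrib, add_div]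

theorem ce_add' (f g : α → ℝ) (x : α) :
    ce Ω φ (fun y => f y + g y) x = ce Ω φ f x + ce Ω φ g x := ce_add Ω φ f g x

theorem ce_sub (f g : α → ℝ) (x : α) : ce Ω φ (f - g) x = ce Ω φ f x - ce Ω φ g x := by
  simp [ce, sum_sub_distrib, sub_div]

theorem ce_sub' (f g : α → ℝ) (x : α) :
    ce Ω φ (fun y => f y - g y) x = ce Ω φ f x - ce Ω φ g x := ce_sub Ω φ f g x

theorem ce_smul (c : ℝ) (f : α → ℝ) (x : α) : ce Ω φ (c • f) x = c * ce Ω φ f x := by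
  simp [ce, ← mul_sum, mul_div_assoc]

theorem ce_const_mul (c : ℝ) (f : α → ℝ) (x : α) :
    ce Ω φ (fun y => c * f y) x = c * ce Ω φ f x := ce_smul Ω φ c f x

theorem ce_const (c : ℝ) {x : α} (hx : x ∈ Ω) : ce Ω φ (fun _ => c) x = c := by
  have := fib_card_pos Ω φ hx
  simp only [ce, sum_const, nsmul_eq_mul]
  field_simp

/-- a function that is constant on the fibres of `φ` can be pulled out of `ce`. -/
theorem ce_mul_of_meas {h : α → ℝ} (hh : ∀ x ∈ Ω, ∀ y ∈ Ω, φ x = φ y → h x = h y) (f : α → ℝ)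
    {x : α} (hx : x ∈ Ω) : ce Ω φ (fun y => h y * f y) x = h x * ce Ω φ f x := by
  unfold ce
  rw [← mul_div_assoc, mul_sum]
  congr 1
  refine sum_congr rfl fun y hy => ?_
  rw [mem_fib] at hy
  show h y * f y = h x * f y
  rw [hh y hy.1 x hx hy.2]

theorem ce_of_meas {h : α → ℝ} (hh : ∀ x ∈ Ω, ∀ y ∈ Ω, φ x = φ y → h x = h y)
    {x : α} (hx : x ∈ Ω) : ce Ω φ h x = h x := by
  have := ce_mul_of_meas Ω φ hh (fun _ => 1) hx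
  simpa [ce_const Ω φ 1 hx] using this

/-- sum over a fibre of `ce` -/
theorem sum_fib_ce (f : α → ℝ) {x : α} (hx : x ∈ Ω) :
    ∑ y ∈ fib Ω φ x, ce Ω φ f y = ∑ y ∈ fib Ω φ x, f y := by
  have hpos := fib_card_pos Ω φ hx
  have : ∀ y ∈ fib Ω φ x, ce Ω φ f y = ce Ω φ f x := fun y hy =>
    ce_eq_of_eq Ω φ f ((mem_fib Ω φ).1 hy).2
  rw [sum_congr rfl this, sum_const, nsmul_eq_mul]
  unfold ce
  field_simp

/-- **Fibrewise summation.** -/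
theorem sum_eq_sum_fib (A : α → ℝ) :
    ∑ x ∈ Ω, A x = ∑ c ∈ Ω.image φ, ∑ x ∈ Ω.filter (fun y => φ y = c), A x :=
  (sum_fiberwise_of_maps_to (fun _ hx => mem_image_of_mem φ hx) A).symm

/-- To prove `∑_Ω A ≤ ∑_Ω B` it is enough to prove it on every fibre of `φ`. -/
theorem sum_le_sum_of_fib {A B : α → ℝ}
    (h : ∀ x₀ ∈ Ω, ∑ x ∈ fib Ω φ x₀, A x ≤ ∑ x ∈ fib Ω φ x₀, B x) :
    ∑ x ∈ Ω, A x ≤ ∑ x ∈ Ω, B x := by
  rw [sum_eq_sum_fib Ω φ A, sum_eq_sum_fib Ω φ B]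
  refine sum_le_sum fun c hc => ?_
  obtain ⟨x₀, hx₀, rfl⟩ := mem_image.1 hc
  exact h x₀ hx₀

theorem sum_eq_sum_of_fib {A B : α → ℝ}
    (h : ∀ x₀ ∈ Ω, ∑ x ∈ fib Ω φ x₀, A x = ∑ x ∈ fib Ω φ x₀, B x) :
    ∑ x ∈ Ω, A x = ∑ x ∈ Ω, B x := by
  rw [sum_eq_sum_fib Ω φ A, sum_eq_sum_fib Ω φ B]
  refine sum_congr rfl fun c hc => ?_
  obtain ⟨x₀, hx₀, rfl⟩ := mem_image.1 hc
  exact h x₀ hx₀

/-- `ce` is self-adjoint. -/
theorem ip_ce_left (f g : α → ℝ) : ip Ω (ce Ω φ f) g = ip Ω (ce Ω φ f) (ce Ω φ g) := by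
  unfold ip
  refine sum_eq_sum_of_fib Ω φ fun x₀ hx₀ => ?_
  have h1 : ∀ y ∈ fib Ω φ x₀, ce Ω φ f y = ce Ω φ f x₀ := fun y hy =>
    ce_eq_of_eq Ω φ f ((mem_fib Ω φ).1 hy).2
  have e1 : ∑ y ∈ fib Ω φ x₀, ce Ω φ f y * g y = ce Ω φ f x₀ * ∑ y ∈ fib Ω φ x₀, g y := by
    rw [mul_sum]; exact sum_congr rfl fun y hy => by rw [h1 y hy]
  have e2 : ∑ y ∈ fib Ω φ x₀, ce Ω φ f y * ce Ω φ g y
      = ce Ω φ f x₀ * ∑ y ∈ fib Ω φ x₀, ce Ω φ g y := by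
    rw [mul_sum]; exact sum_congr rfl fun y hy => by rw [h1 y hy]
  rw [e1, e2, sum_fib_ce Ω φ g hx₀]

theorem ip_comm (f g : α → ℝ) : ip Ω f g = ip Ω g f := by
  unfold ip; exact sum_congr rfl fun _ _ => mul_comm _ _

theorem ip_ce_right (f g : α → ℝ) : ip Ω f (ce Ω φ g) = ip Ω (ce Ω φ f) (ce Ω φ g) := by
  rw [ip_comm, ip_ce_left, ip_comm]

theorem ip_ce_symm (f g : α → ℝ) : ip Ω (ce Ω φ f) g = ip Ω f (ce Ω φ g) :=
  (ip_ce_left Ω φ f g).trans (ip_ce_right Ω φ f g).symm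

theorem ip_add_left (f g h : α → ℝ) : ip Ω (f + g) h = ip Ω f h + ip Ω g h := by
  simp [ip, add_mul, sum_add_distrib]

theorem ip_sub_left (f g h : α → ℝ) : ip Ω (f - g) h = ip Ω f h - ip Ω g h := by
  simp [ip, sub_mul, sum_sub_distrib]

theorem ip_add_right (f g h : α → ℝ) : ip Ω f (g + h) = ip Ω f g + ip Ω f h := by
  simp [ip, mul_add, sum_add_distrib]

theorem ip_sub_right (f g h : α → ℝ) : ip Ω f (g - h) = ip Ω f g - ip Ω f h := by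
  simp [ip, mul_sub, sum_sub_distrib]

theorem ip_smul_left (c : ℝ) (f g : α → ℝ) : ip Ω (c • f) g = c * ip Ω f g := by
  simp [ip, mul_sum, mul_assoc]

theorem ip_smul_right (c : ℝ) (f g : α → ℝ) : ip Ω f (c • g) = c * ip Ω f g := by
  simp [ip, mul_sum, mul_left_comm]

theorem ip_self_nonneg (f : α → ℝ) : 0 ≤ ip Ω f f :=
  sum_nonneg fun _ _ => mul_self_nonneg _

theorem ip_congr {f f' g g' : α → ℝ} (hf : ∀ x ∈ Ω, f x = f' x) (hg : ∀ x ∈ Ω, g x = g' x) :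
    ip Ω f g = ip Ω f' g' :=
  sum_congr rfl fun x hx => by rw [hf x hx, hg x hx]

theorem qe_eq_sub (f : α → ℝ) : qe Ω φ f = f - ce Ω φ f := rfl

theorem ce_ce (f : α → ℝ) {x : α} (hx : x ∈ Ω) : ce Ω φ (ce Ω φ f) x = ce Ω φ f x :=
  ce_of_meas Ω φ (fun _ _ _ _ h => ce_eq_of_eq Ω φ f h) hx

theorem ce_qe (f : α → ℝ) {x : α} (hx : x ∈ Ω) : ce Ω φ (qe Ω φ f) x = 0 := by
  rw [qe_eq_sub, ce_sub, ce_ce Ω φ f hx, sub_self]

theorem qe_congr {f g : α → ℝ} (h : ∀ y ∈ Ω, f y = g y) {x : α} (hx : x ∈ Ω) :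
    qe Ω φ f x = qe Ω φ g x := by
  unfold qe; rw [h x hx, ce_congr Ω φ h]

theorem qe_add (f g : α → ℝ) (x : α) : qe Ω φ (f + g) x = qe Ω φ f x + qe Ω φ g x := by
  simp only [qe, ce_add, Pi.add_apply]; ring

theorem qe_smul (c : ℝ) (f : α → ℝ) (x : α) : qe Ω φ (c • f) x = c * qe Ω φ f x := by
  simp only [qe, ce_smul, Pi.smul_apply, smul_eq_mul]; ring

theorem qe_const (c : ℝ) {x : α} (hx : x ∈ Ω) : qe Ω φ (fun _ => c) x = 0 := by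
  simp [qe, ce_const Ω φ c hx]

/-- `Q` is self-adjoint. -/
theorem ip_qe_symm (f g : α → ℝ) : ip Ω (qe Ω φ f) g = ip Ω f (qe Ω φ g) := by
  rw [qe_eq_sub, qe_eq_sub, ip_sub_left, ip_sub_right, ip_ce_symm]

/-- `Q` is idempotent: `⟨Qf, Qg⟩ = ⟨f, Qg⟩`. -/
theorem ip_qe_qe (f g : α → ℝ) : ip Ω (qe Ω φ f) (qe Ω φ g) = ip Ω f (qe Ω φ g) := by
  conv_lhs => rw [qe_eq_sub Ω φ f]
  rw [ip_sub_left]
  have : ip Ω (ce Ω φ f) (qe Ω φ g) = 0 := by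
    rw [qe_eq_sub, ip_sub_right, ← ip_ce_left, sub_self]
  rw [this, sub_zero]

theorem ip_qe_self (f : α → ℝ) :
    ip Ω (qe Ω φ f) (qe Ω φ f) = ip Ω f f - ip Ω (ce Ω φ f) (ce Ω φ f) := by
  rw [ip_qe_qe, qe_eq_sub, ip_sub_right, ip_ce_right]

/-- if `‖Qf‖ = 0` then `f` is constant on the fibres. -/
theorem eq_of_ip_qe_eq_zero {f : α → ℝ} (h : ip Ω (qe Ω φ f) (qe Ω φ f) = 0)
    {x y : α} (hx : x ∈ Ω) (hy : y ∈ Ω) (hxy : φ x = φ y) : f x = f y := by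
  have h0 : ∀ z ∈ Ω, qe Ω φ f z * qe Ω φ f z = 0 :=
    (sum_eq_zero_iff_of_nonneg fun _ _ => mul_self_nonneg _).1 h
  have hx' : f x = ce Ω φ f x := by
    have := mul_self_eq_zero.1 (h0 x hx); unfold qe at this; linarith
  have hy' : f y = ce Ω φ f y := by
    have := mul_self_eq_zero.1 (h0 y hy); unfold qe at this; linarith
  rw [hx', hy', ce_eq_of_eq Ω φ f hxy]

end

section tower
variable [DecidableEq β] [DecidableEq γ] (Ω : Finset α) (φ : α → β) (ψ : α → γ)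

/-- `φ` is finer than `ψ` on `Ω`. -/
def Finer (Ω : Finset α) (φ : α → β) (ψ : α → γ) : Prop :=
  ∀ x ∈ Ω, ∀ y ∈ Ω, φ x = φ y → ψ x = ψ y

variable {Ω φ ψ}

theorem ce_fine_ce_coarse (h : Finer Ω φ ψ) (f : α → ℝ) {x : α} (hx : x ∈ Ω) :
    ce Ω φ (ce Ω ψ f) x = ce Ω ψ f x :=
  ce_of_meas Ω φ (fun a ha b hb hab => ce_eq_of_eq Ω ψ f (h a ha b hb hab)) hx

/-- localisation of fibres: a `φ`-fibre is the `φ`-fibre inside the `ψ`-fibre. -/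
theorem fib_fib (h : Finer Ω φ ψ) {x₀ x : α} (hx : x ∈ fib Ω ψ x₀) :
    fib (fib Ω ψ x₀) φ x = fib Ω φ x := by
  rw [mem_fib] at hx
  ext y
  simp only [mem_fib]
  constructor
  · rintro ⟨⟨hy, _⟩, hyx⟩; exact ⟨hy, hyx⟩
  · rintro ⟨hy, hyx⟩; exact ⟨⟨hy, (h y hy x hx.1 hyx).trans hx.2⟩, hyx⟩

/-- localisation of `ce`. -/
theorem ce_fib (h : Finer Ω φ ψ) (f : α → ℝ) {x₀ x : α} (hx : x ∈ fib Ω ψ x₀) :
    ce (fib Ω ψ x₀) φ f x = ce Ω φ f x := by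
  unfold ce; rw [fib_fib h hx]

theorem qe_fib (h : Finer Ω φ ψ) (f : α → ℝ) {x₀ x : α} (hx : x ∈ fib Ω ψ x₀) :
    qe (fib Ω ψ x₀) φ f x = qe Ω φ f x := by
  unfold qe; rw [ce_fib h f hx]

theorem ce_coarse_ce_fine (h : Finer Ω φ ψ) (f : α → ℝ) {x : α} (hx : x ∈ Ω) :
    ce Ω ψ (ce Ω φ f) x = ce Ω ψ f x := by
  unfold ce
  congr 1
  -- sum over the ψ-fibre, decomposed into φ-fibres
  have key : ∑ y ∈ fib Ω ψ x, ce Ω φ f y = ∑ y ∈ fib Ω ψ x, f y := by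
    refine sum_eq_sum_of_fib (fib Ω ψ x) φ fun y₀ hy₀ => ?_
    rw [fib_fib h hy₀]
    exact sum_fib_ce Ω φ f ((mem_fib Ω ψ).1 hy₀).1
  exact key

/-- `⟨Q_ψ₁ f, Q_ψ₂ f⟩ = ‖Q_φ f‖² + ⟨Q_ψ₁ Π f, Q_ψ₂ Π f⟩` for `Π = ce φ`, `φ` finer than both. -/
theorem ip_qe_qe_split {δ : Type*} [DecidableEq δ] {ψ' : α → δ}
    (h : Finer Ω φ ψ) (h' : Finer Ω φ ψ') (f : α → ℝ) :
    ip Ω (qe Ω ψ f) (qe Ω ψ' f) = ip Ω (qe Ω φ f) (qe Ω φ f)
      + ip Ω (qe Ω ψ (ce Ω φ f)) (qe Ω ψ' (ce Ω φ f)) := by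
  have e1 : ∀ x ∈ Ω, qe Ω ψ f x = qe Ω φ f x + qe Ω ψ (ce Ω φ f) x := fun x hx => by
    simp only [qe, ce_coarse_ce_fine h f hx]; ring
  have e2 : ∀ x ∈ Ω, qe Ω ψ' f x = qe Ω φ f x + qe Ω ψ' (ce Ω φ f) x := fun x hx => by
    simp only [qe, ce_coarse_ce_fine h' f hx]; ring
  rw [ip_congr Ω (f' := qe Ω φ f + qe Ω ψ (ce Ω φ f)) (g' := qe Ω φ f + qe Ω ψ' (ce Ω φ f)) e1 e2]
  rw [ip_add_left, ip_add_right, ip_add_right]
  -- cross terms vanish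
  have c1 : ip Ω (qe Ω φ f) (qe Ω ψ' (ce Ω φ f)) = 0 := by
    rw [ip_qe_symm]
    have : ∀ x ∈ Ω, qe Ω φ (qe Ω ψ' (ce Ω φ f)) x = (fun _ => (0:ℝ)) x := fun x hx => by
      show qe Ω ψ' (ce Ω φ f) x - ce Ω φ (qe Ω ψ' (ce Ω φ f)) x = 0
      rw [qe_eq_sub Ω ψ', ce_sub Ω φ, ce_ce Ω φ f hx, ce_fine_ce_coarse h' _ hx]
      simp
    rw [ip_congr Ω (fun _ _ => rfl) this]; simp [ip]
  have c2 : ip Ω (qe Ω ψ (ce Ω φ f)) (qe Ω φ f) = 0 := by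
    rw [ip_comm, ip_qe_symm]
    have : ∀ x ∈ Ω, qe Ω φ (qe Ω ψ (ce Ω φ f)) x = (fun _ => (0:ℝ)) x := fun x hx => by
      show qe Ω ψ (ce Ω φ f) x - ce Ω φ (qe Ω ψ (ce Ω φ f)) x = 0
      rw [qe_eq_sub Ω ψ, ce_sub Ω φ, ce_ce Ω φ f hx, ce_fine_ce_coarse h _ hx]
      simp
    rw [ip_congr Ω (fun _ _ => rfl) this]; simp [ip]
  rw [c1, c2]; ring

end tower

section transfer
variable [DecidableEq β] [DecidableEq γ] [DecidableEq δ]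
  {Φ : Finset α} {θ : α → γ} {φ : α → β} {φ' : γ → δ}

/-- transfer of fibres along a map `θ` injective on `Φ`. -/
theorem fib_image
    (hφ : ∀ x ∈ Φ, ∀ y ∈ Φ, (φ x = φ y ↔ φ' (θ x) = φ' (θ y))) {x : α} (hx : x ∈ Φ) :
    fib (Φ.image θ) φ' (θ x) = (fib Φ φ x).image θ := by
  ext s
  simp only [mem_fib, mem_image]
  constructor
  · rintro ⟨⟨y, hy, rfl⟩, h⟩; exact ⟨y, ⟨hy, (hφ y hy x hx).2 h⟩, rfl⟩
  · rintro ⟨y, ⟨hy, h⟩, rfl⟩; exact ⟨⟨y, hy, rfl⟩, (hφ y hy x hx).1 h⟩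

theorem ce_image (hinj : Set.InjOn θ Φ)
    (hφ : ∀ x ∈ Φ, ∀ y ∈ Φ, (φ x = φ y ↔ φ' (θ x) = φ' (θ y))) (f' : γ → ℝ) {x : α} (hx : x ∈ Φ) :
    ce (Φ.image θ) φ' f' (θ x) = ce Φ φ (fun y => f' (θ y)) x := by
  have hinj' : Set.InjOn θ (fib Φ φ x) := hinj.mono (by exact_mod_cast fib_subset Φ φ x)
  unfold ce
  rw [fib_image hφ hx, sum_image hinj', card_image_of_injOn hinj']

theorem qe_image (hinj : Set.InjOn θ Φ)
    (hφ : ∀ x ∈ Φ, ∀ y ∈ Φ, (φ x = φ y ↔ φ' (θ x) = φ' (θ y))) (f' : γ → ℝ) {x : α} (hx : x ∈ Φ) :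
    qe (Φ.image θ) φ' f' (θ x) = qe Φ φ (fun y => f' (θ y)) x := by
  unfold qe; rw [ce_image hinj hφ f' hx]

theorem sum_image_transfer (hinj : Set.InjOn θ Φ) (A : γ → ℝ) :
    ∑ s ∈ Φ.image θ, A s = ∑ x ∈ Φ, A (θ x) := sum_image hinj

theorem ip_image (hinj : Set.InjOn θ Φ) (F G : γ → ℝ) :
    ip (Φ.image θ) F G = ip Φ (fun x => F (θ x)) (fun x => G (θ x)) := sum_image hinj

theorem ip_qe_image {ε : Type*} [DecidableEq ε] {ζ : Type*} [DecidableEq ζ]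
    {φ₂ : α → ε} {φ₂' : γ → ζ} (hinj : Set.InjOn θ Φ)
    (hφ : ∀ x ∈ Φ, ∀ y ∈ Φ, (φ x = φ y ↔ φ' (θ x) = φ' (θ y)))
    (hφ₂ : ∀ x ∈ Φ, ∀ y ∈ Φ, (φ₂ x = φ₂ y ↔ φ₂' (θ x) = φ₂' (θ y))) (f' : γ → ℝ) :
    ip (Φ.image θ) (qe (Φ.image θ) φ' f') (qe (Φ.image θ) φ₂' f')
      = ip Φ (qe Φ φ (fun y => f' (θ y))) (qe Φ φ₂ (fun y => f' (θ y))) := by
  rw [ip_image hinj]
  exact ip_congr Φ (fun x hx => qe_image hinj hφ f' hx) (fun x hx => qe_image hinj hφ₂ f' hx)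

theorem yterm_image (hinj : Set.InjOn θ Φ)
    (hφ : ∀ x ∈ Φ, ∀ y ∈ Φ, (φ x = φ y ↔ φ' (θ x) = φ' (θ y))) (g' f' : γ → ℝ) :
    yterm (Φ.image θ) φ' g' f' = yterm Φ φ (fun y => g' (θ y)) (fun y => f' (θ y)) := by
  unfold yterm
  rw [sum_image hinj]
  refine sum_congr rfl fun x hx => ?_
  rw [ce_image hinj hφ _ hx, ce_image hinj hφ _ hx, ce_image hinj hφ _ hx]

/-- every function on `Φ` factors through a map that is injective on `Φ`. -/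
theorem exists_factor [Nonempty α] (hinj : Set.InjOn θ Φ) (f : α → ℝ) :
    ∃ f' : γ → ℝ, ∀ x ∈ Φ, f' (θ x) = f x := by
  classical
  refine ⟨fun s => f (Function.invFunOn θ (Φ : Set α) s), fun x hx => ?_⟩
  have hx' : x ∈ (Φ : Set α) := hx
  show f (Function.invFunOn θ (Φ : Set α) (θ x)) = f x
  rw [hinj.leftInvOn_invFunOn hx']

/-- two maps with the same fibres on `Ω` give the same `ce`. -/
theorem ce_congr_map {Ω : Finset α} {φ₁ : α → β} {φ₂ : α → δ}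
    (h : ∀ x ∈ Ω, ∀ y ∈ Ω, (φ₁ x = φ₁ y ↔ φ₂ x = φ₂ y)) (f : α → ℝ) {x : α} (hx : x ∈ Ω) :
    ce Ω φ₁ f x = ce Ω φ₂ f x := by
  have : fib Ω φ₁ x = fib Ω φ₂ x := by
    ext y; simp only [mem_fib]
    exact ⟨fun ⟨hy, e⟩ => ⟨hy, (h y hy x hx).1 e⟩, fun ⟨hy, e⟩ => ⟨hy, (h y hy x hx).2 e⟩⟩
  unfold ce; rw [this]

theorem qe_congr_map {Ω : Finset α} {φ₁ : α → β} {φ₂ : α → δ}
    (h : ∀ x ∈ Ω, ∀ y ∈ Ω, (φ₁ x = φ₁ y ↔ φ₂ x = φ₂ y)) (f : α → ℝ) {x : α} (hx : x ∈ Ω) :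
    qe Ω φ₁ f x = qe Ω φ₂ f x := by
  unfold qe; rw [ce_congr_map h f hx]

end transfer

section localise
variable [DecidableEq β] [DecidableEq γ] {Ω : Finset α} {φ : α → β} {ψ : α → γ}

/-- localisation of `ip` of two `qe`'s. -/
theorem ip_fib_qe {δ : Type*} [DecidableEq δ] {φ₂ : α → δ} (h : Finer Ω φ ψ) (h₂ : Finer Ω φ₂ ψ)
    (f : α → ℝ) (x₀ : α) :
    ∑ x ∈ fib Ω ψ x₀, qe Ω φ f x * qe Ω φ₂ f x
      = ip (fib Ω ψ x₀) (qe (fib Ω ψ x₀) φ f) (qe (fib Ω ψ x₀) φ₂ f) := by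
  unfold ip
  exact sum_congr rfl fun x hx => by rw [qe_fib h f hx, qe_fib h₂ f hx]

/-- localisation of `yterm`. -/
theorem yterm_fib (h : Finer Ω φ ψ) (g f : α → ℝ) (x₀ : α) :
    ∑ x ∈ fib Ω ψ x₀,
        (ce Ω φ (fun y => f y * g y) x - ce Ω φ f x * ce Ω φ g x) ^ 2 / ce Ω φ g x
      = yterm (fib Ω ψ x₀) φ g f := by
  unfold yterm
  exact sum_congr rfl fun x hx => by rw [ce_fib h _ hx, ce_fib h _ hx, ce_fib h _ hx]

theorem yterm_congr {g g' f f' : α → ℝ} (hg : ∀ x ∈ Ω, g x = g' x) (hf : ∀ x ∈ Ω, f x = f' x) :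
    yterm Ω φ g f = yterm Ω φ g' f' := by
  unfold yterm
  refine sum_congr rfl fun x _ => ?_
  rw [ce_congr Ω φ hg, ce_congr Ω φ hf,
    ce_congr Ω φ (f := fun y => f y * g y) (g := fun y => f' y * g' y)
      (fun y hy => by rw [hf y hy, hg y hy])]

end localise

end Crest.Agent.Switch
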