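import Crest.Prelude.Def_SwitchChain
import Crest.Agent.Switch.Basic

/-! # Module M7a: cell calculus for graphs `Finset (Edge n)`. -/

set_option autoImplicit false
open Finset Crest.SwitchChain

namespace Crest.Agent.Switch

variable {n : ℕ}

/-- graphs on `Fin n`. -/
abbrev Gr (n : ℕ) := Finset (Edge n)

/-- the cell `{a,b}` as a set of edges (a singleton if `a ≠ b`, empty if `a = b`). -/
def cell (a b : Fin n) : Finset (Edge n) := univ.filter fun e => e.1 = s(a, b)

/-- adjacency. -/
def adj (G : Gr n) (a b : Fin n) : Prop := ∃ e ∈ G, e.1 = s(a, b)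

instance (G : Gr n) (a b : Fin n) : Decidable (adj G a b) := by unfold adj; infer_instance

/-- all cells at the vertex `a`. -/
def star (a : Fin n) : Finset (Edge n) := univ.filter fun e => a ∈ e.1

/-- all cells meeting `{a,b}`: `G \ star2 a b` is `G - a - b`. -/
def star2 (a b : Fin n) : Finset (Edge n) := star a ∪ star b

/-- all cells meeting `{a,b,c}`. -/
def star3 (a b c : Fin n) : Finset (Edge n) := star a ∪ star b ∪ star c

/-- the four cells `ac, ad, bc, bd` between the pairs `{a,b}` and `{c,d}`. -/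
def mcells (a b c d : Fin n) : Finset (Edge n) := cell a c ∪ cell a d ∪ cell b c ∪ cell b d

/-- the switch `ac, bd → ad, bc`. -/
def sw (G : Gr n) (a b c d : Fin n) : Gr n := (G \ (cell a c ∪ cell b d)) ∪ (cell a d ∪ cell b c)

/-- `ac, bd` present and `ad, bc` absent. -/
def swOK (G : Gr n) (a b c d : Fin n) : Prop :=
  adj G a c ∧ adj G b d ∧ ¬ adj G a d ∧ ¬ adj G b c

instance (G : Gr n) (a b c d : Fin n) : Decidable (swOK G a b c d) := by unfold swOK; infer_instance

/-- `a,b,c,d` pairwise distinct. -/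
def dist4 (a b c d : Fin n) : Prop := a ≠ b ∧ a ≠ c ∧ a ≠ d ∧ b ≠ c ∧ b ≠ d ∧ c ≠ d

instance (a b c d : Fin n) : Decidable (dist4 a b c d) := by unfold dist4; infer_instance

/-- `a,b,c` pairwise distinct. -/
def dist3 (a b c : Fin n) : Prop := a ≠ b ∧ a ≠ c ∧ b ≠ c

instance (a b c : Fin n) : Decidable (dist3 a b c) := by unfold dist3; infer_instance

/-- graph with a prescribed adjacency predicate (symmetrised, loops dropped). -/
def ofAdj (r : Fin n → Fin n → Prop) [DecidableRel r] : Gr n :=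
  univ.filter fun e => ∃ a b, e.1 = s(a, b) ∧ r a b

/-- the indicator that the block `(ac,ad,bc,bd)` of `G` is one of the two permutation matrices. -/
def gsw (a b c d : Fin n) (G : Gr n) : ℝ :=
  if swOK G a b c d ∨ swOK G a b d c then 1 else 0

/-- `Q_{ab} f = f - E[f | G - a - b]`. -/
noncomputable def Qp (Ω : Finset (Gr n)) (a b : Fin n) (f : Gr n → ℝ) : Gr n → ℝ :=
  qe Ω (fun G => G \ star2 a b) f

/-- `Z_{ab|cd}(f) = ‖f - E[f | all cells except ac,ad,bc,bd]‖²`. -/
noncomputable def Zt (Ω : Finset (Gr n)) (f : Gr n → ℝ) (a b c d : Fin n) : ℝ :=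
  ip Ω (qe Ω (fun G => G \ mcells a b c d) f) (qe Ω (fun G => G \ mcells a b c d) f)

/-- explicit form of `Zt`. -/
noncomputable def Zx (Ω : Finset (Gr n)) (f : Gr n → ℝ) (a b c d : Fin n) : ℝ :=
  (1 / 2) * ∑ G ∈ Ω.filter (fun G => swOK G a b c d), (f G - f (sw G a b c d)) ^ 2

/-- `Y_{ab}^{cd}(f)`. -/
noncomputable def Yt (Ω : Finset (Gr n)) (f : Gr n → ℝ) (a b c d : Fin n) : ℝ :=
  yterm Ω (fun G => G \ star2 a b) (gsw a b c d) f

/-! ## API -/

/-- the edge `{a,b}`. -/
def mkE (a b : Fin n) (h : a ≠ b) : Edge n := ⟨s(a, b), by simpa using h⟩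

@[simp] theorem mkE_val (a b : Fin n) (h : a ≠ b) : (mkE a b h).1 = s(a, b) := rfl

theorem mkE_comm (a b : Fin n) (h : a ≠ b) : mkE a b h = mkE b a h.symm :=
  Subtype.ext Sym2.eq_swap

/-- every edge is some `mkE a b`. -/
theorem exists_mkE (e : Edge n) : ∃ a b, ∃ h : a ≠ b, e = mkE a b h := by
  obtain ⟨e, he⟩ := e
  induction e using Sym2.ind with
  | _ a b => exact ⟨a, b, by simpa using he, rfl⟩

@[simp] theorem mem_cell {a b : Fin n} {e : Edge n} : e ∈ cell a b ↔ e.1 = s(a, b) := by
  simp [cell]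

theorem cell_comm (a b : Fin n) : cell a b = cell b a := by
  ext e; simp [Sym2.eq_swap]

theorem cell_self (a : Fin n) : cell a a = ∅ := by
  ext e
  simp only [mem_cell, notMem_empty, iff_false]
  intro h
  exact e.2 (by rw [h]; simp)

theorem cell_eq_singleton {a b : Fin n} (h : a ≠ b) : cell a b = {mkE a b h} := by
  ext e
  simp only [mem_cell, mem_singleton]
  exact ⟨fun he => Subtype.ext he, fun he => by rw [he]; rfl⟩

theorem adj_iff_mem {G : Gr n} {a b : Fin n} (h : a ≠ b) : adj G a b ↔ mkE a b h ∈ G := by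
  constructor
  · rintro ⟨e, he, hab⟩
    have : e = mkE a b h := Subtype.ext hab
    rwa [← this]
  · intro hm; exact ⟨_, hm, rfl⟩

theorem adj_comm {G : Gr n} {a b : Fin n} : adj G a b ↔ adj G b a := by
  unfold adj; simp [Sym2.eq_swap]

theorem adj.symm {G : Gr n} {a b : Fin n} (h : adj G a b) : adj G b a := adj_comm.1 h

theorem adj.ne {G : Gr n} {a b : Fin n} (h : adj G a b) : a ≠ b := by
  obtain ⟨e, _, he⟩ := h
  rintro rfl
  exact e.2 (by rw [he]; simp)

@[simp] theorem not_adj_self (G : Gr n) (a : Fin n) : ¬ adj G a a := fun h => h.ne rfl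

/-- extensionality through adjacency. -/
theorem ext_adj {G G' : Gr n} (h : ∀ a b, adj G a b ↔ adj G' a b) : G = G' := by
  ext e
  obtain ⟨a, b, hab, rfl⟩ := exists_mkE e
  rw [← adj_iff_mem hab, ← adj_iff_mem hab, h]

@[simp] theorem adj_sdiff {G S : Gr n} {a b : Fin n} :
    adj (G \ S) a b ↔ adj G a b ∧ ¬ adj S a b := by
  by_cases h : a = b
  · subst h; simp
  · simp [adj_iff_mem h]

@[simp] theorem adj_union {G S : Gr n} {a b : Fin n} :
    adj (G ∪ S) a b ↔ adj G a b ∨ adj S a b := by
  by_cases h : a = b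
  · subst h; simp
  · simp [adj_iff_mem h]

@[simp] theorem adj_inter {G S : Gr n} {a b : Fin n} :
    adj (G ∩ S) a b ↔ adj G a b ∧ adj S a b := by
  by_cases h : a = b
  · subst h; simp
  · simp [adj_iff_mem h]

theorem adj_filter {G : Gr n} {p : Edge n → Prop} [DecidablePred p] {a b : Fin n} (h : a ≠ b) :
    adj (G.filter p) a b ↔ adj G a b ∧ p (mkE a b h) := by
  simp [adj_iff_mem h]

theorem adj_cell {a b x y : Fin n} :
    adj (cell a b) x y ↔ x ≠ y ∧ (x = a ∧ y = b ∨ x = b ∧ y = a) := by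
  by_cases h : x = y
  · subst h; simp
  · simp [adj_iff_mem h, h]

theorem adj_star {a x y : Fin n} : adj (star a) x y ↔ x ≠ y ∧ (x = a ∨ y = a) := by
  by_cases h : x = y
  · subst h; simp
  · simp [adj_iff_mem h, h, star, eq_comm]

theorem adj_star2 {a b x y : Fin n} :
    adj (star2 a b) x y ↔ x ≠ y ∧ (x = a ∨ y = a ∨ x = b ∨ y = b) := by
  simp only [star2, adj_union, adj_star]; tauto

theorem adj_star3 {a b c x y : Fin n} :
    adj (star3 a b c) x y ↔ x ≠ y ∧ (x = a ∨ y = a ∨ x = b ∨ y = b ∨ x = c ∨ y = c) := by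
  simp only [star3, adj_union, adj_star]; tauto

theorem adj_mcells {a b c d x y : Fin n} :
    adj (mcells a b c d) x y ↔ x ≠ y ∧
      ((x = a ∨ x = b) ∧ (y = c ∨ y = d) ∨ (x = c ∨ x = d) ∧ (y = a ∨ y = b)) := by
  simp only [mcells, adj_union, adj_cell]; tauto

theorem adj_sw {G : Gr n} {a b c d x y : Fin n} :
    adj (sw G a b c d) x y ↔
      (adj G x y ∧ ¬ (x = a ∧ y = c ∨ x = c ∧ y = a) ∧ ¬ (x = b ∧ y = d ∨ x = d ∧ y = b)) ∨
      (x ≠ y ∧ ((x = a ∧ y = d ∨ x = d ∧ y = a) ∨ (x = b ∧ y = c ∨ x = c ∧ y = b))) := by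
  simp only [sw, adj_union, adj_sdiff, adj_cell]
  constructor
  · rintro (⟨h1, h2⟩ | h)
    · left; have := h1.ne; tauto
    · right; tauto
  · rintro (⟨h1, h2⟩ | h)
    · left; tauto
    · right; tauto

theorem adj_ofAdj {r : Fin n → Fin n → Prop} [DecidableRel r] {a b : Fin n} :
    adj (ofAdj r) a b ↔ a ≠ b ∧ (r a b ∨ r b a) := by
  by_cases h : a = b
  · subst h; simp
  · simp only [adj_iff_mem h, ofAdj, mem_filter, mem_univ, true_and, mkE_val, ne_eq, h,
      not_false_eq_true, Sym2.eq_iff]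
    constructor
    · rintro ⟨x, y, (⟨rfl, rfl⟩ | ⟨rfl, rfl⟩), hr⟩
      · exact Or.inl hr
      · exact Or.inr hr
    · rintro (hr | hr)
      · exact ⟨a, b, Or.inl ⟨rfl, rfl⟩, hr⟩
      · exact ⟨b, a, Or.inr ⟨rfl, rfl⟩, hr⟩

/-- `G \ S = G' \ S` iff `G` and `G'` agree on all cells outside `S`. -/
theorem sdiff_eq_sdiff_iff {G G' S : Gr n} :
    G \ S = G' \ S ↔ ∀ x y, ¬ adj S x y → (adj G x y ↔ adj G' x y) := by
  constructor
  · intro h x y hS
    have := congrArg (fun H => adj H x y) h
    simp only [adj_sdiff, hS, not_false_eq_true, and_true, eq_iff_iff] at this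
    exact this
  · intro h
    refine ext_adj fun a b => ?_
    simp only [adj_sdiff]
    by_cases hS : adj S a b
    · simp [hS]
    · simp [hS, h a b hS]

theorem mem_realizations {d : Fin n → ℕ} {G : Gr n} :
    G ∈ realizations d ↔ ∀ v, deg G v = d v := by
  simp [realizations]

/-- the degree counts the neighbours. -/
theorem deg_eq_card_adj (G : Gr n) (v : Fin n) :
    deg G v = (univ.filter fun w => adj G v w).card := by
  unfold deg
  symm
  refine card_bij' (fun w hw => mkE v w (by simp only [mem_filter] at hw; exact hw.2.ne))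
    (fun e he => Sym2.Mem.other (by simp only [mem_filter] at he; exact he.2 : v ∈ e.1)) ?_ ?_ ?_ ?_
  · intro w hw
    simp only [mem_filter, mem_univ, true_and] at hw
    simp only [mem_filter, mkE_val, Sym2.mem_iff, true_or, and_true]
    exact (adj_iff_mem hw.ne).1 hw
  · intro e he
    simp only [mem_filter] at he
    simp only [mem_filter, mem_univ, true_and]
    exact ⟨e, he.1, (Sym2.other_spec he.2).symm⟩
  · intro w hw
    simp only [mem_filter, mem_univ, true_and] at hw
    have hmem : v ∈ (mkE v w hw.ne).1 := by simp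
    have := Sym2.other_spec hmem
    simp only [mkE_val, Sym2.eq_iff, true_and] at this
    rcases this with h | ⟨h1, h2⟩
    · exact h
    · exact absurd h1 hw.ne
  · intro e he
    simp only [mem_filter] at he
    exact Subtype.ext (Sym2.other_spec he.2)

theorem deg_eq_sum_adj (G : Gr n) (v : Fin n) :
    deg G v = ∑ w, if adj G v w then 1 else 0 := by
  rw [deg_eq_card_adj, card_filter]

/-- additivity of the degree over a partition of the cells. -/
theorem deg_inter_add_sdiff (G S : Gr n) (v : Fin n) :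
    deg (G ∩ S) v + deg (G \ S) v = deg G v := by
  simp only [deg_eq_sum_adj, ← sum_add_distrib]
  refine sum_congr rfl fun w _ => ?_
  simp only [adj_inter, adj_sdiff]
  by_cases h1 : adj G v w <;> by_cases h2 : adj S v w <;> simp [h1, h2]

theorem deg_union_of_disjoint {G H : Gr n} (h : Disjoint G H) (v : Fin n) :
    deg (G ∪ H) v = deg G v + deg H v := by
  unfold deg
  rw [filter_union, card_union_of_disjoint]
  exact disjoint_filter_filter h

theorem deg_cell {a b : Fin n} (h : a ≠ b) (v : Fin n) :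
    deg (cell a b) v = if v = a ∨ v = b then 1 else 0 := by
  unfold deg
  rw [cell_eq_singleton h, filter_singleton]
  simp only [mkE_val, Sym2.mem_iff]
  split_ifs <;> simp

theorem disjoint_cell {a b c d : Fin n} (h : s(a, b) ≠ s(c, d)) : Disjoint (cell a b) (cell c d) := by
  rw [disjoint_left]
  intro e h1 h2
  rw [mem_cell] at h1 h2
  exact h (h1.symm.trans h2)

theorem swOK.ne_ac {G : Gr n} {a b c d : Fin n} (h : swOK G a b c d) : a ≠ c := h.1.ne
theorem swOK.ne_bd {G : Gr n} {a b c d : Fin n} (h : swOK G a b c d) : b ≠ d := h.2.1.ne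

/-- a switch preserves all degrees. -/
theorem deg_sw {G : Gr n} {a b c d : Fin n} (hd : dist4 a b c d) (h : swOK G a b c d)
    (v : Fin n) : deg (sw G a b c d) v = deg G v := by
  obtain ⟨hab, hac, had, hbc, hbd, hcd⟩ := hd
  obtain ⟨h1, h2, h3, h4⟩ := h
  have e1 : cell a c ∪ cell b d ⊆ G := by
    rw [cell_eq_singleton hac, cell_eq_singleton hbd]
    intro e he
    simp only [mem_union, mem_singleton] at he
    rcases he with rfl | rfl
    · exact (adj_iff_mem hac).1 h1
    · exact (adj_iff_mem hbd).1 h2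
  have e2 : Disjoint (G \ (cell a c ∪ cell b d)) (cell a d ∪ cell b c) := by
    rw [cell_eq_singleton had, cell_eq_singleton hbc]
    rw [disjoint_right]
    intro e he
    simp only [mem_union, mem_singleton] at he
    rcases he with rfl | rfl
    · intro hm; exact h3 ((adj_iff_mem had).2 (mem_sdiff.1 hm).1)
    · intro hm; exact h4 ((adj_iff_mem hbc).2 (mem_sdiff.1 hm).1)
  have e3 := deg_inter_add_sdiff G (cell a c ∪ cell b d) v
  rw [inter_eq_right.2 e1] at e3
  unfold sw
  rw [deg_union_of_disjoint e2, ← e3]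
  have key : deg (cell a d ∪ cell b c) v = deg (cell a c ∪ cell b d) v := by
    rw [deg_union_of_disjoint (disjoint_cell (by simp; tauto)),
      deg_union_of_disjoint (disjoint_cell (by simp; tauto)),
      deg_cell had, deg_cell hbc, deg_cell hac, deg_cell hbd]
    by_cases va : v = a
    · subst va; simp [hab, hac, had]
    by_cases vb : v = b
    · subst vb; simp [hab.symm, hbc, hbd]
    by_cases vc : v = c
    · subst vc; simp [hac.symm, hbc.symm, hcd]
    by_cases vd : v = d
    · subst vd; simp [had.symm, hbd.symm, hcd.symm]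
    simp [va, vb, vc, vd]
  omega

theorem sw_mem_realizations {dd : Fin n → ℕ} {G : Gr n} {a b c d : Fin n} (hd : dist4 a b c d)
    (h : swOK G a b c d) (hG : G ∈ realizations dd) : sw G a b c d ∈ realizations dd := by
  rw [mem_realizations] at hG ⊢
  intro v; rw [deg_sw hd h, hG]

theorem swOK_sw {G : Gr n} {a b c d : Fin n} (hd : dist4 a b c d) (h : swOK G a b c d) :
    swOK (sw G a b c d) a b d c := by
  obtain ⟨hab, hac, had, hbc, hbd, hcd⟩ := hd
  obtain ⟨h1, h2, h3, h4⟩ := h
  refine ⟨?_, ?_, ?_, ?_⟩ <;> rw [adj_sw] <;> simp <;> tauto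

theorem sw_sw {G : Gr n} {a b c d : Fin n} (hd : dist4 a b c d) (h : swOK G a b c d) :
    sw (sw G a b c d) a b d c = G := by
  obtain ⟨hab, hac, had, hbc, hbd, hcd⟩ := hd
  obtain ⟨h1, h2, h3, h4⟩ := h
  refine ext_adj fun x y => ?_
  simp only [adj_sw]
  constructor
  · rintro (⟨(⟨h, -, -⟩ | ⟨-, h⟩), h5, h6⟩ | ⟨hxy, (⟨rfl, rfl⟩ | ⟨rfl, rfl⟩) | (⟨rfl, rfl⟩ | ⟨rfl, rfl⟩)⟩)
    · exact h
    · tauto
    · exact h1
    · exact h1.symm
    · exact h2
    · exact h2.symm
  · intro h
    have hxy := h.ne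
    by_cases c1 : (x = a ∧ y = c ∨ x = c ∧ y = a)
    · right; tauto
    by_cases c2 : (x = b ∧ y = d ∨ x = d ∧ y = b)
    · right; tauto
    left
    refine ⟨Or.inl ⟨h, c1, c2⟩, ?_, ?_⟩
    · rintro (⟨rfl, rfl⟩ | ⟨rfl, rfl⟩)
      · exact h3 h
      · exact h3 h.symm
    · rintro (⟨rfl, rfl⟩ | ⟨rfl, rfl⟩)
      · exact h4 h
      · exact h4 h.symm

theorem sw_ne {G : Gr n} {a b c d : Fin n} (hd : dist4 a b c d) (h : swOK G a b c d) :
    sw G a b c d ≠ G := by
  intro he
  have := (swOK_sw hd h).1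
  rw [he] at this
  exact h.2.2.1 this

/-- the switch only changes the four cells `ac, ad, bc, bd`. -/
theorem sw_sdiff_mcells (G : Gr n) (a b c d : Fin n) :
    sw G a b c d \ mcells a b c d = G \ mcells a b c d := by
  rw [sdiff_eq_sdiff_iff]
  intro x y hS
  rw [adj_mcells] at hS
  rw [adj_sw]
  constructor
  · rintro (h | h)
    · exact h.1
    · exfalso; apply hS; tauto
  · intro h
    left
    refine ⟨h, ?_, ?_⟩ <;> intro h' <;> apply hS <;> have := h.ne <;> tauto

theorem mcells_subset_star2 (a b c d : Fin n) : mcells a b c d ⊆ star2 a b := by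
  intro e he
  simp only [mcells, mem_union, mem_cell] at he
  simp only [star2, star, mem_union, mem_filter, mem_univ, true_and]
  rcases he with ((h | h) | h) | h <;> rw [h] <;> simp

theorem mcells_subset_star2' (a b c d : Fin n) : mcells a b c d ⊆ star2 c d := by
  intro e he
  simp only [mcells, mem_union, mem_cell] at he
  simp only [star2, star, mem_union, mem_filter, mem_univ, true_and]
  rcases he with ((h | h) | h) | h <;> rw [h] <;> simp

/-- if `S ⊆ S'` then `G ↦ G \ S` is finer than `G ↦ G \ S'`. -/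
theorem sdiff_eq_of_subset {S S' G G' : Gr n} (hS : S ⊆ S') (h : G \ S = G' \ S) :
    G \ S' = G' \ S' := by
  have : ∀ H : Gr n, H \ S' = (H \ S) \ S' := fun H => by
    ext e; simp only [mem_sdiff]
    exact ⟨fun ⟨h1, h2⟩ => ⟨⟨h1, fun h3 => h2 (hS h3)⟩, h2⟩, fun ⟨⟨h1, _⟩, h2⟩ => ⟨h1, h2⟩⟩
  rw [this G, this G', h]

theorem finer_sdiff (Ω : Finset (Gr n)) {S S' : Gr n} (hS : S ⊆ S') :
    Finer Ω (fun G => G \ S) (fun G => G \ S') :=
  fun _ _ _ _ h => sdiff_eq_of_subset hS h

theorem sw_sdiff_star2 (G : Gr n) (a b c d : Fin n) :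
    sw G a b c d \ star2 a b = G \ star2 a b :=
  sdiff_eq_of_subset (mcells_subset_star2 a b c d) (sw_sdiff_mcells G a b c d)

theorem sw_sdiff_star2' (G : Gr n) (a b c d : Fin n) :
    sw G a b c d \ star2 c d = G \ star2 c d :=
  sdiff_eq_of_subset (mcells_subset_star2' a b c d) (sw_sdiff_mcells G a b c d)

theorem star2_comm (a b : Fin n) : star2 a b = star2 b a := union_comm _ _

theorem star2_subset_star3 (a b c : Fin n) : star2 a b ⊆ star3 a b c := subset_union_left
theorem star2_subset_star3' (a b c : Fin n) : star2 a c ⊆ star3 a b c := by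
  unfold star2 star3; intro e; simp only [mem_union]; tauto
theorem star2_subset_star3'' (a b c : Fin n) : star2 b c ⊆ star3 a b c := by
  unfold star2 star3; intro e; simp only [mem_union]; tauto

theorem Qp_comm (Ω : Finset (Gr n)) (a b : Fin n) (f : Gr n → ℝ) : Qp Ω a b f = Qp Ω b a f := by
  unfold Qp; rw [star2_comm]

theorem mcells_swap_left (a b c d : Fin n) : mcells b a c d = mcells a b c d := by
  unfold mcells; ext e; simp only [mem_union]; tauto
theorem mcells_swap_right (a b c d : Fin n) : mcells a b d c = mcells a b c d := by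
  unfold mcells; ext e; simp only [mem_union]; tauto
theorem mcells_swap_pairs (a b c d : Fin n) : mcells c d a b = mcells a b c d := by
  unfold mcells; rw [cell_comm c a, cell_comm c b, cell_comm d a, cell_comm d b]
  ext e; simp only [mem_union]; tauto

theorem swOK_swap_pairs {G : Gr n} {a b c d : Fin n} : swOK G c d a b ↔ swOK G a b c d := by
  unfold swOK; rw [adj_comm (a := c), adj_comm (a := d) (b := b), adj_comm (a := c) (b := b),
    adj_comm (a := d) (b := a)]; tauto

theorem swOK_swap_both {G : Gr n} {a b c d : Fin n} : swOK G b a d c ↔ swOK G a b c d := by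
  unfold swOK; tauto

theorem gsw_swap_pairs (a b c d : Fin n) : gsw c d a b = gsw a b c d := by
  funext G
  unfold gsw
  have h1 : swOK G c d a b ↔ swOK G a b c d := swOK_swap_pairs
  have h2 : swOK G c d b a ↔ swOK G a b d c := by
    rw [← swOK_swap_both, swOK_swap_pairs]
  simp only [h1, h2]

theorem gsw_swap_right (a b c d : Fin n) : gsw a b d c = gsw a b c d := by
  funext G; unfold gsw; simp only [or_comm]

theorem gsw_swap_left (a b c d : Fin n) : gsw b a c d = gsw a b c d := by
  funext G; unfold gsw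
  have h1 : swOK G b a c d ↔ swOK G a b d c := swOK_swap_both
  have h2 : swOK G b a d c ↔ swOK G a b c d := swOK_swap_both
  simp only [h1, h2, or_comm]

theorem Zt_swap_pairs (Ω : Finset (Gr n)) (f : Gr n → ℝ) (a b c d : Fin n) :
    Zt Ω f c d a b = Zt Ω f a b c d := by unfold Zt; rw [mcells_swap_pairs]

end Crest.Agent.Switch
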