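import Crest.Agent.Switch.LazyChain
import Crest.Agent.Switch.Graph

/-!
# M11b: the Dirichlet form of the lazy switch chain dominates the sum over switches
-/

set_option autoImplicit false
open Finset Crest.SwitchChain

namespace Crest.Agent.Switch.Dir
open Crest.Agent.Switch Crest.Agent.Switch.Lazy

section abstract

variable {α : Type*} [Fintype α] [DecidableEq α]
variable {K K' : Matrix α α ℝ} {Ω : Finset α}

lemma _root_.Crest.Agent.Switch.Lazy.LazyChain.K_row_on (H : LazyChain K K' Ω) {a : α} (ha : a ∈ Ω) : ∑ b ∈ Ω, K a b = 1 := by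
  rw [← H.K_row a]
  exact Finset.sum_subset (Finset.subset_univ _) fun b _ hb => H.K_closed ha hb

/-- Dirichlet form identity. -/
lemma _root_.Crest.Agent.Switch.Lazy.LazyChain.dirichlet_eq (H : LazyChain K K' Ω) (f : α → ℝ) :
    ∑ a ∈ Ω, f a * (f a - ∑ b ∈ Ω, K a b * f b)
      = (1 / 2) * ∑ a ∈ Ω, ∑ b ∈ Ω, K a b * (f a - f b) ^ 2 := by
  have e1 : ∑ a ∈ Ω, ∑ b ∈ Ω, K a b * (f a - f b) ^ 2
      = ∑ a ∈ Ω, ∑ b ∈ Ω, K a b * f a ^ 2 + ∑ a ∈ Ω, ∑ b ∈ Ω, K a b * f b ^ 2
        - 2 * ∑ a ∈ Ω, ∑ b ∈ Ω, K a b * (f a * f b) := by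
    rw [Finset.mul_sum, ← Finset.sum_add_distrib, ← Finset.sum_sub_distrib]
    refine Finset.sum_congr rfl fun a _ => ?_
    rw [Finset.mul_sum, ← Finset.sum_add_distrib, ← Finset.sum_sub_distrib]
    refine Finset.sum_congr rfl fun b _ => ?_
    ring
  have e2 : ∑ a ∈ Ω, ∑ b ∈ Ω, K a b * f a ^ 2 = ∑ a ∈ Ω, f a ^ 2 := by
    refine Finset.sum_congr rfl fun a ha => ?_
    rw [← Finset.sum_mul, H.K_row_on ha, one_mul]
  have e3 : ∑ a ∈ Ω, ∑ b ∈ Ω, K a b * f b ^ 2 = ∑ a ∈ Ω, f a ^ 2 := by
    rw [Finset.sum_comm]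
    refine Finset.sum_congr rfl fun b hb => ?_
    rw [← Finset.sum_mul]
    have : ∑ a ∈ Ω, K a b = 1 := by
      rw [← H.K_row_on hb]; exact Finset.sum_congr rfl fun a _ => H.K_symm a b
    rw [this, one_mul]
  have e4 : ∑ a ∈ Ω, f a * (f a - ∑ b ∈ Ω, K a b * f b)
      = ∑ a ∈ Ω, f a ^ 2 - ∑ a ∈ Ω, ∑ b ∈ Ω, K a b * (f a * f b) := by
    rw [← Finset.sum_sub_distrib]
    refine Finset.sum_congr rfl fun a _ => ?_
    rw [mul_sub, Finset.mul_sum, sq]
    congr 1
    refine Finset.sum_congr rfl fun b _ => ?_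
    ring
  rw [e1, e2, e3, e4]; ring

end abstract

variable {n : ℕ}

/-- the edge `{a,b}`. -/
def mkEdge (a b : Fin n) (h : a ≠ b) : Edge n := ⟨s(a, b), by simpa using h⟩

lemma cell_eq_singleton {a b : Fin n} (h : a ≠ b) : cell a b = {mkEdge a b h} := by
  ext e
  simp only [cell, mem_filter, mem_univ, true_and, mem_singleton, mkEdge]
  constructor
  · intro he; exact Subtype.ext he
  · intro he; rw [he]

lemma adj_iff_mem {G : Gr n} {a b : Fin n} (h : a ≠ b) : adj G a b ↔ mkEdge a b h ∈ G := by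
  unfold adj
  constructor
  · rintro ⟨e, he, h2⟩
    have : e = mkEdge a b h := Subtype.ext h2
    rwa [← this]
  · intro he; exact ⟨_, he, rfl⟩

lemma mkEdge_ne {a b c d : Fin n} (hab : a ≠ b) (hcd : c ≠ d) (h1 : a ≠ c) (h2 : a ≠ d) :
    mkEdge a b hab ≠ mkEdge c d hcd := by
  intro h
  have := congrArg Subtype.val h
  simp only [mkEdge, Sym2.eq_iff] at this
  rcases this with ⟨h, _⟩ | ⟨h, _⟩
  · exact h1 h
  · exact h2 h

lemma mem_mkEdge {a b v : Fin n} (h : a ≠ b) : v ∈ (mkEdge a b h).1 ↔ v = a ∨ v = b := by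
  simp [mkEdge]

lemma pm_mem {a b c d : Fin n} (h : dist4 a b c d) :
    cell a c ∪ cell b d ∈ pmSet ({a, b, c, d} : Finset (Fin n)) := by
  obtain ⟨hab, hac, had, hbc, hbd, hcd⟩ := h
  rw [cell_eq_singleton hac, cell_eq_singleton hbd]
  have hne : mkEdge a c hac ≠ mkEdge b d hbd := mkEdge_ne _ _ hab had
  unfold pmSet
  rw [mem_filter, mem_powersetCard]
  refine ⟨⟨subset_univ _, ?_⟩, ?_, ?_⟩
  · rw [← insert_eq, card_pair hne]
  · intro e he v hv
    rw [mem_union, mem_singleton, mem_singleton] at he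
    rcases he with rfl | rfl
    · rw [mem_mkEdge] at hv
      rcases hv with rfl | rfl <;> simp
    · rw [mem_mkEdge] at hv
      rcases hv with rfl | rfl <;> simp
  · intro v hv
    rw [← insert_eq, filter_insert, filter_singleton]
    simp only [mem_mkEdge]
    simp only [mem_insert, mem_singleton] at hv
    rcases hv with rfl | rfl | rfl | rfl
    · simp [hab, had]
    · simp [hab.symm, hbc]
    · simp [hac.symm, hbc.symm, hcd]
    · simp [had.symm, hbd.symm, hcd.symm]

lemma dist4_swap34 {a b c d : Fin n} (h : dist4 a b c d) : dist4 a b d c := by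
  obtain ⟨hab, hac, had, hbc, hbd, hcd⟩ := h
  exact ⟨hab, had, hac, hbd, hbc, hcd.symm⟩

lemma card_four {a b c d : Fin n} (h : dist4 a b c d) :
    ({a, b, c, d} : Finset (Fin n)) ∈ (univ : Finset (Fin n)).powersetCard 4 := by
  obtain ⟨hab, hac, had, hbc, hbd, hcd⟩ := h
  rw [mem_powersetCard]
  refine ⟨subset_univ _, ?_⟩
  rw [card_insert_of_notMem (by simp [hab, hac, had]), card_insert_of_notMem (by simp [hbc, hbd]),
    card_pair hcd]

lemma pm_mem' {a b c d : Fin n} (h : dist4 a b c d) :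
    cell a d ∪ cell b c ∈ pmSet ({a, b, c, d} : Finset (Fin n)) := by
  have := pm_mem (dist4_swap34 h)
  have e : ({a, b, d, c} : Finset (Fin n)) = {a, b, c, d} := by
    ext x; simp only [mem_insert, mem_singleton]; tauto
  rwa [e] at this

lemma pm_ne {a b c d : Fin n} (h : dist4 a b c d) :
    cell a d ∪ cell b c ≠ cell a c ∪ cell b d := by
  obtain ⟨hab, hac, had, hbc, hbd, hcd⟩ := h
  rw [cell_eq_singleton hac, cell_eq_singleton hbd, cell_eq_singleton had, cell_eq_singleton hbc]
  intro he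
  have : mkEdge a d had ∈ ({mkEdge a c hac} ∪ {mkEdge b d hbd} : Finset (Edge n)) := by
    rw [← he]; simp
  rw [mem_union, mem_singleton, mem_singleton] at this
  rcases this with h | h
  · have := congrArg Subtype.val h
    simp only [mkEdge, Sym2.eq_iff] at this
    rcases this with ⟨_, h⟩ | ⟨h, _⟩
    · exact hcd h.symm
    · exact hac h
  · exact mkEdge_ne had hbd hab had h

lemma switchResult_eq_sw {G : Gr n} {a b c d : Fin n} (h : dist4 a b c d) (hs : swOK G a b c d) :
    switchResult G (cell a c ∪ cell b d) (cell a d ∪ cell b c) = sw G a b c d := by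
  obtain ⟨hab, hac, had, hbc, hbd, hcd⟩ := h
  obtain ⟨h1, h2, h3, h4⟩ := hs
  rw [adj_iff_mem hac] at h1
  rw [adj_iff_mem hbd] at h2
  rw [adj_iff_mem had] at h3
  rw [adj_iff_mem hbc] at h4
  unfold switchResult sw
  rw [if_pos]
  rw [cell_eq_singleton hac, cell_eq_singleton hbd, cell_eq_singleton had, cell_eq_singleton hbc]
  constructor
  · intro e he
    rw [mem_union, mem_singleton, mem_singleton] at he
    rcases he with rfl | rfl <;> assumption
  · rw [disjoint_left]
    intro e he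
    rw [mem_union, mem_singleton, mem_singleton] at he
    rcases he with rfl | rfl <;> assumption

/-- tuples of four distinct vertices -/
def tup4 (n : ℕ) : Finset (Fin n × Fin n × Fin n × Fin n) :=
  univ.filter fun t => dist4 t.1 t.2.1 t.2.2.1 t.2.2.2

/-- all proposals `(S, F, F')`. -/
def props (n : ℕ) : Finset (Σ _ : Finset (Fin n), Σ _ : Gr n, Gr n) :=
  ((univ : Finset (Fin n)).powersetCard 4).sigma fun S =>
    (pmSet S).sigma fun F => (pmSet S).erase F

/-- the proposal of a tuple -/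
def toProp (t : Fin n × Fin n × Fin n × Fin n) : Σ _ : Finset (Fin n), Σ _ : Gr n, Gr n :=
  ⟨{t.1, t.2.1, t.2.2.1, t.2.2.2},
    ⟨cell t.1 t.2.2.1 ∪ cell t.2.1 t.2.2.2, cell t.1 t.2.2.2 ∪ cell t.2.1 t.2.2.1⟩⟩

lemma toProp_mem {t : Fin n × Fin n × Fin n × Fin n} (ht : t ∈ tup4 n) : toProp t ∈ props n := by
  obtain ⟨a, b, c, d⟩ := t
  simp only [tup4, mem_filter, mem_univ, true_and] at ht
  simp only [props, toProp, mem_sigma, mem_erase]
  exact ⟨card_four ht, pm_mem ht, pm_ne ht, pm_mem' ht⟩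

lemma proposalCount_eq (E E' : Gr n) :
    proposalCount E E' = ∑ p ∈ props n, if switchResult E p.2.1 p.2.2 = E' then 1 else 0 := by
  unfold proposalCount props
  rw [Finset.sum_sigma]
  refine Finset.sum_congr rfl fun S _ => ?_
  rw [Finset.sum_sigma]

/-- the fibre of `toProp` has at most 4 elements -/
lemma card_fibre_le (p : Σ _ : Finset (Fin n), Σ _ : Gr n, Gr n) (hp : p ∈ props n) :
    ((tup4 n).filter fun t => toProp t = p).card ≤ 4 := by
  have hS : p.1.card = 4 := by
    simp only [props, mem_sigma, mem_powersetCard] at hp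
    exact hp.1.2
  rw [← hS]
  refine Finset.card_le_card_of_injOn (fun t => t.1) ?_ ?_
  · intro t ht
    simp only [coe_filter, Set.mem_ofPred_eq] at ht
    rw [← ht.2]
    simp [toProp]
  · intro t ht t' ht' htt
    simp only [coe_filter, Set.mem_ofPred_eq] at ht ht'
    obtain ⟨a, b, c, d⟩ := t
    obtain ⟨a', b', c', d'⟩ := t'
    have e : toProp (a, b, c, d) = toProp (a', b', c', d') := ht.2.trans ht'.2.symm
    have h1 := ht.1
    have h2 := ht'.1
    simp only [tup4, mem_filter, mem_univ, true_and] at h1 h2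
    obtain ⟨hab, hac, had, hbc, hbd, hcd⟩ := h1
    obtain ⟨hab', hac', had', hbc', hbd', hcd'⟩ := h2
    simp only at htt
    subst htt
    simp only [toProp, Sigma.mk.injEq, heq_eq_eq] at e
    obtain ⟨_, eF, eF'⟩ := e
    rw [cell_eq_singleton hac, cell_eq_singleton hbd, cell_eq_singleton hac',
      cell_eq_singleton hbd'] at eF
    rw [cell_eq_singleton had, cell_eq_singleton hbc, cell_eq_singleton had',
      cell_eq_singleton hbc'] at eF'
    -- c = c'
    have hc : c = c' := by
      have : mkEdge a c hac ∈ ({mkEdge a c' hac'} ∪ {mkEdge b' d' hbd'} : Finset (Edge n)) := by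
        rw [← eF]; simp
      rw [mem_union, mem_singleton, mem_singleton] at this
      rcases this with h | h
      · have := congrArg Subtype.val h
        simp only [mkEdge, Sym2.eq_iff] at this
        rcases this with ⟨_, h⟩ | ⟨h, h'⟩
        · exact h
        · exact absurd h hac'
      · exact absurd h (mkEdge_ne _ _ hab' had')
    have hd : d = d' := by
      have : mkEdge a d had ∈ ({mkEdge a d' had'} ∪ {mkEdge b' c' hbc'} : Finset (Edge n)) := by
        rw [← eF']; simp
      rw [mem_union, mem_singleton, mem_singleton] at this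
      rcases this with h | h
      · have := congrArg Subtype.val h
        simp only [mkEdge, Sym2.eq_iff] at this
        rcases this with ⟨_, h⟩ | ⟨h, h'⟩
        · exact h
        · exact absurd h had'
      · exact absurd h (mkEdge_ne _ _ hab' hac')
    subst hc hd
    have hb : b = b' := by
      have : mkEdge b d hbd ∈ ({mkEdge a c hac'} ∪ {mkEdge b' d hbd'} : Finset (Edge n)) := by
        rw [← eF]; simp
      rw [mem_union, mem_singleton, mem_singleton] at this
      rcases this with h | h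
      · exact absurd h (mkEdge_ne _ _ hab.symm hbc)
      · have := congrArg Subtype.val h
        simp only [mkEdge, Sym2.eq_iff] at this
        rcases this with ⟨h, _⟩ | ⟨h, h'⟩
        · exact h
        · exact absurd h hbd
    subst hb
    rfl


section final

variable {d : Fin n → ℕ} {K' : Matrix (Gr n) (Gr n) ℝ}

lemma choose4_pos (hn : 4 ≤ n) : (0 : ℝ) < (n.choose 4 : ℝ) := by
  exact_mod_cast Nat.choose_pos hn

lemma switchResult_mem (hn : 4 ≤ n) (H : LazyChain (kernel n) K' (realizations d))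
    {G : Gr n} (hG : G ∈ realizations d) {p : Σ _ : Finset (Fin n), Σ _ : Gr n, Gr n}
    (hp : p ∈ props n) : switchResult G p.2.1 p.2.2 ∈ realizations d := by
  by_contra hcon
  have h0 := H.K_closed hG hcon
  have hne : G ≠ switchResult G p.2.1 p.2.2 := by
    intro h; rw [← h] at hcon; exact hcon hG
  unfold kernel at h0
  rw [if_neg hne, zero_add] at h0
  have hpos : 1 ≤ proposalCount G (switchResult G p.2.1 p.2.2) := by
    rw [proposalCount_eq]
    calc 1 = if switchResult G p.2.1 p.2.2 = switchResult G p.2.1 p.2.2 then 1 else 0 := by simp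
      _ ≤ _ := Finset.single_le_sum
          (f := fun q : (Σ _ : Finset (Fin n), Σ _ : Gr n, Gr n) =>
            if switchResult G q.2.1 q.2.2 = switchResult G p.2.1 p.2.2 then 1 else 0)
          (fun _ _ => Nat.zero_le _) hp
  have hC := choose4_pos hn
  have : (0 : ℝ) < (proposalCount G (switchResult G p.2.1 p.2.2) : ℝ) / (12 * (n.choose 4 : ℝ)) := by
    have : (0 : ℝ) < (proposalCount G (switchResult G p.2.1 p.2.2) : ℝ) := by exact_mod_cast hpos
    positivity
  linarith

lemma sum_kernel_sq (hn : 4 ≤ n) (H : LazyChain (kernel n) K' (realizations d))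
    {G : Gr n} (hG : G ∈ realizations d) (f : Gr n → ℝ) :
    ∑ G' ∈ realizations d, kernel n G G' * (f G - f G') ^ 2
      = (1 / (12 * (n.choose 4 : ℝ))) * ∑ p ∈ props n, (f G - f (switchResult G p.2.1 p.2.2)) ^ 2 := by
  have e1 : ∀ G' ∈ realizations d, kernel n G G' * (f G - f G') ^ 2
      = (1 / (12 * (n.choose 4 : ℝ))) *
        ∑ p ∈ props n, if switchResult G p.2.1 p.2.2 = G' then (f G - f G') ^ 2 else 0 := by
    intro G' _
    unfold kernel
    rw [proposalCount_eq]
    by_cases h : G = G'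
    · subst h; simp
    · rw [if_neg h, zero_add]
      push_cast
      rw [div_mul_eq_mul_div, Finset.sum_mul, Finset.mul_sum, Finset.sum_div]
      refine Finset.sum_congr rfl fun p _ => ?_
      split_ifs <;> ring
  rw [Finset.sum_congr rfl e1, ← Finset.mul_sum, Finset.sum_comm]
  congr 1
  refine Finset.sum_congr rfl fun p hp => ?_
  rw [Finset.sum_ite_eq, if_pos (switchResult_mem hn H hG hp)]

lemma sum_tup_le (G : Gr n) (f : Gr n → ℝ) :
    ∑ t ∈ tup4 n, (if swOK G t.1 t.2.1 t.2.2.1 t.2.2.2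
        then (f G - f (sw G t.1 t.2.1 t.2.2.1 t.2.2.2)) ^ 2 else 0)
      ≤ 4 * ∑ p ∈ props n, (f G - f (switchResult G p.2.1 p.2.2)) ^ 2 := by
  calc ∑ t ∈ tup4 n, (if swOK G t.1 t.2.1 t.2.2.1 t.2.2.2
        then (f G - f (sw G t.1 t.2.1 t.2.2.1 t.2.2.2)) ^ 2 else 0)
      ≤ ∑ t ∈ tup4 n, (f G - f (switchResult G (toProp t).2.1 (toProp t).2.2)) ^ 2 := by
        refine Finset.sum_le_sum fun t ht => ?_
        obtain ⟨a, b, c, d⟩ := t
        simp only [tup4, mem_filter, mem_univ, true_and] at ht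
        split_ifs with hs
        · simp only [toProp]
          rw [switchResult_eq_sw ht hs]
        · exact sq_nonneg _
    _ = ∑ p ∈ props n, ∑ t ∈ (tup4 n).filter (fun t => toProp t = p),
          (f G - f (switchResult G (toProp t).2.1 (toProp t).2.2)) ^ 2 :=
        (Finset.sum_fiberwise_of_maps_to (fun t ht => toProp_mem ht) _).symm
    _ ≤ ∑ p ∈ props n, 4 * (f G - f (switchResult G p.2.1 p.2.2)) ^ 2 := by
        refine Finset.sum_le_sum fun p hp => ?_
        have : ∀ t ∈ (tup4 n).filter (fun t => toProp t = p),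
            (f G - f (switchResult G (toProp t).2.1 (toProp t).2.2)) ^ 2
              = (f G - f (switchResult G p.2.1 p.2.2)) ^ 2 := by
          intro t ht
          rw [(mem_filter.mp ht).2]
        rw [Finset.sum_congr rfl this, Finset.sum_const, nsmul_eq_mul]
        have hc : (((tup4 n).filter fun t => toProp t = p).card : ℝ) ≤ 4 := by
          exact_mod_cast card_fibre_le p hp
        exact mul_le_mul_of_nonneg_right hc (sq_nonneg _)
    _ = 4 * ∑ p ∈ props n, (f G - f (switchResult G p.2.1 p.2.2)) ^ 2 := by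
        rw [Finset.mul_sum]

/-- **M11b**: the Dirichlet form dominates the sum over all switches. -/
theorem dirichlet_ge (hn : 4 ≤ n) (H : LazyChain (kernel n) K' (realizations d)) (f : Gr n → ℝ) :
    (1 / (96 * (n.choose 4 : ℝ))) * ∑ G ∈ realizations d, ∑ t ∈ tup4 n,
        (if swOK G t.1 t.2.1 t.2.2.1 t.2.2.2
          then (f G - f (sw G t.1 t.2.1 t.2.2.1 t.2.2.2)) ^ 2 else 0)
      ≤ ∑ G ∈ realizations d, f G * (f G - ∑ G' ∈ realizations d, kernel n G G' * f G') := by
  rw [H.dirichlet_eq, Finset.sum_congr rfl fun G hG => sum_kernel_sq hn H hG f, ← Finset.mul_sum]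
  have hC := choose4_pos hn
  have key : ∑ G ∈ realizations d, ∑ t ∈ tup4 n,
        (if swOK G t.1 t.2.1 t.2.2.1 t.2.2.2
          then (f G - f (sw G t.1 t.2.1 t.2.2.1 t.2.2.2)) ^ 2 else 0)
      ≤ 4 * ∑ G ∈ realizations d, ∑ p ∈ props n, (f G - f (switchResult G p.2.1 p.2.2)) ^ 2 := by
    rw [Finset.mul_sum]
    exact Finset.sum_le_sum fun G _ => sum_tup_le G f
  have e : (1 / 2 : ℝ) * (1 / (12 * (n.choose 4 : ℝ)) *
      ∑ G ∈ realizations d, ∑ p ∈ props n, (f G - f (switchResult G p.2.1 p.2.2)) ^ 2)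
      = (1 / (96 * (n.choose 4 : ℝ))) *
        (4 * ∑ G ∈ realizations d, ∑ p ∈ props n, (f G - f (switchResult G p.2.1 p.2.2)) ^ 2) := by
    field_simp; ring
  rw [e]
  exact mul_le_mul_of_nonneg_left key (by positivity)

end final

lemma sum4_eq (F : Fin n → Fin n → Fin n → Fin n → ℝ) :
    (∑ a, ∑ b, ∑ c, ∑ e, if dist4 a b c e then F a b c e else 0)
      = ∑ t ∈ tup4 n, F t.1 t.2.1 t.2.2.1 t.2.2.2 := by
  unfold tup4
  rw [Finset.sum_filter]
  simp only [Fintype.sum_prod_type]

/-- M11b in the form of the skeleton, from the kernel facts. -/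
theorem dirichlet_lower_of_lazy (hn : 4 ≤ n) {d : Fin n → ℕ} {K' : Matrix (Gr n) (Gr n) ℝ}
    (H : LazyChain (kernel n) K' (realizations d)) (f : Gr n → ℝ) :
    (∑ a, ∑ b, ∑ c, ∑ e, if dist4 a b c e then Zx (realizations d) f a b c e else 0)
      ≤ 48 * (n.choose 4 : ℝ) * ∑ G ∈ realizations d,
          f G * (f G - ∑ G' ∈ realizations d, kernel n G G' * f G') := by
  have hC := choose4_pos hn
  have h := dirichlet_ge hn H f
  rw [sum4_eq]
  unfold Zx
  rw [← Finset.mul_sum]
  simp only [Finset.sum_filter]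
  rw [Finset.sum_comm]
  set A := ∑ G ∈ realizations d, ∑ t ∈ tup4 n,
        (if swOK G t.1 t.2.1 t.2.2.1 t.2.2.2
          then (f G - f (sw G t.1 t.2.1 t.2.2.1 t.2.2.2)) ^ 2 else 0) with hA
  set B := ∑ G ∈ realizations d, f G * (f G - ∑ G' ∈ realizations d, kernel n G G' * f G')
  have h2 : A ≤ 96 * (n.choose 4 : ℝ) * B := by
    have : 1 / (96 * (n.choose 4 : ℝ)) * A = A / (96 * (n.choose 4 : ℝ)) := by ring
    rw [this, div_le_iff₀ (by positivity)] at h
    linarith
  linarith

end Crest.Agent.Switch.Dir
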