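import Crest.Prelude.Def_SwitchChain

/-!
Basic facts on the transition matrix `Crest.SwitchChain.kernel` (row 299, S0453):
perfect matchings on a four-set, degree preservation, symmetry, row sums, laziness.
-/

set_option autoImplicit false
open Finset

namespace Crest.Agent.Switch.Ker
open Crest.SwitchChain

variable {n : ℕ}

/-- the edge `xy` -/
def mkE (x y : Fin n) (h : x ≠ y) : Edge n := ⟨s(x, y), by simpa using h⟩

@[simp] lemma mem_mkE (x y : Fin n) (h : x ≠ y) (v : Fin n) :
    v ∈ (mkE x y h).1 ↔ v = x ∨ v = y := by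
  simp [mkE]

lemma mkE_eq_iff (x y x' y' : Fin n) (h : x ≠ y) (h' : x' ≠ y') :
    mkE x y h = mkE x' y' h' ↔ (x = x' ∧ y = y') ∨ (x = y' ∧ y = x') := by
  simp [mkE, Subtype.ext_iff]

lemma edge_exists (e : Edge n) (v : Fin n) (hv : v ∈ e.1) :
    ∃ (w : Fin n) (h : v ≠ w), e = mkE v w h := by
  obtain ⟨w, hw⟩ := Sym2.mem_iff_exists.1 hv
  have hne : v ≠ w := by
    intro h
    apply e.2
    rw [hw, h]
    simp
  exact ⟨w, hne, Subtype.ext hw⟩

lemma mem_pmSet {S : Finset (Fin n)} {F : Finset (Edge n)} :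
    F ∈ pmSet S ↔ F.card = 2 ∧ (∀ e ∈ F, ∀ v : Fin n, v ∈ e.1 → v ∈ S) ∧
      ∀ v ∈ S, (F.filter fun e => v ∈ e.1).card = 1 := by
  simp [pmSet, Finset.mem_powersetCard]

lemma pm_filter_card {S : Finset (Fin n)} {F : Finset (Edge n)} (hF : F ∈ pmSet S) (v : Fin n) :
    (F.filter fun e => v ∈ e.1).card = if v ∈ S then 1 else 0 := by
  obtain ⟨_, h1, h2⟩ := mem_pmSet.1 hF
  split_ifs with hv
  · exact h2 v hv
  · rw [Finset.card_eq_zero, Finset.filter_eq_empty_iff]
    intro e he hve
    exact hv (h1 e he v hve)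

/-- a switch keeps all degrees -/
lemma deg_switch {S : Finset (Fin n)} {E F F' : Finset (Edge n)} (hF : F ∈ pmSet S)
    (hF' : F' ∈ pmSet S) (hsub : F ⊆ E) (hdis : Disjoint F' E) (v : Fin n) :
    deg (E \ F ∪ F') v = deg E v := by
  unfold deg
  have h1 : ((E \ F ∪ F').filter fun e => v ∈ e.1).card =
      ((E \ F).filter fun e => v ∈ e.1).card + (F'.filter fun e => v ∈ e.1).card := by
    rw [Finset.filter_union, Finset.card_union_of_disjoint]
    apply Finset.disjoint_filter_filter
    exact (hdis.mono_right Finset.sdiff_subset).symm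
  have h2 : (E.filter fun e => v ∈ e.1).card =
      ((E \ F).filter fun e => v ∈ e.1).card + (F.filter fun e => v ∈ e.1).card := by
    conv_lhs => rw [← Finset.sdiff_union_of_subset hsub]
    rw [Finset.filter_union, Finset.card_union_of_disjoint]
    apply Finset.disjoint_filter_filter
    exact Finset.sdiff_disjoint
  rw [h1, h2, pm_filter_card hF, pm_filter_card hF']

lemma deg_switchResult {S : Finset (Fin n)} {E F F' : Finset (Edge n)} (hF : F ∈ pmSet S)
    (hF' : F' ∈ pmSet S) (v : Fin n) :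
    deg (switchResult E F F') v = deg E v := by
  unfold switchResult
  split_ifs with h
  · exact deg_switch hF hF' h.1 h.2 v
  · rfl


lemma pair_mem_pmSet {a x y z : Fin n} (hax : a ≠ x) (hay : a ≠ y) (haz : a ≠ z)
    (hxy : x ≠ y) (hxz : x ≠ z) (hyz : y ≠ z) :
    ({mkE a x hax, mkE y z hyz} : Finset (Edge n)) ∈ pmSet {a, x, y, z} := by
  have hne : mkE a x hax ≠ mkE y z hyz := by
    rw [Ne, mkE_eq_iff]
    rintro (⟨h, _⟩ | ⟨h, _⟩)
    · exact hay h
    · exact haz h
  refine mem_pmSet.2 ⟨Finset.card_pair hne, ?_, ?_⟩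
  · intro e he v hv
    simp only [Finset.mem_insert, Finset.mem_singleton] at he ⊢
    rcases he with rfl | rfl
    · rcases (mem_mkE _ _ _ _).1 hv with h | h <;> simp [h]
    · rcases (mem_mkE _ _ _ _).1 hv with h | h <;> simp [h]
  · intro v hv
    simp only [Finset.mem_insert, Finset.mem_singleton] at hv
    rw [Finset.filter_insert, Finset.filter_singleton]
    simp only [mem_mkE]
    rcases hv with rfl | rfl | rfl | rfl
    · simp [hay, haz]
    · simp [hxy, hxz]
    · simp [hay.symm, hxy.symm]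
    · simp [haz.symm, hxz.symm]

lemma pm_unique {S : Finset (Fin n)} {F : Finset (Edge n)} (hF : F ∈ pmSet S) {v : Fin n}
    (hv : v ∈ S) {e e' : Edge n} (he : e ∈ F) (he' : e' ∈ F) (hve : v ∈ e.1) (hve' : v ∈ e'.1) :
    e = e' := by
  obtain ⟨_, _, h2⟩ := mem_pmSet.1 hF
  have := Finset.card_le_one.1 (h2 v hv).le
  exact this e (by simp [he, hve]) e' (by simp [he', hve'])

lemma pm_exists {S : Finset (Fin n)} {F : Finset (Edge n)} (hF : F ∈ pmSet S) {v : Fin n}
    (hv : v ∈ S) : ∃ e ∈ F, v ∈ e.1 := by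
  obtain ⟨_, _, h2⟩ := mem_pmSet.1 hF
  have : 0 < (F.filter fun e => v ∈ e.1).card := by rw [h2 v hv]; exact one_pos
  obtain ⟨e, he⟩ := Finset.card_pos.1 this
  exact ⟨e, (Finset.mem_filter.1 he).1, (Finset.mem_filter.1 he).2⟩

lemma pm_eq_of_mem {a x y z : Fin n} (hax : a ≠ x) (hay : a ≠ y) (haz : a ≠ z)
    (hxy : x ≠ y) (hxz : x ≠ z) (hyz : y ≠ z) {F : Finset (Edge n)}
    (hF : F ∈ pmSet {a, x, y, z}) (he : mkE a x hax ∈ F) :
    F = {mkE a x hax, mkE y z hyz} := by
  obtain ⟨hc, h1, _⟩ := mem_pmSet.1 hF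
  obtain ⟨e', he', hye'⟩ := pm_exists hF (v := y) (by simp)
  obtain ⟨w, hyw, rfl⟩ := edge_exists e' y hye'
  have hwS : w ∈ ({a, x, y, z} : Finset (Fin n)) := h1 _ he' w (by simp)
  have hne : mkE a x hax ≠ mkE y w hyw := by
    rw [Ne, mkE_eq_iff]
    rintro (⟨h, _⟩ | ⟨_, h⟩)
    · exact hay h
    · exact hxy h
  have hwz : w = z := by
    simp only [Finset.mem_insert, Finset.mem_singleton] at hwS
    rcases hwS with rfl | rfl | rfl | rfl
    · exact absurd (pm_unique hF (v := w) (by simp) he he' (by simp) (by simp)) hne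
    · exact absurd (pm_unique hF (v := w) (by simp) he he' (by simp) (by simp)) hne
    · exact absurd rfl hyw
    · rfl
  subst hwz
  symm
  apply Finset.eq_of_subset_of_card_le
  · intro e hee
    simp only [Finset.mem_insert, Finset.mem_singleton] at hee
    rcases hee with rfl | rfl
    · exact he
    · exact he'
  · rw [hc, Finset.card_pair hne]

lemma card_pmSet {S : Finset (Fin n)} (hS : S.card = 4) : (pmSet S).card = 3 := by
  obtain ⟨a, S1, ha, rfl, hS1⟩ := Finset.card_eq_succ.1 hS
  obtain ⟨b, S2, hb, rfl, hS2⟩ := Finset.card_eq_succ.1 hS1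
  obtain ⟨c, d, hcd, rfl⟩ := Finset.card_eq_two.1 hS2
  simp only [Finset.mem_insert, Finset.mem_singleton, not_or] at ha hb
  obtain ⟨hab, hac, had⟩ := ha
  obtain ⟨hbc, hbd⟩ := hb
  have hperm1 : ({a, b, c, d} : Finset (Fin n)) = {a, c, b, d} := by
    ext v; simp only [Finset.mem_insert, Finset.mem_singleton]; tauto
  have hperm2 : ({a, b, c, d} : Finset (Fin n)) = {a, d, b, c} := by
    ext v; simp only [Finset.mem_insert, Finset.mem_singleton]; tauto
  have key : pmSet ({a, b, c, d} : Finset (Fin n)) =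
      {{mkE a b hab, mkE c d hcd}, {mkE a c hac, mkE b d hbd}, {mkE a d had, mkE b c hbc}} := by
    ext F
    simp only [Finset.mem_insert, Finset.mem_singleton]
    constructor
    · intro hF
      obtain ⟨e, he, hae⟩ := pm_exists hF (v := a) (by simp)
      obtain ⟨w, haw, rfl⟩ := edge_exists e a hae
      have hwS : w ∈ ({a, b, c, d} : Finset (Fin n)) := (mem_pmSet.1 hF).2.1 _ he w (by simp)
      simp only [Finset.mem_insert, Finset.mem_singleton] at hwS
      rcases hwS with rfl | rfl | rfl | rfl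
      · exact absurd rfl haw
      · exact Or.inl (pm_eq_of_mem hab hac had hbc hbd hcd hF he)
      · exact Or.inr (Or.inl (pm_eq_of_mem hac hab had (Ne.symm hbc) hcd hbd (hperm1 ▸ hF) he))
      · exact Or.inr (Or.inr (pm_eq_of_mem had hab hac (Ne.symm hbd) (Ne.symm hcd) hbc (hperm2 ▸ hF) he))
    · rintro (rfl | rfl | rfl)
      · exact pair_mem_pmSet hab hac had hbc hbd hcd
      · rw [hperm1]; exact pair_mem_pmSet hac hab had (Ne.symm hbc) hcd hbd
      · rw [hperm2]; exact pair_mem_pmSet had hab hac (Ne.symm hbd) (Ne.symm hcd) hbc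
  rw [key]
  have hmem : ∀ (x y : Fin n) (hxy : x ≠ y) (e1 e2 : Edge n),
      mkE x y hxy ∈ ({e1, e2} : Finset (Edge n)) ↔ mkE x y hxy = e1 ∨ mkE x y hxy = e2 := by
    intro x y hxy e1 e2; simp
  have n12 : ({mkE a b hab, mkE c d hcd} : Finset (Edge n)) ≠ {mkE a c hac, mkE b d hbd} := by
    intro h
    have : mkE a b hab ∈ ({mkE a c hac, mkE b d hbd} : Finset (Edge n)) := by rw [← h]; simp
    rw [hmem, mkE_eq_iff, mkE_eq_iff] at this
    rcases this with (⟨_, h⟩ | ⟨h, _⟩) | (⟨h, _⟩ | ⟨h, _⟩)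
    · exact hbc h
    · exact hac h
    · exact hab h
    · exact had h
  have n13 : ({mkE a b hab, mkE c d hcd} : Finset (Edge n)) ≠ {mkE a d had, mkE b c hbc} := by
    intro h
    have : mkE a b hab ∈ ({mkE a d had, mkE b c hbc} : Finset (Edge n)) := by rw [← h]; simp
    rw [hmem, mkE_eq_iff, mkE_eq_iff] at this
    rcases this with (⟨_, h⟩ | ⟨h, _⟩) | (⟨h, _⟩ | ⟨h, _⟩)
    · exact hbd h
    · exact had h
    · exact hab h
    · exact hac h
  have n23 : ({mkE a c hac, mkE b d hbd} : Finset (Edge n)) ≠ {mkE a d had, mkE b c hbc} := by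
    intro h
    have : mkE a c hac ∈ ({mkE a d had, mkE b c hbc} : Finset (Edge n)) := by rw [← h]; simp
    rw [hmem, mkE_eq_iff, mkE_eq_iff] at this
    rcases this with (⟨_, h⟩ | ⟨h, _⟩) | (⟨h, _⟩ | ⟨h, _⟩)
    · exact hcd h
    · exact had h
    · exact hab h
    · exact hac h
  rw [Finset.card_insert_of_notMem, Finset.card_pair n23]
  simp only [Finset.mem_insert, Finset.mem_singleton, not_or]
  exact ⟨n12, n13⟩


lemma switchResult_rev {E E' F F' : Finset (Edge n)} (hne : E ≠ E')
    (h : switchResult E F F' = E') : switchResult E' F' F = E := by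
  unfold switchResult at h ⊢
  split_ifs at h with hc
  · obtain ⟨hsub, hdis⟩ := hc
    subst h
    have hFF' : Disjoint F F' := (hdis.mono_right hsub).symm
    have h1 : F' ⊆ E \ F ∪ F' := Finset.subset_union_right
    have h2 : Disjoint F (E \ F ∪ F') := by
      rw [Finset.disjoint_union_right]
      exact ⟨Finset.disjoint_sdiff, hFF'⟩
    rw [if_pos ⟨h1, h2⟩]
    ext e
    simp only [Finset.mem_union, Finset.mem_sdiff]
    constructor
    · rintro (⟨(⟨h, _⟩ | h), h'⟩ | h)
      · exact h
      · exact absurd h h'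
      · exact hsub h
    · intro he
      by_cases heF : e ∈ F
      · exact Or.inr heF
      · exact Or.inl ⟨Or.inl ⟨he, heF⟩, fun h => (Finset.disjoint_left.1 hdis h) he⟩
  · exact absurd h hne

lemma switchResult_iff {E E' F F' : Finset (Edge n)} (hne : E ≠ E') :
    switchResult E F F' = E' ↔ switchResult E' F' F = E :=
  ⟨switchResult_rev hne, switchResult_rev hne.symm⟩

lemma sum_erase_comm {α : Type*} [DecidableEq α] (A : Finset α) (φ : α → α → ℕ) :
    ∑ x ∈ A, ∑ y ∈ A.erase x, φ x y = ∑ y ∈ A, ∑ x ∈ A.erase y, φ x y := by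
  apply Finset.sum_comm'
  intro x y
  simp only [Finset.mem_erase]
  constructor
  · rintro ⟨hx, hne, hy⟩; exact ⟨⟨hne.symm, hx⟩, hy⟩
  · rintro ⟨⟨hne, hx⟩, hy⟩; exact ⟨hx, hne.symm, hy⟩

lemma proposalCount_symm (E E' : Finset (Edge n)) : proposalCount E E' = proposalCount E' E := by
  by_cases hne : E = E'
  · rw [hne]
  unfold proposalCount
  apply Finset.sum_congr rfl
  intro S _
  rw [sum_erase_comm]
  apply Finset.sum_congr rfl
  intro F' _
  apply Finset.sum_congr rfl
  intro F _
  simp only [switchResult_iff hne]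

lemma kernel_symm (E E' : Finset (Edge n)) : kernel n E E' = kernel n E' E := by
  unfold kernel
  rw [proposalCount_symm E E']
  congr 1
  by_cases h : E = E'
  · simp [h]
  · simp [h, Ne.symm h]

lemma sum_proposalCount (E : Finset (Edge n)) :
    ∑ E', proposalCount E E' = 6 * n.choose 4 := by
  unfold proposalCount
  rw [Finset.sum_comm]
  have : ∀ S ∈ (univ : Finset (Fin n)).powersetCard 4,
      ∑ E' : Finset (Edge n), ∑ F ∈ pmSet S, ∑ F' ∈ (pmSet S).erase F,
        (if switchResult E F F' = E' then 1 else 0) = 6 := by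
    intro S hS
    have hS4 : S.card = 4 := (Finset.mem_powersetCard.1 hS).2
    rw [Finset.sum_comm]
    have h1 : ∀ F ∈ pmSet S, ∑ E' : Finset (Edge n), ∑ F' ∈ (pmSet S).erase F,
        (if switchResult E F F' = E' then 1 else 0) = 2 := by
      intro F hF
      rw [Finset.sum_comm]
      simp only [Finset.sum_ite_eq, Finset.mem_univ, if_true, Finset.sum_const, smul_eq_mul, mul_one]
      rw [Finset.card_erase_of_mem hF, card_pmSet hS4]
    rw [Finset.sum_congr rfl h1]
    simp [card_pmSet hS4]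
  rw [Finset.sum_congr rfl this]
  simp [Finset.card_powersetCard, mul_comm]

lemma kernel_row_sum (hn : 4 ≤ n) (E : Finset (Edge n)) : ∑ E', kernel n E E' = 1 := by
  unfold kernel
  rw [Finset.sum_add_distrib, ← Finset.sum_div, ← Nat.cast_sum, sum_proposalCount]
  have hc : (0 : ℝ) < (n.choose 4 : ℝ) := by exact_mod_cast Nat.choose_pos hn
  simp only [Finset.sum_ite_eq, Finset.mem_univ, if_true]
  push_cast
  field_simp
  norm_num

lemma proposalCount_eq_zero {d : Fin n → ℕ} {E E' : Finset (Edge n)} (hE : E ∈ realizations d)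
    (hE' : E' ∉ realizations d) : proposalCount E E' = 0 := by
  unfold proposalCount
  apply Finset.sum_eq_zero
  intro S _
  apply Finset.sum_eq_zero
  intro F hF
  apply Finset.sum_eq_zero
  intro F' hF'
  rw [if_neg]
  intro h
  apply hE'
  have hE2 : ∀ v, deg E v = d v := by simpa [realizations] using hE
  simp only [realizations, Finset.mem_filter, Finset.mem_univ, true_and]
  intro v
  rw [← h, deg_switchResult hF (Finset.mem_of_mem_erase hF'), hE2]

lemma kernel_eq_zero {d : Fin n → ℕ} {E E' : Finset (Edge n)} (hE : E ∈ realizations d)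
    (hE' : E' ∉ realizations d) : kernel n E E' = 0 := by
  unfold kernel
  have hne : E ≠ E' := fun h => hE' (h ▸ hE)
  rw [proposalCount_eq_zero hE hE', if_neg hne]
  simp

lemma kernel_lazy (E E' : Finset (Edge n)) :
    0 ≤ kernel n E E' - (if E = E' then 1 / 2 else 0) := by
  unfold kernel
  rw [add_sub_cancel_left]
  positivity

lemma card_realizations_le (d : Fin n → ℕ) : (realizations d).card ≤ 2 ^ (n.choose 2) := by
  calc (realizations d).card ≤ (univ : Finset (Finset (Edge n))).card := Finset.card_le_univ _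
    _ = 2 ^ (n.choose 2) := by
      rw [Finset.card_univ, Fintype.card_finset]
      congr 1
      have := Sym2.card_subtype_not_diag (α := Fin n)
      simpa using this

end Crest.Agent.Switch.Ker
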