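import Crest.Agent.Switch.Graph
import Crest.Agent.Switch.Kernel
import Crest.Agent.Switch.DirichletAux

/-! # Module M11b: the Dirichlet form of the kernel dominates the switch differences -/

set_option autoImplicit false
open Finset Crest.SwitchChain

namespace Crest.Agent.Switch

variable {n : ℕ}

/-- the kernel facts of `Kernel.lean`, packaged. -/
theorem kernel_lazyChain (hn : 4 ≤ n) (d : Fin n → ℕ) :
    Lazy.LazyChain (kernel n)
      (fun E E' => (proposalCount E E' : ℝ) / (6 * (n.choose 4 : ℝ))) (realizations d) where
  symm := fun a b => by rw [Ker.proposalCount_symm]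
  nn := fun a b => by positivity
  row := fun a => by
    have hc : (0 : ℝ) < (n.choose 4 : ℝ) := by exact_mod_cast Nat.choose_pos hn
    rw [← Finset.sum_div, ← Nat.cast_sum, Ker.sum_proposalCount]
    push_cast
    field_simp
  closed := fun a ha b hb => by rw [Ker.proposalCount_eq_zero ha hb]; simp
  lazy := fun a b => by
    unfold kernel
    congr 1
    rw [div_div]
    congr 1
    ring

/-- M11b -/
theorem dirichlet_lower (hn : 4 ≤ n) (d : Fin n → ℕ) (f : Gr n → ℝ) :
    (∑ a, ∑ b, ∑ c, ∑ e, if dist4 a b c e then Zx (realizations d) f a b c e else 0)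
      ≤ 48 * (n.choose 4 : ℝ) * ∑ G ∈ realizations d,
          f G * (f G - ∑ G' ∈ realizations d, kernel n G G' * f G') :=
  Dir.dirichlet_lower_of_lazy hn (kernel_lazyChain hn d) f

end Crest.Agent.Switch
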