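import Crest.Agent.Switch.Graph

/-! # Module M9a: block structure for two disjoint pairs `{a,b}`, `{c,e}`

`ξ G = G \ star2 c e`, `η G = G \ star2 a b`.  `psiB` is the common information; on each fibre of
`psiB` inside `realizations d` the joint law of `(ξ, η)` has multiplicity `1[cxB] + 1[cyB]`. -/

set_option autoImplicit false
open Finset Crest.SwitchChain

namespace Crest.Agent.Switch

variable {n : ℕ}

/-- number of neighbours of `v` in `{p,q}`. -/
def kk (G : Gr n) (p q v : Fin n) : ℕ := (G ∩ (cell p v ∪ cell q v)).card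

/-- number of edges of `G` in the block `ac, ae, bc, be`. -/
def mblk (a b c e : Fin n) (G : Gr n) : ℕ := (G ∩ mcells a b c e).card

/-- the common information of `G - a - b` and `G - c - e`. -/
def psiB (a b c e : Fin n) (G : Gr n) : Gr n × (Fin n → ℕ) × ℕ :=
  (G \ (star2 a b ∪ star2 c e),
    fun w => if w = a ∨ w = b ∨ w = c ∨ w = e then 0 else kk G a b w,
    mblk a b c e G)

/-- `m ≠ 2` or the row margin of the block is `(1,1)`. -/
def cxB (a b c e : Fin n) (G : Gr n) : Prop := mblk a b c e G ≠ 2 ∨ kk G c e a = 1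

/-- `m = 2` and the column margin of the block is `(1,1)`. -/
def cyB (a b c e : Fin n) (G : Gr n) : Prop := mblk a b c e G = 2 ∧ kk G a b c = 1

instance (a b c e : Fin n) : DecidablePred (cxB a b c e) := fun G => by unfold cxB; infer_instance
instance (a b c e : Fin n) : DecidablePred (cyB a b c e) := fun G => by unfold cyB; infer_instance

namespace DB

set_option linter.unusedSimpArgs false

theorem mem_star' (a : Fin n) (ε : Edge n) : ε ∈ star a ↔ a ∈ ε.1 := by
  simp [star]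

theorem mem_cell' {a b : Fin n} (hab : a ≠ b) (ε : Edge n) : ε ∈ cell a b ↔ (a ∈ ε.1 ∧ b ∈ ε.1) := by
  simp only [cell, mem_filter, mem_univ, true_and]
  exact (Sym2.mem_and_mem_iff hab).symm

theorem edge_three (ε : Edge n) {u v w : Fin n} (huv : u ≠ v) (huw : u ≠ w) (hvw : v ≠ w)
    (hu : u ∈ ε.1) (hv : v ∈ ε.1) (hw : w ∈ ε.1) : False := by
  have h := (Sym2.mem_and_mem_iff huv).1 ⟨hu, hv⟩
  rw [h] at hw
  rcases Sym2.mem_iff.1 hw with h1 | h1
  · exact huw h1.symm
  · exact hvw h1.symm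

theorem card_cell {a b : Fin n} (hab : a ≠ b) : (cell a b).card = 1 := by
  rw [Finset.card_eq_one]
  refine ⟨⟨s(a, b), by simpa using hab⟩, ?_⟩
  ext ε
  simp only [cell, mem_filter, mem_univ, true_and, mem_singleton]
  exact ⟨fun h => Subtype.ext h, fun h => by rw [h]⟩

theorem deg_eq (G : Gr n) (v : Fin n) : deg G v = (G ∩ star v).card := by
  unfold deg
  congr 1
  ext ε
  simp [mem_star']


theorem kk_add (G : Gr n) {p q v : Fin n} (hpv : p ≠ v) (hqv : q ≠ v) :
    kk G p q v + ((G \ star2 p q) ∩ star v).card = deg G v := by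
  rw [deg_eq, kk, ← Finset.card_union_of_disjoint]
  · congr 1
    ext ε
    simp only [mem_union, mem_inter, mem_sdiff, star2, mem_star', mem_cell' hpv, mem_cell' hqv]
    tauto
  · rw [Finset.disjoint_left]
    intro ε
    simp only [mem_union, mem_inter, mem_sdiff, star2, mem_star', mem_cell' hpv, mem_cell' hqv]
    tauto

theorem kk_congr (d : Fin n → ℕ) {p q v : Fin n} (hpv : p ≠ v) (hqv : q ≠ v)
    (x y : Gr n) (hx : x ∈ realizations d) (hy : y ∈ realizations d)
    (hxy : x \ star2 p q = y \ star2 p q) : kk x p q v = kk y p q v := by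
  have h1 := kk_add x hpv hqv
  have h2 := kk_add y hpv hqv
  have hx' : deg x v = d v := by
    simp only [realizations, mem_filter, mem_univ, true_and] at hx; exact hx v
  have hy' : deg y v = d v := by
    simp only [realizations, mem_filter, mem_univ, true_and] at hy; exact hy v
  rw [hxy] at h1
  omega

theorem mblk_eq_col (a b c e : Fin n) (h : dist4 a b c e) (G : Gr n) :
    mblk a b c e G = kk G a b c + kk G a b e := by
  obtain ⟨hab, hac, hae, hbc, hbe, hce⟩ := h
  rw [mblk, kk, kk, ← Finset.card_union_of_disjoint]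
  · congr 1
    ext ε
    simp only [mem_union, mem_inter, mcells, mem_cell' hac, mem_cell' hae, mem_cell' hbc, mem_cell' hbe]
    tauto
  · rw [Finset.disjoint_left]
    intro ε
    simp only [mem_union, mem_inter, mem_cell' hac, mem_cell' hae, mem_cell' hbc, mem_cell' hbe]
    intro h1 h2
    rcases h1 with ⟨-, ⟨h3, h4⟩ | ⟨h3, h4⟩⟩ <;> rcases h2 with ⟨-, ⟨h5, h6⟩ | ⟨h5, h6⟩⟩
    · exact edge_three ε hac hae hce h3 h4 h6
    · exact edge_three ε hac hae hce h3 h4 h6
    · exact edge_three ε hbc hbe hce h3 h4 h6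
    · exact edge_three ε hbc hbe hce h3 h4 h6

theorem mblk_eq_row (a b c e : Fin n) (h : dist4 a b c e) (G : Gr n) :
    mblk a b c e G = kk G c e a + kk G c e b := by
  obtain ⟨hab, hac, hae, hbc, hbe, hce⟩ := h
  rw [mblk, kk, kk, ← Finset.card_union_of_disjoint]
  · congr 1
    ext ε
    simp only [mem_union, mem_inter, mcells, mem_cell' hac, mem_cell' hae, mem_cell' hbc, mem_cell' hbe,
      mem_cell' hac.symm, mem_cell' hae.symm, mem_cell' hbc.symm, mem_cell' hbe.symm]
    tauto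
  · rw [Finset.disjoint_left]
    intro ε
    simp only [mem_union, mem_inter, mem_cell' hac.symm, mem_cell' hae.symm, mem_cell' hbc.symm, mem_cell' hbe.symm]
    intro h1 h2
    rcases h1 with ⟨-, ⟨h3, h4⟩ | ⟨h3, h4⟩⟩ <;> rcases h2 with ⟨-, ⟨h5, h6⟩ | ⟨h5, h6⟩⟩
    · exact edge_three ε hab hac hbc h4 h6 h3
    · exact edge_three ε hab hac hbc h4 h6 h3
    · exact edge_three ε hab hae hbe h4 h6 h3
    · exact edge_three ε hab hae hbe h4 h6 h3



theorem mblk_of_xi (d : Fin n → ℕ) (a b c e : Fin n) (h : dist4 a b c e)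
    (x y : Gr n) (hx : x ∈ realizations d) (hy : y ∈ realizations d)
    (hxy : x \ star2 c e = y \ star2 c e) : mblk a b c e x = mblk a b c e y := by
  rw [mblk_eq_row a b c e h, mblk_eq_row a b c e h]
  obtain ⟨hab, hac, hae, hbc, hbe, hce⟩ := h
  rw [kk_congr d hac.symm hae.symm x y hx hy hxy, kk_congr d hbc.symm hbe.symm x y hx hy hxy]

theorem mblk_of_eta (d : Fin n → ℕ) (a b c e : Fin n) (h : dist4 a b c e)
    (x y : Gr n) (hx : x ∈ realizations d) (hy : y ∈ realizations d)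
    (hxy : x \ star2 a b = y \ star2 a b) : mblk a b c e x = mblk a b c e y := by
  rw [mblk_eq_col a b c e h, mblk_eq_col a b c e h]
  obtain ⟨hab, hac, hae, hbc, hbe, hce⟩ := h
  rw [kk_congr d hac hbc x y hx hy hxy, kk_congr d hae hbe x y hx hy hxy]

theorem psiB_of_xi (d : Fin n → ℕ) (a b c e : Fin n) (h : dist4 a b c e)
    (x y : Gr n) (hx : x ∈ realizations d) (hy : y ∈ realizations d)
    (hxy : x \ star2 c e = y \ star2 c e) : psiB a b c e x = psiB a b c e y := by
  unfold psiB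
  refine Prod.ext ?_ (Prod.ext ?_ ?_)
  · show x \ (star2 a b ∪ star2 c e) = y \ (star2 a b ∪ star2 c e)
    have key : ∀ G : Gr n, G \ (star2 a b ∪ star2 c e) = (G \ star2 c e) \ star2 a b := by
      intro G; ext ε; simp only [mem_sdiff, mem_union]; tauto
    rw [key x, key y, hxy]
  · funext w
    show (if w = a ∨ w = b ∨ w = c ∨ w = e then 0 else kk x a b w)
      = (if w = a ∨ w = b ∨ w = c ∨ w = e then 0 else kk y a b w)
    split_ifs with hw
    · rfl
    · push Not at hw
      obtain ⟨hwa, hwb, hwc, hwe⟩ := hw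
      obtain ⟨hab, hac, hae, hbc, hbe, hce⟩ := h
      unfold kk
      have key : ∀ G : Gr n, G ∩ (cell a w ∪ cell b w) = (G \ star2 c e) ∩ (cell a w ∪ cell b w) := by
        intro G
        ext ε
        simp only [mem_union, mem_inter, mem_sdiff, star2, mem_star', mem_cell' hwa.symm, mem_cell' hwb.symm]
        constructor
        · rintro ⟨h1, h2⟩
          refine ⟨⟨h1, ?_⟩, h2⟩
          rintro (h3 | h3)
          · rcases h2 with ⟨h4, h5⟩ | ⟨h4, h5⟩
            · exact edge_three ε hac hwa.symm hwc.symm h4 h3 h5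
            · exact edge_three ε hbc hwb.symm hwc.symm h4 h3 h5
          · rcases h2 with ⟨h4, h5⟩ | ⟨h4, h5⟩
            · exact edge_three ε hae hwa.symm hwe.symm h4 h3 h5
            · exact edge_three ε hbe hwb.symm hwe.symm h4 h3 h5
        · rintro ⟨⟨h1, -⟩, h2⟩
          exact ⟨h1, h2⟩
      rw [key x, key y, hxy]
  · exact mblk_of_xi d a b c e h x y hx hy hxy

theorem psiB_of_eta (d : Fin n → ℕ) (a b c e : Fin n) (h : dist4 a b c e)
    (x y : Gr n) (hx : x ∈ realizations d) (hy : y ∈ realizations d)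
    (hxy : x \ star2 a b = y \ star2 a b) : psiB a b c e x = psiB a b c e y := by
  unfold psiB
  refine Prod.ext ?_ (Prod.ext ?_ ?_)
  · show x \ (star2 a b ∪ star2 c e) = y \ (star2 a b ∪ star2 c e)
    have key : ∀ G : Gr n, G \ (star2 a b ∪ star2 c e) = (G \ star2 a b) \ star2 c e := by
      intro G; ext ε; simp only [mem_sdiff, mem_union]; tauto
    rw [key x, key y, hxy]
  · funext w
    show (if w = a ∨ w = b ∨ w = c ∨ w = e then 0 else kk x a b w)
      = (if w = a ∨ w = b ∨ w = c ∨ w = e then 0 else kk y a b w)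
    split_ifs with hw
    · rfl
    · push Not at hw
      exact kk_congr d hw.1.symm hw.2.1.symm x y hx hy hxy
  · exact mblk_of_eta d a b c e h x y hx hy hxy

theorem cxB_of_xi (d : Fin n → ℕ) (a b c e : Fin n) (h : dist4 a b c e)
    (x y : Gr n) (hx : x ∈ realizations d) (hy : y ∈ realizations d)
    (hxy : x \ star2 c e = y \ star2 c e) : cxB a b c e x ↔ cxB a b c e y := by
  unfold cxB
  rw [mblk_of_xi d a b c e h x y hx hy hxy, kk_congr d h.2.1.symm h.2.2.1.symm x y hx hy hxy]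

theorem cyB_of_eta (d : Fin n → ℕ) (a b c e : Fin n) (h : dist4 a b c e)
    (x y : Gr n) (hx : x ∈ realizations d) (hy : y ∈ realizations d)
    (hxy : x \ star2 a b = y \ star2 a b) : cyB a b c e x ↔ cyB a b c e y := by
  unfold cyB
  rw [mblk_of_eta d a b c e h x y hx hy hxy, kk_congr d h.2.1 h.2.2.2.1 x y hx hy hxy]

theorem mcells_eq (a b c e : Fin n) (h : dist4 a b c e) :
    mcells a b c e = star2 a b ∩ star2 c e := by
  obtain ⟨hab, hac, hae, hbc, hbe, hce⟩ := h
  ext ε
  simp only [mem_union, mem_inter, star2, mem_star', mcells, mem_cell' hac, mem_cell' hae,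
    mem_cell' hbc, mem_cell' hbe]
  tauto

theorem xi_eta_iff_mcells (a b c e : Fin n) (h : dist4 a b c e) (x y : Gr n) :
    (x \ star2 c e = y \ star2 c e ∧ x \ star2 a b = y \ star2 a b) ↔
      x \ mcells a b c e = y \ mcells a b c e := by
  rw [mcells_eq a b c e h]
  have key : ∀ G : Gr n, G \ (star2 a b ∩ star2 c e) = (G \ star2 a b) ∪ (G \ star2 c e) := by
    intro G; ext ε; simp only [mem_sdiff, mem_union, mem_inter]; tauto
  have key1 : ∀ G : Gr n, G \ star2 a b = (G \ (star2 a b ∩ star2 c e)) \ star2 a b := by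
    intro G; ext ε; simp only [mem_sdiff, mem_inter]; tauto
  have key2 : ∀ G : Gr n, G \ star2 c e = (G \ (star2 a b ∩ star2 c e)) \ star2 c e := by
    intro G; ext ε; simp only [mem_sdiff, mem_inter]; tauto
  constructor
  · rintro ⟨h1, h2⟩
    rw [key x, key y, h1, h2]
  · intro h1
    exact ⟨by rw [key2 x, key2 y, h1], by rw [key1 x, key1 y, h1]⟩

theorem card_inter_cell (G : Gr n) {u v : Fin n} (huv : u ≠ v) :
    (G ∩ cell u v).card = if adj G u v then 1 else 0 := by
  split_ifs with h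
  · obtain ⟨ε, hε, hε'⟩ := h
    have : G ∩ cell u v = cell u v := by
      apply Finset.inter_eq_right.mpr
      intro ε' hε''
      simp only [cell, mem_filter, mem_univ, true_and] at hε''
      have : ε' = ε := Subtype.ext (hε''.trans hε'.symm)
      rw [this]; exact hε
    rw [this, card_cell huv]
  · rw [Finset.card_eq_zero, Finset.eq_empty_iff_forall_notMem]
    intro ε hε
    simp only [mem_inter, cell, mem_filter, mem_univ, true_and] at hε
    exact h ⟨ε, hε.1, hε.2⟩

theorem kk_eq_adj (G : Gr n) {p q v : Fin n} (hpq : p ≠ q) (hpv : p ≠ v) (hqv : q ≠ v) :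
    kk G p q v = (if adj G p v then 1 else 0) + (if adj G q v then 1 else 0) := by
  rw [← card_inter_cell G hpv, ← card_inter_cell G hqv, kk, inter_union_distrib_left,
    Finset.card_union_of_disjoint]
  rw [Finset.disjoint_left]
  intro ε
  simp only [mem_inter, mem_cell' hpv, mem_cell' hqv]
  rintro ⟨-, h1, h2⟩ ⟨-, h3, -⟩
  exact edge_three ε hpq hpv hqv h1 h3 h2

theorem adj_comm' (G : Gr n) (u v : Fin n) : adj G u v ↔ adj G v u := by
  unfold adj
  rw [Sym2.eq_swap]

theorem cxB_and_cyB_iff (a b c e : Fin n) (h : dist4 a b c e) (G : Gr n) :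
    (cxB a b c e G ∧ cyB a b c e G) ↔ (swOK G a b c e ∨ swOK G a b e c) := by
  unfold cxB cyB swOK
  rw [mblk_eq_col a b c e h]
  obtain ⟨hab, hac, hae, hbc, hbe, hce⟩ := h
  rw [kk_eq_adj G hab hac hbc, kk_eq_adj G hab hae hbe, kk_eq_adj G hce hac.symm hae.symm]
  simp only [adj_comm' G c a, adj_comm' G e a]
  by_cases h1 : adj G a c <;> by_cases h2 : adj G a e <;> by_cases h3 : adj G b c <;>
    by_cases h4 : adj G b e <;> simp [h1, h2, h3, h4]

theorem gsw_swap (a b c e : Fin n) (G : Gr n) : gsw c e a b G = gsw a b c e G := by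
  unfold gsw swOK
  simp only [adj_comm' G c a, adj_comm' G e b, adj_comm' G c b, adj_comm' G e a]
  by_cases h1 : adj G a c <;> by_cases h2 : adj G a e <;> by_cases h3 : adj G b c <;>
    by_cases h4 : adj G b e <;> simp [h1, h2, h3, h4]


theorem block_num (α β γ δ : ℕ) (hα : α ≤ 2) (hβ : β ≤ 2) (hγ : γ ≤ 2) (hδ : δ ≤ 2)
    (h : α + β = γ + δ) :
    ((univ : Finset (Bool × Bool × Bool × Bool)).filter fun t =>
      t.1.toNat + t.2.1.toNat = α ∧ t.2.2.1.toNat + t.2.2.2.toNat = β ∧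
      t.1.toNat + t.2.2.1.toNat = γ ∧ t.2.1.toNat + t.2.2.2.toNat = δ).card
      = (if (α + β ≠ 2 ∨ α = 1) then 1 else 0) + (if (γ + δ = 2 ∧ γ = 1) then 1 else 0) := by
  interval_cases α <;> interval_cases β <;> interval_cases γ <;> interval_cases δ <;>
    first
    | (exfalso; omega)
    | decide

/-- the block with prescribed entries. -/
def Tof (a b c e : Fin n) (t : Bool × Bool × Bool × Bool) : Gr n :=
  (if t.1 then cell a c else ∅) ∪ (if t.2.1 then cell a e else ∅) ∪
    (if t.2.2.1 then cell b c else ∅) ∪ (if t.2.2.2 then cell b e else ∅)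

theorem mem_iff_adj {u v : Fin n} {ε : Edge n} (hε : ε ∈ cell u v) (G : Gr n) :
    ε ∈ G ↔ adj G u v := by
  simp only [cell, mem_filter, mem_univ, true_and] at hε
  constructor
  · intro h; exact ⟨ε, h, hε⟩
  · rintro ⟨ε', h1, h2⟩
    have : ε = ε' := Subtype.ext (hε.trans h2.symm)
    rw [this]; exact h1

theorem adj_iff_of_cell {u v : Fin n} (huv : u ≠ v) (G : Gr n) :
    adj G u v ↔ ∀ ε ∈ cell u v, ε ∈ G := by
  constructor
  · intro h ε hε; exact (mem_iff_adj hε G).2 h
  · intro h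
    have hmem : (⟨s(u, v), by simpa using huv⟩ : Edge n) ∈ cell u v := by simp [cell]
    exact (mem_iff_adj hmem G).1 (h _ hmem)

theorem Tof_subset (a b c e : Fin n) (t : Bool × Bool × Bool × Bool) :
    Tof a b c e t ⊆ mcells a b c e := by
  intro ε
  unfold Tof mcells
  simp only [mem_union]
  rintro (((h | h) | h) | h)
  · split_ifs at h <;> simp_all
  · split_ifs at h <;> simp_all
  · split_ifs at h <;> simp_all
  · split_ifs at h <;> simp_all


theorem mem_Tof (a b c e : Fin n) (t : Bool × Bool × Bool × Bool) (ε : Edge n) :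
    ε ∈ Tof a b c e t ↔ (t.1 = true ∧ ε ∈ cell a c) ∨ (t.2.1 = true ∧ ε ∈ cell a e) ∨
      (t.2.2.1 = true ∧ ε ∈ cell b c) ∨ (t.2.2.2 = true ∧ ε ∈ cell b e) := by
  obtain ⟨t1, t2, t3, t4⟩ := t
  unfold Tof
  cases t1 <;> cases t2 <;> cases t3 <;> cases t4 <;> simp [or_assoc]

/-- canonical edge -/
def mkE (u v : Fin n) (huv : u ≠ v) : Edge n := ⟨s(u, v), by simpa using huv⟩

theorem mkE_mem_cell (u v : Fin n) (huv : u ≠ v) : mkE u v huv ∈ cell u v := by simp [cell, mkE]

theorem mkE_mem_cell_iff (u v p q : Fin n) (huv : u ≠ v) (hpq : p ≠ q) :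
    mkE u v huv ∈ cell p q ↔ ((p = u ∨ p = v) ∧ (q = u ∨ q = v)) := by
  rw [mem_cell' hpq]; simp [mkE]

theorem adj_union_Tof (a b c e : Fin n) (h : dist4 a b c e) (B : Gr n)
    (hB : Disjoint B (mcells a b c e)) (t : Bool × Bool × Bool × Bool) :
    (adj (B ∪ Tof a b c e t) a c ↔ t.1 = true) ∧ (adj (B ∪ Tof a b c e t) a e ↔ t.2.1 = true) ∧
    (adj (B ∪ Tof a b c e t) b c ↔ t.2.2.1 = true) ∧ (adj (B ∪ Tof a b c e t) b e ↔ t.2.2.2 = true) := by
  obtain ⟨hab, hac, hae, hbc, hbe, hce⟩ := h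
  have hB' : ∀ ε ∈ mcells a b c e, ε ∉ B := fun ε h1 h2 => (Finset.disjoint_left.mp hB) h2 h1
  refine ⟨?_, ?_, ?_, ?_⟩
  · rw [← mem_iff_adj (mkE_mem_cell a c hac), mem_union, mem_Tof,
      mkE_mem_cell_iff _ _ _ _ hac hac, mkE_mem_cell_iff _ _ _ _ hac hae,
      mkE_mem_cell_iff _ _ _ _ hac hbc, mkE_mem_cell_iff _ _ _ _ hac hbe]
    have : mkE a c hac ∉ B := hB' _ (by simp [mcells, mkE])
    simp [this, hab, hac, hae, hbc, hbe, hce, hab.symm, hac.symm, hae.symm, hbc.symm, hbe.symm, hce.symm]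
  · rw [← mem_iff_adj (mkE_mem_cell a e hae), mem_union, mem_Tof,
      mkE_mem_cell_iff _ _ _ _ hae hac, mkE_mem_cell_iff _ _ _ _ hae hae,
      mkE_mem_cell_iff _ _ _ _ hae hbc, mkE_mem_cell_iff _ _ _ _ hae hbe]
    have : mkE a e hae ∉ B := hB' _ (by simp [mcells, mkE])
    simp [this, hab, hac, hae, hbc, hbe, hce, hab.symm, hac.symm, hae.symm, hbc.symm, hbe.symm, hce.symm]
  · rw [← mem_iff_adj (mkE_mem_cell b c hbc), mem_union, mem_Tof,
      mkE_mem_cell_iff _ _ _ _ hbc hac, mkE_mem_cell_iff _ _ _ _ hbc hae,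
      mkE_mem_cell_iff _ _ _ _ hbc hbc, mkE_mem_cell_iff _ _ _ _ hbc hbe]
    have : mkE b c hbc ∉ B := hB' _ (by simp [mcells, mkE])
    simp [this, hab, hac, hae, hbc, hbe, hce, hab.symm, hac.symm, hae.symm, hbc.symm, hbe.symm, hce.symm]
  · rw [← mem_iff_adj (mkE_mem_cell b e hbe), mem_union, mem_Tof,
      mkE_mem_cell_iff _ _ _ _ hbe hac, mkE_mem_cell_iff _ _ _ _ hbe hae,
      mkE_mem_cell_iff _ _ _ _ hbe hbc, mkE_mem_cell_iff _ _ _ _ hbe hbe]
    have : mkE b e hbe ∉ B := hB' _ (by simp [mcells, mkE])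
    simp [this, hab, hac, hae, hbc, hbe, hce, hab.symm, hac.symm, hae.symm, hbc.symm, hbe.symm, hce.symm]

/-- the block of `z` read off as four booleans. -/
def tof (a b c e : Fin n) (z : Gr n) : Bool × Bool × Bool × Bool :=
  (decide (adj z a c), decide (adj z a e), decide (adj z b c), decide (adj z b e))

theorem inter_mcells_eq (a b c e : Fin n) (z : Gr n) :
    z ∩ mcells a b c e = Tof a b c e (tof a b c e z) := by
  ext ε
  rw [mem_Tof, mem_inter]
  simp only [mcells, mem_union, tof, decide_eq_true_eq]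
  constructor
  · rintro ⟨h1, ((h2 | h2) | h2) | h2⟩
    · exact Or.inl ⟨(mem_iff_adj h2 z).1 h1, h2⟩
    · exact Or.inr (Or.inl ⟨(mem_iff_adj h2 z).1 h1, h2⟩)
    · exact Or.inr (Or.inr (Or.inl ⟨(mem_iff_adj h2 z).1 h1, h2⟩))
    · exact Or.inr (Or.inr (Or.inr ⟨(mem_iff_adj h2 z).1 h1, h2⟩))
  · rintro (⟨h1, h2⟩ | ⟨h1, h2⟩ | ⟨h1, h2⟩ | ⟨h1, h2⟩)
    · exact ⟨(mem_iff_adj h2 z).2 h1, Or.inl (Or.inl (Or.inl h2))⟩
    · exact ⟨(mem_iff_adj h2 z).2 h1, Or.inl (Or.inl (Or.inr h2))⟩
    · exact ⟨(mem_iff_adj h2 z).2 h1, Or.inl (Or.inr h2)⟩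
    · exact ⟨(mem_iff_adj h2 z).2 h1, Or.inr h2⟩


theorem kk_eq_sdiff (a b c e : Fin n) (h : dist4 a b c e) (w : Fin n)
    (hwa : w ≠ a) (hwb : w ≠ b) (hwc : w ≠ c) (hwe : w ≠ e) (G : Gr n) :
    kk G a b w = ((G \ star2 c e) ∩ (cell a w ∪ cell b w)).card := by
  obtain ⟨hab, hac, hae, hbc, hbe, hce⟩ := h
  unfold kk
  congr 1
  ext ε
  simp only [mem_union, mem_inter, mem_sdiff, star2, mem_star', mem_cell' hwa.symm, mem_cell' hwb.symm]
  constructor
  · rintro ⟨h1, h2⟩
    refine ⟨⟨h1, ?_⟩, h2⟩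
    rintro (h3 | h3)
    · rcases h2 with ⟨h4, h5⟩ | ⟨h4, h5⟩
      · exact edge_three ε hac hwa.symm hwc.symm h4 h3 h5
      · exact edge_three ε hbc hwb.symm hwc.symm h4 h3 h5
    · rcases h2 with ⟨h4, h5⟩ | ⟨h4, h5⟩
      · exact edge_three ε hae hwa.symm hwe.symm h4 h3 h5
      · exact edge_three ε hbe hwb.symm hwe.symm h4 h3 h5
  · rintro ⟨⟨h1, -⟩, h2⟩
    exact ⟨h1, h2⟩

theorem mem_real (d : Fin n → ℕ) (G : Gr n) : G ∈ realizations d ↔ ∀ v, deg G v = d v := by
  simp [realizations]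

theorem mem_real_iff (d : Fin n → ℕ) (a b c e : Fin n) (h : dist4 a b c e)
    (x y z : Gr n) (hx : x ∈ realizations d) (hy : y ∈ realizations d)
    (hk : ∀ w, w ≠ a → w ≠ b → w ≠ c → w ≠ e → kk x a b w = kk y a b w)
    (hzx : z \ star2 c e = x \ star2 c e) (hzy : z \ star2 a b = y \ star2 a b) :
    z ∈ realizations d ↔ (kk z c e a = kk x c e a ∧ kk z c e b = kk x c e b ∧
      kk z a b c = kk y a b c ∧ kk z a b e = kk y a b e) := by
  have h' := h
  obtain ⟨hab, hac, hae, hbc, hbe, hce⟩ := h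
  constructor
  · intro hz
    exact ⟨kk_congr d hac.symm hae.symm z x hz hx hzx, kk_congr d hbc.symm hbe.symm z x hz hx hzx,
      kk_congr d hac hbc z y hz hy hzy, kk_congr d hae hbe z y hz hy hzy⟩
  · rintro ⟨h1, h2, h3, h4⟩
    rw [mem_real] at hx hy ⊢
    intro v
    by_cases hva : v = a
    · subst hva
      rw [← hx v, ← kk_add z hac.symm hae.symm, ← kk_add x hac.symm hae.symm, h1, hzx]
    by_cases hvb : v = b
    · subst hvb
      rw [← hx v, ← kk_add z hbc.symm hbe.symm, ← kk_add x hbc.symm hbe.symm, h2, hzx]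
    by_cases hvc : v = c
    · subst hvc
      rw [← hy v, ← kk_add z hac hbc, ← kk_add y hac hbc, h3, hzy]
    by_cases hve : v = e
    · subst hve
      rw [← hy v, ← kk_add z hae hbe, ← kk_add y hae hbe, h4, hzy]
    · rw [← hy v, ← kk_add z (Ne.symm hva) (Ne.symm hvb), ← kk_add y (Ne.symm hva) (Ne.symm hvb), hzy,
        ← hk v hva hvb hvc hve, kk_eq_sdiff a b c e h' v hva hvb hvc hve z,
        kk_eq_sdiff a b c e h' v hva hvb hvc hve x, hzx]

theorem toNat_decide (p : Prop) [Decidable p] : (decide p).toNat = if p then 1 else 0 := by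
  by_cases hp : p <;> simp [hp]

theorem set_projQ {α : Type*} [DecidableEq α] (x y P Q T : Finset α)
    (hW : x \ (P ∪ Q) = y \ (P ∪ Q)) (hT : T ⊆ Q) :
    ((x \ Q) ∪ (y \ P) ∪ T) \ Q = x \ Q := by
  ext ε
  have h1 := Finset.ext_iff.mp hW ε
  have h2 := @hT ε
  simp only [mem_union, mem_sdiff] at h1 ⊢
  tauto

theorem set_projP {α : Type*} [DecidableEq α] (x y P Q T : Finset α)
    (hW : x \ (P ∪ Q) = y \ (P ∪ Q)) (hT : T ⊆ P) :
    ((x \ Q) ∪ (y \ P) ∪ T) \ P = y \ P := by
  ext ε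
  have h1 := Finset.ext_iff.mp hW ε
  have h2 := @hT ε
  simp only [mem_union, mem_sdiff] at h1 ⊢
  tauto

theorem set_rec {α : Type*} [DecidableEq α] (z P Q : Finset α) :
    (z \ Q) ∪ (z \ P) ∪ (z ∩ (P ∩ Q)) = z := by
  ext ε
  simp only [mem_union, mem_sdiff, mem_inter]
  tauto

theorem set_disj {α : Type*} [DecidableEq α] (x y P Q : Finset α) :
    Disjoint ((x \ Q) ∪ (y \ P)) (P ∩ Q) := by
  rw [Finset.disjoint_left]
  intro ε
  simp only [mem_union, mem_sdiff, mem_inter]
  tauto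

theorem block_count (d : Fin n → ℕ) (a b c e : Fin n) (h : dist4 a b c e)
    (x y : Gr n) (hx : x ∈ realizations d) (hy : y ∈ realizations d)
    (hxy : psiB a b c e x = psiB a b c e y) :
    ((realizations d).filter fun z => z \ star2 c e = x \ star2 c e ∧ z \ star2 a b = y \ star2 a b).card
      = (if cxB a b c e x then 1 else 0) + (if cyB a b c e y then 1 else 0) := by
  have h' := h
  obtain ⟨hab, hac, hae, hbc, hbe, hce⟩ := h
  -- unpack psi
  have hW : x \ (star2 a b ∪ star2 c e) = y \ (star2 a b ∪ star2 c e) := congrArg Prod.fst hxy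
  have hk0 : (fun w => if w = a ∨ w = b ∨ w = c ∨ w = e then 0 else kk x a b w)
      = (fun w => if w = a ∨ w = b ∨ w = c ∨ w = e then 0 else kk y a b w) :=
    congrArg (fun p => p.2.1) hxy
  have hm : mblk a b c e x = mblk a b c e y := congrArg (fun p => p.2.2) hxy
  have hk : ∀ w, w ≠ a → w ≠ b → w ≠ c → w ≠ e → kk x a b w = kk y a b w := by
    intro w h1 h2 h3 h4
    have := congrFun hk0 w
    simpa [h1, h2, h3, h4] using this
  set B : Gr n := (x \ star2 c e) ∪ (y \ star2 a b) with hBdef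
  have hBdisj : Disjoint B (mcells a b c e) := by
    rw [mcells_eq a b c e h']; exact set_disj _ _ _ _
  have hTQ : ∀ t, Tof a b c e t ⊆ star2 c e := fun t =>
    (Tof_subset a b c e t).trans (by rw [mcells_eq a b c e h']; exact inter_subset_right)
  have hTP : ∀ t, Tof a b c e t ⊆ star2 a b := fun t =>
    (Tof_subset a b c e t).trans (by rw [mcells_eq a b c e h']; exact inter_subset_left)
  -- the two projections of B ∪ T
  have hQ : ∀ t, (B ∪ Tof a b c e t) \ star2 c e = x \ star2 c e := fun t =>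
    set_projQ _ _ _ _ _ hW (hTQ t)
  have hP : ∀ t, (B ∪ Tof a b c e t) \ star2 a b = y \ star2 a b := fun t =>
    set_projP _ _ _ _ _ hW (hTP t)
  -- reconstruction
  have hrec : ∀ z : Gr n, z \ star2 c e = x \ star2 c e → z \ star2 a b = y \ star2 a b →
      B ∪ Tof a b c e (tof a b c e z) = z := by
    intro z h1 h2
    rw [← inter_mcells_eq, hBdef, ← h1, ← h2, mcells_eq a b c e h']
    exact set_rec _ _ _
  have htof : ∀ t, tof a b c e (B ∪ Tof a b c e t) = t := by
    intro t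
    obtain ⟨e1, e2, e3, e4⟩ := adj_union_Tof a b c e h' B hBdisj t
    obtain ⟨t1, t2, t3, t4⟩ := t
    simp only [tof, e1, e2, e3, e4, Bool.decide_eq_true]
  -- kk in terms of tof
  have hkk : ∀ z : Gr n, kk z c e a = (tof a b c e z).1.toNat + (tof a b c e z).2.1.toNat ∧
      kk z c e b = (tof a b c e z).2.2.1.toNat + (tof a b c e z).2.2.2.toNat ∧
      kk z a b c = (tof a b c e z).1.toNat + (tof a b c e z).2.2.1.toNat ∧
      kk z a b e = (tof a b c e z).2.1.toNat + (tof a b c e z).2.2.2.toNat := by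
    intro z
    simp only [tof, toNat_decide]
    refine ⟨?_, ?_, ?_, ?_⟩
    · rw [kk_eq_adj z hce hac.symm hae.symm]; simp only [adj_comm' z c a, adj_comm' z e a]
    · rw [kk_eq_adj z hce hbc.symm hbe.symm]; simp only [adj_comm' z c b, adj_comm' z e b]
    · rw [kk_eq_adj z hab hac hbc]
    · rw [kk_eq_adj z hab hae hbe]
  have hle : ∀ (z : Gr n) (p q v : Fin n), p ≠ q → p ≠ v → q ≠ v → kk z p q v ≤ 2 := by
    intro z p q v h1 h2 h3
    rw [kk_eq_adj z h1 h2 h3]
    split_ifs <;> omega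
  have hsum : kk x c e a + kk x c e b = kk y a b c + kk y a b e := by
    rw [← mblk_eq_row a b c e h', ← mblk_eq_col a b c e h', hm]
  have hnum := block_num (kk x c e a) (kk x c e b) (kk y a b c) (kk y a b e)
    (hle _ _ _ _ hce hac.symm hae.symm) (hle _ _ _ _ hce hbc.symm hbe.symm)
    (hle _ _ _ _ hab hac hbc) (hle _ _ _ _ hab hae hbe) hsum
  have hcx : cxB a b c e x ↔ (kk x c e a + kk x c e b ≠ 2 ∨ kk x c e a = 1) := by
    unfold cxB; rw [mblk_eq_row a b c e h']
  have hcy : cyB a b c e y ↔ (kk y a b c + kk y a b e = 2 ∧ kk y a b c = 1) := by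
    unfold cyB; rw [mblk_eq_col a b c e h']
  simp only [hcx, hcy]
  rw [← hnum]
  refine Finset.card_bij' (fun z _ => tof a b c e z) (fun t _ => B ∪ Tof a b c e t) ?_ ?_ ?_ ?_
  · intro z hz
    simp only [mem_filter, mem_univ, true_and] at hz ⊢
    obtain ⟨hz1, hz2, hz3⟩ := hz
    obtain ⟨k1, k2, k3, k4⟩ := hkk z
    obtain ⟨m1, m2, m3, m4⟩ := (mem_real_iff d a b c e h' x y z hx hy hk hz2 hz3).1 hz1
    exact ⟨k1 ▸ m1, k2 ▸ m2, k3 ▸ m3, k4 ▸ m4⟩
  · intro t ht
    simp only [mem_filter, mem_univ, true_and] at ht ⊢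
    refine ⟨?_, hQ t, hP t⟩
    rw [mem_real_iff d a b c e h' x y _ hx hy hk (hQ t) (hP t)]
    obtain ⟨k1, k2, k3, k4⟩ := hkk (B ∪ Tof a b c e t)
    rw [htof t] at k1 k2 k3 k4
    exact ⟨k1.trans ht.1, k2.trans ht.2.1, k3.trans ht.2.2.1, k4.trans ht.2.2.2⟩
  · intro z hz
    simp only [mem_filter] at hz
    exact hrec z hz.2.1 hz.2.2
  · intro t _
    exact htof t

end DB

theorem psiB_of_xi (d : Fin n → ℕ) (a b c e : Fin n) (h : dist4 a b c e)
    (x y : Gr n) (hx : x ∈ realizations d) (hy : y ∈ realizations d)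
    (hxy : x \ star2 c e = y \ star2 c e) : psiB a b c e x = psiB a b c e y :=
  DB.psiB_of_xi d a b c e h x y hx hy hxy

theorem psiB_of_eta (d : Fin n → ℕ) (a b c e : Fin n) (h : dist4 a b c e)
    (x y : Gr n) (hx : x ∈ realizations d) (hy : y ∈ realizations d)
    (hxy : x \ star2 a b = y \ star2 a b) : psiB a b c e x = psiB a b c e y :=
  DB.psiB_of_eta d a b c e h x y hx hy hxy

theorem cxB_of_xi (d : Fin n → ℕ) (a b c e : Fin n) (h : dist4 a b c e)
    (x y : Gr n) (hx : x ∈ realizations d) (hy : y ∈ realizations d)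
    (hxy : x \ star2 c e = y \ star2 c e) : cxB a b c e x ↔ cxB a b c e y :=
  DB.cxB_of_xi d a b c e h x y hx hy hxy

theorem cyB_of_eta (d : Fin n → ℕ) (a b c e : Fin n) (h : dist4 a b c e)
    (x y : Gr n) (hx : x ∈ realizations d) (hy : y ∈ realizations d)
    (hxy : x \ star2 a b = y \ star2 a b) : cyB a b c e x ↔ cyB a b c e y :=
  DB.cyB_of_eta d a b c e h x y hx hy hxy

theorem block_count (d : Fin n → ℕ) (a b c e : Fin n) (h : dist4 a b c e)
    (x y : Gr n) (hx : x ∈ realizations d) (hy : y ∈ realizations d)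
    (hxy : psiB a b c e x = psiB a b c e y) :
    ((realizations d).filter fun z => z \ star2 c e = x \ star2 c e ∧ z \ star2 a b = y \ star2 a b).card
      = (if cxB a b c e x then 1 else 0) + (if cyB a b c e y then 1 else 0) :=
  DB.block_count d a b c e h x y hx hy hxy

theorem cxB_and_cyB_iff (a b c e : Fin n) (h : dist4 a b c e) (G : Gr n) :
    (cxB a b c e G ∧ cyB a b c e G) ↔ (swOK G a b c e ∨ swOK G a b e c) :=
  DB.cxB_and_cyB_iff a b c e h G

/-- the pair `(ξ, η)` carries the same information as `G \ mcells`. -/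
theorem xi_eta_iff_mcells (a b c e : Fin n) (h : dist4 a b c e) (x y : Gr n) :
    (x \ star2 c e = y \ star2 c e ∧ x \ star2 a b = y \ star2 a b) ↔
      x \ mcells a b c e = y \ mcells a b c e :=
  DB.xi_eta_iff_mcells a b c e h x y

theorem gsw_swap (a b c e : Fin n) (G : Gr n) : gsw c e a b G = gsw a b c e G :=
  DB.gsw_swap a b c e G

end Crest.Agent.Switch
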