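import Crest.Agent.Switch.DisjointBlock

/-! # Small lemmas for module M9a (helper18): everything except `block_count`. -/

set_option autoImplicit false
open Finset Crest.SwitchChain

namespace Crest.Agent.Switch.DBS

variable {n : ℕ}

theorem card_inter_cell (G : Gr n) (p v : Fin n) :
    (G ∩ cell p v).card = if adj G p v then 1 else 0 := by
  by_cases h : p = v
  · subst h; simp [cell_self]
  · rw [cell_eq_singleton h]
    by_cases hm : mkE p v h ∈ G
    · rw [if_pos ((adj_iff_mem h).2 hm), inter_singleton_of_mem hm, card_singleton]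
    · rw [if_neg (fun ha => hm ((adj_iff_mem h).1 ha)), inter_singleton_of_notMem hm, card_empty]

theorem kk_eq (G : Gr n) {p q : Fin n} (hpq : p ≠ q) (v : Fin n) :
    kk G p q v = (if adj G p v then 1 else 0) + (if adj G q v then 1 else 0) := by
  unfold kk
  rw [inter_union_distrib_left, card_union_of_disjoint, card_inter_cell, card_inter_cell]
  refine Disjoint.mono inter_subset_right inter_subset_right (disjoint_cell ?_)
  intro h
  rw [Sym2.eq_iff] at h
  rcases h with ⟨h, _⟩ | ⟨h1, h2⟩
  · exact hpq h
  · exact hpq (h1.trans h2)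

theorem mblk_eq (G : Gr n) {a b c e : Fin n} (h : dist4 a b c e) :
    mblk a b c e G = (if adj G a c then 1 else 0) + (if adj G a e then 1 else 0)
      + (if adj G b c then 1 else 0) + (if adj G b e then 1 else 0) := by
  obtain ⟨hab, hac, hae, hbc, hbe, hce⟩ := h
  unfold mblk mcells
  have d1 : Disjoint (cell a c) (cell a e) := disjoint_cell (by simp; tauto)
  have d2 : Disjoint (cell a c ∪ cell a e) (cell b c) := by
    rw [disjoint_union_left]
    exact ⟨disjoint_cell (by simp; tauto), disjoint_cell (by simp; tauto)⟩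
  have d3 : Disjoint (cell a c ∪ cell a e ∪ cell b c) (cell b e) := by
    rw [disjoint_union_left, disjoint_union_left]
    exact ⟨⟨disjoint_cell (by simp; tauto), disjoint_cell (by simp; tauto)⟩,
      disjoint_cell (by simp; tauto)⟩
  rw [inter_union_distrib_left, card_union_of_disjoint
      (Disjoint.mono inter_subset_right inter_subset_right d3),
    inter_union_distrib_left, card_union_of_disjoint
      (Disjoint.mono inter_subset_right inter_subset_right d2),
    inter_union_distrib_left, card_union_of_disjoint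
      (Disjoint.mono inter_subset_right inter_subset_right d1)]
  simp only [card_inter_cell]

theorem mblk_eq_kk_rows (G : Gr n) {a b c e : Fin n} (h : dist4 a b c e) :
    mblk a b c e G = kk G c e a + kk G c e b := by
  rw [mblk_eq G h, kk_eq G h.2.2.2.2.2, kk_eq G h.2.2.2.2.2]
  simp only [adj_comm (a := c), adj_comm (a := e)]
  ring

theorem mblk_eq_kk_cols (G : Gr n) {a b c e : Fin n} (h : dist4 a b c e) :
    mblk a b c e G = kk G a b c + kk G a b e := by
  rw [mblk_eq G h, kk_eq G h.1, kk_eq G h.1]
  ring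

/-- the degree of `v ∉ {p,q}` splits into the neighbours in `{p,q}` and the rest. -/
theorem deg_eq_kk_add (G : Gr n) {p q v : Fin n} (hpq : p ≠ q) (hvp : v ≠ p) (hvq : v ≠ q) :
    deg G v = kk G p q v + deg (G \ star2 p q) v := by
  rw [← deg_inter_add_sdiff G (star2 p q) v]
  congr 1
  rw [deg_eq_sum_adj, kk_eq G hpq]
  have : ∀ w, (if adj (G ∩ star2 p q) v w then 1 else 0)
      = (if w = p then (if adj G p v then 1 else 0) else 0)
        + (if w = q then (if adj G q v then 1 else 0) else 0) := by
    intro w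
    simp only [adj_inter, adj_star2]
    by_cases hwp : w = p
    · subst hwp
      have : w ≠ q := hpq
      by_cases ha : adj G w v
      · simp [ha, ha.symm, this, hvp]
      · have : ¬ adj G v w := fun h => ha h.symm
        simp [ha, this, hpq]
    · by_cases hwq : w = q
      · subst hwq
        by_cases ha : adj G w v
        · simp [ha, ha.symm, hwp, hvq]
        · have : ¬ adj G v w := fun h => ha h.symm
          simp [ha, this, hwp]
      · simp [hwp, hwq, hvp, hvq]
  rw [sum_congr rfl fun w _ => this w, sum_add_distrib]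
  simp

theorem kk_eq_of_sdiff {x y : Gr n} {p q v : Fin n} (hpq : p ≠ q) (hvp : v ≠ p) (hvq : v ≠ q)
    (hxy : x \ star2 p q = y \ star2 p q) (hdeg : deg x v = deg y v) :
    kk x p q v = kk y p q v := by
  have h1 := deg_eq_kk_add x hpq hvp hvq
  have h2 := deg_eq_kk_add y hpq hvp hvq
  rw [hxy] at h1
  omega

theorem xi_eta_iff_mcells' (a b c e : Fin n) (h : dist4 a b c e) (x y : Gr n) :
    (x \ star2 c e = y \ star2 c e ∧ x \ star2 a b = y \ star2 a b) ↔
      x \ mcells a b c e = y \ mcells a b c e := by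
  obtain ⟨hab, hac, hae, hbc, hbe, hce⟩ := h
  constructor
  · rintro ⟨h1, h2⟩
    rw [sdiff_eq_sdiff_iff] at h1 h2 ⊢
    intro u v huv
    by_cases hu : adj (star2 c e) u v
    · by_cases hv : adj (star2 a b) u v
      · exfalso
        apply huv
        rw [adj_star2] at hu hv
        rw [adj_mcells]
        refine ⟨hu.1, ?_⟩
        obtain ⟨hne, hu⟩ := hu
        obtain ⟨-, hv⟩ := hv
        rcases hu with rfl | rfl | rfl | rfl <;> rcases hv with rfl | rfl | rfl | rfl <;>
          first | (exfalso; tauto) | tauto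
      · exact h2 u v hv
    · exact h1 u v hu
  · intro h
    exact ⟨sdiff_eq_of_subset (mcells_subset_star2' a b c e) h,
      sdiff_eq_of_subset (mcells_subset_star2 a b c e) h⟩

theorem cxB_and_cyB_iff' (a b c e : Fin n) (h : dist4 a b c e) (G : Gr n) :
    (cxB a b c e G ∧ cyB a b c e G) ↔ (swOK G a b c e ∨ swOK G a b e c) := by
  unfold cxB cyB swOK
  rw [mblk_eq G h, kk_eq G h.1, kk_eq G h.2.2.2.2.2]
  simp only [adj_comm (a := c), adj_comm (a := e)]
  by_cases h1 : adj G a c <;> by_cases h2 : adj G a e <;> by_cases h3 : adj G b c <;>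
    by_cases h4 : adj G b e <;> simp [h1, h2, h3, h4]

theorem psiB_of_xi' (d : Fin n → ℕ) (a b c e : Fin n) (h : dist4 a b c e)
    (x y : Gr n) (hx : x ∈ realizations d) (hy : y ∈ realizations d)
    (hxy : x \ star2 c e = y \ star2 c e) : psiB a b c e x = psiB a b c e y := by
  have hdeg : ∀ v, deg x v = deg y v := fun v => by
    rw [mem_realizations.1 hx v, mem_realizations.1 hy v]
  obtain ⟨hab, hac, hae, hbc, hbe, hce⟩ := id h
  unfold psiB
  refine Prod.ext ?_ (Prod.ext ?_ ?_)
  · exact sdiff_eq_of_subset subset_union_right hxy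
  · funext w
    show (if w = a ∨ w = b ∨ w = c ∨ w = e then 0 else kk x a b w)
      = (if w = a ∨ w = b ∨ w = c ∨ w = e then 0 else kk y a b w)
    split_ifs with hw
    · rfl
    · push Not at hw
      rw [kk_eq x hab, kk_eq y hab]
      rw [sdiff_eq_sdiff_iff] at hxy
      have e1 : adj x a w ↔ adj y a w := hxy a w (by rw [adj_star2]; tauto)
      have e2 : adj x b w ↔ adj y b w := hxy b w (by rw [adj_star2]; tauto)
      simp only [e1, e2]
  · show mblk a b c e x = mblk a b c e y
    rw [mblk_eq_kk_rows x h, mblk_eq_kk_rows y h,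
      kk_eq_of_sdiff hce hac hae hxy (hdeg a), kk_eq_of_sdiff hce hbc hbe hxy (hdeg b)]

theorem psiB_of_eta' (d : Fin n → ℕ) (a b c e : Fin n) (h : dist4 a b c e)
    (x y : Gr n) (hx : x ∈ realizations d) (hy : y ∈ realizations d)
    (hxy : x \ star2 a b = y \ star2 a b) : psiB a b c e x = psiB a b c e y := by
  have hdeg : ∀ v, deg x v = deg y v := fun v => by
    rw [mem_realizations.1 hx v, mem_realizations.1 hy v]
  obtain ⟨hab, hac, hae, hbc, hbe, hce⟩ := id h
  unfold psiB
  refine Prod.ext ?_ (Prod.ext ?_ ?_)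
  · exact sdiff_eq_of_subset subset_union_left hxy
  · funext w
    show (if w = a ∨ w = b ∨ w = c ∨ w = e then 0 else kk x a b w)
      = (if w = a ∨ w = b ∨ w = c ∨ w = e then 0 else kk y a b w)
    split_ifs with hw
    · rfl
    · push Not at hw
      exact kk_eq_of_sdiff hab hw.1 hw.2.1 hxy (hdeg w)
  · show mblk a b c e x = mblk a b c e y
    rw [mblk_eq_kk_cols x h, mblk_eq_kk_cols y h,
      kk_eq_of_sdiff hab hac.symm hbc.symm hxy (hdeg c),
      kk_eq_of_sdiff hab hae.symm hbe.symm hxy (hdeg e)]

theorem cxB_of_xi' (d : Fin n → ℕ) (a b c e : Fin n) (h : dist4 a b c e)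
    (x y : Gr n) (hx : x ∈ realizations d) (hy : y ∈ realizations d)
    (hxy : x \ star2 c e = y \ star2 c e) : cxB a b c e x ↔ cxB a b c e y := by
  have hm : mblk a b c e x = mblk a b c e y :=
    congrArg (fun p => p.2.2) (psiB_of_xi' d a b c e h x y hx hy hxy)
  have hk : kk x c e a = kk y c e a :=
    kk_eq_of_sdiff h.2.2.2.2.2 h.2.1 h.2.2.1 hxy
      (by rw [mem_realizations.1 hx a, mem_realizations.1 hy a])
  unfold cxB
  rw [hm, hk]

theorem cyB_of_eta' (d : Fin n → ℕ) (a b c e : Fin n) (h : dist4 a b c e)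
    (x y : Gr n) (hx : x ∈ realizations d) (hy : y ∈ realizations d)
    (hxy : x \ star2 a b = y \ star2 a b) : cyB a b c e x ↔ cyB a b c e y := by
  have hm : mblk a b c e x = mblk a b c e y :=
    congrArg (fun p => p.2.2) (psiB_of_eta' d a b c e h x y hx hy hxy)
  have hk : kk x a b c = kk y a b c :=
    kk_eq_of_sdiff h.1 h.2.1.symm h.2.2.2.1.symm hxy
      (by rw [mem_realizations.1 hx c, mem_realizations.1 hy c])
  unfold cyB
  rw [hm, hk]

end Crest.Agent.Switch.DBS
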