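import Crest.Agent.Switch.CeApi

/-!
# The abstract product / L-shape lemma (module M6 of the S0453 development)
-/

set_option autoImplicit false
set_option linter.unusedSectionVars false
set_option linter.unusedVariables false
open Finset

namespace Crest.Agent.Switch.LS

open Crest.Agent.Switch

variable {α β γ δ : Type*} [DecidableEq β] [DecidableEq γ] [DecidableEq δ]

/-- double counting transfer of a sum along a relation with matching multiplicities. -/
theorem transfer {A B : Finset α} (rel : α → α → Prop) [DecidableRel rel] (v v' : α → ℝ)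
    (ν ν' : α → ℕ)
    (hA : ∀ a ∈ A, (B.filter fun b => rel a b).card = ν a)
    (hB : ∀ b ∈ B, (A.filter fun a => rel a b).card = ν' b)
    (hνA : ∀ a ∈ A, ν a ≠ 0) (hνB : ∀ b ∈ B, ν' b ≠ 0)
    (hrel : ∀ a ∈ A, ∀ b ∈ B, rel a b → v a = v' b ∧ ν a = ν' b) :
    ∑ a ∈ A, v a = ∑ b ∈ B, v' b := by
  have h1 : ∑ a ∈ A, v a = ∑ a ∈ A, ∑ b ∈ B, if rel a b then v a / (ν a : ℝ) else 0 := by
    refine Finset.sum_congr rfl fun a ha => ?_
    rw [← Finset.sum_filter, Finset.sum_const, hA a ha, nsmul_eq_mul]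
    have : (ν a : ℝ) ≠ 0 := by exact_mod_cast hνA a ha
    field_simp
  have h2 : ∑ b ∈ B, v' b = ∑ b ∈ B, ∑ a ∈ A, if rel a b then v a / (ν a : ℝ) else 0 := by
    refine Finset.sum_congr rfl fun b hb => ?_
    have : ∑ a ∈ A, (if rel a b then v a / (ν a : ℝ) else 0)
        = ∑ a ∈ A, if rel a b then v' b / (ν' b : ℝ) else 0 := by
      refine Finset.sum_congr rfl fun a ha => ?_
      by_cases h : rel a b
      · rw [if_pos h, if_pos h, (hrel a ha b hb h).1, (hrel a ha b hb h).2]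
      · rw [if_neg h, if_neg h]
    rw [this, ← Finset.sum_filter, Finset.sum_const, hB b hb, nsmul_eq_mul]
    have : (ν' b : ℝ) ≠ 0 := by exact_mod_cast hνB b hb
    field_simp
  rw [h1, h2, Finset.sum_comm]

/-- General principle: if the fibres of `κa` over two points with the same `κc` are related by
`κv`-preserving correspondences with matching multiplicities, then `E[v | κa] = E[v | κc]` for
`κv`-measurable `v`. -/
theorem ce_eq_ce_of_transfer {Ω : Finset α} {κa : α → β} {κv : α → γ} {κc : α → δ}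
    (href : Ref Ω κa κc) (ν : α → ℕ)
    (hν : ∀ w ∈ Ω, ∀ w' ∈ Ω, κv w = κv w' → ν w = ν w')
    (hν0 : ∀ w ∈ Ω, ν w ≠ 0)
    (hcnt : ∀ z ∈ Ω, ∀ z' ∈ Ω, κc z = κc z' → ∀ w ∈ fib Ω κa z,
      ((fib Ω κa z').filter fun w' => κv w = κv w').card = ν w)
    {v : α → ℝ} (hv : Meas Ω κv v) {x : α} (hx : x ∈ Ω) :
    ce Ω κa v x = ce Ω κc v x := by
  have hsum : ∀ u : α → ℝ, Meas Ω κv u → ∀ z ∈ Ω, ∀ z' ∈ Ω, κc z = κc z' →
      ∑ w ∈ fib Ω κa z, u w = ∑ w ∈ fib Ω κa z', u w := by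
    intro u hu z hz z' hz' hzz
    refine transfer (fun w w' => κv w = κv w') u u ν ν (hcnt z hz z' hz' hzz) ?_ ?_ ?_ ?_
    · intro b hb
      have := hcnt z' hz' z hz hzz.symm b hb
      rw [← this]
      congr 1
      ext a
      simp only [Finset.mem_filter]
      constructor
      · rintro ⟨h1, h2⟩; exact ⟨h1, h2.symm⟩
      · rintro ⟨h1, h2⟩; exact ⟨h1, h2.symm⟩
    · intro a ha; exact hν0 a (mem_fib.1 ha).1
    · intro b hb; exact hν0 b (mem_fib.1 hb).1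
    · intro a ha b hb hab
      exact ⟨hu a (mem_fib.1 ha).1 b (mem_fib.1 hb).1 hab, hν a (mem_fib.1 ha).1 b (mem_fib.1 hb).1 hab⟩
  have hmeas : Meas Ω κc (ce Ω κa v) := by
    intro z hz z' hz' hzz
    unfold ce
    rw [hsum v hv z hz z' hz' hzz]
    have h1 := hsum (fun _ => 1) (fun _ _ _ _ _ => rfl) z hz z' hz' hzz
    simp only [Finset.sum_const, nsmul_eq_mul, mul_one] at h1
    rw [h1]
  rw [← ce_ce_of_ref href v hx, ce_of_meas hmeas hx]

/-- The data of the L-shape lemma. -/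
structure LData (Ω : Finset α) (ξ : α → β) (η : α → γ) (ζ : α → δ) (cX cY : α → Bool) : Prop where
  zx : ∀ x ∈ Ω, ∀ y ∈ Ω, ξ x = ξ y → ζ x = ζ y
  zy : ∀ x ∈ Ω, ∀ y ∈ Ω, η x = η y → ζ x = ζ y
  cx : ∀ x ∈ Ω, ∀ y ∈ Ω, ξ x = ξ y → cX x = cX y
  cy : ∀ x ∈ Ω, ∀ y ∈ Ω, η x = η y → cY x = cY y
  cnt : ∀ x ∈ Ω, ∀ y ∈ Ω, ζ x = ζ y →
    (Ω.filter fun z => ξ z = ξ x ∧ η z = η y).card
      = (if cX x then 1 else 0) + (if cY y then 1 else 0)

namespace LData

variable {Ω : Finset α} {ξ : α → β} {η : α → γ} {ζ : α → δ} {cX cY : α → Bool}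

theorem symm (h : LData Ω ξ η ζ cX cY) : LData Ω η ξ ζ cY cX where
  zx := h.zy
  zy := h.zx
  cx := h.cy
  cy := h.cx
  cnt := by
    intro x hx y hy hxy
    have := h.cnt y hy x hx hxy.symm
    rw [add_comm, ← this]
    congr 1
    ext z
    simp only [Finset.mem_filter]
    tauto

/-- the multiplicity at a point. -/
def mult (cX cY : α → Bool) (w : α) : ℕ := (if cX w then 1 else 0) + (if cY w then 1 else 0)

theorem mult_ne (h : LData Ω ξ η ζ cX cY) {w : α} (hw : w ∈ Ω) : mult cX cY w ≠ 0 := by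
  have := h.cnt w hw w hw rfl
  unfold mult
  rw [← this]
  exact (Finset.card_pos.2 ⟨w, by simp [hw]⟩).ne'

/-- (S1) -/
theorem s1 (h : LData Ω ξ η ζ cX cY) {v : α → ℝ} (hv : Meas Ω (fun z => (ξ z, cY z)) v)
    {x : α} (hx : x ∈ Ω) :
    ce Ω (fun z => (η z, cX z)) v x = ce Ω (fun z => (ζ z, cX z, cY z)) v x := by
  refine ce_eq_ce_of_transfer (κv := fun z => (ξ z, cY z)) ?_ (mult cX cY) ?_ (fun w hw => h.mult_ne hw)
    ?_ hv hx
  · intro a ha b hb hab
    simp only [Prod.mk.injEq] at hab ⊢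
    exact ⟨h.zy a ha b hb hab.1, hab.2, h.cy a ha b hb hab.1⟩
  · intro w hw w' hw' hww
    simp only [Prod.mk.injEq] at hww
    unfold mult
    rw [h.cx w hw w' hw' hww.1, hww.2]
  · intro z hz z' hz' hzz w hw
    simp only [Prod.mk.injEq] at hzz
    obtain ⟨hwΩ, hwz⟩ := mem_fib.1 hw
    simp only [Prod.mk.injEq] at hwz
    have hζ : ζ w = ζ z' := (h.zy w hwΩ z hz hwz.1).trans hzz.1
    have hc := h.cnt w hwΩ z' hz' hζ
    have hcY : cY z' = cY w := by rw [← hzz.2.2]; exact (h.cy w hwΩ z hz hwz.1).symm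
    unfold mult
    rw [← hcY, ← hc]
    congr 1
    ext w'
    simp only [Finset.mem_filter, mem_fib, Prod.mk.injEq]
    constructor
    · rintro ⟨⟨h1, h2, _⟩, h4, _⟩; exact ⟨h1, h4.symm, h2⟩
    · rintro ⟨h1, h2, h3⟩
      refine ⟨⟨h1, h3, ?_⟩, h2.symm, ?_⟩
      · rw [h.cx w' h1 w hwΩ h2, hwz.2, hzz.2.1]
      · rw [h.cy w' h1 z' hz' h3, hcY]

/-- (S3) -/
theorem s3 (h : LData Ω ξ η ζ cX cY) {v : α → ℝ} (hv : Meas Ω (fun z => (η z, cX z)) v)
    {x : α} (hx : x ∈ Ω) :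
    ce Ω ξ v x = ce Ω (fun z => (ζ z, cX z)) v x := by
  refine ce_eq_ce_of_transfer (κv := fun z => (η z, cX z)) ?_ (mult cX cY) ?_ (fun w hw => h.mult_ne hw)
    ?_ hv hx
  · intro a ha b hb hab
    simp only [Prod.mk.injEq]
    exact ⟨h.zx a ha b hb hab, h.cx a ha b hb hab⟩
  · intro w hw w' hw' hww
    simp only [Prod.mk.injEq] at hww
    unfold mult
    rw [h.cy w hw w' hw' hww.1, hww.2]
  · intro z hz z' hz' hzz w hw
    simp only [Prod.mk.injEq] at hzz
    obtain ⟨hwΩ, hwz⟩ := mem_fib.1 hw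
    have hζ : ζ z' = ζ w := by rw [← hzz.1]; exact (h.zx w hwΩ z hz hwz).symm
    have hc := h.cnt z' hz' w hwΩ hζ
    have hcX : cX z' = cX w := by rw [← hzz.2]; exact (h.cx w hwΩ z hz hwz).symm
    unfold mult
    rw [← hcX, ← hc]
    congr 1
    ext w'
    simp only [Finset.mem_filter, mem_fib, Prod.mk.injEq]
    constructor
    · rintro ⟨⟨h1, h2⟩, h4, _⟩; exact ⟨h1, h2, h4.symm⟩
    · rintro ⟨h1, h2, h3⟩
      refine ⟨⟨h1, h2⟩, h3.symm, ?_⟩
      rw [h.cx w' h1 z' hz' h2, hcX]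


end LData

/-- `f - E f` is orthogonal to measurable functions. -/
theorem ip_sub_ce_meas {Ω : Finset α} {κ : α → β} {m : α → ℝ} (hm : Meas Ω κ m) (u : α → ℝ) :
    ip Ω (fun z => u z - ce Ω κ u z) m = 0 := by
  rw [ip_sub_left, ip_ce_left]
  have : ip Ω u (ce Ω κ m) = ip Ω u m := ip_congr (fun _ _ => rfl) fun x hx => ce_of_meas hm hx
  rw [this]; ring

/-- two commuting conditional expectations. -/
theorem comm_proj_nonneg {Ω : Finset α} {κ₁ : α → β} {κ₂ : α → γ}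
    (hcomm : ∀ u : α → ℝ, ∀ x ∈ Ω, ce Ω κ₁ (ce Ω κ₂ u) x = ce Ω κ₂ (ce Ω κ₁ u) x) (u : α → ℝ) :
    0 ≤ ip Ω (fun z => u z - ce Ω κ₁ u z) (fun z => u z - ce Ω κ₂ u z) := by
  set w : α → ℝ := fun z => u z - ce Ω κ₁ u z with hw
  have h1 : ip Ω w u = ip Ω w w := by
    have : ip Ω w w = ip Ω w u - ip Ω w (ce Ω κ₁ u) := by
      conv_lhs => rw [hw]
      rw [← hw, ip_sub_right]
    rw [this, ip_sub_ce_meas (meas_ce Ω κ₁ u) u]; ring
  have h2 : ip Ω w (ce Ω κ₂ w) = ip Ω w (ce Ω κ₂ u) := by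
    have e : ∀ x ∈ Ω, ce Ω κ₂ w x = ce Ω κ₂ u x - ce Ω κ₁ (ce Ω κ₂ u) x := by
      intro x hx
      rw [hw, ce_sub, hcomm u x hx]
    rw [ip_congr (fun _ _ => rfl) e, ip_sub_right,
      ip_sub_ce_meas (meas_ce Ω κ₁ (ce Ω κ₂ u)) u]
    ring
  rw [ip_sub_right, h1, ← h2, ← ip_ce_ce]
  have := ip_ce_le Ω κ₂ w
  linarith

namespace LData

variable {Ω : Finset α} {ξ : α → β} {η : α → γ} {ζ : α → δ} {cX cY : α → Bool}

theorem refA (h : LData Ω ξ η ζ cX cY) :
    Ref Ω (fun z => (η z, cX z)) (fun z => (ζ z, cX z, cY z)) := by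
  intro a ha b hb hab
  simp only [Prod.mk.injEq] at hab ⊢
  exact ⟨h.zy a ha b hb hab.1, hab.2, h.cy a ha b hb hab.1⟩

theorem refB (h : LData Ω ξ η ζ cX cY) :
    Ref Ω (fun z => (ξ z, cY z)) (fun z => (ζ z, cX z, cY z)) := by
  intro a ha b hb hab
  simp only [Prod.mk.injEq] at hab ⊢
  exact ⟨h.zx a ha b hb hab.1, h.cx a ha b hb hab.1, hab.2⟩

theorem AB (h : LData Ω ξ η ζ cX cY) (u : α → ℝ) {x : α} (hx : x ∈ Ω) :
    ce Ω (fun z => (η z, cX z)) (ce Ω (fun z => (ξ z, cY z)) u) x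
      = ce Ω (fun z => (ζ z, cX z, cY z)) u x := by
  rw [h.s1 (meas_ce Ω _ u) hx, ce_ce_of_ref h.refB u hx]

theorem comm (h : LData Ω ξ η ζ cX cY) (u : α → ℝ) (x : α) (hx : x ∈ Ω) :
    ce Ω (fun z => (η z, cX z)) (ce Ω (fun z => (ξ z, cY z)) u) x
      = ce Ω (fun z => (ξ z, cY z)) (ce Ω (fun z => (η z, cX z)) u) x := by
  rw [h.AB u hx, h.symm.AB u hx]
  refine ce_key_congr ?_ ?_ u hx
  · intro a _ b _ hab
    simp only [Prod.mk.injEq] at hab ⊢
    tauto
  · intro a _ b _ hab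
    simp only [Prod.mk.injEq] at hab ⊢
    tauto

/-- `T₁ ≥ ‖f - E[f | ξ, η]‖²`. -/
theorem t1 (h : LData Ω ξ η ζ cX cY) (f : α → ℝ) :
    ip Ω (qe Ω (fun z => (ξ z, η z)) f) (qe Ω (fun z => (ξ z, η z)) f)
      ≤ ip Ω (fun z => f z - ce Ω (fun z => (η z, cX z)) f z)
          (fun z => f z - ce Ω (fun z => (ξ z, cY z)) f z) := by
  set u : α → ℝ := ce Ω (fun z => (ξ z, η z)) f with hu
  have rA : Ref Ω (fun z => (ξ z, η z)) (fun z => (η z, cX z)) := by
    intro a ha b hb hab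
    simp only [Prod.mk.injEq] at hab ⊢
    exact ⟨hab.2, h.cx a ha b hb hab.1⟩
  have rB : Ref Ω (fun z => (ξ z, η z)) (fun z => (ξ z, cY z)) := by
    intro a ha b hb hab
    simp only [Prod.mk.injEq] at hab ⊢
    exact ⟨hab.1, h.cy a ha b hb hab.2⟩
  have hA : ∀ x ∈ Ω, ce Ω (fun z => (η z, cX z)) u x = ce Ω (fun z => (η z, cX z)) f x :=
    fun x hx => ce_ce_of_ref rA f hx
  have hB : ∀ x ∈ Ω, ce Ω (fun z => (ξ z, cY z)) u x = ce Ω (fun z => (ξ z, cY z)) f x :=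
    fun x hx => ce_ce_of_ref rB f hx
  have h0 := comm_proj_nonneg h.comm u
  have expand : ∀ v : α → ℝ, ip Ω (fun z => v z - ce Ω (fun z => (η z, cX z)) v z)
      (fun z => v z - ce Ω (fun z => (ξ z, cY z)) v z)
      = ip Ω v v - ip Ω (ce Ω (fun z => (ξ z, cY z)) v) (ce Ω (fun z => (ξ z, cY z)) v)
        - ip Ω (ce Ω (fun z => (η z, cX z)) v) (ce Ω (fun z => (η z, cX z)) v)
        + ip Ω (ce Ω (fun z => (η z, cX z)) v) (ce Ω (fun z => (ξ z, cY z)) v) := by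
    intro v
    rw [ip_sub_left, ip_sub_right, ip_sub_right, ip_ce_ce, ip_ce_ce,
      ip_comm Ω (ce Ω (fun z => (η z, cX z)) v) v]
    ring
  rw [expand] at h0 ⊢
  rw [ip_congr hA hA, ip_congr hB hB, ip_congr hA hB] at h0
  rw [ip_qe_qe]
  linarith

/-- `T₂ ≥ 0`. -/
theorem t2 (h : LData Ω ξ η ζ cX cY) (f : α → ℝ) :
    0 ≤ ip Ω (fun z => f z - ce Ω (fun z => (η z, cX z)) f z)
          (fun z => ce Ω (fun z => (ξ z, cY z)) f z - ce Ω ξ f z) := by
  set D' : α → ℝ := fun z => ce Ω (fun z => (ξ z, cY z)) f z - ce Ω ξ f z with hD'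
  have rξ : Ref Ω (fun z => (ξ z, cY z)) ξ := by
    intro a _ b _ hab
    simp only [Prod.mk.injEq] at hab
    exact hab.1
  have mξ : Meas Ω (fun z => (ξ z, cY z)) (ce Ω ξ f) := Meas.of_ref rξ (meas_ce Ω ξ f)
  have mD' : Meas Ω (fun z => (ξ z, cY z)) D' := by
    intro a ha b hb hab
    simp only [hD']
    rw [meas_ce Ω _ f a ha b hb hab, mξ a ha b hb hab]
  set CD : α → ℝ := ce Ω (fun z => (ζ z, cX z, cY z)) D' with hCD
  have mCD : Meas Ω (fun z => (ξ z, cY z)) CD := Meas.of_ref h.refB (meas_ce Ω _ D')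
  have mCD' : Meas Ω (fun z => (η z, cX z)) CD := Meas.of_ref h.refA (meas_ce Ω _ D')
  -- step a, b
  have ha : ip Ω (fun z => f z - ce Ω (fun z => (η z, cX z)) f z) D' = ip Ω f D' - ip Ω f CD := by
    rw [ip_sub_left, ip_ce_left]
    congr 1
    exact ip_congr (fun _ _ => rfl) fun x hx => h.s1 mD' hx
  -- `⟨E_ξ f, D'⟩ = 0`
  have hξD : ip Ω (ce Ω ξ f) D' = 0 := by
    rw [hD', ip_sub_right, ip_meas_ce mξ f, ip_ce_ce, ip_comm]; ring
  -- decomposition of `f`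
  have hdec : ∀ m : α → ℝ, Meas Ω (fun z => (ξ z, cY z)) m →
      ip Ω f m = ip Ω D' m + ip Ω (ce Ω ξ f) m := by
    intro m hm
    have := ip_sub_ce_meas hm f
    rw [ip_sub_left] at this
    rw [hD', ip_sub_left]
    linarith
  have hc : ip Ω f D' = ip Ω D' D' := by rw [hdec D' mD', hξD]; ring
  -- `E_ξ (C D') = 0`
  have hzero : ∀ x ∈ Ω, ce Ω ξ CD x = 0 := by
    intro x hx
    have r1 : Ref Ω (fun z => (ζ z, cX z, cY z)) (fun z => (ζ z, cX z)) := by
      intro a _ b _ hab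
      simp only [Prod.mk.injEq] at hab ⊢
      exact ⟨hab.1, hab.2.1⟩
    have r2 : Ref Ω ξ (fun z => (ζ z, cX z)) := by
      intro a ha b hb hab
      simp only [Prod.mk.injEq]
      exact ⟨h.zx a ha b hb hab, h.cx a ha b hb hab⟩
    rw [h.s3 mCD' hx, hCD, ce_ce_of_ref r1 D' hx, ← ce_ce_of_ref r2 D' hx]
    have : ∀ y ∈ Ω, ce Ω ξ D' y = (fun _ => (0:ℝ)) y := by
      intro y hy
      rw [hD', ce_sub, ce_ce_of_ref rξ f hy, ce_of_meas (meas_ce Ω ξ f) hy]; simp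
    rw [ce_congr this]
    simp [ce]
  have hd : ip Ω f CD = ip Ω CD CD := by
    rw [hdec CD mCD, ip_ce_left, ip_congr (fun _ _ => rfl) hzero, hCD, ip_ce_ce]
    simp [ip]
  rw [ha, hc, hd]
  have := ip_ce_le Ω (fun z => (ζ z, cX z, cY z)) D'
  linarith


theorem cX_of_not_cY (h : LData Ω ξ η ζ cX cY) {w : α} (hw : w ∈ Ω) (hc : cY w = false) :
    cX w = true := by
  have := h.mult_ne hw
  unfold mult at this
  rw [hc] at this
  by_contra hcx
  simp [hcx] at this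

/-- `D = 0` off `cY`. -/
theorem dzero (h : LData Ω ξ η ζ cX cY) (f : α → ℝ) {z : α} (hz : z ∈ Ω) (hc : cY z = false) :
    ce Ω (fun z => (η z, cX z)) f z = ce Ω η f z := by
  have : fib Ω (fun z => (η z, cX z)) z = fib Ω η z := by
    ext w
    rw [mem_fib, mem_fib]
    simp only [Prod.mk.injEq]
    constructor
    · rintro ⟨h1, h2, _⟩; exact ⟨h1, h2⟩
    · rintro ⟨h1, h2⟩
      refine ⟨h1, h2, ?_⟩
      rw [h.cX_of_not_cY hz hc, h.cX_of_not_cY h1 ((h.cy w h1 z hz h2).trans hc)]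
  unfold ce; rw [this]

/-- on the corner `cX ∧ cY`, `E[f | η, cX] = E[f g | η] / E[g | η]`. -/
theorem corner (h : LData Ω ξ η ζ cX cY) {g : α → ℝ}
    (hg : ∀ z ∈ Ω, g z = if cX z = true ∧ cY z = true then 1 else 0) (f : α → ℝ)
    {z : α} (hz : z ∈ Ω) (hx : cX z = true) (hy : cY z = true) :
    ce Ω η g z ≠ 0 ∧
    ce Ω (fun z => (η z, cX z)) f z = ce Ω η (fun w => f w * g w) z / ce Ω η g z := by
  have hfib : fib Ω (fun z => (η z, cX z)) z = (fib Ω η z).filter fun w => cX w = true := by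
    ext w
    rw [Finset.mem_filter, mem_fib, mem_fib]
    simp only [Prod.mk.injEq, hx]
    tauto
  have hgw : ∀ w ∈ fib Ω η z, g w = if cX w = true then 1 else 0 := by
    intro w hw
    obtain ⟨h1, h2⟩ := mem_fib.1 hw
    rw [hg w h1, (h.cy w h1 z hz h2).trans hy]
    simp
  have e1 : ∑ w ∈ fib Ω η z, g w = ((fib Ω (fun z => (η z, cX z)) z).card : ℝ) := by
    rw [Finset.sum_congr rfl hgw, hfib, Finset.card_filter]
    push_cast
    rfl
  have e2 : ∑ w ∈ fib Ω η z, f w * g w = ∑ w ∈ fib Ω (fun z => (η z, cX z)) z, f w := by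
    rw [hfib, Finset.sum_filter]
    refine Finset.sum_congr rfl fun w hw => ?_
    rw [hgw w hw]
    split_ifs <;> simp
  have hF : ((fib Ω η z).card : ℝ) ≠ 0 := card_fib_ne hz
  have hA : ((fib Ω (fun z => (η z, cX z)) z).card : ℝ) ≠ 0 := card_fib_ne hz
  constructor
  · unfold ce; rw [e1]; exact div_ne_zero hA hF
  · unfold ce; rw [e1, e2]; field_simp

/-- the `yterm` is the squared norm of `D` on the corner. -/
theorem yterm_eq (h : LData Ω ξ η ζ cX cY) {g : α → ℝ}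
    (hg : ∀ z ∈ Ω, g z = if cX z = true ∧ cY z = true then 1 else 0) (f : α → ℝ) :
    yterm Ω η g f = ∑ z ∈ Ω, g z * (ce Ω (fun z => (η z, cX z)) f z - ce Ω η f z) ^ 2 := by
  set c : α → ℝ := fun z => ce Ω η (fun y => f y * g y) z - ce Ω η f z * ce Ω η g z with hc
  set t : α → ℝ := fun z => (c z / ce Ω η g z) ^ 2 with ht
  have mt : Meas Ω η t := by
    intro a ha b hb hab
    simp only [ht, hc]
    rw [meas_ce Ω η _ a ha b hb hab, meas_ce Ω η f a ha b hb hab, meas_ce Ω η g a ha b hb hab]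
  have e1 : ∑ z ∈ Ω, g z * (ce Ω (fun z => (η z, cX z)) f z - ce Ω η f z) ^ 2 = ip Ω t g := by
    unfold ip
    refine Finset.sum_congr rfl fun z hz => ?_
    by_cases hcc : cX z = true ∧ cY z = true
    · obtain ⟨hp, hA⟩ := h.corner hg f hz hcc.1 hcc.2
      rw [hA]
      simp only [ht, hc]
      rw [mul_comm]
      congr 2
      field_simp
    · rw [hg z hz, if_neg hcc]; simp
  rw [e1, ← ip_meas_ce mt g]
  unfold yterm ip
  refine Finset.sum_congr rfl fun z hz => ?_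
  simp only [ht, hc]
  by_cases hp : ce Ω η g z = 0
  · rw [hp]; simp
  · field_simp

/-- **The L-shape lemma.** -/
theorem main (h : LData Ω ξ η ζ cX cY) {g : α → ℝ}
    (hg : ∀ z ∈ Ω, g z = if cX z = true ∧ cY z = true then 1 else 0) (f : α → ℝ) :
    2 * ip Ω (qe Ω (fun z => (ξ z, η z)) f) (qe Ω (fun z => (ξ z, η z)) f)
      ≤ 2 * ip Ω (qe Ω η f) (qe Ω ξ f) + yterm Ω η g f + yterm Ω ξ g f := by
  have hg' : ∀ z ∈ Ω, g z = if cY z = true ∧ cX z = true then 1 else 0 := by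
    intro z hz
    rw [hg z hz]
    congr 1
    exact propext and_comm
  rw [h.yterm_eq hg f, h.symm.yterm_eq hg' f]
  set a : α → ℝ := fun z => f z - ce Ω (fun z => (η z, cX z)) f z with ha
  set b : α → ℝ := fun z => f z - ce Ω (fun z => (ξ z, cY z)) f z with hb
  set D : α → ℝ := fun z => ce Ω (fun z => (η z, cX z)) f z - ce Ω η f z with hD
  set D' : α → ℝ := fun z => ce Ω (fun z => (ξ z, cY z)) f z - ce Ω ξ f z with hD'
  have e : ip Ω (qe Ω η f) (qe Ω ξ f) = ip Ω a b + ip Ω a D' + ip Ω D b + ip Ω D D' := by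
    have e1 : ip Ω (qe Ω η f) (qe Ω ξ f) = ip Ω (fun z => a z + D z) (fun z => b z + D' z) := by
      refine ip_congr (fun z _ => ?_) (fun z _ => ?_)
      · simp only [qe, ha, hD]; ring
      · simp only [qe, hb, hD']; ring
    rw [e1, ip_add_left, ip_add_right, ip_add_right]; ring
  have t1 := h.t1 f
  have t2 := h.t2 f
  have t3 := h.symm.t2 f
  rw [ip_comm] at t3
  have t4 : 0 ≤ 2 * ip Ω D D' + ∑ z ∈ Ω, g z * D z ^ 2 + ∑ z ∈ Ω, g z * D' z ^ 2 := by
    unfold ip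
    rw [Finset.mul_sum, ← Finset.sum_add_distrib, ← Finset.sum_add_distrib]
    refine Finset.sum_nonneg fun z hz => ?_
    by_cases hcc : cX z = true ∧ cY z = true
    · rw [hg z hz, if_pos hcc]; nlinarith [sq_nonneg (D z + D' z)]
    · rw [hg z hz, if_neg hcc]
      by_cases hy : cY z = true
      · have hx : cX z = false := by
          by_contra hx
          exact hcc ⟨by simpa using hx, hy⟩
        have : D' z = 0 := by
          simp only [hD']; rw [h.symm.dzero f hz hx]; ring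
        rw [this]; simp
      · have hy' : cY z = false := by simpa using hy
        have : D z = 0 := by
          simp only [hD]; rw [h.dzero f hz hy']; ring
        rw [this]; simp
  rw [e]
  linarith

end LData

end Crest.Agent.Switch.LS

namespace Crest.Agent.Switch

/-- Module M6 in the form of the skeleton (one block `Φ`). -/
theorem lshape {α β₁ β₂ : Type*} [DecidableEq α] [DecidableEq β₁] [DecidableEq β₂]
    (Φ : Finset α) (ξ : α → β₁) (η : α → β₂) (cx cy : α → Prop)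
    [DecidablePred cx] [DecidablePred cy]
    (hcx : ∀ x ∈ Φ, ∀ y ∈ Φ, ξ x = ξ y → (cx x ↔ cx y))
    (hcy : ∀ x ∈ Φ, ∀ y ∈ Φ, η x = η y → (cy x ↔ cy y))
    (hcount : ∀ x ∈ Φ, ∀ y ∈ Φ, (Φ.filter fun z => ξ z = ξ x ∧ η z = η y).card
        = (if cx x then 1 else 0) + (if cy y then 1 else 0))
    (f : α → ℝ) :
    2 * ip Φ (qe Φ (fun z => (ξ z, η z)) f) (qe Φ (fun z => (ξ z, η z)) f)
        - yterm Φ η (fun z => if cx z ∧ cy z then 1 else 0) f
        - yterm Φ ξ (fun z => if cx z ∧ cy z then 1 else 0) f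
      ≤ 2 * ip Φ (qe Φ η f) (qe Φ ξ f) := by
  have h : LS.LData Φ ξ η (fun _ => ()) (fun z => decide (cx z)) (fun z => decide (cy z)) :=
    { zx := fun _ _ _ _ _ => rfl
      zy := fun _ _ _ _ _ => rfl
      cx := fun x hx y hy hxy => by simp only [decide_eq_decide]; exact hcx x hx y hy hxy
      cy := fun x hx y hy hxy => by simp only [decide_eq_decide]; exact hcy x hx y hy hxy
      cnt := fun x hx y hy _ => by simpa using hcount x hx y hy }
  have := h.main (g := fun z => if cx z ∧ cy z then 1 else 0) (fun z _ => by simp) f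
  linarith

end Crest.Agent.Switch
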