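import Crest.Agent.Switch.Graph
import Crest.Agent.Switch.LShape
import Crest.Agent.Switch.DisjointBlock
import Crest.Agent.Switch.DisjointBlockSmall

/-! # Module M9: two disjoint pairs (from the L-shape lemma) -/

set_option autoImplicit false
open Finset Crest.SwitchChain

namespace Crest.Agent.Switch

variable {n : ℕ}

/-- the block structure of two disjoint pairs is an instance of the L-shape data. -/
theorem Disj.ldata (d : Fin n → ℕ) (a b c e : Fin n) (h : dist4 a b c e) :
    LS.LData (realizations d) (fun G : Gr n => G \ star2 c e) (fun G : Gr n => G \ star2 a b)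
      (psiB a b c e) (fun G => decide (cxB a b c e G)) (fun G => decide (cyB a b c e G)) where
  zx := fun x hx y hy hxy => DBS.psiB_of_xi' d a b c e h x y hx hy hxy
  zy := fun x hx y hy hxy => DBS.psiB_of_eta' d a b c e h x y hx hy hxy
  cx := fun x hx y hy hxy => by
    have := DBS.cxB_of_xi' d a b c e h x y hx hy hxy
    simp only [this]
  cy := fun x hx y hy hxy => by
    have := DBS.cyB_of_eta' d a b c e h x y hx hy hxy
    simp only [this]
  cnt := fun x hx y hy hxy => by
    have := block_count d a b c e h x y hx hy hxy
    simp only [decide_eq_true_eq]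
    exact this

/-- M9 (from the L-shape lemma) -/
theorem disjoint_lower (d : Fin n → ℕ) (f : Gr n → ℝ) (a b c e : Fin n) (h : dist4 a b c e) :
    2 * Zt (realizations d) f a b c e - Yt (realizations d) f a b c e
        - Yt (realizations d) f c e a b
      ≤ 2 * ip (realizations d) (Qp (realizations d) a b f) (Qp (realizations d) c e f) := by
  have hg : ∀ z ∈ realizations d, gsw a b c e z =
      if decide (cxB a b c e z) = true ∧ decide (cyB a b c e z) = true then 1 else 0 := by
    intro z _
    unfold gsw
    simp only [decide_eq_true_eq, DBS.cxB_and_cyB_iff' a b c e h z]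
  have key := (Disj.ldata d a b c e h).main hg f
  have hq : ∀ x ∈ realizations d,
      qe (realizations d) (fun z : Gr n => (z \ star2 c e, z \ star2 a b)) f x
        = qe (realizations d) (fun G : Gr n => G \ mcells a b c e) f x := by
    intro x hx
    refine qe_congr_map (fun u _ v _ => ?_) f hx
    rw [Prod.mk.injEq]
    exact DBS.xi_eta_iff_mcells' a b c e h u v
  rw [ip_congr _ hq hq] at key
  unfold Zt Yt Qp
  rw [gsw_swap_pairs a b c e]
  linarith

end Crest.Agent.Switch
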