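import Mathlib

/-!
# Spectral gap of the Johnson graph `J(N,u)` (module M3 = [J1] of the switch-chain proof)
-/

set_option autoImplicit false

namespace Crest.Agent.SwitchJ

open Finset

variable {α : Type*} [DecidableEq α]

/-- swap `x` out, `y` in -/
def sw (U : Finset α) (x y : α) : Finset α := insert y (U.erase x)

lemma sw_mem {C U : Finset α} {u : ℕ} {x y : α} (hU : U ∈ C.powersetCard u)
    (hx : x ∈ U) (hy : y ∈ C \ U) : sw U x y ∈ C.powersetCard u := by
  rw [mem_powersetCard] at hU ⊢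
  rw [mem_sdiff] at hy
  refine ⟨?_, ?_⟩
  · intro z hz
    rcases mem_insert.1 hz with rfl | hz
    · exact hy.1
    · exact hU.1 (mem_of_mem_erase hz)
  · unfold sw
    rw [card_insert_of_notMem (fun h => hy.2 (mem_of_mem_erase h)), card_erase_of_mem hx]
    have : 0 < U.card := card_pos.2 ⟨x, hx⟩
    omega

lemma sw_sw_back {U : Finset α} {x y : α} (hx : x ∈ U) (hy : y ∉ U) :
    sw (sw U x y) y x = U := by
  unfold sw
  rw [erase_insert (fun h => hy (mem_of_mem_erase h)), insert_erase hx]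

lemma mem_sw_self {U : Finset α} {x y : α} : y ∈ sw U x y := mem_insert_self _ _

lemma not_mem_sw {U : Finset α} {x y : α} (hxy : x ≠ y) : x ∉ sw U x y := by
  unfold sw
  intro h
  rcases mem_insert.1 h with h | h
  · exact hxy h
  · exact notMem_erase _ _ h

/-- connectivity of the Johnson graph, in functional form -/
lemma const_of_sw_invariant {C : Finset α} {u : ℕ} (f : Finset α → ℝ)
    (h : ∀ U ∈ C.powersetCard u, ∀ x ∈ U, ∀ y ∈ C \ U, f (sw U x y) = f U) :
    ∀ U ∈ C.powersetCard u, ∀ V ∈ C.powersetCard u, f U = f V := by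
  intro U hU V hV
  induction' hn : (U \ V).card using Nat.strong_induction_on with n ih generalizing U
  by_cases hUV : U \ V = ∅
  · have hsub : U ⊆ V := sdiff_eq_empty_iff_subset.1 hUV
    have : U = V := eq_of_subset_of_card_le hsub
      (by rw [(mem_powersetCard.1 hU).2, (mem_powersetCard.1 hV).2])
    rw [this]
  · obtain ⟨x, hx⟩ := nonempty_iff_ne_empty.2 hUV
    have hcard : (V \ U).card = (U \ V).card := by
      have h1 := card_sdiff_add_card_inter U V
      have h2 := card_sdiff_add_card_inter V U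
      rw [inter_comm] at h2
      have h3 := (mem_powersetCard.1 hU).2
      have h4 := (mem_powersetCard.1 hV).2
      omega
    have hne : (V \ U).Nonempty := by
      rw [← card_pos, hcard, card_pos]; exact ⟨x, hx⟩
    obtain ⟨y, hy⟩ := hne
    rw [mem_sdiff] at hx hy
    have hyC : y ∈ C \ U := mem_sdiff.2 ⟨(mem_powersetCard.1 hV).1 hy.1, hy.2⟩
    have hU' := sw_mem hU hx.1 hyC
    have hlt : (sw U x y \ V).card < n := by
      rw [← hn]
      apply card_lt_card
      refine ⟨?_, ?_⟩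
      · intro z hz
        rw [mem_sdiff] at hz ⊢
        rcases mem_insert.1 hz.1 with rfl | hz1
        · exact absurd hy.1 hz.2
        · exact ⟨mem_of_mem_erase hz1, hz.2⟩
      · intro hsub
        have hxm : x ∈ sw U x y \ V := hsub (mem_sdiff.2 hx)
        have hxy : x ≠ y := fun e => hx.2 (e ▸ hy.1)
        exact not_mem_sw hxy (mem_sdiff.1 hxm).1
    rw [← h U hU x hx.1 y hyC]
    exact ih _ hlt _ hU' rfl

/-- Johnson adjacency operator -/
def adjOp (C : Finset α) (f : Finset α → ℝ) (U : Finset α) : ℝ :=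
  ∑ x ∈ U, ∑ y ∈ C \ U, f (sw U x y)

lemma sdiff_sw {C U : Finset α} {x y : α} (hUC : U ⊆ C) (hx : x ∈ U) (hy : y ∈ C \ U) :
    C \ sw U x y = insert x ((C \ U).erase y) := by
  have hy' := mem_sdiff.1 hy
  have hxy : x ≠ y := fun e => hy'.2 (e ▸ hx)
  ext z
  simp only [sw, mem_sdiff, mem_insert, mem_erase, not_or, not_and]
  constructor
  · rintro ⟨hzC, hzy, hz⟩
    by_cases hzx : z = x
    · exact Or.inl hzx
    · exact Or.inr ⟨hzy, hzC, hz hzx⟩
  · rintro (rfl | ⟨hzy, hzC, hzU⟩)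
    · exact ⟨hUC hx, hxy, fun h => absurd rfl h⟩
    · exact ⟨hzC, hzy, fun _ => hzU⟩

lemma adjOp_diff_le {C : Finset α} {u : ℕ} (f : Finset α → ℝ) (D : ℝ)
    (hD : ∀ U ∈ C.powersetCard u, ∀ x ∈ U, ∀ y ∈ C \ U, f U - f (sw U x y) ≤ D)
    {U : Finset α} (hU : U ∈ C.powersetCard u) {x y : α} (hx : x ∈ U) (hy : y ∈ C \ U) :
    adjOp C f U - adjOp C f (sw U x y) ≤
      ((u : ℝ) - 1) * ((C.card : ℝ) - u - 1) * D - (f U - f (sw U x y)) := by
  have hUC := (mem_powersetCard.1 hU).1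
  have hUc := (mem_powersetCard.1 hU).2
  have hy' := mem_sdiff.1 hy
  have hxy : x ≠ y := fun e => hy'.2 (e ▸ hx)
  set U0 := U.erase x with hU0
  set R := (C \ U).erase y with hR
  have hyU0 : y ∉ U0 := fun h => hy'.2 (mem_of_mem_erase h)
  have hxR : x ∉ R := fun h => (mem_sdiff.1 (mem_of_mem_erase h)).2 hx
  have e1 : adjOp C f U = (f (sw U x y) + ∑ b ∈ R, f (sw U x b)) +
      ∑ a ∈ U0, (f (sw U a y) + ∑ b ∈ R, f (sw U a b)) := by
    unfold adjOp
    rw [← add_sum_erase U _ hx]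
    congr 1
    · rw [← add_sum_erase (C \ U) _ hy]
    · apply sum_congr rfl
      intro a _
      rw [← add_sum_erase (C \ U) _ hy]
  have e2 : adjOp C f (sw U x y) = (f (sw (sw U x y) y x) + ∑ b ∈ R, f (sw (sw U x y) y b)) +
      ∑ a ∈ U0, (f (sw (sw U x y) a x) + ∑ b ∈ R, f (sw (sw U x y) a b)) := by
    unfold adjOp
    rw [sdiff_sw hUC hx hy]
    have : sw U x y = insert y U0 := rfl
    conv_lhs => rw [this]
    rw [sum_insert hyU0]
    congr 1
    · rw [sum_insert hxR, this]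
    · apply sum_congr rfl
      intro a _
      rw [sum_insert hxR, this]
  have t1 : sw (sw U x y) y x = U := sw_sw_back hx hy'.2
  have t2 : ∀ b ∈ R, sw (sw U x y) y b = sw U x b := by
    intro b _
    unfold sw
    rw [erase_insert hyU0]
  have t3 : ∀ a ∈ U0, sw (sw U x y) a x = sw U a y := by
    intro a ha
    have hax : a ≠ x := ne_of_mem_erase ha
    have haU : a ∈ U := mem_of_mem_erase ha
    have hay : a ≠ y := fun e => hy'.2 (e ▸ haU)
    ext z
    simp only [sw, mem_insert, mem_erase]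
    constructor
    · rintro (rfl | ⟨hza, rfl | ⟨hzx, hzU⟩⟩)
      · exact Or.inr ⟨hax.symm, hx⟩
      · exact Or.inl rfl
      · exact Or.inr ⟨hza, hzU⟩
    · rintro (rfl | ⟨hza, hzU⟩)
      · exact Or.inr ⟨hay.symm, Or.inl rfl⟩
      · by_cases hzx : z = x
        · exact Or.inl hzx
        · exact Or.inr ⟨hza, Or.inr ⟨hzx, hzU⟩⟩
  have t4 : ∀ a ∈ U0, ∀ b ∈ R, f (sw U a b) - f (sw (sw U x y) a b) ≤ D := by
    intro a ha b hb
    have hax : a ≠ x := ne_of_mem_erase ha
    have haU : a ∈ U := mem_of_mem_erase ha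
    have hay : a ≠ y := fun e => hy'.2 (e ▸ haU)
    have hby : b ≠ y := ne_of_mem_erase hb
    have hbCU : b ∈ C \ U := mem_of_mem_erase hb
    have hb' := mem_sdiff.1 hbCU
    have hbx : b ≠ x := fun e => hb'.2 (e ▸ hx)
    have hmem := sw_mem hU haU hbCU
    have hx2 : x ∈ sw U a b := mem_insert_of_mem (mem_erase.2 ⟨hax.symm, hx⟩)
    have hy2 : y ∈ C \ sw U a b := by
      rw [mem_sdiff]
      refine ⟨hy'.1, fun h => ?_⟩
      rcases mem_insert.1 h with h | h
      · exact hby h.symm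
      · exact hy'.2 (mem_of_mem_erase h)
    have key : sw (sw U x y) a b = sw (sw U a b) x y := by
      ext z
      simp only [sw, mem_insert, mem_erase]
      constructor
      · rintro (rfl | ⟨hza, rfl | ⟨hzx, hzU⟩⟩)
        · exact Or.inr ⟨hbx, Or.inl rfl⟩
        · exact Or.inl rfl
        · exact Or.inr ⟨hzx, Or.inr ⟨hza, hzU⟩⟩
      · rintro (rfl | ⟨hzx, rfl | ⟨hza, hzU⟩⟩)
        · exact Or.inr ⟨hay.symm, Or.inl rfl⟩
        · exact Or.inl rfl
        · exact Or.inr ⟨hza, Or.inr ⟨hzx, hzU⟩⟩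
    rw [key]
    exact hD _ hmem x hx2 y hy2
  have cU0 : (U0.card : ℝ) = (u : ℝ) - 1 := by
    have : U0.card = u - 1 := by rw [hU0, card_erase_of_mem hx, hUc]
    have hpos : 1 ≤ u := by rw [← hUc]; exact card_pos.2 ⟨x, hx⟩
    rw [this]; push_cast [hpos]; ring
  have cR : (R.card : ℝ) = (C.card : ℝ) - u - 1 := by
    have h1 : R.card = (C \ U).card - 1 := by rw [hR, card_erase_of_mem hy]
    have h2 : (C \ U).card = C.card - u := by rw [card_sdiff_of_subset hUC, hUc]
    have hpos : 1 ≤ (C \ U).card := card_pos.2 ⟨y, hy⟩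
    have hle : u ≤ C.card := by rw [← hUc]; exact card_le_card hUC
    rw [h1]; push_cast [hpos]; rw [h2]; push_cast [hle]; ring
  rw [e1, e2, t1, sum_congr rfl (fun b hb => by rw [t2 b hb] : ∀ b ∈ R, f (sw (sw U x y) y b) = f (sw U x b))]
  have e3 : ∑ a ∈ U0, (f (sw U a y) + ∑ b ∈ R, f (sw U a b)) -
      ∑ a ∈ U0, (f (sw (sw U x y) a x) + ∑ b ∈ R, f (sw (sw U x y) a b)) ≤
      ((u : ℝ) - 1) * ((C.card : ℝ) - u - 1) * D := by
    rw [← sum_sub_distrib]
    calc ∑ a ∈ U0, ((f (sw U a y) + ∑ b ∈ R, f (sw U a b)) -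
          (f (sw (sw U x y) a x) + ∑ b ∈ R, f (sw (sw U x y) a b)))
        ≤ ∑ a ∈ U0, (((C.card : ℝ) - u - 1) * D) := by
          apply sum_le_sum
          intro a ha
          rw [t3 a ha]
          have : ∑ b ∈ R, f (sw U a b) - ∑ b ∈ R, f (sw (sw U x y) a b) ≤ ∑ _b ∈ R, D := by
            rw [← sum_sub_distrib]
            exact sum_le_sum (fun b hb => t4 a ha b hb)
          rw [sum_const, nsmul_eq_mul, cR] at this
          linarith
      _ = ((u : ℝ) - 1) * ((C.card : ℝ) - u - 1) * D := by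
          rw [sum_const, nsmul_eq_mul, cU0]; ring
  linarith

/-- reversibility of the Johnson graph: reindexing of sums over oriented edges -/
lemma sum_sw_symm' (C : Finset α) (u : ℕ) (H : Finset α → α → α → ℝ) :
    ∑ U ∈ C.powersetCard u, ∑ x ∈ U, ∑ y ∈ C \ U, H U x y =
      ∑ U ∈ C.powersetCard u, ∑ x ∈ U, ∑ y ∈ C \ U, H (sw U x y) y x := by
  have conv : ∀ G : Finset α → α → α → ℝ,
      ∑ U ∈ C.powersetCard u, ∑ x ∈ U, ∑ y ∈ C \ U, G U x y =
      ∑ t ∈ (C.powersetCard u).sigma (fun U => U ×ˢ (C \ U)), G t.1 t.2.1 t.2.2 := by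
    intro G
    rw [sum_sigma]
    apply sum_congr rfl
    intro U _
    rw [sum_product]
  rw [conv H, conv (fun U x y => H (sw U x y) y x)]
  refine sum_bij' (fun t _ => ⟨sw t.1 t.2.1 t.2.2, (t.2.2, t.2.1)⟩)
    (fun t _ => ⟨sw t.1 t.2.1 t.2.2, (t.2.2, t.2.1)⟩) ?_ ?_ ?_ ?_ ?_
  · rintro ⟨U, x, y⟩ h
    simp only [mem_sigma, mem_product] at h ⊢
    obtain ⟨hU, hx, hy⟩ := h
    have hy' := mem_sdiff.1 hy
    have hxy : x ≠ y := fun e => hy'.2 (e ▸ hx)
    exact ⟨sw_mem hU hx hy, mem_sw_self,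
      mem_sdiff.2 ⟨(mem_powersetCard.1 hU).1 hx, not_mem_sw hxy⟩⟩
  · rintro ⟨U, x, y⟩ h
    simp only [mem_sigma, mem_product] at h ⊢
    obtain ⟨hU, hx, hy⟩ := h
    have hy' := mem_sdiff.1 hy
    have hxy : x ≠ y := fun e => hy'.2 (e ▸ hx)
    exact ⟨sw_mem hU hx hy, mem_sw_self,
      mem_sdiff.2 ⟨(mem_powersetCard.1 hU).1 hx, not_mem_sw hxy⟩⟩
  · rintro ⟨U, x, y⟩ h
    simp only [mem_sigma, mem_product] at h
    obtain ⟨hU, hx, hy⟩ := h
    simp only [sw_sw_back hx (mem_sdiff.1 hy).2]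
  · rintro ⟨U, x, y⟩ h
    simp only [mem_sigma, mem_product] at h
    obtain ⟨hU, hx, hy⟩ := h
    simp only [sw_sw_back hx (mem_sdiff.1 hy).2]
  · rintro ⟨U, x, y⟩ h
    simp only [mem_sigma, mem_product] at h
    obtain ⟨hU, hx, hy⟩ := h
    simp only [sw_sw_back hx (mem_sdiff.1 hy).2]

lemma sum_sw_symm (C : Finset α) (u : ℕ) (F : Finset α → Finset α → ℝ) :
    ∑ U ∈ C.powersetCard u, ∑ x ∈ U, ∑ y ∈ C \ U, F U (sw U x y) =
      ∑ U ∈ C.powersetCard u, ∑ x ∈ U, ∑ y ∈ C \ U, F (sw U x y) U := by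
  rw [sum_sw_symm' C u (fun U x y => F U (sw U x y))]
  apply sum_congr rfl
  intro U _
  apply sum_congr rfl
  intro x hx
  apply sum_congr rfl
  intro y hy
  rw [sw_sw_back hx (mem_sdiff.1 hy).2]

/-- eigenvalue bound: a non-constant eigenfunction of the Johnson adjacency operator has eigenvalue
at most `u (N-u) - N`. -/
lemma adjOp_eig_le {C : Finset α} {u : ℕ} (f : Finset α → ℝ) (θ : ℝ)
    (heig : ∀ U ∈ C.powersetCard u, adjOp C f U = θ * f U)
    (hnc : ∃ U ∈ C.powersetCard u, ∃ V ∈ C.powersetCard u, f U ≠ f V) :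
    θ ≤ (u : ℝ) * ((C.card : ℝ) - u) - C.card := by
  classical
  set P := (C.powersetCard u).sigma (fun U => U ×ˢ (C \ U)) with hP
  set g : (Σ _ : Finset α, α × α) → ℝ := fun t => f t.1 - f (sw t.1 t.2.1 t.2.2) with hg
  have hPne : P.Nonempty := by
    by_contra hne
    rw [not_nonempty_iff_eq_empty] at hne
    obtain ⟨U, hU, V, hV, hUV⟩ := hnc
    apply hUV
    apply const_of_sw_invariant f _ U hU V hV
    intro W hW x hx y hy
    exfalso
    have : (⟨W, (x, y)⟩ : Σ _ : Finset α, α × α) ∈ P := by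
      rw [hP]; simp only [mem_sigma, mem_product]; exact ⟨hW, hx, hy⟩
    rw [hne] at this
    exact absurd this (notMem_empty _)
  obtain ⟨⟨U, x, y⟩, ht, hmax⟩ := P.exists_max_image g hPne
  rw [hP] at ht
  simp only [mem_sigma, mem_product] at ht
  obtain ⟨hU, hx, hy⟩ := ht
  set D := f U - f (sw U x y) with hDdef
  have hD : ∀ W ∈ C.powersetCard u, ∀ a ∈ W, ∀ b ∈ C \ W, f W - f (sw W a b) ≤ D := by
    intro W hW a ha b hb
    have : (⟨W, (a, b)⟩ : Σ _ : Finset α, α × α) ∈ P := by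
      rw [hP]; simp only [mem_sigma, mem_product]; exact ⟨hW, ha, hb⟩
    exact hmax _ this
  have hDpos : 0 < D := by
    by_contra hle
    push Not at hle
    obtain ⟨U1, hU1, V1, hV1, hUV⟩ := hnc
    apply hUV
    apply const_of_sw_invariant f _ U1 hU1 V1 hV1
    intro W hW a ha b hb
    have h1 := hD W hW a ha b hb
    have hb' := mem_sdiff.1 hb
    have hab : a ≠ b := fun e => hb'.2 (e ▸ ha)
    have h2 := hD (sw W a b) (sw_mem hW ha hb) b mem_sw_self a
      (mem_sdiff.2 ⟨(mem_powersetCard.1 hW).1 ha, not_mem_sw hab⟩)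
    rw [sw_sw_back ha hb'.2] at h2
    linarith
  have key := adjOp_diff_le f D hD hU hx hy
  rw [heig U hU, heig _ (sw_mem hU hx hy), ← hDdef] at key
  have : θ * D ≤ (((u : ℝ) - 1) * ((C.card : ℝ) - u - 1) - 1) * D := by
    have : θ * f U - θ * f (sw U x y) = θ * D := by rw [hDdef]; ring
    linarith
  have := le_of_mul_le_mul_right this hDpos
  linarith

end Crest.Agent.SwitchJ
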