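import Mathlib

/-!
# Pure algebra for [J2]: quadratic forms on symmetric arrays indexed by pairs
-/

set_option autoImplicit false

namespace Crest.Agent.SwitchJ

open Finset

variable {ι : Type*} [DecidableEq ι]

/-- Kronecker delta -/
def dl (x y : ι) : ℝ := if x = y then 1 else 0

/-- the model second-moment kernel -/
def Mf (k2 k4 : ℝ) (c d c' d' : ι) : ℝ :=
  4 * k4 * (1 - (dl c c' + dl c d' + dl d c' + dl d d') + dl c c' * dl d d' + dl c d' * dl d c')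
    + k2 * (dl c c' + dl c d' + dl d c' + dl d d')

section

variable (C : Finset ι) (a : ι → ι → ℝ)

/-- row sums -/
def rs (c : ι) : ℝ := ∑ d ∈ C, a c d

lemma inner_Mf (hsym : ∀ c d, a c d = a d c) (k2 k4 : ℝ) {c d : ι} (hc : c ∈ C) (hd : d ∈ C) :
    ∑ c' ∈ C, ∑ d' ∈ C, a c' d' * Mf k2 k4 c d c' d' =
      4 * k4 * ((∑ x ∈ C, rs C a x) - 2 * rs C a c - 2 * rs C a d + 2 * a c d)
        + k2 * (2 * rs C a c + 2 * rs C a d) := by
  have t0 : ∑ c' ∈ C, ∑ d' ∈ C, a c' d' = ∑ x ∈ C, rs C a x := rfl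
  have t1 : ∀ z ∈ C, ∑ c' ∈ C, ∑ d' ∈ C, a c' d' * dl z c' = rs C a z := by
    intro z hz
    simp only [dl, mul_ite, mul_one, mul_zero]
    have : ∀ c' ∈ C, (∑ d' ∈ C, if z = c' then a c' d' else 0) = if z = c' then rs C a c' else 0 := by
      intro c' _
      by_cases h : z = c' <;> simp [h, rs]
    rw [sum_congr rfl this, sum_ite_eq, if_pos hz]
  have t2 : ∀ z ∈ C, ∑ c' ∈ C, ∑ d' ∈ C, a c' d' * dl z d' = rs C a z := by
    intro z hz
    simp only [dl, mul_ite, mul_one, mul_zero]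
    have : ∀ c' ∈ C, (∑ d' ∈ C, if z = d' then a c' d' else 0) = a z c' := by
      intro c' _
      rw [sum_ite_eq, if_pos hz, hsym]
    rw [sum_congr rfl this]
    rfl
  have t3 : ∀ z ∈ C, ∀ w ∈ C, ∑ c' ∈ C, ∑ d' ∈ C, a c' d' * (dl z c' * dl w d') = a z w := by
    intro z hz w hw
    simp only [dl, mul_ite, mul_one, mul_zero]
    have : ∀ c' ∈ C, (∑ d' ∈ C, if w = d' then (if z = c' then a c' d' else 0) else 0) =
        if z = c' then a c' w else 0 := by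
      intro c' _
      rw [sum_ite_eq, if_pos hw]
    rw [sum_congr rfl this, sum_ite_eq, if_pos hz]
  have t4 : ∑ c' ∈ C, ∑ d' ∈ C, a c' d' * (dl c d' * dl d c') = a c d := by
    have : ∀ c' ∈ C, ∀ d' ∈ C, a c' d' * (dl c d' * dl d c') = a c' d' * (dl d c' * dl c d') :=
      fun _ _ _ _ => by ring
    rw [sum_congr rfl (fun c' hc' => sum_congr rfl (this c' hc')), t3 d hd c hc, hsym]
  have expand : ∀ c' ∈ C, ∀ d' ∈ C, a c' d' * Mf k2 k4 c d c' d' =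
      4 * k4 * a c' d' + (k2 - 4 * k4) * (a c' d' * dl c c') + (k2 - 4 * k4) * (a c' d' * dl c d')
      + (k2 - 4 * k4) * (a c' d' * dl d c') + (k2 - 4 * k4) * (a c' d' * dl d d')
      + 4 * k4 * (a c' d' * (dl c c' * dl d d')) + 4 * k4 * (a c' d' * (dl c d' * dl d c')) := by
    intro c' _ d' _
    unfold Mf; ring
  rw [sum_congr rfl (fun c' hc' => sum_congr rfl (expand c' hc'))]
  simp only [sum_add_distrib, ← mul_sum]
  rw [t0, t1 c hc, t2 c hc, t1 d hd, t2 d hd, t3 c hc d hd, t4]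
  ring

omit [DecidableEq ι] in
lemma sum_a_rs_left : ∑ c ∈ C, ∑ d ∈ C, a c d * rs C a c = ∑ c ∈ C, rs C a c ^ 2 := by
  apply sum_congr rfl
  intro c _
  rw [← sum_mul, sq]
  rfl

omit [DecidableEq ι] in
lemma sum_a_rs_right (hsym : ∀ c d, a c d = a d c) :
    ∑ c ∈ C, ∑ d ∈ C, a c d * rs C a d = ∑ c ∈ C, rs C a c ^ 2 := by
  rw [sum_comm, ← sum_a_rs_left]
  refine sum_congr rfl fun c _ => sum_congr rfl fun d _ => by rw [hsym]

/-- the quadratic form of the model kernel -/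
lemma quad_Mf (hsym : ∀ c d, a c d = a d c) (k2 k4 : ℝ) :
    ∑ c ∈ C, ∑ d ∈ C, ∑ c' ∈ C, ∑ d' ∈ C, a c d * a c' d' * Mf k2 k4 c d c' d' =
      4 * k4 * ((∑ x ∈ C, rs C a x) ^ 2 - 4 * ∑ c ∈ C, rs C a c ^ 2
          + 2 * ∑ c ∈ C, ∑ d ∈ C, a c d ^ 2)
        + 4 * k2 * ∑ c ∈ C, rs C a c ^ 2 := by
  set A := ∑ x ∈ C, rs C a x with hA
  have step : ∀ c ∈ C, ∀ d ∈ C, ∑ c' ∈ C, ∑ d' ∈ C, a c d * a c' d' * Mf k2 k4 c d c' d' =
      4 * k4 * A * a c d + (2 * k2 - 8 * k4) * (a c d * rs C a c)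
        + (2 * k2 - 8 * k4) * (a c d * rs C a d) + 8 * k4 * a c d ^ 2 := by
    intro c hc d hd
    have : ∀ c' ∈ C, ∀ d' ∈ C, a c d * a c' d' * Mf k2 k4 c d c' d' =
        a c d * (a c' d' * Mf k2 k4 c d c' d') := fun _ _ _ _ => by ring
    rw [sum_congr rfl (fun c' hc' => sum_congr rfl (this c' hc'))]
    simp only [← mul_sum]
    rw [inner_Mf C a hsym k2 k4 hc hd]
    ring
  rw [sum_congr rfl (fun c hc => sum_congr rfl (step c hc))]
  simp only [sum_add_distrib, ← mul_sum]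
  rw [sum_a_rs_left, sum_a_rs_right C a hsym]
  have : ∑ c ∈ C, ∑ d ∈ C, a c d = A := rfl
  rw [this]
  ring

/-- weak bound on the row sums: `(2N+4) ∑ s² ≤ N² S + 2 A²`. -/
lemma rs_sq_le (hsym : ∀ c d, a c d = a d c) (hdiag : ∀ c, a c c = 0) :
    (2 * (C.card : ℝ) + 4) * ∑ c ∈ C, rs C a c ^ 2 ≤
      (C.card : ℝ) ^ 2 * (∑ c ∈ C, ∑ d ∈ C, a c d ^ 2) + 2 * (∑ x ∈ C, rs C a x) ^ 2 := by
  set N : ℝ := (C.card : ℝ) with hN
  set A := ∑ x ∈ C, rs C a x with hA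
  -- the sum of squares over off-diagonal pairs
  have h0 : 0 ≤ ∑ c ∈ C, ∑ d ∈ C.erase c, (N * a c d - (rs C a c + rs C a d)) ^ 2 :=
    sum_nonneg fun c _ => sum_nonneg fun d _ => sq_nonneg _
  have h1 : ∑ c ∈ C, ∑ d ∈ C.erase c, (N * a c d - (rs C a c + rs C a d)) ^ 2 =
      ∑ c ∈ C, ∑ d ∈ C, (N * a c d - (rs C a c + rs C a d)) ^ 2 - 4 * ∑ c ∈ C, rs C a c ^ 2 := by
    rw [mul_sum, ← sum_sub_distrib]
    apply sum_congr rfl
    intro c hc
    rw [← add_sum_erase C _ hc, hdiag]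
    ring
  have h2 : ∑ c ∈ C, ∑ d ∈ C, (N * a c d - (rs C a c + rs C a d)) ^ 2 =
      N ^ 2 * (∑ c ∈ C, ∑ d ∈ C, a c d ^ 2) - 4 * N * ∑ c ∈ C, rs C a c ^ 2
        + 2 * N * ∑ c ∈ C, rs C a c ^ 2 + 2 * A ^ 2 := by
    have expand : ∀ c ∈ C, ∀ d ∈ C, (N * a c d - (rs C a c + rs C a d)) ^ 2 =
        N ^ 2 * a c d ^ 2 - 2 * N * (a c d * rs C a c) - 2 * N * (a c d * rs C a d)
          + rs C a c ^ 2 + rs C a d ^ 2 + 2 * (rs C a c * rs C a d) := fun _ _ _ _ => by ring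
    rw [sum_congr rfl (fun c hc => sum_congr rfl (expand c hc))]
    simp only [sum_add_distrib, sum_sub_distrib, ← mul_sum]
    rw [sum_a_rs_left, sum_a_rs_right C a hsym]
    have e1 : ∑ c ∈ C, ∑ _d ∈ C, rs C a c ^ 2 = N * ∑ c ∈ C, rs C a c ^ 2 := by
      simp only [sum_const, nsmul_eq_mul]
      rw [← mul_sum]
    have e2 : ∑ _c ∈ C, ∑ d ∈ C, rs C a d ^ 2 = N * ∑ c ∈ C, rs C a c ^ 2 := by
      simp only [sum_const, nsmul_eq_mul, hN]
    have e3 : ∑ c ∈ C, rs C a c * ∑ d ∈ C, rs C a d = A ^ 2 := by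
      rw [← sum_mul, sq]
    rw [e1, e2, e3]
    ring
  rw [h1, h2] at h0
  linarith

end

end Crest.Agent.SwitchJ
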