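import Crest.Agent.Switch.JohnsonCount
import Crest.Agent.Switch.JohnsonAlg

/-!
# Variance of `∑ a_cd g_cd` on the Johnson scheme (part of [J2])
-/

set_option autoImplicit false

namespace Crest.Agent.SwitchJ

open Finset

variable {ι : Type*} [DecidableEq ι]

/-- `#{U : c ∈ U, d ∉ U}` -/
def k2 (C : Finset ι) (u : ℕ) : ℝ := (cnt C.card u 1 1 : ℝ)

/-- `#{U : c, c' ∈ U, d, d' ∉ U}` -/
def k4 (C : Finset ι) (u : ℕ) : ℝ := if 4 ≤ C.card then (cnt C.card u 2 2 : ℝ) else 0

lemma k2_nonneg (C : Finset ι) (u : ℕ) : 0 ≤ k2 C u := by unfold k2; positivity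

lemma k4_nonneg (C : Finset ι) (u : ℕ) : 0 ≤ k4 C u := by
  unfold k4; split_ifs <;> positivity

lemma two_k4_le_k2 (C : Finset ι) (u : ℕ) : 2 * k4 C u ≤ k2 C u := by
  unfold k4 k2
  split_ifs with h
  · have h1 := cnt_split C.card u 1 1 (by omega)
    have h2 := cnt_split C.card u 2 1 (by omega)
    have h3 := cnt_split C.card u 1 2 (by omega)
    have : 2 * cnt C.card u 2 2 ≤ cnt C.card u 1 1 := by
      simp only [Nat.reduceAdd] at h1 h2 h3
      omega
    exact_mod_cast this
  · simp

lemma M_eq (C : Finset ι) (u : ℕ) {c d c' d' : ι} (hc : c ∈ C) (hd : d ∈ C) (hc' : c' ∈ C)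
    (hd' : d' ∈ C) (h : c ≠ d) (h' : c' ≠ d') :
    ∑ U ∈ powersetCard u C, gxor c d U * gxor c' d' U = Mf (k2 C u) (k4 C u) c d c' d' := by
  unfold Mf dl
  by_cases e1 : c = c'
  · subst e1
    by_cases e2 : d = d'
    · subst e2
      simp only [gxor_sq, sum_gxor C u hc hd h, if_true, if_neg h, if_neg h.symm]
      unfold k2; ring
    · rw [sum_gxor_mul_one C u hc hd hd' h h' e2]
      simp only [if_true, if_neg h', if_neg h.symm, if_neg e2]
      unfold k2; ring
  · by_cases e2 : c = d'
    · subst e2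
      by_cases e3 : d = c'
      · subst e3
        have : ∀ U, gxor c d U * gxor d c U = gxor c d U := fun U => by
          rw [gxor_comm d c, gxor_sq]
        simp only [this, sum_gxor C u hc hd h, if_true, if_neg h, if_neg h.symm]
        unfold k2; ring
      · have : ∀ U, gxor c d U * gxor c' c U = gxor c d U * gxor c c' U := fun U => by
          rw [gxor_comm c' c]
        simp only [this]
        rw [sum_gxor_mul_one C u hc hd hc' h e1 e3]
        simp only [if_true, if_neg e1, if_neg e3, if_neg h.symm]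
        unfold k2; ring
    · by_cases e3 : d = c'
      · subst e3
        have : ∀ U, gxor c d U * gxor d d' U = gxor d c U * gxor d d' U := fun U => by
          rw [gxor_comm c d]
        simp only [this]
        rw [sum_gxor_mul_one C u hd hc hd' h.symm h' e2]
        simp only [if_true, if_neg e1, if_neg e2, if_neg h']
        unfold k2; ring
      · by_cases e4 : d = d'
        · subst e4
          have : ∀ U, gxor c d U * gxor c' d U = gxor d c U * gxor d c' U := fun U => by
            rw [gxor_comm c d, gxor_comm c' d]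
          simp only [this]
          rw [sum_gxor_mul_one C u hd hc hc' h.symm e3 e1]
          simp only [if_true, if_neg e1, if_neg e2, if_neg e3]
          unfold k2; ring
        · rw [sum_gxor_mul_zero C u hc hd hc' hd' h e1 e2 e3 e4 h']
          simp only [if_neg e1, if_neg e2, if_neg e3, if_neg e4]
          have hN : 4 ≤ C.card := by
            have h4 : ({c, d, c', d'} : Finset ι).card = 4 := by
              rw [card_insert_of_notMem, card_insert_of_notMem, card_pair h']
              · simp only [mem_insert, mem_singleton, not_or]; exact ⟨e3, e4⟩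
              · simp only [mem_insert, mem_singleton, not_or]; exact ⟨h, e1, e2⟩
            have hs : ({c, d, c', d'} : Finset ι) ⊆ C := by
              intro w hw
              simp only [mem_insert, mem_singleton] at hw
              rcases hw with rfl | rfl | rfl | rfl <;> assumption
            have := card_le_card hs
            omega
          unfold k4
          rw [if_pos hN]
          ring

section

variable (C : Finset ι) (u : ℕ) (a : ι → ι → ℝ)

/-- `G = ∑ a_cd g_cd` -/
def Gf (U : Finset ι) : ℝ := ∑ c ∈ C, ∑ d ∈ C, a c d * gxor c d U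

lemma sum_Gf (hdiag : ∀ c, a c c = 0) :
    ∑ U ∈ powersetCard u C, Gf C a U = 2 * k2 C u * ∑ x ∈ C, rs C a x := by
  unfold Gf
  rw [sum_comm]
  rw [mul_sum]
  apply sum_congr rfl
  intro c hc
  rw [sum_comm]
  unfold rs
  rw [mul_sum]
  apply sum_congr rfl
  intro d hd
  rw [← mul_sum]
  by_cases h : c = d
  · subst h; rw [hdiag]; ring
  · rw [sum_gxor C u hc hd h]; unfold k2; ring

lemma sum_Gf_sq (hsym : ∀ c d, a c d = a d c) (hdiag : ∀ c, a c c = 0) :
    ∑ U ∈ powersetCard u C, Gf C a U ^ 2 =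
      4 * k4 C u * ((∑ x ∈ C, rs C a x) ^ 2 - 4 * ∑ c ∈ C, rs C a c ^ 2
          + 2 * ∑ c ∈ C, ∑ d ∈ C, a c d ^ 2)
        + 4 * k2 C u * ∑ c ∈ C, rs C a c ^ 2 := by
  rw [← quad_Mf C a hsym]
  have e : ∀ U, Gf C a U ^ 2 =
      ∑ c ∈ C, ∑ d ∈ C, ∑ c' ∈ C, ∑ d' ∈ C, a c d * a c' d' * (gxor c d U * gxor c' d' U) := by
    intro U
    rw [sq]
    unfold Gf
    rw [sum_mul]
    apply sum_congr rfl
    intro c _
    rw [sum_mul]
    apply sum_congr rfl
    intro d _
    rw [mul_sum]
    apply sum_congr rfl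
    intro c' _
    rw [mul_sum]
    apply sum_congr rfl
    intro d' _
    ring
  simp only [e]
  rw [sum_comm]
  apply sum_congr rfl
  intro c hc
  rw [sum_comm]
  apply sum_congr rfl
  intro d hd
  rw [sum_comm]
  apply sum_congr rfl
  intro c' hc'
  rw [sum_comm]
  apply sum_congr rfl
  intro d' hd'
  rw [← mul_sum]
  by_cases h : c = d
  · subst h; rw [hdiag]; ring
  · by_cases h' : c' = d'
    · subst h'; rw [hdiag]; ring
    · rw [M_eq C u hc hd hc' hd' h h']

/-- the key bound -/
lemma sum_Gf_sq_le (hsym : ∀ c d, a c d = a d c) (hdiag : ∀ c, a c c = 0)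
    (hA : ∑ x ∈ C, rs C a x = 0) :
    ∑ U ∈ powersetCard u C, Gf C a U ^ 2 ≤
      2 * k2 C u * (C.card : ℝ) * ∑ c ∈ C, ∑ d ∈ C, a c d ^ 2 := by
  rw [sum_Gf_sq C u a hsym hdiag, hA]
  have hrs := rs_sq_le C a hsym hdiag
  rw [hA] at hrs
  set S := ∑ c ∈ C, ∑ d ∈ C, a c d ^ 2 with hS
  set R := ∑ c ∈ C, rs C a c ^ 2 with hR
  set N : ℝ := (C.card : ℝ) with hN
  have hS0 : 0 ≤ S := sum_nonneg fun c _ => sum_nonneg fun d _ => sq_nonneg _
  have hR0 : 0 ≤ R := sum_nonneg fun c _ => sq_nonneg _
  have hN0 : 0 ≤ N := by rw [hN]; positivity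
  have hk2 := k2_nonneg C u
  have hk4 := k4_nonneg C u
  have hk := two_k4_le_k2 C u
  have hw : 0 ≤ N * S - 2 * R := by
    have h1 : 0 ≤ (N + 2) * (N * S - 2 * R) := by nlinarith [mul_nonneg hN0 hS0]
    by_contra hneg
    push Not at hneg
    have : (N + 2) * (N * S - 2 * R) < 0 := mul_neg_of_pos_of_neg (by linarith) hneg
    linarith
  -- X = k2 (N S - 2R) - 4 k4 (S - 2R) ≥ 0
  have hX : 0 ≤ k2 C u * (N * S - 2 * R) - 4 * k4 C u * (S - 2 * R) := by
    by_cases h4 : 4 ≤ C.card
    · have hN4 : (4 : ℝ) ≤ N := by rw [hN]; exact_mod_cast h4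
      rcases le_total (2 * R) S with hc | hc
      · have h1 : 4 * k4 C u * (S - 2 * R) ≤ 2 * k2 C u * (S - 2 * R) :=
          mul_le_mul_of_nonneg_right (by linarith) (by linarith)
        have h2 : 0 ≤ k2 C u * ((N - 2) * S + 2 * R) :=
          mul_nonneg hk2 (by nlinarith)
        nlinarith
      · have h1 : 0 ≤ 4 * k4 C u * (2 * R - S) := mul_nonneg (by linarith) (by linarith)
        have h2 : 0 ≤ k2 C u * (N * S - 2 * R) := mul_nonneg hk2 hw
        nlinarith
    · have : k4 C u = 0 := by unfold k4; rw [if_neg h4]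
      rw [this]
      have h2 : 0 ≤ k2 C u * (N * S - 2 * R) := mul_nonneg hk2 hw
      linarith
  nlinarith

end

end Crest.Agent.SwitchJ
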