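import Crest.Agent.Switch.Basic

/-!
# Module M1 of the S0453 development: spectral lemmas in raw-sum form

`Ω : Finset α`, `T : (α → ℝ) → (α → ℝ)` acting as a symmetric linear operator on the functions
on `Ω` (`SymmOp Ω T`).  Main statements:

* `SymmOp.exists_diag` : an orthonormal eigenbasis in raw sums (Parseval form);
* `SymmOp.gap` (G) : `T 1 = 0` and every non-constant eigenpair has `μ ≥ c` implies the Poincaré
  inequality `c * (|Ω| ∑ f² - (∑ f)²) ≤ |Ω| ∑ f * T f`;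
* `SymmOp.sq_ge` (Q) : every eigenpair has `μ² ≥ μ` implies `∑ (T f)² ≥ ∑ f * T f`;
* `SymmOp.gap_of_sq_ge` (K) : `T ≥ 0`, `T² ≥ T`, kernel = constants implies
  `|Ω| ∑ f² - (∑ f)² ≤ |Ω| ∑ f * T f`.
-/

set_option autoImplicit false
open Finset

namespace Crest.Agent.Switch

variable {α : Type*}

/-- `T` acts as a symmetric linear operator on functions on `Ω`. -/
structure SymmOp (Ω : Finset α) (T : (α → ℝ) → (α → ℝ)) : Prop where
  add : ∀ f g, ∀ x ∈ Ω, T (f + g) x = T f x + T g x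
  smul : ∀ (c : ℝ) f, ∀ x ∈ Ω, T (c • f) x = c * T f x
  loc : ∀ f g, (∀ x ∈ Ω, f x = g x) → ∀ x ∈ Ω, T f x = T g x
  symm : ∀ f g, ∑ x ∈ Ω, T f x * g x = ∑ x ∈ Ω, f x * T g x

section
variable [DecidableEq α] {Ω : Finset α} {T : (α → ℝ) → (α → ℝ)}

/-- extension by zero of a function on `Ω`. -/
def ext0 (Ω : Finset α) (v : Ω → ℝ) : α → ℝ := fun a => if h : a ∈ Ω then v ⟨a, h⟩ else 0

lemma ext0_coe (v : Ω → ℝ) (x : Ω) : ext0 Ω v x = v x := by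
  simp [ext0]

lemma ext0_mem (v : Ω → ℝ) {a : α} (h : a ∈ Ω) : ext0 Ω v a = v ⟨a, h⟩ := by
  simp [ext0, h]

/-- the operator on `EuclideanSpace ℝ Ω` induced by `T`. -/
noncomputable def SymmOp.toLin (H : SymmOp Ω T) : EuclideanSpace ℝ Ω →ₗ[ℝ] EuclideanSpace ℝ Ω where
  toFun v := WithLp.toLp 2 (fun x : Ω => T (ext0 Ω v) x)
  map_add' v w := by
    ext x
    have h1 : ∀ a ∈ Ω, ext0 Ω (v + w).ofLp a = (ext0 Ω v.ofLp + ext0 Ω w.ofLp) a := by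
      intro a ha
      simp [ext0, ha]
    have := H.loc _ _ h1 x x.2
    simp only [PiLp.add_apply]
    rw [this, H.add _ _ x x.2]
  map_smul' c v := by
    ext x
    have h1 : ∀ a ∈ Ω, ext0 Ω (c • v).ofLp a = (c • ext0 Ω v.ofLp) a := by
      intro a ha
      simp [ext0, ha]
    have := H.loc _ _ h1 x x.2
    simp only [PiLp.smul_apply, RingHom.id_apply, smul_eq_mul]
    rw [this, H.smul _ _ x x.2]

lemma SymmOp.toLin_apply (H : SymmOp Ω T) (v : EuclideanSpace ℝ Ω) (x : Ω) :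
    H.toLin v x = T (ext0 Ω v) x := rfl

lemma inner_eq_sum (v w : EuclideanSpace ℝ Ω) :
    inner ℝ v w = ∑ x ∈ Ω, ext0 Ω v x * ext0 Ω w x := by
  rw [PiLp.inner_apply, ← Finset.sum_coe_sort Ω]
  refine Finset.sum_congr rfl fun x _ => ?_
  rw [ext0_coe, ext0_coe]
  simp [mul_comm]

lemma SymmOp.toLin_symm (H : SymmOp Ω T) : H.toLin.IsSymmetric := by
  intro v w
  rw [inner_eq_sum, inner_eq_sum]
  have h1 : ∀ (u : EuclideanSpace ℝ Ω), ∀ x ∈ Ω, ext0 Ω (H.toLin u) x = T (ext0 Ω u) x := by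
    intro u x hx
    rw [ext0_mem _ hx]; rfl
  have e1 : ∑ x ∈ Ω, ext0 Ω (H.toLin v).ofLp x * ext0 Ω w.ofLp x
      = ∑ x ∈ Ω, T (ext0 Ω v.ofLp) x * ext0 Ω w.ofLp x :=
    Finset.sum_congr rfl fun x hx => by rw [h1 v x hx]
  have e2 : ∑ x ∈ Ω, ext0 Ω v.ofLp x * ext0 Ω (H.toLin w).ofLp x
      = ∑ x ∈ Ω, ext0 Ω v.ofLp x * T (ext0 Ω w.ofLp) x :=
    Finset.sum_congr rfl fun x hx => by rw [h1 w x hx]
  rw [e1, e2]
  exact H.symm _ _

/-- Diagonalisation in raw sums. -/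
theorem SymmOp.exists_diag (H : SymmOp Ω T) :
    ∃ (m : ℕ) (b : Fin m → α → ℝ) (μ : Fin m → ℝ),
      (∀ i, ∀ x ∈ Ω, T (b i) x = μ i * b i x) ∧
      (∀ i, ∑ x ∈ Ω, b i x ^ 2 = 1) ∧
      (∀ f g : α → ℝ, ∑ x ∈ Ω, f x * g x
        = ∑ i, (∑ x ∈ Ω, b i x * f x) * (∑ x ∈ Ω, b i x * g x)) := by
  classical
  set hS := H.toLin_symm
  set B := hS.eigenvectorBasis (n := Module.finrank ℝ (EuclideanSpace ℝ Ω)) rfl with hB
  refine ⟨Module.finrank ℝ (EuclideanSpace ℝ Ω), fun i => ext0 Ω (B i),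
    hS.eigenvalues rfl, ?_, ?_, ?_⟩
  · intro i x hx
    have h := hS.apply_eigenvectorBasis (n := Module.finrank ℝ (EuclideanSpace ℝ Ω)) rfl i
    have h2 := congrArg (fun v : EuclideanSpace ℝ Ω => v ⟨x, hx⟩) h
    simp only [PiLp.smul_apply, smul_eq_mul] at h2
    rw [H.toLin_apply] at h2
    show T (ext0 Ω (B i).ofLp) x = hS.eigenvalues rfl i * ext0 Ω (B i).ofLp x
    rw [ext0_mem _ hx]
    simpa using h2
  · intro i
    have h : inner ℝ (B i) (B i) = (1 : ℝ) := by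
      rw [real_inner_self_eq_norm_sq, B.orthonormal.1 i]; norm_num
    rw [inner_eq_sum] at h
    rw [← h]
    exact Finset.sum_congr rfl fun x _ => by ring
  · intro f g
    set v : EuclideanSpace ℝ Ω := WithLp.toLp 2 (fun x : Ω => f x) with hv
    set w : EuclideanSpace ℝ Ω := WithLp.toLp 2 (fun x : Ω => g x) with hw
    have hvf : ∀ x ∈ Ω, ext0 Ω v x = f x := by
      intro x hx; rw [ext0_mem _ hx]
    have hwg : ∀ x ∈ Ω, ext0 Ω w x = g x := by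
      intro x hx; rw [ext0_mem _ hx]
    have h := B.sum_inner_mul_inner v w
    rw [inner_eq_sum] at h
    rw [Finset.sum_congr rfl fun x hx => by rw [← hvf x hx, ← hwg x hx], ← h]
    refine Finset.sum_congr rfl fun i _ => ?_
    rw [real_inner_comm, inner_eq_sum, inner_eq_sum]
    congr 1
    · exact Finset.sum_congr rfl fun x hx => by rw [hvf x hx]
    · exact Finset.sum_congr rfl fun x hx => by rw [hwg x hx]

omit [DecidableEq α] in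
/-- the coefficient of `T f` along an eigenfunction. -/
lemma SymmOp.coeff (H : SymmOp Ω T) {b : α → ℝ} {μ : ℝ} (hb : ∀ x ∈ Ω, T b x = μ * b x)
    (f : α → ℝ) : ∑ x ∈ Ω, b x * T f x = μ * ∑ x ∈ Ω, b x * f x := by
  rw [← H.symm, Finset.mul_sum]
  exact Finset.sum_congr rfl fun x hx => by rw [hb x hx]; ring

/-- **(Q)** If every eigenvalue satisfies `μ ≤ μ²` then `⟨f, T f⟩ ≤ ‖T f‖²`. -/
theorem SymmOp.sq_ge (H : SymmOp Ω T)
    (hev : ∀ (f : α → ℝ) (μ : ℝ), (∀ x ∈ Ω, T f x = μ * f x) → (∃ x ∈ Ω, f x ≠ 0) → μ ≤ μ ^ 2)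
    (f : α → ℝ) : ∑ x ∈ Ω, f x * T f x ≤ ∑ x ∈ Ω, T f x ^ 2 := by
  obtain ⟨m, b, μ, hb, hn, hP⟩ := H.exists_diag
  have e2 : ∑ x ∈ Ω, T f x ^ 2 = ∑ x ∈ Ω, T f x * T f x :=
    Finset.sum_congr rfl fun x _ => by ring
  rw [e2, hP f (T f), hP (T f) (T f)]
  refine Finset.sum_le_sum fun i _ => ?_
  rw [H.coeff (hb i) f]
  have hne : ∃ x ∈ Ω, b i x ≠ 0 := by
    by_contra hcon
    push Not at hcon
    have : ∑ x ∈ Ω, b i x ^ 2 = 0 :=
      Finset.sum_eq_zero fun x hx => by rw [hcon x hx]; ring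
    rw [hn i] at this
    exact one_ne_zero this
  have hμ := hev (b i) (μ i) (hb i) hne
  have hsq := sq_nonneg (∑ x ∈ Ω, b i x * f x)
  nlinarith [mul_le_mul_of_nonneg_right hμ hsq]

/-- **(G)** If `T 1 = 0` and every non-constant eigenfunction has eigenvalue `≥ c`, then the
Poincaré inequality with constant `c` holds. -/
theorem SymmOp.gap (H : SymmOp Ω T) (c : ℝ)
    (h1 : ∀ x ∈ Ω, T (fun _ => 1) x = 0)
    (hev : ∀ (f : α → ℝ) (μ : ℝ), (∀ x ∈ Ω, T f x = μ * f x) →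
      (¬ ∀ x ∈ Ω, ∀ y ∈ Ω, f x = f y) → c ≤ μ)
    (f : α → ℝ) :
    c * ((Ω.card : ℝ) * ∑ x ∈ Ω, f x ^ 2 - (∑ x ∈ Ω, f x) ^ 2)
      ≤ (Ω.card : ℝ) * ∑ x ∈ Ω, f x * T f x := by
  obtain ⟨m, b, μ, hb, hn, hP⟩ := H.exists_diag
  rcases Ω.eq_empty_or_nonempty with hΩ | hΩ
  · subst hΩ; simp
  have hcard : (0 : ℝ) < (Ω.card : ℝ) := by exact_mod_cast Finset.card_pos.mpr hΩ
  set N : ℝ := (Ω.card : ℝ) with hN
  set S : ℝ := ∑ x ∈ Ω, f x with hS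
  set a : ℝ := S / N with ha
  have haN : a * N = S := by rw [ha]; field_simp
  set f0 : α → ℝ := f + (-a) • (fun _ => (1 : ℝ)) with hf0
  have hf0x : ∀ x, f0 x = f x - a := by
    intro x; simp [hf0]; ring
  have hTf0 : ∀ x ∈ Ω, T f0 x = T f x := by
    intro x hx
    rw [hf0, H.add _ _ x hx, H.smul _ _ x hx, h1 x hx]; ring
  have hsum0 : ∑ x ∈ Ω, f0 x = 0 := by
    rw [Finset.sum_congr rfl fun x _ => hf0x x, Finset.sum_sub_distrib, Finset.sum_const,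
      nsmul_eq_mul, ← hS, ← hN, mul_comm, haN]; ring
  have hsumT : ∑ x ∈ Ω, T f x = 0 := by
    have := H.symm (fun _ => 1) f
    rw [Finset.sum_congr rfl fun x hx => by rw [h1 x hx, zero_mul]] at this
    simp only [Finset.sum_const_zero, one_mul] at this
    exact this.symm
  -- the energy of `f0`
  have hE : ∑ x ∈ Ω, f0 x * T f0 x = ∑ x ∈ Ω, f x * T f x := by
    have : ∑ x ∈ Ω, f0 x * T f0 x = ∑ x ∈ Ω, (f x * T f x - a * T f x) :=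
      Finset.sum_congr rfl fun x hx => by rw [hTf0 x hx, hf0x]; ring
    rw [this, Finset.sum_sub_distrib, ← Finset.mul_sum, hsumT]; ring
  have hV : N * ∑ x ∈ Ω, f0 x * f0 x = N * ∑ x ∈ Ω, f x ^ 2 - S ^ 2 := by
    have : ∑ x ∈ Ω, f0 x * f0 x = ∑ x ∈ Ω, (f x ^ 2 - 2 * a * f x + a ^ 2) :=
      Finset.sum_congr rfl fun x _ => by rw [hf0x]; ring
    rw [this, Finset.sum_add_distrib, Finset.sum_sub_distrib, ← Finset.mul_sum, Finset.sum_const,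
      nsmul_eq_mul, ← hS, ← hN, ← haN]; ring
  have key : c * ∑ x ∈ Ω, f0 x * f0 x ≤ ∑ x ∈ Ω, f0 x * T f0 x := by
    rw [hP f0 f0, hP f0 (T f0), Finset.mul_sum]
    refine Finset.sum_le_sum fun i _ => ?_
    rw [H.coeff (hb i) f0]
    by_cases hc : ∀ x ∈ Ω, ∀ y ∈ Ω, b i x = b i y
    · obtain ⟨x0, hx0⟩ := hΩ
      have : ∑ x ∈ Ω, b i x * f0 x = 0 := by
        rw [Finset.sum_congr rfl fun x hx => by rw [hc x hx x0 hx0], ← Finset.mul_sum, hsum0,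
          mul_zero]
      rw [this]; simp
    · have hμ := hev (b i) (μ i) (hb i) hc
      have hsq := mul_self_nonneg (∑ x ∈ Ω, b i x * f0 x)
      nlinarith [mul_le_mul_of_nonneg_right hμ hsq]
  rw [← hV, ← hE]
  calc c * (N * ∑ x ∈ Ω, f0 x * f0 x) = N * (c * ∑ x ∈ Ω, f0 x * f0 x) := by ring
    _ ≤ N * ∑ x ∈ Ω, f0 x * T f0 x := mul_le_mul_of_nonneg_left key hcard.le

/-- **(K)** `T ≥ 0`, `T² ≥ T`, kernel = constants imply the Poincaré inequality with constant 1. -/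
theorem SymmOp.gap_of_sq_ge (H : SymmOp Ω T)
    (hpos : ∀ f : α → ℝ, 0 ≤ ∑ x ∈ Ω, f x * T f x)
    (hsq : ∀ f : α → ℝ, ∑ x ∈ Ω, f x * T f x ≤ ∑ x ∈ Ω, T f x ^ 2)
    (hker : ∀ f : α → ℝ, (∀ x ∈ Ω, T f x = 0) → ∀ x ∈ Ω, ∀ y ∈ Ω, f x = f y)
    (h1 : ∀ x ∈ Ω, T (fun _ => 1) x = 0) (f : α → ℝ) :
    (Ω.card : ℝ) * ∑ x ∈ Ω, f x ^ 2 - (∑ x ∈ Ω, f x) ^ 2
      ≤ (Ω.card : ℝ) * ∑ x ∈ Ω, f x * T f x := by
  have := H.gap 1 h1 ?_ f
  · simpa using this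
  intro g μ hg hnc
  by_contra hlt
  push Not at hlt
  have hn0 : 0 < ∑ x ∈ Ω, g x ^ 2 := by
    by_contra h0
    push Not at h0
    have hz : ∀ x ∈ Ω, g x ^ 2 = 0 :=
      (Finset.sum_eq_zero_iff_of_nonneg fun x _ => sq_nonneg (g x)).1
        (le_antisymm h0 (Finset.sum_nonneg fun x _ => sq_nonneg (g x)))
    apply hnc
    intro x hx y hy
    have hx0 : g x = 0 := by simpa using hz x hx
    have hy0 : g y = 0 := by simpa using hz y hy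
    rw [hx0, hy0]
  have e1 : ∑ x ∈ Ω, g x * T g x = μ * ∑ x ∈ Ω, g x ^ 2 := by
    rw [Finset.mul_sum]
    exact Finset.sum_congr rfl fun x hx => by rw [hg x hx]; ring
  have e2 : ∑ x ∈ Ω, T g x ^ 2 = μ ^ 2 * ∑ x ∈ Ω, g x ^ 2 := by
    rw [Finset.mul_sum]
    exact Finset.sum_congr rfl fun x hx => by rw [hg x hx]; ring
  have p1 := hpos g
  have p2 := hsq g
  rw [e1] at p1 p2
  rw [e2] at p2
  have hμ0 : 0 ≤ μ := by
    by_contra hneg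
    push Not at hneg
    nlinarith
  have hμ2 : μ ≤ μ ^ 2 := le_of_mul_le_mul_right p2 hn0
  have hμz : μ = 0 := by nlinarith
  apply hnc
  apply hker g
  intro x hx
  rw [hg x hx, hμz, zero_mul]

/-- (G) If `T` is symmetric, kills constants, and every eigenvalue with a non-constant eigenfunction
is `≥ c`, then `T ≥ c (1 - mean)`. -/
theorem spectral_gap (Ω : Finset α) (T : (α → ℝ) → (α → ℝ))
    (hadd : ∀ f g, ∀ x ∈ Ω, T (f + g) x = T f x + T g x)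
    (hsmul : ∀ (c : ℝ) f, ∀ x ∈ Ω, T (c • f) x = c * T f x)
    (hloc : ∀ f g, (∀ x ∈ Ω, f x = g x) → ∀ x ∈ Ω, T f x = T g x)
    (hsymm : ∀ f g, ip Ω (T f) g = ip Ω f (T g))
    (hone : ∀ x ∈ Ω, T (fun _ => 1) x = 0)
    (c : ℝ)
    (heig : ∀ (μ : ℝ) f, (∀ x ∈ Ω, T f x = μ * f x) → (∃ x ∈ Ω, ∃ y ∈ Ω, f x ≠ f y) → c ≤ μ)
    (f : α → ℝ) :
    c * ((Ω.card : ℝ) * ip Ω f f - (∑ x ∈ Ω, f x) ^ 2) ≤ (Ω.card : ℝ) * ip Ω f (T f) := by
  have H : SymmOp Ω T := ⟨hadd, hsmul, hloc, hsymm⟩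
  have h := H.gap c hone (fun g μ hg hnc => heig μ g hg (by push Not at hnc; exact hnc)) f
  have e : ip Ω f f = ∑ x ∈ Ω, f x ^ 2 := Finset.sum_congr rfl fun x _ => by ring
  rw [e]
  exact h

/-- (Q) If `T` is symmetric and every eigenvalue satisfies `μ ≤ μ^2` then `T ≤ T^2`. -/
theorem spectral_sq (Ω : Finset α) (T : (α → ℝ) → (α → ℝ))
    (hadd : ∀ f g, ∀ x ∈ Ω, T (f + g) x = T f x + T g x)
    (hsmul : ∀ (c : ℝ) f, ∀ x ∈ Ω, T (c • f) x = c * T f x)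
    (hloc : ∀ f g, (∀ x ∈ Ω, f x = g x) → ∀ x ∈ Ω, T f x = T g x)
    (hsymm : ∀ f g, ip Ω (T f) g = ip Ω f (T g))
    (heig : ∀ (μ : ℝ) f, (∀ x ∈ Ω, T f x = μ * f x) → (∃ x ∈ Ω, f x ≠ 0) → μ ≤ μ ^ 2)
    (f : α → ℝ) :
    ip Ω f (T f) ≤ ip Ω (T f) (T f) := by
  have H : SymmOp Ω T := ⟨hadd, hsmul, hloc, hsymm⟩
  have h := H.sq_ge (fun g μ hg hne => heig μ g hg hne) f
  have e : ip Ω (T f) (T f) = ∑ x ∈ Ω, T f x ^ 2 := Finset.sum_congr rfl fun x _ => by ring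
  rw [e]
  exact h

/-- (K) `T ≥ 0`, `T ≤ T²`, kernel = constants imply the Poincaré inequality with constant 1. -/
theorem spectral_gap_of_sq (Ω : Finset α) (T : (α → ℝ) → (α → ℝ))
    (hadd : ∀ f g, ∀ x ∈ Ω, T (f + g) x = T f x + T g x)
    (hsmul : ∀ (c : ℝ) f, ∀ x ∈ Ω, T (c • f) x = c * T f x)
    (hloc : ∀ f g, (∀ x ∈ Ω, f x = g x) → ∀ x ∈ Ω, T f x = T g x)
    (hsymm : ∀ f g, ip Ω (T f) g = ip Ω f (T g))
    (hone : ∀ x ∈ Ω, T (fun _ => 1) x = 0)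
    (hpos : ∀ f : α → ℝ, 0 ≤ ip Ω f (T f))
    (hsq : ∀ f : α → ℝ, ip Ω f (T f) ≤ ip Ω (T f) (T f))
    (hker : ∀ f : α → ℝ, (∀ x ∈ Ω, T f x = 0) → ∀ x ∈ Ω, ∀ y ∈ Ω, f x = f y)
    (f : α → ℝ) :
    (Ω.card : ℝ) * ip Ω f f - (∑ x ∈ Ω, f x) ^ 2 ≤ (Ω.card : ℝ) * ip Ω f (T f) := by
  have H : SymmOp Ω T := ⟨hadd, hsmul, hloc, hsymm⟩
  have e : ∀ g : α → ℝ, ip Ω g g = ∑ x ∈ Ω, g x ^ 2 :=
    fun g => Finset.sum_congr rfl fun x _ => by ring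
  have h := H.gap_of_sq_ge hpos (fun g => by rw [← e]; exact hsq g) hker hone f
  rw [e]
  exact h

end

end Crest.Agent.Switch
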