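import Crest.Agent.Switch.Basic
import Crest.Agent.Switch.Spectral
import Crest.Agent.Switch.JohnsonGap
import Crest.Agent.Switch.JohnsonVar

/-! # Johnson scheme: modules M3 (J1, spectral gap) and M4 (J2, covariance bound). -/

set_option autoImplicit false
open Finset

namespace Crest.Agent.Switch

variable {ι : Type*} [DecidableEq ι]

open Crest.Agent.SwitchJ (adjOp sw_mem sw_sw_back sum_sw_symm sum_sw_symm' adjOp_eig_le mem_sw_self
  not_mem_sw)

local notation "swp" => Crest.Agent.SwitchJ.sw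

/-- Johnson Laplacian -/
def jlap (C : Finset ι) (f : Finset ι → ℝ) (U : Finset ι) : ℝ :=
  ∑ x ∈ U, ∑ y ∈ C \ U, (f U - f (swp U x y))

/-- twice the Dirichlet energy -/
def jenergy (C : Finset ι) (u : ℕ) (f : Finset ι → ℝ) : ℝ :=
  ∑ U ∈ powersetCard u C, ∑ x ∈ U, ∑ y ∈ C \ U, (f U - f (swp U x y)) ^ 2

lemma jlap_eq (C : Finset ι) (u : ℕ) (f : Finset ι → ℝ) {U : Finset ι}
    (hU : U ∈ powersetCard u C) :
    jlap C f U = (u : ℝ) * ((C.card : ℝ) - u) * f U - adjOp C f U := by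
  have hUC := (mem_powersetCard.1 hU).1
  have hUc := (mem_powersetCard.1 hU).2
  unfold jlap adjOp
  simp only [sum_sub_distrib, sum_const, nsmul_eq_mul]
  rw [card_sdiff_of_subset hUC, hUc]
  have hle : u ≤ C.card := by rw [← hUc]; exact card_le_card hUC
  push_cast [hle]
  ring

lemma ip_jlap_symm (C : Finset ι) (u : ℕ) (f g : Finset ι → ℝ) :
    ip (powersetCard u C) (jlap C f) g = ip (powersetCard u C) f (jlap C g) := by
  unfold ip jlap
  simp only [sum_mul, mul_sum]
  have h := sum_sw_symm C u (fun U V => f V * g U)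
  have e1 : ∑ U ∈ powersetCard u C, ∑ x ∈ U, ∑ y ∈ C \ U, (f U - f (swp U x y)) * g U =
      ∑ U ∈ powersetCard u C, ∑ x ∈ U, ∑ y ∈ C \ U, f U * g U -
      ∑ U ∈ powersetCard u C, ∑ x ∈ U, ∑ y ∈ C \ U, f (swp U x y) * g U := by
    simp only [← sum_sub_distrib]
    refine sum_congr rfl fun U _ => sum_congr rfl fun x _ => sum_congr rfl fun y _ => by ring
  have e2 : ∑ U ∈ powersetCard u C, ∑ x ∈ U, ∑ y ∈ C \ U, f U * (g U - g (swp U x y)) =
      ∑ U ∈ powersetCard u C, ∑ x ∈ U, ∑ y ∈ C \ U, f U * g U -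
      ∑ U ∈ powersetCard u C, ∑ x ∈ U, ∑ y ∈ C \ U, f U * g (swp U x y) := by
    simp only [← sum_sub_distrib]
    refine sum_congr rfl fun U _ => sum_congr rfl fun x _ => sum_congr rfl fun y _ => by ring
  rw [e1, e2, h]

lemma ip_jlap_self (C : Finset ι) (u : ℕ) (f : Finset ι → ℝ) :
    ip (powersetCard u C) f (jlap C f) = jenergy C u f / 2 := by
  unfold ip jlap jenergy
  simp only [mul_sum]
  have h := sum_sw_symm C u (fun U V => f U * (f U - f V))
  have e : ∑ U ∈ powersetCard u C, ∑ x ∈ U, ∑ y ∈ C \ U, (f U - f (swp U x y)) ^ 2 =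
      ∑ U ∈ powersetCard u C, ∑ x ∈ U, ∑ y ∈ C \ U, f U * (f U - f (swp U x y)) +
      ∑ U ∈ powersetCard u C, ∑ x ∈ U, ∑ y ∈ C \ U, f (swp U x y) * (f (swp U x y) - f U) := by
    simp only [← sum_add_distrib]
    refine sum_congr rfl fun U _ => sum_congr rfl fun x _ => sum_congr rfl fun y _ => by ring
  rw [e, ← h]
  ring

/-- Poincaré inequality on the Johnson graph, raw form. -/
theorem johnson_poincare (C : Finset ι) (u : ℕ) (f : Finset ι → ℝ) :
    (C.card : ℝ) * (((powersetCard u C).card : ℝ) * ip (powersetCard u C) f f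
        - (∑ U ∈ powersetCard u C, f U) ^ 2)
      ≤ ((powersetCard u C).card : ℝ) * (jenergy C u f / 2) := by
  rw [← ip_jlap_self]
  apply spectral_gap (powersetCard u C) (jlap C)
  · intro f g U _
    unfold jlap
    simp only [Pi.add_apply, ← sum_add_distrib]
    refine sum_congr rfl fun x _ => sum_congr rfl fun y _ => by ring
  · intro c f U _
    unfold jlap
    simp only [Pi.smul_apply, smul_eq_mul, mul_sum]
    refine sum_congr rfl fun x _ => sum_congr rfl fun y _ => by ring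
  · intro f g hfg U hU
    unfold jlap
    refine sum_congr rfl fun x hx => sum_congr rfl fun y hy => ?_
    rw [hfg U hU, hfg _ (sw_mem hU hx hy)]
  · exact ip_jlap_symm C u
  · intro U _
    unfold jlap
    simp
  · intro μ f heig hnc
    have h := adjOp_eig_le (C := C) (u := u) f ((u : ℝ) * ((C.card : ℝ) - u) - μ) ?_ hnc
    · linarith
    · intro U hU
      have := heig U hU
      rw [jlap_eq C u f hU] at this
      linarith

section ce_unit

variable {α : Type*}

lemma fib_unit (Ω : Finset α) (x : α) : fib Ω (fun _ => ()) x = Ω := by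
  unfold fib; simp

lemma ce_unit (Ω : Finset α) (f : α → ℝ) (x : α) :
    ce Ω (fun _ => ()) f x = (∑ y ∈ Ω, f y) / (Ω.card : ℝ) := by
  unfold ce; rw [fib_unit]

lemma card_mul_ip_qe_unit (Ω : Finset α) (f : α → ℝ) :
    (Ω.card : ℝ) * ip Ω (qe Ω (fun _ => ()) f) (qe Ω (fun _ => ()) f) =
      (Ω.card : ℝ) * ip Ω f f - (∑ x ∈ Ω, f x) ^ 2 := by
  rcases Ω.eq_empty_or_nonempty with rfl | hne
  · simp [ip]
  have hn : (0 : ℝ) < Ω.card := by exact_mod_cast card_pos.2 hne
  unfold ip qe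
  simp only [ce_unit]
  set m := (∑ y ∈ Ω, f y) / (Ω.card : ℝ) with hm
  have hS : ∑ y ∈ Ω, f y = m * Ω.card := by rw [hm]; field_simp
  have : ∑ x ∈ Ω, (f x - m) * (f x - m) = ∑ x ∈ Ω, f x * f x - 2 * m * ∑ x ∈ Ω, f x
      + Ω.card * m ^ 2 := by
    have : ∀ x ∈ Ω, (f x - m) * (f x - m) = f x * f x - 2 * m * f x + m ^ 2 := fun x _ => by ring
    rw [sum_congr rfl this, sum_add_distrib, sum_sub_distrib, ← mul_sum, sum_const, nsmul_eq_mul]
  rw [this, hS]
  ring

end ce_unit

/-- the right-hand side of `johnson_gap` and `johnson_cov` -/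
noncomputable def jrhs (C : Finset ι) (u : ℕ) (f : Finset ι → ℝ) : ℝ :=
  ∑ c ∈ C, ∑ d ∈ C.erase c,
    ip (powersetCard u C) (qe (powersetCard u C) (fun U => U \ {c, d}) f)
      (qe (powersetCard u C) (fun U => U \ {c, d}) f)

lemma swp_sdiff_pair {U : Finset ι} {c d : ι} : swp U c d \ {c, d} = U \ {c, d} := by
  ext z
  simp only [Crest.Agent.SwitchJ.sw, mem_sdiff, mem_insert, mem_erase, mem_singleton, not_or]
  constructor
  · rintro ⟨h | h, h1, h2⟩
    · exact absurd h h2
    · exact ⟨h.2, h1, h2⟩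
  · rintro ⟨h, h1, h2⟩
    exact ⟨Or.inr ⟨h1, h⟩, h1, h2⟩

lemma qe_pair_diff (C : Finset ι) (u : ℕ) (f : Finset ι → ℝ) (U : Finset ι) (c d : ι) :
    qe (powersetCard u C) (fun V => V \ {c, d}) f U -
      qe (powersetCard u C) (fun V => V \ {c, d}) f (swp U c d) = f U - f (swp U c d) := by
  unfold qe ce fib
  simp only [swp_sdiff_pair]
  ring

lemma jenergy_le_jrhs (C : Finset ι) (u : ℕ) (f : Finset ι → ℝ) :
    jenergy C u f / 2 ≤ jrhs C u f := by
  set q : ι → ι → Finset ι → ℝ := fun c d U => qe (powersetCard u C) (fun V => V \ {c, d}) f U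
    with hq
  have hqc : ∀ c d U, q c d U = q d c U := by
    intro c d U
    simp only [hq, pair_comm]
  set W := ∑ U ∈ powersetCard u C, ∑ x ∈ U, ∑ y ∈ C \ U, (q x y U) ^ 2 with hW
  -- step 1 : jrhs ≥ 2 W
  have h1 : 2 * W ≤ jrhs C u f := by
    have e' : jrhs C u f = ∑ U ∈ powersetCard u C, ∑ c ∈ C, ∑ d ∈ C.erase c, (q c d U) ^ 2 := by
      unfold jrhs ip
      calc ∑ c ∈ C, ∑ d ∈ C.erase c, ∑ U ∈ powersetCard u C, q c d U * q c d U
          = ∑ c ∈ C, ∑ U ∈ powersetCard u C, ∑ d ∈ C.erase c, q c d U * q c d U :=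
            sum_congr rfl fun c _ => sum_comm
        _ = ∑ U ∈ powersetCard u C, ∑ c ∈ C, ∑ d ∈ C.erase c, q c d U * q c d U := sum_comm
        _ = _ := by
            refine sum_congr rfl fun U _ => sum_congr rfl fun c _ => sum_congr rfl fun d _ => by ring
    rw [e', hW, two_mul, ← sum_add_distrib]
    apply sum_le_sum
    intro U hU
    have hUC := (mem_powersetCard.1 hU).1
    rw [← sum_sdiff hUC, add_comm]
    apply add_le_add
    · -- c ∈ C \ U, d ∈ U
      rw [sum_comm]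
      apply sum_le_sum
      intro c hc
      have hc' := mem_sdiff.1 hc
      calc ∑ x ∈ U, (q x c U) ^ 2 = ∑ x ∈ U, (q c x U) ^ 2 :=
            sum_congr rfl fun x _ => by rw [hqc]
        _ ≤ ∑ d ∈ C.erase c, (q c d U) ^ 2 := by
            apply sum_le_sum_of_subset_of_nonneg
            · intro x hx
              exact mem_erase.2 ⟨fun e => hc'.2 (e ▸ hx), hUC hx⟩
            · intro _ _ _; positivity
    · apply sum_le_sum
      intro c hc
      apply sum_le_sum_of_subset_of_nonneg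
      · intro y hy
        have hy' := mem_sdiff.1 hy
        exact mem_erase.2 ⟨fun e => hy'.2 (e ▸ hc), hy'.1⟩
      · intro _ _ _; positivity
  -- step 2 : 2 W ≥ energy / 2
  have h2 : W = ∑ U ∈ powersetCard u C, ∑ x ∈ U, ∑ y ∈ C \ U, (q x y (swp U x y)) ^ 2 := by
    rw [hW, sum_sw_symm' C u (fun U x y => (q x y U) ^ 2)]
    refine sum_congr rfl fun U _ => sum_congr rfl fun x _ => sum_congr rfl fun y _ => by rw [hqc]
  have h3 : jenergy C u f / 2 ≤ W + W := by
    nth_rewrite 2 [h2]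
    rw [hW, ← sum_add_distrib]
    unfold jenergy
    rw [sum_div]
    apply sum_le_sum
    intro U _
    rw [← sum_add_distrib, sum_div]
    apply sum_le_sum
    intro x _
    rw [← sum_add_distrib, sum_div]
    apply sum_le_sum
    intro y _
    have := qe_pair_diff C u f U x y
    simp only [hq]
    rw [← this]
    nlinarith [sq_nonneg (qe (powersetCard u C) (fun V => V \ {x, y}) f U +
      qe (powersetCard u C) (fun V => V \ {x, y}) f (swp U x y))]
  linarith

/-- **J1** (gap of the Johnson graph `J(N,u)` is `N`).  The right-hand side is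
`∑_{Johnson edges {U,U'}} (f U - f U')^2`: for an ordered pair `c ≠ d` the fibres of `U ↦ U \ {c,d}`
are `{U, τ_cd U}`. -/
theorem johnson_gap (C : Finset ι) (u : ℕ) (f : Finset ι → ℝ) :
    (C.card : ℝ) * ip (powersetCard u C) (qe (powersetCard u C) (fun _ => ()) f)
        (qe (powersetCard u C) (fun _ => ()) f)
      ≤ ∑ c ∈ C, ∑ d ∈ C.erase c,
          ip (powersetCard u C) (qe (powersetCard u C) (fun U => U \ {c, d}) f)
            (qe (powersetCard u C) (fun U => U \ {c, d}) f) := by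
  have h1 := johnson_poincare C u f
  have h2 := jenergy_le_jrhs C u f
  rw [← card_mul_ip_qe_unit] at h1
  rcases (powersetCard u C).eq_empty_or_nonempty with he | hne
  · have h0 : ip (powersetCard u C) (qe (powersetCard u C) (fun _ => ()) f)
        (qe (powersetCard u C) (fun _ => ()) f) = 0 := by
      unfold ip; rw [he]; simp
    rw [h0, mul_zero]
    refine sum_nonneg fun c _ => sum_nonneg fun d _ => ?_
    unfold ip
    exact sum_nonneg fun U _ => mul_self_nonneg _
  · have hn : (0 : ℝ) < (powersetCard u C).card := by exact_mod_cast card_pos.2 hne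
    have h3 : ((powersetCard u C).card : ℝ) * ((C.card : ℝ) *
        ip (powersetCard u C) (qe (powersetCard u C) (fun _ => ()) f)
        (qe (powersetCard u C) (fun _ => ()) f)) ≤
        ((powersetCard u C).card : ℝ) * (jenergy C u f / 2) := by
      calc _ = (C.card : ℝ) * (((powersetCard u C).card : ℝ) *
            ip (powersetCard u C) (qe (powersetCard u C) (fun _ => ()) f)
            (qe (powersetCard u C) (fun _ => ()) f)) := by ring
        _ ≤ _ := h1
    have h4 := le_of_mul_le_mul_left h3 hn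
    exact h4.trans h2

open Crest.Agent.SwitchJ (gxor gxor_comm gxor_self gxor_eq ein Gf rs k2 k2_nonneg sum_gxor sum_Gf
  sum_Gf_sq_le)

lemma jrhs_nonneg (C : Finset ι) (u : ℕ) (f : Finset ι → ℝ) : 0 ≤ jrhs C u f := by
  unfold jrhs
  refine sum_nonneg fun c _ => sum_nonneg fun d _ => ?_
  unfold ip
  exact sum_nonneg fun U _ => mul_self_nonneg _

/-- `∑_{c,d} g_cd` is constant on the Johnson scheme -/
lemma sum_sum_gxor (C : Finset ι) (u : ℕ) {U : Finset ι} (hU : U ∈ powersetCard u C) :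
    ∑ c ∈ C, ∑ d ∈ C, gxor c d U = 2 * ((u : ℝ) * ((C \ U).card : ℝ)) := by
  have hUC := (mem_powersetCard.1 hU).1
  have hUc := (mem_powersetCard.1 hU).2
  have key : ∑ c ∈ C, ∑ d ∈ C, ein c d U = (u : ℝ) * ((C \ U).card : ℝ) := by
    have e : ∀ c d, ein c d U = (if c ∈ U then (1:ℝ) else 0) * (if d ∉ U then (1:ℝ) else 0) := by
      intro c d
      unfold ein
      by_cases hc : c ∈ U <;> by_cases hd : d ∈ U <;> simp [hc, hd]
    simp only [e]
    rw [← sum_mul_sum, sum_boole, sum_boole, filter_mem_eq_inter, inter_eq_right.2 hUC, hUc,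
      filter_notMem_eq_sdiff]
  simp only [gxor_eq, sum_add_distrib]
  rw [key, sum_comm, key]
  ring

/-- **J2**. `∑_{(c,d)} |F| Cov(f, g_cd)^2 / p ≤ ∑_{edges} (f U - f U')^2`,
`g_cd = 1[exactly one of c,d in U]`. -/
theorem johnson_cov (C : Finset ι) (u : ℕ) (f : Finset ι → ℝ) :
    ∑ c ∈ C, ∑ d ∈ C.erase c,
        yterm (powersetCard u C) (fun _ => ()) (fun U => if (c ∈ U ↔ d ∈ U) then 0 else 1) f
      ≤ ∑ c ∈ C, ∑ d ∈ C.erase c,
          ip (powersetCard u C) (qe (powersetCard u C) (fun U => U \ {c, d}) f)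
            (qe (powersetCard u C) (fun U => U \ {c, d}) f) := by
  set J := powersetCard u C with hJ
  have hgap := johnson_gap C u f
  rw [← hJ] at hgap
  have hnn := jrhs_nonneg C u f
  unfold jrhs at hnn
  rw [← hJ] at hnn
  set RHS := ∑ c ∈ C, ∑ d ∈ C.erase c,
          ip J (qe J (fun U => U \ {c, d}) f) (qe J (fun U => U \ {c, d}) f) with hRHS
  set n : ℝ := (J.card : ℝ) with hn
  -- the un-normalised covariances
  set a : ι → ι → ℝ := fun c d => n * (∑ U ∈ J, f U * gxor c d U) -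
    (∑ U ∈ J, f U) * ∑ U ∈ J, gxor c d U with ha
  have hy : ∀ c ∈ C, ∀ d ∈ C.erase c,
      yterm J (fun _ => ()) (fun U => if (c ∈ U ↔ d ∈ U) then 0 else 1) f =
        n * (((∑ U ∈ J, f U * gxor c d U) / n - (∑ U ∈ J, f U) / n * ((2 * k2 C u) / n)) ^ 2 /
          ((2 * k2 C u) / n)) := by
    intro c hc d hd
    have hcd : c ≠ d := (ne_of_mem_erase hd).symm
    have hdC : d ∈ C := mem_of_mem_erase hd
    unfold yterm
    simp only [ce_unit]
    have hg : ∑ U ∈ J, (if (c ∈ U ↔ d ∈ U) then (0:ℝ) else 1) = 2 * k2 C u := by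
      have := sum_gxor C u hc hdC hcd
      unfold k2
      rw [← this]
      rfl
    rw [hg, sum_const, nsmul_eq_mul]
    rfl
  rw [sum_congr rfl (fun c hc => sum_congr rfl (hy c hc))]
  rcases J.eq_empty_or_nonempty with he | hne
  · have : n = 0 := by rw [hn, he]; simp
    simp only [this, zero_mul, sum_const_zero]
    exact hnn
  have hnpos : 0 < n := by rw [hn]; exact_mod_cast card_pos.2 hne
  rcases (k2_nonneg C u).eq_or_lt with hk0 | hkpos
  · simp only [← hk0, mul_zero, zero_div, div_zero, sum_const_zero]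
    exact hnn
  -- main case
  have hsym : ∀ c d, a c d = a d c := by
    intro c d
    simp only [ha, gxor_comm c d]
  have hdiag : ∀ c, a c c = 0 := by
    intro c
    simp only [ha, gxor_self, mul_zero, sum_const_zero, sub_zero]
  set S := ∑ c ∈ C, ∑ d ∈ C, a c d ^ 2 with hS
  have hS0 : 0 ≤ S := sum_nonneg fun c _ => sum_nonneg fun d _ => sq_nonneg _
  -- LHS ≤ S / (2 k2 n^2)
  have hL : ∑ c ∈ C, ∑ d ∈ C.erase c,
      n * (((∑ U ∈ J, f U * gxor c d U) / n - (∑ U ∈ J, f U) / n * ((2 * k2 C u) / n)) ^ 2 /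
          ((2 * k2 C u) / n)) ≤ S / (2 * k2 C u * n ^ 2) := by
    have hSd : S / (2 * k2 C u * n ^ 2) = ∑ c ∈ C, ∑ d ∈ C, a c d ^ 2 / (2 * k2 C u * n ^ 2) := by
      rw [hS]; simp only [sum_div]
    rw [hSd]
    apply sum_le_sum
    intro c hc
    calc _ = ∑ d ∈ C.erase c, a c d ^ 2 / (2 * k2 C u * n ^ 2) := by
          apply sum_congr rfl
          intro d hd
          have hcd : c ≠ d := (ne_of_mem_erase hd).symm
          have hdC : d ∈ C := mem_of_mem_erase hd
          have hg : ∑ U ∈ J, gxor c d U = 2 * k2 C u := by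
            have := sum_gxor C u hc hdC hcd
            unfold k2; rw [← this]
          simp only [ha, hg]
          field_simp
      _ ≤ _ := by
          apply sum_le_sum_of_subset_of_nonneg (erase_subset _ _)
          intro d _ _
          positivity
  -- A = 0
  have hA : ∑ x ∈ C, rs C a x = 0 := by
    unfold rs
    simp only [ha, sum_sub_distrib, ← mul_sum]
    have e1 : ∑ c ∈ C, ∑ d ∈ C, ∑ U ∈ J, f U * gxor c d U =
        ∑ U ∈ J, f U * ∑ c ∈ C, ∑ d ∈ C, gxor c d U := by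
      calc _ = ∑ c ∈ C, ∑ U ∈ J, ∑ d ∈ C, f U * gxor c d U := sum_congr rfl fun c _ => sum_comm
        _ = ∑ U ∈ J, ∑ c ∈ C, ∑ d ∈ C, f U * gxor c d U := sum_comm
        _ = _ := by simp only [mul_sum]
    have e2 : ∑ c ∈ C, ∑ d ∈ C, ∑ U ∈ J, gxor c d U =
        ∑ U ∈ J, ∑ c ∈ C, ∑ d ∈ C, gxor c d U := by
      calc _ = ∑ c ∈ C, ∑ U ∈ J, ∑ d ∈ C, gxor c d U := sum_congr rfl fun c _ => sum_comm
        _ = _ := sum_comm
    have hK : ∀ U ∈ J, ∑ c ∈ C, ∑ d ∈ C, gxor c d U = 2 * ((u : ℝ) * ((C.card : ℝ) - u)) := by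
      intro U hU
      rw [sum_sum_gxor C u hU]
      have hUC := (mem_powersetCard.1 hU).1
      have hUc := (mem_powersetCard.1 hU).2
      rw [card_sdiff_of_subset hUC, hUc]
      have hle : u ≤ C.card := by rw [← hUc]; exact card_le_card hUC
      push_cast [hle]; ring
    rw [e1, e2, sum_congr rfl (fun U hU => by rw [hK U hU] :
      ∀ U ∈ J, f U * ∑ c ∈ C, ∑ d ∈ C, gxor c d U = f U * (2 * ((u : ℝ) * ((C.card : ℝ) - u)))),
      sum_congr rfl hK, ← sum_mul, sum_const, nsmul_eq_mul]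
    ring
  have hG0 : ∑ U ∈ J, Gf C a U = 0 := by
    rw [hJ, sum_Gf C u a hdiag, hA, mul_zero]
  have hGsq := sum_Gf_sq_le C u a hsym hdiag hA
  rw [← hJ, ← hS] at hGsq
  -- duality
  have hdual : S = n * ∑ U ∈ J, f U * Gf C a U := by
    have e1 : ∑ U ∈ J, f U * Gf C a U = ∑ c ∈ C, ∑ d ∈ C, a c d * ∑ U ∈ J, f U * gxor c d U := by
      unfold Gf
      simp only [mul_sum]
      calc _ = ∑ c ∈ C, ∑ U ∈ J, ∑ d ∈ C, f U * (a c d * gxor c d U) := sum_comm
        _ = ∑ c ∈ C, ∑ d ∈ C, ∑ U ∈ J, f U * (a c d * gxor c d U) :=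
            sum_congr rfl fun c _ => sum_comm
        _ = _ := by
            refine sum_congr rfl fun c _ => sum_congr rfl fun d _ => sum_congr rfl fun U _ => by ring
    have e2 : ∑ U ∈ J, Gf C a U = ∑ c ∈ C, ∑ d ∈ C, a c d * ∑ U ∈ J, gxor c d U := by
      unfold Gf
      simp only [mul_sum]
      calc _ = ∑ c ∈ C, ∑ U ∈ J, ∑ d ∈ C, a c d * gxor c d U := sum_comm
        _ = _ := sum_congr rfl fun c _ => sum_comm
    have e3 : S = n * (∑ c ∈ C, ∑ d ∈ C, a c d * ∑ U ∈ J, f U * gxor c d U) -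
        (∑ U ∈ J, f U) * ∑ c ∈ C, ∑ d ∈ C, a c d * ∑ U ∈ J, gxor c d U := by
      have hterm : ∀ c ∈ C, ∀ d ∈ C, a c d ^ 2 = n * (a c d * ∑ U ∈ J, f U * gxor c d U) -
          (∑ U ∈ J, f U) * (a c d * ∑ U ∈ J, gxor c d U) := by
        intro c _ d _
        have : a c d = n * (∑ U ∈ J, f U * gxor c d U) -
          (∑ U ∈ J, f U) * ∑ U ∈ J, gxor c d U := rfl
        rw [sq]
        nth_rewrite 2 [this]
        ring
      rw [hS, sum_congr rfl (fun c hc => sum_congr rfl (hterm c hc))]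
      simp only [sum_sub_distrib, ← mul_sum]
    rw [e3, ← e1, ← e2, hG0, mul_zero, sub_zero]
  set q := qe J (fun _ => ()) f with hq
  set V := ip J q q with hV
  have hqG : ∑ U ∈ J, q U * Gf C a U = ∑ U ∈ J, f U * Gf C a U := by
    simp only [hq, qe, ce_unit, sub_mul, sum_sub_distrib, ← mul_sum, hG0, mul_zero, sub_zero]
  have hCS : (∑ U ∈ J, q U * Gf C a U) ^ 2 ≤ V * ∑ U ∈ J, Gf C a U ^ 2 := by
    have := sum_mul_sq_le_sq_mul_sq J q (Gf C a)
    have hV' : V = ∑ U ∈ J, q U ^ 2 := by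
      rw [hV]; unfold ip; exact sum_congr rfl fun U _ => by ring
    rw [hV']; exact this
  have hV0 : 0 ≤ V := by rw [hV]; unfold ip; exact sum_nonneg fun U _ => mul_self_nonneg _
  have hSS : S ^ 2 ≤ n ^ 2 * V * (2 * k2 C u * (C.card : ℝ)) * S := by
    rw [hqG] at hCS
    calc S ^ 2 = n ^ 2 * (∑ U ∈ J, f U * Gf C a U) ^ 2 := by rw [hdual]; ring
      _ ≤ n ^ 2 * (V * ∑ U ∈ J, Gf C a U ^ 2) := by
          apply mul_le_mul_of_nonneg_left hCS; positivity
      _ ≤ n ^ 2 * (V * (2 * k2 C u * (C.card : ℝ) * S)) := by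
          apply mul_le_mul_of_nonneg_left _ (by positivity)
          exact mul_le_mul_of_nonneg_left hGsq hV0
      _ = _ := by ring
  have hSle : S ≤ n ^ 2 * V * (2 * k2 C u * (C.card : ℝ)) := by
    rcases hS0.eq_or_lt with h0 | hpos
    · rw [← h0]; positivity
    · rw [sq] at hSS
      exact le_of_mul_le_mul_right hSS hpos
  calc _ ≤ S / (2 * k2 C u * n ^ 2) := hL
    _ ≤ (C.card : ℝ) * V := by
        rw [div_le_iff₀ (by positivity)]
        linarith
    _ ≤ RHS := hgap

end Crest.Agent.Switch
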