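import Crest.Agent.Switch.Basic

/-!
# Auxiliary material for `PairFibre.lean`, part 2: generic lemmas on `fib`, `ce`, `qe`
(localisation on a coarser fibre, transfer along an injective map, fibrewise comparison of sums).
-/

set_option autoImplicit false
open Finset

namespace Crest.Agent.Switch.PF

variable {α β γ δ : Type*}

theorem mem_fib [DecidableEq β] {Ω : Finset α} {φ : α → β} {x y : α} :
    y ∈ fib Ω φ x ↔ y ∈ Ω ∧ φ y = φ x := by simp [fib]

theorem fib_fib [DecidableEq β] [DecidableEq γ] {Ω : Finset α} {key : α → β} {κ : α → γ}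
    (href : ∀ x ∈ Ω, ∀ y ∈ Ω, κ x = κ y → key x = key y) {x₀ x : α} (hx : x ∈ fib Ω key x₀) :
    fib (fib Ω key x₀) κ x = fib Ω κ x := by
  ext y
  simp only [mem_fib] at hx ⊢
  constructor
  · rintro ⟨⟨h1, _⟩, h3⟩; exact ⟨h1, h3⟩
  · rintro ⟨h1, h3⟩; exact ⟨⟨h1, (href y h1 x hx.1 h3).trans hx.2⟩, h3⟩

/-- localisation: on a fibre of a coarser map the conditional expectation can be computed inside
the fibre. -/
theorem ce_fib [DecidableEq β] [DecidableEq γ] {Ω : Finset α} {key : α → β} {κ : α → γ}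
    (href : ∀ x ∈ Ω, ∀ y ∈ Ω, κ x = κ y → key x = key y) {x₀ x : α} (hx : x ∈ fib Ω key x₀)
    (f : α → ℝ) : ce Ω κ f x = ce (fib Ω key x₀) κ f x := by
  unfold ce; rw [fib_fib href hx]

theorem fib_const [DecidableEq β] {Ω : Finset α} {key : α → β} {x₀ x : α}
    (hx : x ∈ fib Ω key x₀) : fib (fib Ω key x₀) (fun _ => ()) x = fib Ω key x := by
  ext y
  simp only [mem_fib] at hx ⊢
  constructor
  · rintro ⟨⟨h1, h2⟩, _⟩; exact ⟨h1, h2.trans hx.2.symm⟩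
  · rintro ⟨h1, h3⟩; exact ⟨⟨h1, h3.trans hx.2⟩, trivial⟩

theorem ce_fib_const [DecidableEq β] {Ω : Finset α} {key : α → β} {x₀ x : α}
    (hx : x ∈ fib Ω key x₀) (f : α → ℝ) :
    ce Ω key f x = ce (fib Ω key x₀) (fun _ => ()) f x := by
  unfold ce; rw [fib_const hx]

theorem ce_congr [DecidableEq β] {Ω : Finset α} {φ : α → β} {f g : α → ℝ}
    (h : ∀ x ∈ Ω, f x = g x) (x : α) : ce Ω φ f x = ce Ω φ g x := by
  unfold ce
  congr 1
  apply Finset.sum_congr rfl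
  intro y hy
  exact h y (mem_fib.1 hy).1

theorem fib_image [DecidableEq β] [DecidableEq γ] [DecidableEq δ] {F : Finset α} {φ : α → δ}
    {κ : α → β} {κ' : δ → γ}
    (hκ : ∀ x ∈ F, ∀ y ∈ F, κ x = κ y ↔ κ' (φ x) = κ' (φ y)) {x : α} (hx : x ∈ F) :
    fib (F.image φ) κ' (φ x) = (fib F κ x).image φ := by
  ext U
  simp only [mem_fib, mem_image]
  constructor
  · rintro ⟨⟨y, hy, rfl⟩, h2⟩
    exact ⟨y, ⟨hy, (hκ y hy x hx).2 h2⟩, rfl⟩
  · rintro ⟨y, ⟨hy, h2⟩, rfl⟩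
    exact ⟨⟨y, hy, rfl⟩, (hκ y hy x hx).1 h2⟩

/-- transfer of a conditional expectation along an injective map. -/
theorem ce_image [DecidableEq β] [DecidableEq γ] [DecidableEq δ] {F : Finset α} {φ : α → δ}
    (hinj : Set.InjOn φ F) {κ : α → β} {κ' : δ → γ}
    (hκ : ∀ x ∈ F, ∀ y ∈ F, κ x = κ y ↔ κ' (φ x) = κ' (φ y)) (h : δ → ℝ) {x : α} (hx : x ∈ F) :
    ce F κ (fun y => h (φ y)) x = ce (F.image φ) κ' h (φ x) := by
  have hsub : Set.InjOn φ (fib F κ x : Set α) :=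
    hinj.mono (fun y hy => (mem_fib.1 (Finset.mem_coe.1 hy)).1)
  unfold ce
  rw [fib_image hκ hx, Finset.sum_image hsub, Finset.card_image_of_injOn hsub]

/-- transfer, for a function `f` on the source which is `h ∘ φ` on `F`. -/
theorem ce_image' [DecidableEq β] [DecidableEq γ] [DecidableEq δ] {F : Finset α} {φ : α → δ}
    (hinj : Set.InjOn φ F) {κ : α → β} {κ' : δ → γ}
    (hκ : ∀ x ∈ F, ∀ y ∈ F, κ x = κ y ↔ κ' (φ x) = κ' (φ y)) {f : α → ℝ} {h : δ → ℝ}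
    (hf : ∀ y ∈ F, f y = h (φ y)) {x : α} (hx : x ∈ F) :
    ce F κ f x = ce (F.image φ) κ' h (φ x) := by
  rw [ce_congr hf, ce_image hinj hκ h hx]

theorem sum_le_sum_fiberwise [DecidableEq β] {Ω : Finset α} (key : α → β) {A B : α → ℝ}
    (h : ∀ x₀ ∈ Ω, ∑ x ∈ fib Ω key x₀, A x ≤ ∑ x ∈ fib Ω key x₀, B x) :
    ∑ x ∈ Ω, A x ≤ ∑ x ∈ Ω, B x := by
  rw [← Finset.sum_fiberwise_of_maps_to (s := Ω) (t := Ω.image key) (g := key)
      (fun x hx => mem_image_of_mem _ hx) A,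
    ← Finset.sum_fiberwise_of_maps_to (s := Ω) (t := Ω.image key) (g := key)
      (fun x hx => mem_image_of_mem _ hx) B]
  apply Finset.sum_le_sum
  intro k hk
  obtain ⟨x₀, hx₀, rfl⟩ := mem_image.1 hk
  exact h x₀ hx₀

/-- on a set with at most one element `f - E f = 0`. -/
theorem qe_eq_zero_of_card_le_one [DecidableEq β] {Ω : Finset α} (hΩ : Ω.card ≤ 1) (φ : α → β)
    (f : α → ℝ) {x : α} (hx : x ∈ Ω) : qe Ω φ f x = 0 := by
  classical
  have h1 : fib Ω φ x = {x} := by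
    ext y
    simp only [mem_fib, mem_singleton]
    constructor
    · rintro ⟨hy, _⟩; exact Finset.card_le_one.1 hΩ y hy x hx
    · rintro rfl; exact ⟨hx, rfl⟩
  unfold qe ce
  rw [h1]
  simp


section transfer
variable {γ' : Type*} [DecidableEq β] [DecidableEq γ] [DecidableEq δ] [DecidableEq γ']
  {Ω : Finset α} {key : α → β} {κ : α → γ} {x₀ : α} {φ : α → δ} {κ' : δ → γ'}

/-- conditional expectation on `Ω`, restricted to a fibre of a coarser map and transported along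
an injective map. -/
theorem ce_transfer (href : ∀ x ∈ Ω, ∀ y ∈ Ω, κ x = κ y → key x = key y)
    (hinj : Set.InjOn φ (fib Ω key x₀))
    (hκ : ∀ x ∈ fib Ω key x₀, ∀ y ∈ fib Ω key x₀, κ x = κ y ↔ κ' (φ x) = κ' (φ y))
    {f : α → ℝ} {h : δ → ℝ} (hf : ∀ y ∈ fib Ω key x₀, f y = h (φ y)) {x : α}
    (hx : x ∈ fib Ω key x₀) :
    ce Ω κ f x = ce ((fib Ω key x₀).image φ) κ' h (φ x) := by
  rw [ce_fib href hx, ce_image' hinj hκ hf hx]

theorem ip_qe_transfer (href : ∀ x ∈ Ω, ∀ y ∈ Ω, κ x = κ y → key x = key y)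
    (hinj : Set.InjOn φ (fib Ω key x₀))
    (hκ : ∀ x ∈ fib Ω key x₀, ∀ y ∈ fib Ω key x₀, κ x = κ y ↔ κ' (φ x) = κ' (φ y))
    {f : α → ℝ} {h : δ → ℝ} (hf : ∀ y ∈ fib Ω key x₀, f y = h (φ y)) :
    ∑ x ∈ fib Ω key x₀, (qe Ω κ f x) ^ 2
      = ip ((fib Ω key x₀).image φ) (qe ((fib Ω key x₀).image φ) κ' h)
          (qe ((fib Ω key x₀).image φ) κ' h) := by
  unfold ip
  rw [Finset.sum_image hinj]
  apply Finset.sum_congr rfl
  intro x hx
  unfold qe
  rw [ce_transfer href hinj hκ hf hx, hf x hx]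
  ring

theorem yterm_transfer (href : ∀ x ∈ Ω, ∀ y ∈ Ω, κ x = κ y → key x = key y)
    (hinj : Set.InjOn φ (fib Ω key x₀))
    (hκ : ∀ x ∈ fib Ω key x₀, ∀ y ∈ fib Ω key x₀, κ x = κ y ↔ κ' (φ x) = κ' (φ y))
    {f g : α → ℝ} {h k : δ → ℝ} (hf : ∀ y ∈ fib Ω key x₀, f y = h (φ y))
    (hg : ∀ y ∈ fib Ω key x₀, g y = k (φ y)) :
    ∑ x ∈ fib Ω key x₀,
        (ce Ω κ (fun y => f y * g y) x - ce Ω κ f x * ce Ω κ g x) ^ 2 / ce Ω κ g x
      = yterm ((fib Ω key x₀).image φ) κ' k h := by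
  unfold yterm
  rw [Finset.sum_image hinj]
  apply Finset.sum_congr rfl
  intro x hx
  rw [ce_transfer href hinj hκ hf hx, ce_transfer href hinj hκ hg hx,
    ce_transfer href hinj hκ (f := fun y => f y * g y) (h := fun y => h y * k y)
      (fun y hy => by rw [hf y hy, hg y hy]) hx]

end transfer

end Crest.Agent.Switch.PF
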