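import Crest.Agent.Switch.PairFibreAux
import Crest.Agent.Switch.PairFibreCE

/-!
# Auxiliary material for `PairFibre.lean`, part 3: the fibre of `G ↦ G - a - b` inside the
realizations is a Johnson scheme.
-/

set_option autoImplicit false
open Finset Crest.SwitchChain

namespace Crest.Agent.Switch.PF

variable {n : ℕ}

/-- `G` and `G'` agree outside the vertices `a`, `b`. -/
def agreeOff (a b : Fin n) (G G' : Gr n) : Prop :=
  ∀ x y, x ≠ a → x ≠ b → y ≠ a → y ≠ b → (adj G x y ↔ adj G' x y)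

theorem agreeOff_of_key {a b : Fin n} {G G' : Gr n} (h : G \ star2 a b = G' \ star2 a b) :
    agreeOff a b G G' := by
  intro x y hxa hxb hya hyb
  by_cases hxy : x = y
  · subst hxy; simp [not_adj_self]
  · apply (sdiff_eq_iff _).1 h x y hxy
    rw [mkE_mem_star2]
    rintro ((h | h) | (h | h))
    · exact hxa h.symm
    · exact hya h.symm
    · exact hxb h.symm
    · exact hyb h.symm

theorem key_of_agreeOff {a b : Fin n} {G G' : Gr n} (h : agreeOff a b G G') :
    G \ star2 a b = G' \ star2 a b := by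
  apply (sdiff_eq_iff _).2
  intro x y hxy hS
  rw [mkE_mem_star2] at hS
  simp only [not_or] at hS
  exact h x y (Ne.symm hS.1.1) (Ne.symm hS.2.1) (Ne.symm hS.1.2) (Ne.symm hS.2.2)

/-- the neighbours of `a` which are not neighbours of `b`. -/
def Uset (a b : Fin n) (G : Gr n) : Finset (Fin n) :=
  (others a b).filter fun w => adj G a w ∧ ¬ adj G b w

/-- the vertices adjacent to exactly one of `a`, `b`. -/
def Cset (a b : Fin n) (G : Gr n) : Finset (Fin n) :=
  (others a b).filter fun w => xc G a w + xc G b w = 1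

theorem mem_Uset {a b w : Fin n} {G : Gr n} :
    w ∈ Uset a b G ↔ w ∈ others a b ∧ adj G a w ∧ ¬ adj G b w := by simp [Uset]

theorem mem_Cset {a b w : Fin n} {G : Gr n} :
    w ∈ Cset a b G ↔ w ∈ others a b ∧ xc G a w + xc G b w = 1 := by simp [Cset]

theorem Uset_subset_Cset (a b : Fin n) (G : Gr n) : Uset a b G ⊆ Cset a b G := by
  intro w hw
  rw [mem_Uset] at hw
  rw [mem_Cset]
  refine ⟨hw.1, ?_⟩
  rw [xc_eq_one.2 hw.2.1, xc_eq_zero.2 hw.2.2]

theorem adj_a_iff_of_mem_Cset {a b w : Fin n} {G : Gr n} (hw : w ∈ Cset a b G) :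
    adj G a w ↔ w ∈ Uset a b G := by
  rw [mem_Cset] at hw
  rw [mem_Uset]
  constructor
  · intro h
    refine ⟨hw.1, h, ?_⟩
    have := hw.2
    rw [xc_eq_one.2 h] at this
    exact xc_eq_zero.1 (by omega)
  · intro h; exact h.2.1

theorem adj_b_iff_of_mem_Cset {a b w : Fin n} {G : Gr n} (hw : w ∈ Cset a b G) :
    adj G b w ↔ w ∉ Uset a b G := by
  rw [← adj_a_iff_of_mem_Cset hw]
  rw [mem_Cset] at hw
  have h2 := hw.2
  constructor
  · intro h h'
    rw [xc_eq_one.2 h, xc_eq_one.2 h'] at h2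
    omega
  · intro h
    rw [xc_eq_zero.2 h] at h2
    exact xc_eq_one.1 (by omega)

section fibre
variable {d : Fin n → ℕ} {a b : Fin n} {G G' : Gr n}

theorem ksum_eq (hab : a ≠ b) (hG : G ∈ realizations d) (hG' : G' ∈ realizations d)
    (hag : agreeOff a b G G') {w : Fin n} (hw : w ∈ others a b) :
    xc G a w + xc G b w = xc G' a w + xc G' b w := by
  rw [mem_others] at hw
  have h1 := mem_realizations.1 hG w
  have h2 := mem_realizations.1 hG' w
  rw [sum_split hab] at h1 h2
  have h3 : ∑ v ∈ others a b, xc G w v = ∑ v ∈ others a b, xc G' w v := by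
    apply Finset.sum_congr rfl
    intro v hv
    rw [mem_others] at hv
    exact xc_eq_iff.2 (hag w v hw.1 hw.2 hv.1 hv.2)
  rw [xc_comm G a w, xc_comm G b w, xc_comm G' a w, xc_comm G' b w]
  omega

theorem xc_ab_eq (hab : a ≠ b) (hG : G ∈ realizations d) (hG' : G' ∈ realizations d)
    (hag : agreeOff a b G G') : xc G a b = xc G' a b := by
  have h1 := mem_realizations.1 hG a
  have h2 := mem_realizations.1 hG' a
  have h3 := mem_realizations.1 hG b
  have h4 := mem_realizations.1 hG' b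
  rw [sum_split hab] at h1 h2 h3 h4
  have h5 : ∑ v ∈ others a b, xc G a v + ∑ v ∈ others a b, xc G b v
      = ∑ v ∈ others a b, xc G' a v + ∑ v ∈ others a b, xc G' b v := by
    rw [← Finset.sum_add_distrib, ← Finset.sum_add_distrib]
    apply Finset.sum_congr rfl
    intro v hv
    exact ksum_eq hab hG hG' hag hv
  rw [xc_self] at h1 h2 h3 h4
  rw [xc_comm G b a] at h3
  rw [xc_comm G' b a] at h4
  omega

theorem Cset_eq (hab : a ≠ b) (hG : G ∈ realizations d) (hG' : G' ∈ realizations d)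
    (hag : agreeOff a b G G') : Cset a b G = Cset a b G' := by
  ext w
  rw [mem_Cset, mem_Cset]
  constructor
  · rintro ⟨h1, h2⟩; exact ⟨h1, by rw [← ksum_eq hab hG hG' hag h1]; exact h2⟩
  · rintro ⟨h1, h2⟩; exact ⟨h1, by rw [ksum_eq hab hG hG' hag h1]; exact h2⟩

theorem xc_a_decomp (G : Gr n) (a b w : Fin n) :
    xc G a w = (if adj G a w ∧ ¬ adj G b w then 1 else 0)
      + (if xc G a w + xc G b w = 2 then 1 else 0) := by
  unfold xc
  by_cases h1 : adj G a w <;> by_cases h2 : adj G b w <;> simp [h1, h2]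

theorem sum_xc_a (G : Gr n) (a b : Fin n) :
    ∑ w ∈ others a b, xc G a w = (Uset a b G).card
      + ((others a b).filter fun w => xc G a w + xc G b w = 2).card := by
  rw [Uset, Finset.card_filter, Finset.card_filter, ← Finset.sum_add_distrib]
  apply Finset.sum_congr rfl
  intro w _
  exact xc_a_decomp G a b w

theorem card_Uset_eq (hab : a ≠ b) (hG : G ∈ realizations d) (hG' : G' ∈ realizations d)
    (hag : agreeOff a b G G') : (Uset a b G).card = (Uset a b G').card := by
  have h1 := mem_realizations.1 hG a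
  have h2 := mem_realizations.1 hG' a
  rw [sum_split hab, sum_xc_a, xc_self] at h1 h2
  have h3 := xc_ab_eq hab hG hG' hag
  have h4 : ((others a b).filter fun w => xc G a w + xc G b w = 2)
      = ((others a b).filter fun w => xc G' a w + xc G' b w = 2) := by
    apply Finset.filter_congr
    intro w hw
    rw [ksum_eq hab hG hG' hag hw]
  rw [h4] at h1
  omega

/-- inside a fibre, the two cells `aw`, `bw` are determined by `w ∈ U`. -/
theorem adj_iff_of_mem_iff (hab : a ≠ b) (hG : G ∈ realizations d) (hG' : G' ∈ realizations d)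
    (hag : agreeOff a b G G') {w : Fin n} (hw : w ∈ others a b)
    (hU : w ∈ Uset a b G ↔ w ∈ Uset a b G') :
    (adj G a w ↔ adj G' a w) ∧ (adj G b w ↔ adj G' b w) := by
  have h1 := ksum_eq hab hG hG' hag hw
  simp only [mem_Uset, hw, true_and] at hU
  unfold xc at h1
  by_cases p : adj G a w <;> by_cases q : adj G b w <;> by_cases p' : adj G' a w <;>
    by_cases q' : adj G' b w <;> simp_all

/-- case analysis on the position of a cell relative to `a`, `b`. -/
theorem adj_iff_cases (hab : a ≠ b) (hag : agreeOff a b G G') (h1 : adj G a b ↔ adj G' a b)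
    (x y : Fin n)
    (h2 : ∀ w ∈ others a b, (s(x, y) = s(a, w) → (adj G a w ↔ adj G' a w)) ∧
      (s(x, y) = s(b, w) → (adj G b w ↔ adj G' b w))) :
    adj G x y ↔ adj G' x y := by
  by_cases hxa : x = a
  · subst hxa
    by_cases hya : y = x
    · subst hya; simp [not_adj_self]
    · by_cases hyb : y = b
      · subst hyb; exact h1
      · exact (h2 y (mem_others.2 ⟨hya, hyb⟩)).1 rfl
  · by_cases hxb : x = b
    · subst hxb
      by_cases hya : y = a
      · subst hya; rw [adj_comm G, adj_comm G']; exact h1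
      · by_cases hyb : y = x
        · subst hyb; simp [not_adj_self]
        · exact (h2 y (mem_others.2 ⟨hya, hyb⟩)).2 rfl
    · by_cases hya : y = a
      · subst hya
        rw [adj_comm G, adj_comm G']
        exact (h2 x (mem_others.2 ⟨hxa, hxb⟩)).1 Sym2.eq_swap
      · by_cases hyb : y = b
        · subst hyb
          rw [adj_comm G, adj_comm G']
          exact (h2 x (mem_others.2 ⟨hxa, hxb⟩)).2 Sym2.eq_swap
        · exact hag x y hxa hxb hya hyb

theorem eq_of_Uset_eq (hab : a ≠ b) (hG : G ∈ realizations d) (hG' : G' ∈ realizations d)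
    (hag : agreeOff a b G G') (hU : Uset a b G = Uset a b G') : G = G' := by
  apply graph_ext
  intro x y
  apply adj_iff_cases hab hag (xc_eq_iff.1 (xc_ab_eq hab hG hG' hag))
  intro w hw
  have := adj_iff_of_mem_iff hab hG hG' hag hw (by rw [hU])
  exact ⟨fun _ => this.1, fun _ => this.2⟩

end fibre


/-! ## switches inside a fibre -/

theorem adj_sw_a {G : Gr n} {a b c e v : Fin n} (h4 : dist4 a b c e) (hv : v ∈ others a b) :
    adj (sw G a b c e) a v ↔ (adj G a v ∧ v ≠ c) ∨ v = e := by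
  obtain ⟨hab, hac, hae, hbc, hbe, hce⟩ := h4
  rw [mem_others] at hv
  obtain ⟨hva, hvb⟩ := hv
  rw [adj_sw]
  have e1 : s(a, v) = s(a, c) ↔ v = c := by simp [hac]
  have e2 : ¬ s(a, v) = s(b, e) := by simp [hab, hae]
  have e3 : s(a, v) = s(a, e) ↔ v = e := by simp [hae]
  have e4 : ¬ s(a, v) = s(b, c) := by simp [hab, hac]
  simp only [ne_eq, e1, e2, e3, e4, not_false_eq_true, and_true, or_false]
  constructor
  · rintro (h | h)
    · exact Or.inl h
    · exact Or.inr h.2
  · rintro (h | h)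
    · exact Or.inl h
    · exact Or.inr ⟨fun h' => hva h'.symm, h⟩

theorem adj_sw_b {G : Gr n} {a b c e v : Fin n} (h4 : dist4 a b c e) (hv : v ∈ others a b) :
    adj (sw G a b c e) b v ↔ (adj G b v ∧ v ≠ e) ∨ v = c := by
  obtain ⟨hab, hac, hae, hbc, hbe, hce⟩ := h4
  rw [mem_others] at hv
  obtain ⟨hva, hvb⟩ := hv
  rw [adj_sw]
  have e1 : ¬ s(b, v) = s(a, c) := by simp [hab.symm, hbc]
  have e2 : s(b, v) = s(b, e) ↔ v = e := by simp [hbe]
  have e3 : ¬ s(b, v) = s(a, e) := by simp [hab.symm, hbe]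
  have e4 : s(b, v) = s(b, c) ↔ v = c := by simp [hbc]
  simp only [ne_eq, e1, e2, e3, e4, not_false_eq_true, true_and, false_or]
  constructor
  · rintro (h | h)
    · exact Or.inl h
    · exact Or.inr h.2
  · rintro (h | h)
    · exact Or.inl h
    · exact Or.inr ⟨fun h' => hvb h'.symm, h⟩

/-- a switch changes only the four cells `ac, ae, bc, be`. -/
theorem sw_sdiff_mcells (G : Gr n) (a b c e : Fin n) :
    sw G a b c e \ mcells a b c e = G \ mcells a b c e := by
  apply (sdiff_eq_iff _).2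
  intro x y hxy hS
  rw [mkE_mem_mcells] at hS
  simp only [not_or] at hS
  rw [adj_sw]
  constructor
  · rintro (h | h)
    · exact h.1
    · rcases h.2 with h | h
      · exact absurd h hS.2.1
      · exact absurd h hS.2.2.1
  · intro h
    exact Or.inl ⟨h, hS.1, hS.2.2.2⟩

theorem mcells_subset_star2 (a b c e : Fin n) : mcells a b c e ⊆ star2 a b := by
  intro x hx
  simp only [mcells, cell, star2, star, mem_union, mem_filter, mem_univ, true_and] at hx ⊢
  rcases hx with ((h | h) | h) | h <;> rw [h] <;> simp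

theorem sdiff_eq_of_subset {S T : Finset (Edge n)} (hST : S ⊆ T) {G G' : Gr n}
    (h : G \ S = G' \ S) : G \ T = G' \ T := by
  ext x
  have := Finset.ext_iff.1 h x
  simp only [mem_sdiff] at this ⊢
  constructor
  · rintro ⟨h1, h2⟩
    exact ⟨(this.1 ⟨h1, fun h3 => h2 (hST h3)⟩).1, h2⟩
  · rintro ⟨h1, h2⟩
    exact ⟨(this.2 ⟨h1, fun h3 => h2 (hST h3)⟩).1, h2⟩

theorem sw_sdiff_star2 (G : Gr n) (a b c e : Fin n) :
    sw G a b c e \ star2 a b = G \ star2 a b :=
  sdiff_eq_of_subset (mcells_subset_star2 a b c e) (sw_sdiff_mcells G a b c e)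

theorem swOK_iff_mem {G : Gr n} {a b c e : Fin n} (hc : c ∈ Cset a b G) (he : e ∈ Cset a b G) :
    swOK G a b c e ↔ c ∈ Uset a b G ∧ e ∉ Uset a b G := by
  unfold swOK
  rw [adj_a_iff_of_mem_Cset hc, adj_b_iff_of_mem_Cset he, adj_a_iff_of_mem_Cset he,
    adj_b_iff_of_mem_Cset hc]
  tauto

theorem mem_Cset_of_swOK {G : Gr n} {a b c e : Fin n} (h4 : dist4 a b c e)
    (h : swOK G a b c e) : c ∈ Cset a b G ∧ e ∈ Cset a b G := by
  obtain ⟨hab, hac, hae, hbc, hbe, hce⟩ := h4
  obtain ⟨k1, k2, k3, k4⟩ := h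
  rw [mem_Cset, mem_Cset, mem_others, mem_others]
  refine ⟨⟨⟨hac.symm, hbc.symm⟩, ?_⟩, ⟨⟨hae.symm, hbe.symm⟩, ?_⟩⟩
  · rw [xc_eq_one.2 k1, xc_eq_zero.2 k4]
  · rw [xc_eq_one.2 k2, xc_eq_zero.2 k3]

theorem Uset_sw {G : Gr n} {a b c e : Fin n} (h4 : dist4 a b c e) (hok : swOK G a b c e) :
    Uset a b (sw G a b c e) = insert e ((Uset a b G).erase c) := by
  obtain ⟨k1, k2, k3, k4⟩ := hok
  have hce : c ≠ e := h4.2.2.2.2.2
  have heo : e ∈ others a b := mem_others.2 ⟨h4.2.2.1.symm, h4.2.2.2.2.1.symm⟩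
  ext v
  simp only [mem_Uset, mem_insert, mem_erase]
  constructor
  · rintro ⟨hv, h1, h2⟩
    rw [adj_sw_a h4 hv] at h1
    rw [adj_sw_b h4 hv] at h2
    simp only [not_or, not_and, not_not] at h2
    rcases h1 with h1 | h1
    · by_cases hve : v = e
      · exact Or.inl hve
      · exact Or.inr ⟨h1.2, hv, h1.1, fun h => hve (h2.1 h)⟩
    · exact Or.inl h1
  · rintro (h | ⟨h1, hv, h2, h3⟩)
    · subst h
      refine ⟨heo, (adj_sw_a h4 heo).2 (Or.inr rfl), ?_⟩
      rw [adj_sw_b h4 heo]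
      simp only [not_or, not_and, not_not]
      exact ⟨fun _ => trivial, fun h => hce h.symm⟩
    · refine ⟨hv, (adj_sw_a h4 hv).2 (Or.inl ⟨h2, h1⟩), ?_⟩
      rw [adj_sw_b h4 hv]
      simp only [not_or, not_and, not_not]
      exact ⟨fun h => absurd h h3, h1⟩

/-! ## connectivity of the Johnson graph -/

theorem johnson_closed {ι : Type*} [DecidableEq ι] (C : Finset ι) (u : ℕ)
    (S : Finset (Finset ι)) (hS : S ⊆ powersetCard u C) (hne : S.Nonempty)
    (hcl : ∀ U ∈ S, ∀ x ∈ U, ∀ y ∈ C \ U, insert y (U.erase x) ∈ S) :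
    S = powersetCard u C := by
  apply Finset.Subset.antisymm hS
  intro V hV
  rw [mem_powersetCard] at hV
  have key : ∀ k : ℕ, ∀ U ∈ S, (V \ U).card = k → V ∈ S := by
    intro k
    induction k with
    | zero =>
      intro U hU h0
      have hU' := mem_powersetCard.1 (hS hU)
      have hsub : V ⊆ U := by
        rw [Finset.card_eq_zero, Finset.sdiff_eq_empty_iff_subset] at h0; exact h0
      have : V = U := Finset.eq_of_subset_of_card_le hsub (by rw [hU'.2, hV.2])
      rw [this]; exact hU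
    | succ k ih =>
      intro U hU hk
      have hU' := mem_powersetCard.1 (hS hU)
      have h1 : (U \ V).card = (V \ U).card := by
        apply Finset.card_sdiff_comm
        rw [hU'.2, hV.2]
      obtain ⟨y, hy⟩ : (V \ U).Nonempty := by
        rw [← Finset.card_pos]; omega
      obtain ⟨x, hx⟩ : (U \ V).Nonempty := by
        rw [← Finset.card_pos]; omega
      rw [mem_sdiff] at hx hy
      apply ih (insert y (U.erase x)) (hcl U hU x hx.1 y (mem_sdiff.2 ⟨hV.1 hy.1, hy.2⟩))
      have h2 : V \ insert y (U.erase x) = (V \ U).erase y := by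
        ext z
        simp only [mem_sdiff, mem_insert, mem_erase, not_or, not_and]
        constructor
        · rintro ⟨hz, hzy, hz2⟩
          refine ⟨hzy, hz, fun hzU => ?_⟩
          have : z ≠ x := fun h => hx.2 (h ▸ hz)
          exact hz2 this hzU
        · rintro ⟨hzy, hz, hzU⟩
          exact ⟨hz, hzy, fun _ h => hzU h⟩
      rw [h2, Finset.card_erase_of_mem (mem_sdiff.2 hy), hk]
      rfl
  obtain ⟨U₀, hU₀⟩ := hne
  exact key _ U₀ hU₀ rfl


/-! ## the fibre is a Johnson scheme -/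

section johnson
variable {d : Fin n → ℕ} {a b : Fin n}

theorem agreeOff_of_mem_fib {G₀ G G' : Gr n}
    (hG : G ∈ fib (realizations d) (fun G => G \ star2 a b) G₀)
    (hG' : G' ∈ fib (realizations d) (fun G => G \ star2 a b) G₀) : agreeOff a b G G' :=
  agreeOff_of_key ((mem_fib.1 hG).2.trans (mem_fib.1 hG').2.symm)

theorem injOn_Uset (hab : a ≠ b) (G₀ : Gr n) :
    Set.InjOn (Uset a b) (fib (realizations d) (fun G => G \ star2 a b) G₀ : Set (Gr n)) := by
  intro G hG G' hG' h
  rw [Finset.mem_coe] at hG hG'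
  exact eq_of_Uset_eq hab (mem_fib.1 hG).1 (mem_fib.1 hG').1 (agreeOff_of_mem_fib hG hG') h

theorem image_Uset (hab : a ≠ b) {G₀ : Gr n} (hG₀ : G₀ ∈ realizations d) :
    (fib (realizations d) (fun G => G \ star2 a b) G₀).image (Uset a b)
      = powersetCard (Uset a b G₀).card (Cset a b G₀) := by
  have h0 : G₀ ∈ fib (realizations d) (fun G => G \ star2 a b) G₀ := mem_fib.2 ⟨hG₀, rfl⟩
  apply johnson_closed
  · intro U hU
    obtain ⟨G, hG, rfl⟩ := mem_image.1 hU
    rw [mem_powersetCard]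
    have hag := agreeOff_of_mem_fib hG h0
    constructor
    · rw [← Cset_eq hab (mem_fib.1 hG).1 hG₀ hag]
      exact Uset_subset_Cset a b G
    · exact card_Uset_eq hab (mem_fib.1 hG).1 hG₀ hag
  · exact ⟨_, mem_image_of_mem _ h0⟩
  · intro U hU x hx y hy
    obtain ⟨G, hG, rfl⟩ := mem_image.1 hU
    have hag := agreeOff_of_mem_fib hG h0
    rw [← Cset_eq hab (mem_fib.1 hG).1 hG₀ hag, mem_sdiff] at hy
    have hxC := Uset_subset_Cset a b G hx
    have hok : swOK G a b x y := (swOK_iff_mem hxC hy.1).2 ⟨hx, hy.2⟩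
    have hxo := mem_others.1 (mem_Cset.1 hxC).1
    have hyo := mem_others.1 (mem_Cset.1 hy.1).1
    have h4 : dist4 a b x y :=
      ⟨hab, hxo.1.symm, hyo.1.symm, hxo.2.symm, hyo.2.symm, fun h => hy.2 (h ▸ hx)⟩
    rw [← Uset_sw h4 hok]
    apply mem_image_of_mem
    rw [mem_fib]
    refine ⟨sw_mem h4 hok (mem_fib.1 hG).1, ?_⟩
    show sw G a b x y \ star2 a b = G₀ \ star2 a b
    rw [sw_sdiff_star2]
    exact (mem_fib.1 hG).2

theorem key_iff (hab : a ≠ b) {G G' : Gr n} (hG : G ∈ realizations d) (hG' : G' ∈ realizations d)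
    (hag : agreeOff a b G G') {c e : Fin n} (h4 : dist4 a b c e) :
    G \ mcells a b c e = G' \ mcells a b c e ↔
      Uset a b G \ {c, e} = Uset a b G' \ {c, e} := by
  obtain ⟨-, hac, hae, hbc, hbe, hce⟩ := h4
  constructor
  · intro h
    have h' := (sdiff_eq_iff _).1 h
    ext w
    simp only [mem_sdiff, mem_Uset, mem_insert, mem_singleton, not_or]
    have hkey : w ∈ others a b → w ≠ c → w ≠ e →
        (adj G a w ↔ adj G' a w) ∧ (adj G b w ↔ adj G' b w) := by
      intro hw hwc hwe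
      rw [mem_others] at hw
      constructor
      · apply h' a w hw.1.symm
        rw [mkE_mem_mcells]
        simp [hwc, hwe, hab, hac, hae, hw.1, hw.2]
      · apply h' b w hw.2.symm
        rw [mkE_mem_mcells]
        simp [hwc, hwe, hab.symm, hbc, hbe, hw.1, hw.2]
    constructor
    · rintro ⟨⟨hw, h1, h2⟩, hwc, hwe⟩
      obtain ⟨k1, k2⟩ := hkey hw hwc hwe
      exact ⟨⟨hw, k1.1 h1, fun h => h2 (k2.2 h)⟩, hwc, hwe⟩
    · rintro ⟨⟨hw, h1, h2⟩, hwc, hwe⟩
      obtain ⟨k1, k2⟩ := hkey hw hwc hwe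
      exact ⟨⟨hw, k1.2 h1, fun h => h2 (k2.1 h)⟩, hwc, hwe⟩
  · intro h
    apply (sdiff_eq_iff _).2
    intro x y hxy hS
    rw [mkE_mem_mcells] at hS
    simp only [not_or] at hS
    apply adj_iff_cases hab hag (xc_eq_iff.1 (xc_ab_eq hab hG hG' hag))
    intro w hw
    have hmem : w ≠ c → w ≠ e → (w ∈ Uset a b G ↔ w ∈ Uset a b G') := by
      intro hwc hwe
      have := Finset.ext_iff.1 h w
      simpa [hwc, hwe] using this
    constructor
    · intro hs
      have hwc : w ≠ c := by rintro rfl; exact hS.1 hs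
      have hwe : w ≠ e := by rintro rfl; exact hS.2.1 hs
      exact (adj_iff_of_mem_iff hab hG hG' hag hw (hmem hwc hwe)).1
    · intro hs
      have hwc : w ≠ c := by rintro rfl; exact hS.2.2.1 hs
      have hwe : w ≠ e := by rintro rfl; exact hS.2.2.2 hs
      exact (adj_iff_of_mem_iff hab hG hG' hag hw (hmem hwc hwe)).2

theorem gsw_eq {G : Gr n} {c e : Fin n} (hc : c ∈ Cset a b G) (he : e ∈ Cset a b G) :
    gsw a b c e G = if (c ∈ Uset a b G ↔ e ∈ Uset a b G) then 0 else 1 := by
  unfold gsw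
  simp only [swOK_iff_mem hc he, swOK_iff_mem he hc]
  by_cases h1 : c ∈ Uset a b G <;> by_cases h2 : e ∈ Uset a b G <;> simp [h1, h2]

theorem gsw_eq_zero {G : Gr n} {c e : Fin n} (h4 : dist4 a b c e)
    (h : ¬ (c ∈ Cset a b G ∧ e ∈ Cset a b G)) : gsw a b c e G = 0 := by
  unfold gsw
  rw [if_neg]
  rintro (h1 | h1)
  · exact h (mem_Cset_of_swOK h4 h1)
  · obtain ⟨hab, hac, hae, hbc, hbe, hce⟩ := h4
    exact h (mem_Cset_of_swOK ⟨hab, hae, hac, hbe, hbc, hce.symm⟩ h1).symm

end johnson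

end Crest.Agent.Switch.PF
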