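import Crest.Agent.Switch.Johnson
import Crest.Agent.Switch.PairFibreJ

/-!
# Auxiliary material for `PairFibre.lean`, part 4: `pair_gap` and `pair_cov` from `johnson_gap`,
`johnson_cov`.
-/

set_option autoImplicit false
open Finset Crest.SwitchChain

namespace Crest.Agent.Switch.PF

variable {n : ℕ}

/-- pointwise density of `∑_{c,e} Zt`. -/
noncomputable def Bd (Ω : Finset (Gr n)) (f : Gr n → ℝ) (a b : Fin n) (G : Gr n) : ℝ :=
  ∑ c, ∑ e, if dist4 a b c e then (qe Ω (fun G => G \ mcells a b c e) f G) ^ 2 else 0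

theorem sum_Zt (Ω : Finset (Gr n)) (f : Gr n → ℝ) (a b : Fin n) :
    (∑ c, ∑ e, if dist4 a b c e then Zt Ω f a b c e else 0) = ∑ G ∈ Ω, Bd Ω f a b G := by
  unfold Bd
  conv_rhs => rw [Finset.sum_comm]
  apply Finset.sum_congr rfl; intro c _
  conv_rhs => rw [Finset.sum_comm]
  apply Finset.sum_congr rfl; intro e _
  split_ifs with h
  · unfold Zt ip; apply Finset.sum_congr rfl; intros; ring
  · simp

/-- pointwise density of `∑_{c,e} Yt`. -/
noncomputable def Yd (Ω : Finset (Gr n)) (f : Gr n → ℝ) (a b c e : Fin n) (G : Gr n) : ℝ :=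
  (ce Ω (fun G => G \ star2 a b) (fun y => f y * gsw a b c e y) G
      - ce Ω (fun G => G \ star2 a b) f G * ce Ω (fun G => G \ star2 a b) (gsw a b c e) G) ^ 2
    / ce Ω (fun G => G \ star2 a b) (gsw a b c e) G

theorem sum_Yt (Ω : Finset (Gr n)) (f : Gr n → ℝ) (a b : Fin n) :
    (∑ c, ∑ e, if dist4 a b c e then Yt Ω f a b c e else 0)
      = ∑ G ∈ Ω, ∑ c, ∑ e, if dist4 a b c e then Yd Ω f a b c e G else 0 := by
  conv_rhs => rw [Finset.sum_comm]
  apply Finset.sum_congr rfl; intro c _
  conv_rhs => rw [Finset.sum_comm]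
  apply Finset.sum_congr rfl; intro e _
  split_ifs with h
  · rfl
  · simp

section fibre
variable {d : Fin n → ℕ} {a b : Fin n}

/-- `f` transported to the Johnson scheme. -/
noncomputable def ft (d : Fin n → ℕ) (a b : Fin n) (G₀ : Gr n) (f : Gr n → ℝ) :
    Finset (Fin n) → ℝ :=
  fun U => f (Function.invFunOn (Uset a b)
    (fib (realizations d) (fun G => G \ star2 a b) G₀ : Set (Gr n)) U)

theorem ft_spec (hab : a ≠ b) (G₀ : Gr n) (f : Gr n → ℝ) :
    ∀ G ∈ fib (realizations d) (fun G => G \ star2 a b) G₀,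
      f G = ft d a b G₀ f (Uset a b G) := by
  intro G hG
  unfold ft
  rw [(injOn_Uset hab G₀).leftInvOn_invFunOn (Finset.mem_coe.2 hG)]

theorem href_mcells (a b c e : Fin n) (Ω : Finset (Gr n)) :
    ∀ x ∈ Ω, ∀ y ∈ Ω, x \ mcells a b c e = y \ mcells a b c e → x \ star2 a b = y \ star2 a b :=
  fun _ _ _ _ h => sdiff_eq_of_subset (mcells_subset_star2 a b c e) h

theorem fibre_Z (hab : a ≠ b) {G₀ : Gr n} (hG₀ : G₀ ∈ realizations d) (f : Gr n → ℝ)
    {c e : Fin n} (h4 : dist4 a b c e) :
    ∑ G ∈ fib (realizations d) (fun G => G \ star2 a b) G₀,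
        (qe (realizations d) (fun G => G \ mcells a b c e) f G) ^ 2
      = ip (powersetCard (Uset a b G₀).card (Cset a b G₀))
          (qe (powersetCard (Uset a b G₀).card (Cset a b G₀)) (fun U => U \ {c, e})
            (ft d a b G₀ f))
          (qe (powersetCard (Uset a b G₀).card (Cset a b G₀)) (fun U => U \ {c, e})
            (ft d a b G₀ f)) := by
  rw [ip_qe_transfer (key := fun G : Gr n => G \ star2 a b)
    (κ := fun G : Gr n => G \ mcells a b c e) (κ' := fun U : Finset (Fin n) => U \ {c, e})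
    (href_mcells a b c e _) (injOn_Uset hab G₀)
    (fun x hx y hy => key_iff hab (mem_fib.1 hx).1 (mem_fib.1 hy).1 (agreeOff_of_mem_fib hx hy) h4)
    (ft_spec hab G₀ f), image_Uset hab hG₀]

theorem fibre_Q (hab : a ≠ b) {G₀ : Gr n} (hG₀ : G₀ ∈ realizations d) (f : Gr n → ℝ) :
    ∑ G ∈ fib (realizations d) (fun G => G \ star2 a b) G₀,
        (qe (realizations d) (fun G => G \ star2 a b) f G) ^ 2
      = ip (powersetCard (Uset a b G₀).card (Cset a b G₀))
          (qe (powersetCard (Uset a b G₀).card (Cset a b G₀)) (fun _ => ()) (ft d a b G₀ f))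
          (qe (powersetCard (Uset a b G₀).card (Cset a b G₀)) (fun _ => ())
            (ft d a b G₀ f)) := by
  rw [ip_qe_transfer (key := fun G : Gr n => G \ star2 a b)
    (κ := fun G : Gr n => G \ star2 a b) (κ' := fun _ : Finset (Fin n) => ())
    (fun _ _ _ _ h => h) (injOn_Uset hab G₀)
    (fun x hx y hy => ⟨fun _ => rfl, fun _ => (mem_fib.1 hx).2.trans (mem_fib.1 hy).2.symm⟩)
    (ft_spec hab G₀ f), image_Uset hab hG₀]

theorem fibre_Y (hab : a ≠ b) {G₀ : Gr n} (hG₀ : G₀ ∈ realizations d) (f : Gr n → ℝ)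
    {c e : Fin n} (hc : c ∈ Cset a b G₀) (he : e ∈ Cset a b G₀) :
    ∑ G ∈ fib (realizations d) (fun G => G \ star2 a b) G₀, Yd (realizations d) f a b c e G
      = yterm (powersetCard (Uset a b G₀).card (Cset a b G₀)) (fun _ => ())
          (fun U => if (c ∈ U ↔ e ∈ U) then 0 else 1) (ft d a b G₀ f) := by
  have h0 : G₀ ∈ fib (realizations d) (fun G => G \ star2 a b) G₀ := mem_fib.2 ⟨hG₀, rfl⟩
  unfold Yd
  rw [yterm_transfer (key := fun G : Gr n => G \ star2 a b)
    (κ := fun G : Gr n => G \ star2 a b) (κ' := fun _ : Finset (Fin n) => ())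
    (k := fun U => if (c ∈ U ↔ e ∈ U) then 0 else 1)
    (fun _ _ _ _ h => h) (injOn_Uset hab G₀)
    (fun x hx y hy => ⟨fun _ => rfl, fun _ => (mem_fib.1 hx).2.trans (mem_fib.1 hy).2.symm⟩)
    (ft_spec hab G₀ f) ?_, image_Uset hab hG₀]
  intro G hG
  have hC := Cset_eq hab (mem_fib.1 hG).1 hG₀ (agreeOff_of_mem_fib hG h0)
  exact gsw_eq (hC ▸ hc) (hC ▸ he)

theorem fibre_Y_zero (hab : a ≠ b) {G₀ : Gr n} (hG₀ : G₀ ∈ realizations d) (f : Gr n → ℝ)
    {c e : Fin n} (h4 : dist4 a b c e) (h : ¬ (c ∈ Cset a b G₀ ∧ e ∈ Cset a b G₀)) :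
    ∑ G ∈ fib (realizations d) (fun G => G \ star2 a b) G₀, Yd (realizations d) f a b c e G
      = 0 := by
  have h0 : G₀ ∈ fib (realizations d) (fun G => G \ star2 a b) G₀ := mem_fib.2 ⟨hG₀, rfl⟩
  apply Finset.sum_eq_zero
  intro G hG
  have hz : ce (realizations d) (fun G => G \ star2 a b) (gsw a b c e) G = 0 := by
    unfold ce
    rw [Finset.sum_eq_zero, zero_div]
    intro G' hG'
    have hG'' : G' ∈ fib (realizations d) (fun G => G \ star2 a b) G₀ :=
      mem_fib.2 ⟨(mem_fib.1 hG').1, (mem_fib.1 hG').2.trans (mem_fib.1 hG).2⟩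
    have hC := Cset_eq hab (mem_fib.1 hG'').1 hG₀ (agreeOff_of_mem_fib hG'' h0)
    apply gsw_eq_zero h4
    rw [hC]; exact h
  unfold Yd
  rw [hz, div_zero]

theorem dist4_of_mem {G₀ : Gr n} (hab : a ≠ b) {c e : Fin n} (hc : c ∈ Cset a b G₀)
    (he : e ∈ (Cset a b G₀).erase c) : dist4 a b c e := by
  rw [mem_erase] at he
  have hco := mem_others.1 (mem_Cset.1 hc).1
  have heo := mem_others.1 (mem_Cset.1 he.2).1
  exact ⟨hab, hco.1.symm, heo.1.symm, hco.2.symm, heo.2.symm, he.1.symm⟩

/-- the Johnson edge sum is dominated by the fibre sum of `Bd`. -/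
theorem fibre_Bd_ge (hab : a ≠ b) {G₀ : Gr n} (hG₀ : G₀ ∈ realizations d) (f : Gr n → ℝ) :
    ∑ c ∈ Cset a b G₀, ∑ e ∈ (Cset a b G₀).erase c,
        ip (powersetCard (Uset a b G₀).card (Cset a b G₀))
          (qe (powersetCard (Uset a b G₀).card (Cset a b G₀)) (fun U => U \ {c, e})
            (ft d a b G₀ f))
          (qe (powersetCard (Uset a b G₀).card (Cset a b G₀)) (fun U => U \ {c, e})
            (ft d a b G₀ f))
      ≤ ∑ G ∈ fib (realizations d) (fun G => G \ star2 a b) G₀, Bd (realizations d) f a b G := by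
  unfold Bd
  rw [Finset.sum_comm]
  calc _ ≤ ∑ c ∈ Cset a b G₀, ∑ G ∈ fib (realizations d) (fun G => G \ star2 a b) G₀,
        ∑ e, if dist4 a b c e
          then (qe (realizations d) (fun G => G \ mcells a b c e) f G) ^ 2 else 0 := ?_
    _ ≤ _ := ?_
  · apply Finset.sum_le_sum
    intro c hc
    rw [Finset.sum_comm]
    calc _ ≤ ∑ e ∈ (Cset a b G₀).erase c,
          ∑ G ∈ fib (realizations d) (fun G => G \ star2 a b) G₀, if dist4 a b c e
            then (qe (realizations d) (fun G => G \ mcells a b c e) f G) ^ 2 else 0 := ?_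
      _ ≤ _ := ?_
    · apply le_of_eq
      apply Finset.sum_congr rfl
      intro e he
      have h4 := dist4_of_mem hab hc he
      simp only [if_pos h4]
      rw [fibre_Z hab hG₀ f h4]
    · apply Finset.sum_le_sum_of_subset_of_nonneg (Finset.subset_univ _)
      intro e _ _
      apply Finset.sum_nonneg
      intro G _
      split_ifs
      · positivity
      · exact le_rfl
  · apply Finset.sum_le_sum_of_subset_of_nonneg (Finset.subset_univ _)
    intro c _ _
    apply Finset.sum_nonneg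
    intro G _
    apply Finset.sum_nonneg
    intro e _
    split_ifs
    · positivity
    · exact le_rfl

theorem ip_self_nonneg {α : Type*} (Ω : Finset α) (g : α → ℝ) : 0 ≤ ip Ω g g := by
  unfold ip
  apply Finset.sum_nonneg
  intro x _
  exact mul_self_nonneg _

theorem pair_gap' (d : Fin n → ℕ) (f : Gr n → ℝ) (a b : Fin n) (hab : a ≠ b) :
    2 * ip (realizations d) (Qp (realizations d) a b f) (Qp (realizations d) a b f)
      ≤ ∑ c, ∑ e, if dist4 a b c e then Zt (realizations d) f a b c e else 0 := by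
  rw [sum_Zt]
  unfold ip
  rw [Finset.mul_sum]
  apply sum_le_sum_fiberwise (fun G : Gr n => G \ star2 a b)
  intro G₀ hG₀
  refine le_trans ?_ (fibre_Bd_ge hab hG₀ f)
  refine le_trans ?_ (johnson_gap _ _ _)
  have h1 : ∑ x ∈ fib (realizations d) (fun G => G \ star2 a b) G₀,
      2 * (Qp (realizations d) a b f x * Qp (realizations d) a b f x)
      = 2 * ∑ G ∈ fib (realizations d) (fun G => G \ star2 a b) G₀,
        (qe (realizations d) (fun G => G \ star2 a b) f G) ^ 2 := by
    rw [Finset.mul_sum]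
    apply Finset.sum_congr rfl
    intro x _
    unfold Qp
    ring
  rw [h1, fibre_Q hab hG₀ f]
  by_cases hC : 2 ≤ (Cset a b G₀).card
  · apply mul_le_mul_of_nonneg_right _ (ip_self_nonneg _ _)
    exact_mod_cast hC
  · have hcard : (powersetCard (Uset a b G₀).card (Cset a b G₀)).card ≤ 1 := by
      rw [Finset.card_powersetCard]
      have : (Cset a b G₀).card = 0 ∨ (Cset a b G₀).card = 1 := by omega
      rcases this with h | h <;> rw [h]
      · cases (Uset a b G₀).card <;> simp
      · rcases (Uset a b G₀).card with _ | _ | k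
        · simp
        · simp
        · rw [Nat.choose_eq_zero_of_lt (by omega)]; omega
    have hz : ip (powersetCard (Uset a b G₀).card (Cset a b G₀))
          (qe (powersetCard (Uset a b G₀).card (Cset a b G₀)) (fun _ => ()) (ft d a b G₀ f))
          (qe (powersetCard (Uset a b G₀).card (Cset a b G₀)) (fun _ => ())
            (ft d a b G₀ f)) = 0 := by
      unfold ip
      apply Finset.sum_eq_zero
      intro x hx
      rw [qe_eq_zero_of_card_le_one hcard _ _ hx, mul_zero]
    rw [hz]; simp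

theorem pair_cov' (d : Fin n → ℕ) (f : Gr n → ℝ) (a b : Fin n) (hab : a ≠ b) :
    (∑ c, ∑ e, if dist4 a b c e then Yt (realizations d) f a b c e else 0)
      ≤ ∑ c, ∑ e, if dist4 a b c e then Zt (realizations d) f a b c e else 0 := by
  rw [sum_Zt, sum_Yt]
  apply sum_le_sum_fiberwise (fun G : Gr n => G \ star2 a b)
  intro G₀ hG₀
  refine le_trans ?_ (fibre_Bd_ge hab hG₀ f)
  refine le_trans (le_of_eq ?_) (johnson_cov _ _ _)
  rw [Finset.sum_comm]
  rw [← Finset.sum_subset (Finset.subset_univ (Cset a b G₀))]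
  · apply Finset.sum_congr rfl
    intro c hc
    rw [Finset.sum_comm]
    rw [← Finset.sum_subset (Finset.subset_univ ((Cset a b G₀).erase c))]
    · apply Finset.sum_congr rfl
      intro e he
      have h4 := dist4_of_mem hab hc he
      simp only [if_pos h4]
      exact fibre_Y hab hG₀ f hc (mem_erase.1 he).2
    · intro e _ he
      by_cases h4 : dist4 a b c e
      · simp only [if_pos h4]
        apply fibre_Y_zero hab hG₀ f h4
        rintro ⟨_, h2⟩
        exact he (mem_erase.2 ⟨h4.2.2.2.2.2.symm, h2⟩)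
      · simp [if_neg h4]
  · intro c _ hc
    rw [Finset.sum_comm]
    apply Finset.sum_eq_zero
    intro e _
    by_cases h4 : dist4 a b c e
    · simp only [if_pos h4]
      apply fibre_Y_zero hab hG₀ f h4
      rintro ⟨h1, _⟩
      exact hc h1
    · simp [if_neg h4]

end fibre

end Crest.Agent.Switch.PF
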