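import Crest.Agent.Switch.PairFibreJ

/-!
# Auxiliary material for `PairFibre.lean`, part 5: `Zt = Zx` (fibres of `G ↦ G \ mcells a b c e`).
-/

set_option autoImplicit false
open Finset Crest.SwitchChain

namespace Crest.Agent.Switch.PF

variable {n : ℕ}

theorem mcells_swap (a b c e : Fin n) : mcells a b e c = mcells a b c e := by
  ext x
  simp only [mcells, mem_union]
  tauto

theorem dist4_swap {a b c e : Fin n} (h : dist4 a b c e) : dist4 a b e c := by
  obtain ⟨hab, hac, hae, hbc, hbe, hce⟩ := h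
  exact ⟨hab, hae, hac, hbe, hbc, hce.symm⟩

/-- a graph is determined by its cells off `mcells` and the four cells. -/
theorem eq_of_mcells {a b c e : Fin n} {G₁ G₂ : Gr n}
    (h : G₁ \ mcells a b c e = G₂ \ mcells a b c e)
    (h1 : adj G₁ a c ↔ adj G₂ a c) (h2 : adj G₁ a e ↔ adj G₂ a e)
    (h3 : adj G₁ b c ↔ adj G₂ b c) (h4 : adj G₁ b e ↔ adj G₂ b e) : G₁ = G₂ := by
  apply graph_ext
  intro x y
  by_cases hxy : x = y
  · subst hxy; simp [not_adj_self]
  · by_cases hS : mkE x y hxy ∈ mcells a b c e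
    · rw [mkE_mem_mcells] at hS
      rcases hS with hS | hS | hS | hS <;> rw [adj_congr hS, adj_congr hS] <;> assumption
    · exact (sdiff_eq_iff _).1 h x y hxy hS

section cells
variable {a b c e : Fin n} {G : Gr n}

theorem c_mem_others (h4 : dist4 a b c e) : c ∈ others a b :=
  mem_others.2 ⟨h4.2.1.symm, h4.2.2.2.1.symm⟩

theorem e_mem_others (h4 : dist4 a b c e) : e ∈ others a b :=
  mem_others.2 ⟨h4.2.2.1.symm, h4.2.2.2.2.1.symm⟩

theorem sw_ac (h4 : dist4 a b c e) : ¬ adj (sw G a b c e) a c := by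
  rw [adj_sw_a h4 (c_mem_others h4)]
  simp [h4.2.2.2.2.2]

theorem sw_ae (h4 : dist4 a b c e) : adj (sw G a b c e) a e := by
  rw [adj_sw_a h4 (e_mem_others h4)]
  simp

theorem sw_bc (h4 : dist4 a b c e) : adj (sw G a b c e) b c := by
  rw [adj_sw_b h4 (c_mem_others h4)]
  simp

theorem sw_be (h4 : dist4 a b c e) : ¬ adj (sw G a b c e) b e := by
  rw [adj_sw_b h4 (e_mem_others h4)]
  simp [h4.2.2.2.2.2.symm]

theorem swOK_sw (h4 : dist4 a b c e) : swOK (sw G a b c e) a b e c :=
  ⟨sw_ae h4, sw_bc h4, sw_ac h4, sw_be h4⟩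

theorem sw_sw (h4 : dist4 a b c e) (hok : swOK G a b c e) :
    sw (sw G a b c e) a b e c = G := by
  obtain ⟨k1, k2, k3, k4⟩ := hok
  have h4' := dist4_swap h4
  apply eq_of_mcells (a := a) (b := b) (c := c) (e := e)
  · rw [← mcells_swap, sw_sdiff_mcells, mcells_swap, sw_sdiff_mcells]
  · exact ⟨fun _ => k1, fun _ => sw_ae h4'⟩
  · exact ⟨fun h => absurd h (sw_ac h4'), fun h => absurd h k3⟩
  · exact ⟨fun h => absurd h (sw_be h4'), fun h => absurd h k4⟩
  · exact ⟨fun _ => k2, fun _ => sw_bc h4'⟩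

theorem sw_ne (h4 : dist4 a b c e) (hok : swOK G a b c e) : G ≠ sw G a b c e := by
  intro h
  apply sw_ac (G := G) h4
  rw [← h]
  exact hok.1

end cells

section fibres
variable {d : Fin n → ℕ} {a b c e : Fin n} {G G' : Gr n}

/-- cells at `a` other than `ac`, `ae` are not in `mcells`. -/
theorem xc_eq_of_key_row (h4 : dist4 a b c e)
    (h : G \ mcells a b c e = G' \ mcells a b c e) {w : Fin n} (hw : w ∈ others c e) :
    xc G a w = xc G' a w ∧ xc G b w = xc G' b w := by
  obtain ⟨hab, hac, hae, hbc, hbe, hce⟩ := h4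
  rw [mem_others] at hw
  constructor
  · by_cases haw : a = w
    · subst haw; rw [xc_self, xc_self]
    · apply xc_eq_iff.2
      apply (sdiff_eq_iff _).1 h a w haw
      rw [mkE_mem_mcells]
      simp [hw.1, hw.2, hab, hac, hae]
  · by_cases hbw : b = w
    · subst hbw; rw [xc_self, xc_self]
    · apply xc_eq_iff.2
      apply (sdiff_eq_iff _).1 h b w hbw
      rw [mkE_mem_mcells]
      simp [hw.1, hw.2, hab.symm, hbc, hbe]

theorem xc_eq_of_key_col (h4 : dist4 a b c e)
    (h : G \ mcells a b c e = G' \ mcells a b c e) {w : Fin n} (hw : w ∈ others a b) :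
    xc G c w = xc G' c w ∧ xc G e w = xc G' e w := by
  obtain ⟨hab, hac, hae, hbc, hbe, hce⟩ := h4
  rw [mem_others] at hw
  constructor
  · by_cases hcw : c = w
    · subst hcw; rw [xc_self, xc_self]
    · apply xc_eq_iff.2
      apply (sdiff_eq_iff _).1 h c w hcw
      rw [mkE_mem_mcells]
      simp [hw.1, hw.2, hac.symm, hbc.symm, hce]
  · by_cases hew : e = w
    · subst hew; rw [xc_self, xc_self]
    · apply xc_eq_iff.2
      apply (sdiff_eq_iff _).1 h e w hew
      rw [mkE_mem_mcells]
      simp [hw.1, hw.2, hae.symm, hbe.symm, hce.symm]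

theorem margins (h4 : dist4 a b c e) (hG : G ∈ realizations d) (hG' : G' ∈ realizations d)
    (h : G \ mcells a b c e = G' \ mcells a b c e) :
    xc G a c + xc G a e = xc G' a c + xc G' a e ∧ xc G b c + xc G b e = xc G' b c + xc G' b e ∧
      xc G a c + xc G b c = xc G' a c + xc G' b c ∧
      xc G a e + xc G b e = xc G' a e + xc G' b e := by
  have hce : c ≠ e := h4.2.2.2.2.2
  have hab : a ≠ b := h4.1
  have ra := mem_realizations.1 hG a
  have ra' := mem_realizations.1 hG' a
  have rb := mem_realizations.1 hG b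
  have rb' := mem_realizations.1 hG' b
  have rc := mem_realizations.1 hG c
  have rc' := mem_realizations.1 hG' c
  have re := mem_realizations.1 hG e
  have re' := mem_realizations.1 hG' e
  rw [sum_split hce] at ra ra' rb rb'
  rw [sum_split hab] at rc rc' re re'
  have sa : ∑ w ∈ others c e, xc G a w = ∑ w ∈ others c e, xc G' a w :=
    Finset.sum_congr rfl fun w hw => (xc_eq_of_key_row h4 h hw).1
  have sb : ∑ w ∈ others c e, xc G b w = ∑ w ∈ others c e, xc G' b w :=
    Finset.sum_congr rfl fun w hw => (xc_eq_of_key_row h4 h hw).2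
  have sc : ∑ w ∈ others a b, xc G c w = ∑ w ∈ others a b, xc G' c w :=
    Finset.sum_congr rfl fun w hw => (xc_eq_of_key_col h4 h hw).1
  have se : ∑ w ∈ others a b, xc G e w = ∑ w ∈ others a b, xc G' e w :=
    Finset.sum_congr rfl fun w hw => (xc_eq_of_key_col h4 h hw).2
  rw [xc_comm G c a, xc_comm G c b] at rc
  rw [xc_comm G' c a, xc_comm G' c b] at rc'
  rw [xc_comm G e a, xc_comm G e b] at re
  rw [xc_comm G' e a, xc_comm G' e b] at re'
  refine ⟨?_, ?_, ?_, ?_⟩ <;> omega

theorem fibre_cases (h4 : dist4 a b c e) (hG : G ∈ realizations d) (hG' : G' ∈ realizations d)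
    (h : G' \ mcells a b c e = G \ mcells a b c e) :
    G' = G ∨ (swOK G a b c e ∧ G' = sw G a b c e) ∨ (swOK G a b e c ∧ G' = sw G a b e c) := by
  obtain ⟨m1, m2, m3, m4⟩ := margins h4 hG hG' h.symm
  have b1 := xc_le_one G a c
  have b2 := xc_le_one G a e
  have b3 := xc_le_one G b c
  have b4 := xc_le_one G b e
  have b1' := xc_le_one G' a c
  have b2' := xc_le_one G' a e
  have b3' := xc_le_one G' b c
  have b4' := xc_le_one G' b e
  rcases Nat.lt_trichotomy (xc G a c) (xc G' a c) with hlt | heq | hgt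
  · -- `ac` absent in `G`
    right; right
    have k1 : ¬ adj G a c := xc_eq_zero.1 (by omega)
    have k2 : adj G a e := xc_eq_one.1 (by omega)
    have k3 : adj G b c := xc_eq_one.1 (by omega)
    have k4 : ¬ adj G b e := xc_eq_zero.1 (by omega)
    have k1' : adj G' a c := xc_eq_one.1 (by omega)
    have k2' : ¬ adj G' a e := xc_eq_zero.1 (by omega)
    have k3' : ¬ adj G' b c := xc_eq_zero.1 (by omega)
    have k4' : adj G' b e := xc_eq_one.1 (by omega)
    refine ⟨⟨k2, k3, k1, k4⟩, ?_⟩
    have h4' := dist4_swap h4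
    apply eq_of_mcells (a := a) (b := b) (c := c) (e := e)
    · rw [h, ← mcells_swap, sw_sdiff_mcells]
    · exact ⟨fun _ => sw_ae h4', fun _ => k1'⟩
    · exact ⟨fun h => absurd h k2', fun h => absurd h (sw_ac h4')⟩
    · exact ⟨fun h => absurd h k3', fun h => absurd h (sw_be h4')⟩
    · exact ⟨fun _ => sw_bc h4', fun _ => k4'⟩
  · left
    apply eq_of_mcells h
    · exact xc_eq_iff.1 heq.symm
    · exact xc_eq_iff.1 (by omega)
    · exact xc_eq_iff.1 (by omega)
    · exact xc_eq_iff.1 (by omega)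
  · right; left
    have k1 : adj G a c := xc_eq_one.1 (by omega)
    have k2 : ¬ adj G a e := xc_eq_zero.1 (by omega)
    have k3 : ¬ adj G b c := xc_eq_zero.1 (by omega)
    have k4 : adj G b e := xc_eq_one.1 (by omega)
    have k1' : ¬ adj G' a c := xc_eq_zero.1 (by omega)
    have k2' : adj G' a e := xc_eq_one.1 (by omega)
    have k3' : adj G' b c := xc_eq_one.1 (by omega)
    have k4' : ¬ adj G' b e := xc_eq_zero.1 (by omega)
    refine ⟨⟨k1, k4, k2, k3⟩, ?_⟩
    apply eq_of_mcells (a := a) (b := b) (c := c) (e := e)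
    · rw [h, sw_sdiff_mcells]
    · exact ⟨fun h => absurd h k1', fun h => absurd h (sw_ac h4)⟩
    · exact ⟨fun _ => sw_ae h4, fun _ => k2'⟩
    · exact ⟨fun _ => sw_bc h4, fun _ => k3'⟩
    · exact ⟨fun h => absurd h k4', fun h => absurd h (sw_be h4)⟩

theorem not_both (h1 : swOK G a b c e) (h2 : swOK G a b e c) : False := h2.2.2.1 h1.1

theorem fib_of_swOK (h4 : dist4 a b c e) (hG : G ∈ realizations d) (hok : swOK G a b c e) :
    fib (realizations d) (fun G => G \ mcells a b c e) G = {G, sw G a b c e} := by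
  ext G'
  simp only [mem_fib, mem_insert, mem_singleton]
  constructor
  · rintro ⟨hG', h⟩
    rcases fibre_cases h4 hG hG' h with h | ⟨_, h⟩ | ⟨h, _⟩
    · exact Or.inl h
    · exact Or.inr h
    · exact absurd h (fun h => not_both hok h)
  · rintro (rfl | rfl)
    · exact ⟨hG, rfl⟩
    · exact ⟨sw_mem h4 hok hG, sw_sdiff_mcells G a b c e⟩

theorem fib_of_swOK' (h4 : dist4 a b c e) (hG : G ∈ realizations d) (hok : swOK G a b e c) :
    fib (realizations d) (fun G => G \ mcells a b c e) G = {G, sw G a b e c} := by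
  have := fib_of_swOK (dist4_swap h4) hG hok
  simp only [mcells_swap] at this
  exact this

theorem fib_of_not (h4 : dist4 a b c e) (hG : G ∈ realizations d) (h1 : ¬ swOK G a b c e)
    (h2 : ¬ swOK G a b e c) :
    fib (realizations d) (fun G => G \ mcells a b c e) G = {G} := by
  ext G'
  simp only [mem_fib, mem_singleton]
  constructor
  · rintro ⟨hG', h⟩
    rcases fibre_cases h4 hG hG' h with h | ⟨h, _⟩ | ⟨h, _⟩
    · exact h
    · exact absurd h h1
    · exact absurd h h2
  · rintro rfl
    exact ⟨hG, rfl⟩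

theorem qe_sq (h4 : dist4 a b c e) (hG : G ∈ realizations d) (f : Gr n → ℝ) :
    (qe (realizations d) (fun G => G \ mcells a b c e) f G) ^ 2
      = (if swOK G a b c e then (f G - f (sw G a b c e)) ^ 2 / 4 else 0)
        + (if swOK G a b e c then (f G - f (sw G a b e c)) ^ 2 / 4 else 0) := by
  unfold qe ce
  by_cases h1 : swOK G a b c e
  · have h2 : ¬ swOK G a b e c := fun h => not_both h1 h
    rw [fib_of_swOK h4 hG h1, if_pos h1, if_neg h2, Finset.sum_pair (sw_ne h4 h1),
      Finset.card_pair (sw_ne h4 h1)]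
    push_cast
    ring
  · by_cases h2 : swOK G a b e c
    · rw [fib_of_swOK' h4 hG h2, if_neg h1, if_pos h2,
        Finset.sum_pair (sw_ne (dist4_swap h4) h2), Finset.card_pair (sw_ne (dist4_swap h4) h2)]
      push_cast
      ring
    · rw [fib_of_not h4 hG h1 h2, if_neg h1, if_neg h2]
      simp

theorem sum_swap (h4 : dist4 a b c e) (f : Gr n → ℝ) :
    ∑ G ∈ (realizations d).filter (fun G => swOK G a b e c), (f G - f (sw G a b e c)) ^ 2
      = ∑ G ∈ (realizations d).filter (fun G => swOK G a b c e),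
          (f G - f (sw G a b c e)) ^ 2 := by
  have h4' := dist4_swap h4
  apply Finset.sum_nbij' (fun G => sw G a b e c) (fun G => sw G a b c e)
  · intro G hG
    rw [mem_filter] at hG ⊢
    exact ⟨sw_mem h4' hG.2 hG.1, swOK_sw h4'⟩
  · intro G hG
    rw [mem_filter] at hG ⊢
    exact ⟨sw_mem h4 hG.2 hG.1, swOK_sw h4⟩
  · intro G hG
    rw [mem_filter] at hG
    exact sw_sw h4' hG.2
  · intro G hG
    rw [mem_filter] at hG
    exact sw_sw h4 hG.2
  · intro G hG
    rw [mem_filter] at hG
    rw [sw_sw h4' hG.2]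
    ring

theorem Zt_eq_Zx' (d : Fin n → ℕ) (f : Gr n → ℝ) (a b c e : Fin n) (h : dist4 a b c e) :
    Zt (realizations d) f a b c e = Zx (realizations d) f a b c e := by
  unfold Zt Zx ip
  have h1 : ∑ x ∈ realizations d, qe (realizations d) (fun G => G \ mcells a b c e) f x
        * qe (realizations d) (fun G => G \ mcells a b c e) f x
      = ∑ G ∈ realizations d, ((if swOK G a b c e then (f G - f (sw G a b c e)) ^ 2 / 4 else 0)
        + (if swOK G a b e c then (f G - f (sw G a b e c)) ^ 2 / 4 else 0)) := by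
    apply Finset.sum_congr rfl
    intro G hG
    rw [← qe_sq h hG f]
    ring
  rw [h1, Finset.sum_add_distrib, ← Finset.sum_filter, ← Finset.sum_filter,
    ← Finset.sum_div, ← Finset.sum_div, sum_swap h f]
  ring

end fibres

end Crest.Agent.Switch.PF
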