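import Crest.Agent.Switch.Graph
import Crest.Agent.Switch.Johnson
import Crest.Agent.Switch.PairFibreK
import Crest.Agent.Switch.PairFibreZ

/-! # Modules M7b, M7c: the fibres of `G ↦ G - a - b` are Johnson schemes -/

set_option autoImplicit false
open Finset Crest.SwitchChain

namespace Crest.Agent.Switch

variable {n : ℕ}

/-- M7c -/
theorem Zt_eq_Zx (d : Fin n → ℕ) (f : Gr n → ℝ) (a b c e : Fin n) (h : dist4 a b c e) :
    Zt (realizations d) f a b c e = Zx (realizations d) f a b c e :=
  PF.Zt_eq_Zx' d f a b c e h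

/-- M7b (from J1) -/
theorem pair_gap (d : Fin n → ℕ) (f : Gr n → ℝ) (a b : Fin n) (hab : a ≠ b) :
    2 * ip (realizations d) (Qp (realizations d) a b f) (Qp (realizations d) a b f)
      ≤ ∑ c, ∑ e, if dist4 a b c e then Zt (realizations d) f a b c e else 0 :=
  PF.pair_gap' d f a b hab

/-- M7b (from J2) -/
theorem pair_cov (d : Fin n → ℕ) (f : Gr n → ℝ) (a b : Fin n) (hab : a ≠ b) :
    (∑ c, ∑ e, if dist4 a b c e then Yt (realizations d) f a b c e else 0)
      ≤ ∑ c, ∑ e, if dist4 a b c e then Zt (realizations d) f a b c e else 0 :=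
  PF.pair_cov' d f a b hab

end Crest.Agent.Switch
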