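import Crest.Agent.Switch.Graph

/-!
# Auxiliary material for M13: sums over ordered tuples, elementary `ip/ce/qe` facts
-/

set_option autoImplicit false
open Finset

namespace Crest.Agent.Switch.Poi
open Crest.Agent.Switch

section sums

variable {V : Type*} [Fintype V] [DecidableEq V]

lemma sum_split2 {a b : V} (hab : a ≠ b) (k : V → ℝ) :
    ∑ e, k e = k a + k b + ∑ e, if e ≠ a ∧ e ≠ b then k e else 0 := by
  have : ∀ e, k e = (if e = a then k e else 0) + (if e = b then k e else 0)
      + (if e ≠ a ∧ e ≠ b then k e else 0) := by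
    intro e
    by_cases h1 : e = a
    · subst h1; simp [hab]
    · by_cases h2 : e = b
      · subst h2; simp [h1]
      · simp [h1, h2]
  calc ∑ e, k e = ∑ e, ((if e = a then k e else 0) + (if e = b then k e else 0)
      + (if e ≠ a ∧ e ≠ b then k e else 0)) := Finset.sum_congr rfl fun e _ => this e
    _ = _ := by
      rw [Finset.sum_add_distrib, Finset.sum_add_distrib, Finset.sum_ite_eq', Finset.sum_ite_eq']
      simp

lemma sum_pairs_split {a b : V} (hab : a ≠ b) (h : V → V → ℝ) :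
    ∑ c, ∑ e, (if c ≠ e then h c e else 0)
      = h a b + h b a + (∑ e, if e ≠ a ∧ e ≠ b then h a e else 0)
        + (∑ e, if e ≠ a ∧ e ≠ b then h b e else 0)
        + (∑ c, if c ≠ a ∧ c ≠ b then h c a else 0)
        + (∑ c, if c ≠ a ∧ c ≠ b then h c b else 0)
        + ∑ c, ∑ e, (if (c ≠ a ∧ c ≠ b) ∧ (e ≠ a ∧ e ≠ b) ∧ c ≠ e then h c e else 0) := by
  rw [sum_split2 hab (fun c => ∑ e, (if c ≠ e then h c e else 0))]
  have e1 : ∑ e, (if a ≠ e then h a e else 0) = h a b + ∑ e, if e ≠ a ∧ e ≠ b then h a e else 0 := by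
    rw [sum_split2 hab]
    simp only [ne_eq, not_true_eq_false, if_false, hab, not_false_eq_true, if_true, zero_add]
    congr 1
    refine Finset.sum_congr rfl fun e _ => ?_
    by_cases h1 : e = a
    · simp [h1]
    · have : ¬ a = e := fun h => h1 h.symm
      simp [h1, this]
  have e2 : ∑ e, (if b ≠ e then h b e else 0) = h b a + ∑ e, if e ≠ a ∧ e ≠ b then h b e else 0 := by
    rw [sum_split2 hab]
    simp only [ne_eq, not_true_eq_false, if_false, hab.symm, not_false_eq_true, if_true, add_zero]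
    congr 1
    refine Finset.sum_congr rfl fun e _ => ?_
    by_cases h1 : e = b
    · simp [h1]
    · have : ¬ b = e := fun h => h1 h.symm
      simp [h1, this]
  have e3 : ∑ c, (if c ≠ a ∧ c ≠ b then ∑ e, (if c ≠ e then h c e else 0) else 0)
      = (∑ c, if c ≠ a ∧ c ≠ b then h c a else 0) + (∑ c, if c ≠ a ∧ c ≠ b then h c b else 0)
        + ∑ c, ∑ e, (if (c ≠ a ∧ c ≠ b) ∧ (e ≠ a ∧ e ≠ b) ∧ c ≠ e then h c e else 0) := by
    rw [← Finset.sum_add_distrib, ← Finset.sum_add_distrib]
    refine Finset.sum_congr rfl fun c _ => ?_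
    by_cases hc : c ≠ a ∧ c ≠ b
    · rw [if_pos hc, if_pos hc, if_pos hc, sum_split2 hab]
      rw [if_pos hc.1, if_pos hc.2]
      congr 1
      refine Finset.sum_congr rfl fun e _ => ?_
      by_cases he : e ≠ a ∧ e ≠ b
      · by_cases hce : c ≠ e
        · rw [if_pos he, if_pos hce, if_pos ⟨hc, he, hce⟩]
        · rw [if_pos he, if_neg hce, if_neg (fun h => hce h.2.2)]
      · rw [if_neg he, if_neg (fun h => he h.2.1)]
    · rw [if_neg hc, if_neg hc, if_neg hc]
      simp only [zero_add]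
      symm
      refine Finset.sum_eq_zero fun e _ => ?_
      rw [if_neg (fun h => hc h.1)]
  show _ + _ + _ = _
  rw [e1, e2, e3]
  ring

lemma sum3_rot (G : V → V → V → ℝ) :
    ∑ a, ∑ b, ∑ c, G a b c = ∑ c, ∑ a, ∑ b, G a b c := by
  calc ∑ a, ∑ b, ∑ c, G a b c = ∑ a, ∑ c, ∑ b, G a b c :=
        Finset.sum_congr rfl fun a _ => Finset.sum_comm
    _ = _ := Finset.sum_comm

lemma sum4_swap (G : V → V → V → V → ℝ) :
    ∑ a, ∑ b, ∑ c, ∑ e, G a b c e = ∑ c, ∑ e, ∑ a, ∑ b, G a b c e := by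
  rw [sum3_rot (fun a b c => ∑ e, G a b c e)]
  exact Finset.sum_congr rfl fun c _ => sum3_rot (fun a b e => G a b c e)

end sums

end Crest.Agent.Switch.Poi
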