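import Mathlib

set_option autoImplicit false

namespace Crest.Agent.Switch.TR

open Matrix Finset

/-- Parseval for the eigenvector basis, in dot-product form. -/
theorem dot_eq_sum_eigen {n : Type*} [Fintype n] [DecidableEq n] (A : Matrix n n ℝ)
    (hA : A.IsHermitian) (x y : n → ℝ) :
    x ⬝ᵥ y = ∑ j, ((hA.eigenvectorBasis j : n → ℝ) ⬝ᵥ x) * ((hA.eigenvectorBasis j : n → ℝ) ⬝ᵥ y) := by
  have h := (hA.eigenvectorBasis).sum_inner_mul_inner (WithLp.toLp 2 x) (WithLp.toLp 2 y)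
  simp only [EuclideanSpace.inner_eq_star_dotProduct] at h
  simp only [star_trivial] at h
  rw [dotProduct_comm x y, ← h]
  refine Finset.sum_congr rfl fun j _ => ?_
  rw [dotProduct_comm (WithLp.ofLp (WithLp.toLp 2 y))]

/-- Spectral lemma: a real symmetric matrix all of whose eigenvalues are `0` or `≥ 1`
satisfies `⟨f, A f⟩ ≤ ⟨A f, A f⟩`. -/
theorem dot_mulVec_le_of_eigen {n : Type*} [Fintype n] [DecidableEq n] (A : Matrix n n ℝ)
    (hA : A.IsHermitian)
    (h : ∀ (μ : ℝ) (v : n → ℝ), v ≠ 0 → A *ᵥ v = μ • v → μ = 0 ∨ 1 ≤ μ) (f : n → ℝ) :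
    f ⬝ᵥ (A *ᵥ f) ≤ (A *ᵥ f) ⬝ᵥ (A *ᵥ f) := by
  have hsymm : Aᵀ = A := by
    have := hA.eq
    ext i j
    have h2 := congrFun (congrFun this i) j
    simpa [Matrix.conjTranspose_apply] using h2
  -- coefficient of `A f`
  have hcoef : ∀ j, (hA.eigenvectorBasis j : n → ℝ) ⬝ᵥ (A *ᵥ f)
      = hA.eigenvalues j * ((hA.eigenvectorBasis j : n → ℝ) ⬝ᵥ f) := by
    intro j
    rw [Matrix.dotProduct_mulVec, ← Matrix.mulVec_transpose, hsymm, hA.mulVec_eigenvectorBasis j,
      smul_dotProduct, smul_eq_mul]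
  have hμ : ∀ j, hA.eigenvalues j = 0 ∨ 1 ≤ hA.eigenvalues j := by
    intro j
    refine h _ (hA.eigenvectorBasis j : n → ℝ) ?_ (hA.mulVec_eigenvectorBasis j)
    intro h0
    have h1 := (hA.eigenvectorBasis).orthonormal.ne_zero j
    apply h1
    ext i
    simpa using congrFun h0 i
  rw [dot_eq_sum_eigen A hA f, dot_eq_sum_eigen A hA (A *ᵥ f)]
  refine Finset.sum_le_sum fun j _ => ?_
  rw [hcoef j]
  set c := (hA.eigenvectorBasis j : n → ℝ) ⬝ᵥ f
  set m := hA.eigenvalues j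
  have : m ≤ m * m := by
    rcases hμ j with h0 | h1
    · have : m = 0 := h0
      rw [this]; simp
    · have : 1 ≤ m := h1
      nlinarith
  nlinarith [mul_self_nonneg c, mul_le_mul_of_nonneg_right this (mul_self_nonneg c)]

end Crest.Agent.Switch.TR
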