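import Mathlib
import Crest.Agent.Switch.ThreeRowSpectral

set_option autoImplicit false

namespace Crest.Agent.Switch.TR

open Matrix Finset

section CondExp

variable {α κ : Type*} [DecidableEq α] [DecidableEq κ]

/-- The fibre of `w` in `Ω` for the statistic `key`. -/
def fibre (Ω : Finset α) (key : α → κ) (w : α) : Finset α := Ω.filter (fun u => key u = key w)

/-- Conditional expectation (uniform law on `Ω`) given the statistic `key`. -/
noncomputable def cE (Ω : Finset α) (key : α → κ) (f : α → ℝ) (w : α) : ℝ :=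
  (∑ u ∈ fibre Ω key w, f u) / ((fibre Ω key w).card : ℝ)

theorem mem_fibre {Ω : Finset α} {key : α → κ} {w u : α} :
    u ∈ fibre Ω key w ↔ u ∈ Ω ∧ key u = key w := by
  simp [fibre]

theorem self_mem_fibre {Ω : Finset α} {key : α → κ} {w : α} (hw : w ∈ Ω) : w ∈ fibre Ω key w := by
  simp [fibre, hw]

theorem fibre_congr {Ω : Finset α} {key : α → κ} {w w' : α} (h : key w = key w') :
    fibre Ω key w = fibre Ω key w' := by
  simp [fibre, h]

theorem cE_congr {Ω : Finset α} {key : α → κ} {w w' : α} (h : key w = key w') (f : α → ℝ) :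
    cE Ω key f w = cE Ω key f w' := by
  simp [cE, fibre_congr h]

theorem card_fibre_pos {Ω : Finset α} {key : α → κ} {w : α} (hw : w ∈ Ω) :
    (0 : ℝ) < ((fibre Ω key w).card : ℝ) := by
  have : 0 < (fibre Ω key w).card := Finset.card_pos.mpr ⟨w, self_mem_fibre hw⟩
  exact_mod_cast this

/-- `cE` only depends on the values of `f` on `Ω`. -/
theorem cE_congr_fun {Ω : Finset α} {key : α → κ} {f g : α → ℝ} (h : ∀ u ∈ Ω, f u = g u) (w : α) :
    cE Ω key f w = cE Ω key g w := by
  unfold cE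
  congr 1
  exact Finset.sum_congr rfl fun u hu => h u (mem_fibre.mp hu).1

/-- Self-adjointness of conditional expectation. -/
theorem sum_mul_cE (Ω : Finset α) (key : α → κ) (f g : α → ℝ) :
    ∑ w ∈ Ω, g w * cE Ω key f w = ∑ w ∈ Ω, cE Ω key g w * f w := by
  have h1 : ∀ w ∈ Ω, g w * cE Ω key f w
      = ∑ u ∈ Ω, if key u = key w then g w * f u / ((fibre Ω key w).card : ℝ) else 0 := by
    intro w _
    unfold cE
    rw [Finset.sum_div, Finset.mul_sum, fibre, Finset.sum_filter]
    refine Finset.sum_congr rfl fun u _ => ?_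
    split_ifs <;> ring
  have h2 : ∀ u ∈ Ω, cE Ω key g u * f u
      = ∑ w ∈ Ω, if key u = key w then g w * f u / ((fibre Ω key w).card : ℝ) else 0 := by
    intro u _
    unfold cE
    rw [Finset.sum_div, Finset.sum_mul, fibre, Finset.sum_filter]
    refine Finset.sum_congr rfl fun w _ => ?_
    by_cases h : key w = key u
    · have h' : key u = key w := h.symm
      have hf : Ω.filter (fun x => key x = key u) = fibre Ω key w := by
        simp [fibre, h]
      rw [if_pos h, if_pos h', hf]; ring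
    · have h' : ¬ key u = key w := fun e => h e.symm
      rw [if_neg h, if_neg h']
  rw [Finset.sum_congr rfl h1, Finset.sum_congr rfl h2, Finset.sum_comm]

/-- If `f` is constant on the fibre then `cE f = f`. -/
theorem cE_eq_of_const {Ω : Finset α} {key : α → κ} {f : α → ℝ} {w : α} (hw : w ∈ Ω) {c : ℝ}
    (h : ∀ u ∈ fibre Ω key w, f u = c) : cE Ω key f w = c := by
  unfold cE
  rw [Finset.sum_congr rfl h, Finset.sum_const, nsmul_eq_mul]
  field_simp [(card_fibre_pos (key := key) hw).ne']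

theorem cE_cE {Ω : Finset α} {key : α → κ} (f : α → ℝ) {w : α} (hw : w ∈ Ω) :
    cE Ω key (cE Ω key f) w = cE Ω key f w :=
  cE_eq_of_const hw fun _ hu => cE_congr (mem_fibre.mp hu).2 f

/-- `‖(1-E) f‖² = ⟨f, (1-E) f⟩`. -/
theorem sum_sq_sub_cE (Ω : Finset α) (key : α → κ) (f : α → ℝ) :
    ∑ w ∈ Ω, (f w - cE Ω key f w) ^ 2 = ∑ w ∈ Ω, f w * (f w - cE Ω key f w) := by
  have h1 : ∑ w ∈ Ω, cE Ω key f w * cE Ω key f w = ∑ w ∈ Ω, cE Ω key f w * f w := by
    rw [sum_mul_cE Ω key f (cE Ω key f)]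
    exact Finset.sum_congr rfl fun w hw => by rw [cE_cE f hw]
  have h2 : ∑ w ∈ Ω, (f w - cE Ω key f w) ^ 2
      = ∑ w ∈ Ω, f w * (f w - cE Ω key f w) - (∑ w ∈ Ω, cE Ω key f w * f w
        - ∑ w ∈ Ω, cE Ω key f w * cE Ω key f w) := by
    rw [← Finset.sum_sub_distrib, ← Finset.sum_sub_distrib]
    exact Finset.sum_congr rfl fun w _ => by ring
  rw [h2, h1]; ring

end CondExp

section ProjSum

variable {α κ ι : Type*} [DecidableEq α] [DecidableEq κ] [Fintype ι]

/-- Extension by zero of a function on the subtype. -/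
noncomputable def extZ (Ω : Finset α) (v : {a // a ∈ Ω} → ℝ) : α → ℝ :=
  fun a => if h : a ∈ Ω then v ⟨a, h⟩ else 0

theorem extZ_coe (Ω : Finset α) (v : {a // a ∈ Ω} → ℝ) (u : {a // a ∈ Ω}) : extZ Ω v u.1 = v u := by
  simp [extZ, u.2]

/-- The matrix of `∑ i, (1 - E_i)` on `Ω`. -/
noncomputable def projMat (Ω : Finset α) (key : ι → α → κ) : Matrix {a // a ∈ Ω} {a // a ∈ Ω} ℝ :=
  fun w u => ∑ i, ((if w = u then 1 else 0)
    - (if key i u.1 = key i w.1 then 1 / ((fibre Ω (key i) w.1).card : ℝ) else 0))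

theorem projMat_mulVec (Ω : Finset α) (key : ι → α → κ) (v : {a // a ∈ Ω} → ℝ) (w : {a // a ∈ Ω}) :
    (projMat Ω key *ᵥ v) w = ∑ i, (v w - cE Ω (key i) (extZ Ω v) w.1) := by
  unfold Matrix.mulVec dotProduct projMat
  simp only [Finset.sum_mul]
  rw [Finset.sum_comm]
  refine Finset.sum_congr rfl fun i _ => ?_
  simp only [sub_mul, Finset.sum_sub_distrib]
  congr 1
  · simp
  · unfold cE
    rw [Finset.sum_div, fibre, Finset.sum_filter, ← Finset.sum_coe_sort Ω]
    refine Finset.sum_congr rfl fun u _ => ?_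
    rw [extZ_coe]
    split_ifs <;> ring

theorem projMat_isHermitian (Ω : Finset α) (key : ι → α → κ) : (projMat Ω key).IsHermitian := by
  ext w u
  simp only [Matrix.conjTranspose_apply, star_trivial, projMat]
  refine Finset.sum_congr rfl fun i _ => ?_
  congr 1
  · by_cases h : w = u
    · simp [h]
    · have h' : ¬ u = w := fun e => h e.symm
      simp [h, h']
  · by_cases h : key i u.1 = key i w.1
    · rw [if_pos h, if_pos h.symm, fibre_congr h]
    · have h' : ¬ key i w.1 = key i u.1 := fun e => h e.symm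
      rw [if_neg h, if_neg h']

/-- Abstract lemma: if every eigenfunction of `K = ∑ E_i` with eigenvalue `> card ι - 1` is
invariant under every `E_i`, then `∑_i ‖(1-E_i) f‖² ≤ ‖∑_i (1-E_i) f‖²`. -/
theorem sum_proj_sq_le (Ω : Finset α) (key : ι → α → κ)
    (H : ∀ (lam : ℝ) (f : α → ℝ), (Fintype.card ι : ℝ) - 1 < lam →
      (∀ w ∈ Ω, ∑ i, cE Ω (key i) f w = lam * f w) → ∀ i, ∀ w ∈ Ω, cE Ω (key i) f w = f w)
    (f : α → ℝ) :
    ∑ i, ∑ w ∈ Ω, (f w - cE Ω (key i) f w) ^ 2 ≤ ∑ w ∈ Ω, (∑ i, (f w - cE Ω (key i) f w)) ^ 2 := by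
  classical
  set A := projMat Ω key with hAdef
  have hA : A.IsHermitian := projMat_isHermitian Ω key
  have heig : ∀ (μ : ℝ) (v : {a // a ∈ Ω} → ℝ), v ≠ 0 → A *ᵥ v = μ • v → μ = 0 ∨ 1 ≤ μ := by
    intro μ v hv hAv
    by_contra hcon
    push Not at hcon
    obtain ⟨hμ0, hμ1⟩ := hcon
    have hK : ∀ w ∈ Ω, ∑ i, cE Ω (key i) (extZ Ω v) w = ((Fintype.card ι : ℝ) - μ) * extZ Ω v w := by
      intro w hw
      have h1 := congrFun hAv ⟨w, hw⟩
      rw [projMat_mulVec] at h1
      simp only [Finset.sum_sub_distrib, Finset.sum_const, Finset.card_univ, nsmul_eq_mul,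
        Pi.smul_apply, smul_eq_mul] at h1
      have h2 : extZ Ω v w = v ⟨w, hw⟩ := extZ_coe Ω v ⟨w, hw⟩
      rw [h2]
      linarith
    have hinv := H _ (extZ Ω v) (by linarith) hK
    apply hv
    funext w
    have h1 := congrFun hAv w
    rw [projMat_mulVec] at h1
    have h3 : ∑ i, (v w - cE Ω (key i) (extZ Ω v) w.1) = 0 := by
      refine Finset.sum_eq_zero fun i _ => ?_
      rw [hinv i w.1 w.2, extZ_coe]; ring
    rw [h3] at h1
    simp only [Pi.smul_apply, smul_eq_mul] at h1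
    have := mul_eq_zero.mp h1.symm
    rcases this with h | h
    · exact absurd h hμ0
    · simpa using h
  have key2 := dot_mulVec_le_of_eigen A hA heig (fun w => f w.1)
  have hext : ∀ i, ∀ w : α, cE Ω (key i) (extZ Ω (fun w : {a // a ∈ Ω} => f w.1)) w
      = cE Ω (key i) f w := by
    intro i w
    refine cE_congr_fun (fun u hu => ?_) w
    simp [extZ, hu]
  have hAf : ∀ w : {a // a ∈ Ω}, (A *ᵥ fun w : {a // a ∈ Ω} => f w.1) w
      = ∑ i, (f w.1 - cE Ω (key i) f w.1) := by
    intro w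
    rw [projMat_mulVec]
    exact Finset.sum_congr rfl fun i _ => by rw [hext]
  unfold dotProduct at key2
  simp only [hAf] at key2
  rw [Finset.sum_coe_sort Ω (fun w => f w * ∑ i, (f w - cE Ω (key i) f w)),
    Finset.sum_coe_sort Ω (fun w => (∑ i, (f w - cE Ω (key i) f w)) * ∑ i, (f w - cE Ω (key i) f w))]
    at key2
  calc ∑ i, ∑ w ∈ Ω, (f w - cE Ω (key i) f w) ^ 2
      = ∑ i, ∑ w ∈ Ω, f w * (f w - cE Ω (key i) f w) :=
        Finset.sum_congr rfl fun i _ => sum_sq_sub_cE Ω (key i) f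
    _ = ∑ w ∈ Ω, f w * ∑ i, (f w - cE Ω (key i) f w) := by
        rw [Finset.sum_comm]
        exact Finset.sum_congr rfl fun w _ => by rw [Finset.mul_sum]
    _ ≤ _ := key2
    _ = _ := Finset.sum_congr rfl fun w _ => by ring

end ProjSum

end Crest.Agent.Switch.TR
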