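import Mathlib
import Crest.Agent.Switch.ThreeRowCondExp

/-!
# The 3-row lemma (module M5 of the S0453 development): combinatorial core

Tables are stored column-wise: `w : J → Fin 3 → Bool`.
-/

set_option autoImplicit false

namespace Crest.Agent.Switch.TR

open Finset

/-! ## Column vectors -/

abbrev Vec := Fin 3 → Bool

def e (i : Fin 3) : Vec := fun k => decide (k = i)
def ne (i : Fin 3) : Vec := fun k => !decide (k = i)
def cnt (v : Vec) : ℕ := (univ.filter fun k => v k = true).card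

theorem cnt_e : ∀ i, cnt (e i) = 1 := by decide
theorem cnt_ne : ∀ i, cnt (ne i) = 2 := by decide
theorem e_ne_ne : ∀ i i', e i ≠ ne i' := by decide
theorem eq_e_of : ∀ (i : Fin 3) (v : Vec), v i = true → cnt v = 1 → v = e i := by decide
theorem eq_ne_of : ∀ (i : Fin 3) (v : Vec), v i = false → cnt v = 2 → v = ne i := by decide
theorem exists_e_of : ∀ (i : Fin 3) (v : Vec), v i = false → cnt v = 1 → ∃ k, k ≠ i ∧ v = e k := by
  decide
theorem exists_ne_of : ∀ (i : Fin 3) (v : Vec), v i = true → cnt v = 2 → ∃ k, k ≠ i ∧ v = ne k := by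
  decide
theorem exists_agree : ∀ (v v' : Vec), cnt v = cnt v' → ∃ m, v m = v' m := by decide
theorem toNat_e_add_ne : ∀ (i i' m : Fin 3),
    (e i' m).toNat + (ne i' m).toNat = (e i m).toNat + (ne i m).toNat := by decide
theorem exists_third : ∀ (i i' : Fin 3), ∃ m, e i m = e i' m ∧ ne i m = ne i' m := by decide

/-! ## Tables -/

variable {J : Type*} [Fintype J] [DecidableEq J]

abbrev Tab (J : Type*) := J → Vec

def rowSum (w : Tab J) (m : Fin 3) : ℕ := ∑ y, (w y m).toNat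

def tabs (r : Fin 3 → ℕ) (c : J → ℕ) : Finset (Tab J) :=
  univ.filter fun w => (∀ m, rowSum w m = r m) ∧ ∀ y, cnt (w y) = c y

def rowKey (m : Fin 3) (w : Tab J) : J → Bool := fun y => w y m

theorem mem_tabs {r : Fin 3 → ℕ} {c : J → ℕ} {w : Tab J} :
    w ∈ tabs r c ↔ (∀ m, rowSum w m = r m) ∧ ∀ y, cnt (w y) = c y := by
  simp [tabs]

/-- swap of two columns with the same column sum -/
def SAdj (w w' : Tab J) : Prop :=
  ∃ j j', cnt (w j) = cnt (w j') ∧ w' = w ∘ Equiv.swap j j'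

/-- `(e i, ne i) → (e i', ne i')` in two columns -/
def NAdj (w w' : Tab J) : Prop :=
  ∃ j j' i i', i ≠ i' ∧ w j = e i ∧ w j' = ne i ∧
    w' = Function.update (Function.update w j (e i')) j' (ne i')

theorem sum_eq_of_two (g g' : J → ℕ) (j j' : J) (hne : j ≠ j')
    (hoff : ∀ y, y ≠ j → y ≠ j' → g' y = g y) (h2 : g' j + g' j' = g j + g j') :
    ∑ y, g' y = ∑ y, g y := by
  have hj : j ∈ (univ : Finset J) := mem_univ j
  have hj' : j' ∈ (univ : Finset J).erase j := mem_erase.mpr ⟨hne.symm, mem_univ j'⟩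
  rw [← add_sum_erase _ g' hj, ← add_sum_erase _ g hj, ← add_sum_erase _ g' hj',
    ← add_sum_erase _ g hj']
  have : ∑ y ∈ ((univ : Finset J).erase j).erase j', g' y
      = ∑ y ∈ ((univ : Finset J).erase j).erase j', g y := by
    refine sum_congr rfl fun y hy => ?_
    rw [mem_erase, mem_erase] at hy
    exact hoff y hy.2.1 hy.1
  omega

theorem SAdj.mem {r : Fin 3 → ℕ} {c : J → ℕ} {w w' : Tab J} (h : SAdj w w') (hw : w ∈ tabs r c) :
    w' ∈ tabs r c := by
  obtain ⟨j, j', hc, rfl⟩ := h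
  rw [mem_tabs] at hw ⊢
  refine ⟨fun m => ?_, fun y => ?_⟩
  · rw [← hw.1 m]
    exact Equiv.sum_comp (Equiv.swap j j') (fun y => (w y m).toNat)
  · show cnt (w (Equiv.swap j j' y)) = c y
    rw [Equiv.swap_apply_def]
    split_ifs with h1 h2
    · rw [h1, ← hc, hw.2]
    · rw [h2, hc, hw.2]
    · exact hw.2 y

theorem NAdj.mem {r : Fin 3 → ℕ} {c : J → ℕ} {w w' : Tab J} (h : NAdj w w') (hw : w ∈ tabs r c) :
    w' ∈ tabs r c := by
  obtain ⟨j, j', i, i', -, h1, h2, rfl⟩ := h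
  have hne : j ≠ j' := by
    rintro rfl
    exact e_ne_ne i i (h1.symm.trans h2)
  rw [mem_tabs] at hw ⊢
  refine ⟨fun m => ?_, fun y => ?_⟩
  · rw [← hw.1 m]
    refine sum_eq_of_two _ _ j j' hne (fun y hy hy' => ?_) ?_
    · rw [Function.update_of_ne hy', Function.update_of_ne hy]
    · rw [Function.update_self, Function.update_of_ne hne, Function.update_self, h1, h2]
      exact toNat_e_add_ne i i' m
  · by_cases hy' : y = j'
    · subst hy'
      rw [Function.update_self, cnt_ne, ← hw.2, h2, cnt_ne]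
    · rw [Function.update_of_ne hy']
      by_cases hy : y = j
      · subst hy
        rw [Function.update_self, cnt_e, ← hw.2, h1, cnt_e]
      · rw [Function.update_of_ne hy]; exact hw.2 y

omit [Fintype J] in
theorem update_update_back {w : Tab J} {j j' : J} {p q : Vec} (p' q' : Vec) (h1 : w j = p)
    (h2 : w j' = q) :
    Function.update (Function.update (Function.update (Function.update w j p') j' q') j p) j' q
      = w := by
  funext y
  by_cases hy' : y = j'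
  · subst hy'; rw [Function.update_self, h2]
  · rw [Function.update_of_ne hy']
    by_cases hy : y = j
    · subst hy; rw [Function.update_self, h1]
    · rw [Function.update_of_ne hy, Function.update_of_ne hy', Function.update_of_ne hy]

omit [Fintype J] in
theorem NAdj.symm {w w' : Tab J} (h : NAdj w w') : NAdj w' w := by
  obtain ⟨j, j', i, i', hii, h1, h2, rfl⟩ := h
  have hne : j ≠ j' := by
    rintro rfl
    exact e_ne_ne i i (h1.symm.trans h2)
  refine ⟨j, j', i', i, hii.symm, ?_, ?_, ?_⟩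
  · rw [Function.update_of_ne hne, Function.update_self]
  · rw [Function.update_self]
  · exact (update_update_back _ _ h1 h2).symm

omit [Fintype J] in
theorem SAdj.symm {w w' : Tab J} (h : SAdj w w') : SAdj w' w := by
  obtain ⟨j, j', hc, rfl⟩ := h
  refine ⟨j, j', ?_, ?_⟩
  · simp [hc]
  · funext y
    simp

/-! ## Abstract lemmas -/

section Abstract

variable {α : Type*}

/-- the Lipschitz contraction argument -/
theorem lipschitz_zero (Ω : Finset α) (R : α → α → Prop) (f g : α → ℝ) (lam : ℝ) (hlam : 2 < lam)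
    (hg : ∀ w ∈ Ω, g w = lam * f w)
    (hstep : ∀ D : ℝ, (∀ w ∈ Ω, ∀ w' ∈ Ω, R w w' → |f w - f w'| ≤ D) →
      ∀ w ∈ Ω, ∀ w' ∈ Ω, R w w' → |g w - g w'| ≤ 2 * D) :
    ∀ w ∈ Ω, ∀ w' ∈ Ω, R w w' → f w = f w' := by
  classical
  intro w hw w' hw' hR
  set P := (Ω ×ˢ Ω).filter (fun p => R p.1 p.2) with hP
  have hne : P.Nonempty := ⟨(w, w'), by simp [hP, hw, hw', hR]⟩
  obtain ⟨p₀, hp₀, hmax⟩ := P.exists_max_image (fun p => |f p.1 - f p.2|) hne
  have hp₀' : p₀.1 ∈ Ω ∧ p₀.2 ∈ Ω ∧ R p₀.1 p₀.2 := by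
    simpa [hP, and_assoc] using hp₀
  have hD : ∀ w ∈ Ω, ∀ w' ∈ Ω, R w w' → |f w - f w'| ≤ |f p₀.1 - f p₀.2| := by
    intro u hu u' hu' hR'
    exact hmax (u, u') (by simp [hP, hu, hu', hR'])
  have h2 := hstep _ hD p₀.1 hp₀'.1 p₀.2 hp₀'.2.1 hp₀'.2.2
  rw [hg _ hp₀'.1, hg _ hp₀'.2.1, ← mul_sub, abs_mul, abs_of_pos (by linarith : (0:ℝ) < lam)] at h2
  have h3 : |f p₀.1 - f p₀.2| ≤ 0 := by
    have := abs_nonneg (f p₀.1 - f p₀.2)
    nlinarith
  have h4 := (hD w hw w' hw' hR).trans h3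
  have h5 : f w - f w' = 0 := abs_nonpos_iff.mp h4
  linarith

theorem abs_sum_three_le (t : Fin 3 → ℝ) (D : ℝ) (m₀ : Fin 3) (h0 : t m₀ = 0)
    (h : ∀ m, |t m| ≤ D) : |∑ m, t m| ≤ 2 * D := by
  have h0' := abs_le.mp (h 0)
  have h1' := abs_le.mp (h 1)
  have h2' := abs_le.mp (h 2)
  rw [Fin.sum_univ_three, abs_le]
  fin_cases m₀ <;> simp only [Fin.zero_eta, Fin.mk_one, Fin.reduceFinMk] at h0 <;>
    constructor <;> linarith

/-- transport along a bijection -/
theorem sum_diff_le_of_bij (A B : Finset α) (f : α → ℝ) (D : ℝ) (φ ψ : α → α)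
    (h1 : ∀ u ∈ A, φ u ∈ B) (h2 : ∀ v ∈ B, ψ v ∈ A) (h3 : ∀ u ∈ A, ψ (φ u) = u)
    (h4 : ∀ v ∈ B, φ (ψ v) = v) (hf : ∀ u ∈ A, |f u - f (φ u)| ≤ D) :
    A.card = B.card ∧ |∑ u ∈ A, f u - ∑ v ∈ B, f v| ≤ A.card * D := by
  have hc : A.card = B.card := card_nbij' φ ψ h1 h2 h3 h4
  have hs : ∑ v ∈ B, f v = ∑ u ∈ A, f (φ u) :=
    (sum_nbij' φ ψ h1 h2 h3 h4 (fun _ _ => rfl)).symm
  refine ⟨hc, ?_⟩
  rw [hs, ← sum_sub_distrib]
  calc |∑ u ∈ A, (f u - f (φ u))| ≤ ∑ u ∈ A, |f u - f (φ u)| := abs_sum_le_sum_abs _ _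
    _ ≤ ∑ _u ∈ A, D := sum_le_sum hf
    _ = A.card * D := by rw [sum_const, nsmul_eq_mul]

/-- from the cross-multiplied bound to the bound on averages -/
theorem avg_diff_le (nA nB : ℕ) (SA SB D : ℝ) (hA : 0 < nA) (hB : 0 < nB)
    (h : |nB * SA - nA * SB| ≤ nA * nB * D) : |SA / nA - SB / nB| ≤ D := by
  have hA' : (0:ℝ) < nA := by exact_mod_cast hA
  have hB' : (0:ℝ) < nB := by exact_mod_cast hB
  have : SA / nA - SB / nB = (nB * SA - nA * SB) / (nA * nB) := by
    field_simp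
  rw [this, abs_div, abs_of_pos (mul_pos hA' hB'), div_le_iff₀ (mul_pos hA' hB')]
  linarith


theorem cross_of_bij (nA nB : ℕ) (SA SB D : ℝ) (h : nA = nB ∧ |SA - SB| ≤ nA * D) :
    |nB * SA - nA * SB| ≤ nA * nB * D := by
  obtain ⟨h1, h2⟩ := h
  subst h1
  rw [← mul_sub, abs_mul, abs_of_nonneg (Nat.cast_nonneg nA), mul_assoc]
  exact mul_le_mul_of_nonneg_left h2 (Nat.cast_nonneg nA)

theorem sum_filter_comm {ξ : Type*} (A : Finset α) (X : Finset ξ) (p : α → ξ → Prop)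
    [∀ u x, Decidable (p u x)] (F : α → ℝ) :
    ∑ x ∈ X, ∑ u ∈ A.filter (fun u => p u x), F u
      = ∑ u ∈ A, ((X.filter (fun x => p u x)).card : ℝ) * F u := by
  simp only [sum_filter]
  rw [sum_comm]
  refine sum_congr rfl fun u _ => ?_
  rw [← sum_filter, sum_const, nsmul_eq_mul]

/-- transport by double counting -/
theorem cross_le_of_double_count {ξ : Type*} (A B : Finset α) (X : Finset ξ) (f : α → ℝ) (D : ℝ)
    (p q : α → ξ → Prop) [∀ u x, Decidable (p u x)] [∀ u x, Decidable (q u x)] (a b : ℕ)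
    (hb : 0 < b)
    (hA : ∀ u ∈ A, (X.filter (fun x => p u x)).card = a)
    (hB : ∀ v ∈ B, (X.filter (fun x => q v x)).card = b)
    (hx : ∀ x ∈ X, (A.filter (fun u => p u x)).card = (B.filter (fun v => q v x)).card ∧
      |∑ u ∈ A.filter (fun u => p u x), f u - ∑ v ∈ B.filter (fun v => q v x), f v|
        ≤ (A.filter (fun u => p u x)).card * D) :
    |(B.card : ℝ) * ∑ u ∈ A, f u - A.card * ∑ v ∈ B, f v| ≤ A.card * B.card * D := by
  have hb' : (0:ℝ) < b := by exact_mod_cast hb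
  have sA : ∀ F : α → ℝ, ∑ x ∈ X, ∑ u ∈ A.filter (fun u => p u x), F u = a * ∑ u ∈ A, F u := by
    intro F
    rw [sum_filter_comm, mul_sum]
    exact sum_congr rfl fun u hu => by rw [hA u hu]
  have sB : ∀ F : α → ℝ, ∑ x ∈ X, ∑ u ∈ B.filter (fun u => q u x), F u = b * ∑ u ∈ B, F u := by
    intro F
    rw [sum_filter_comm, mul_sum]
    exact sum_congr rfl fun u hu => by rw [hB u hu]
  have cA : ∑ x ∈ X, ((A.filter (fun u => p u x)).card : ℝ) = a * A.card := by
    have := sA (fun _ => 1)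
    simpa using this
  have cB : ∑ x ∈ X, ((B.filter (fun u => q u x)).card : ℝ) = b * B.card := by
    have := sB (fun _ => 1)
    simpa using this
  have e1 : (a:ℝ) * A.card = b * B.card := by
    rw [← cA, ← cB]
    exact sum_congr rfl fun x hx' => by rw [(hx x hx').1]
  have e2 : |(a:ℝ) * ∑ u ∈ A, f u - b * ∑ v ∈ B, f v| ≤ a * A.card * D := by
    rw [← sA f, ← sB f, ← sum_sub_distrib, ← cA, sum_mul]
    exact (abs_sum_le_sum_abs _ _).trans (sum_le_sum fun x hx' => (hx x hx').2)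
  set SA := ∑ u ∈ A, f u
  set SB := ∑ v ∈ B, f v
  have e3 : (b:ℝ) * ((B.card : ℝ) * SA - A.card * SB) = A.card * (a * SA - b * SB) := by
    linear_combination (-SA) * e1
  have e4 : (b:ℝ) * |(B.card : ℝ) * SA - A.card * SB| ≤ b * (A.card * B.card * D) := by
    rw [← abs_of_pos hb', ← abs_mul, e3, abs_mul, abs_of_nonneg (Nat.cast_nonneg A.card),
      abs_of_pos hb']
    calc (A.card : ℝ) * |a * SA - b * SB| ≤ A.card * (a * A.card * D) :=
          mul_le_mul_of_nonneg_left e2 (Nat.cast_nonneg _)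
      _ = b * (A.card * B.card * D) := by rw [e1]; ring
  exact le_of_mul_le_mul_left e4 hb'

end Abstract

/-! ## The s-step -/

omit [Fintype J] [DecidableEq J] in
theorem rowKey_comp (m : Fin 3) (u : Tab J) (σ : J → J) : rowKey m (u ∘ σ) = rowKey m u ∘ σ := rfl

omit [Fintype J] in
theorem comp_swap_swap (u : Tab J) (j j' : J) : (u ∘ Equiv.swap j j') ∘ Equiv.swap j j' = u := by
  funext y
  simp

theorem sstep (r : Fin 3 → ℕ) (c : J → ℕ) (f : Tab J → ℝ) (D : ℝ)
    (hD : ∀ w ∈ tabs r c, ∀ w' ∈ tabs r c, SAdj w w' → |f w - f w'| ≤ D) :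
    ∀ w ∈ tabs r c, ∀ w' ∈ tabs r c, SAdj w w' →
      |∑ m, cE (tabs r c) (rowKey m) f w - ∑ m, cE (tabs r c) (rowKey m) f w'| ≤ 2 * D := by
  rintro w hw w' hw' ⟨j, j', hc, rfl⟩
  obtain ⟨m₀, hm₀⟩ := exists_agree _ _ hc
  have hcc : c j = c j' := by
    rw [← (mem_tabs.mp hw).2 j, ← (mem_tabs.mp hw).2 j']; exact hc
  have hadj : ∀ u ∈ tabs r c, SAdj u (u ∘ Equiv.swap j j') := fun u hu =>
    ⟨j, j', by rw [(mem_tabs.mp hu).2 j, (mem_tabs.mp hu).2 j']; exact hcc, rfl⟩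
  rw [← sum_sub_distrib]
  refine abs_sum_three_le _ D m₀ ?_ fun m => ?_
  · rw [sub_eq_zero]
    refine cE_congr ?_ f
    funext y
    show w y m₀ = w (Equiv.swap j j' y) m₀
    rw [Equiv.swap_apply_def]
    split_ifs with h1 h2
    · rw [h1, hm₀]
    · rw [h2, hm₀]
    · rfl
  · unfold cE
    refine avg_diff_le _ _ _ _ D (card_pos.mpr ⟨w, self_mem_fibre hw⟩)
      (card_pos.mpr ⟨_, self_mem_fibre hw'⟩) (cross_of_bij _ _ _ _ D ?_)
    refine sum_diff_le_of_bij _ _ f D (fun u => u ∘ Equiv.swap j j') (fun u => u ∘ Equiv.swap j j')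
      ?_ ?_ (fun u _ => comp_swap_swap u j j') (fun u _ => comp_swap_swap u j j') ?_
    · intro u hu
      rw [mem_fibre] at hu ⊢
      exact ⟨(hadj u hu.1).mem hu.1, by rw [rowKey_comp, rowKey_comp, hu.2]⟩
    · intro u hu
      rw [mem_fibre] at hu ⊢
      refine ⟨(hadj u hu.1).mem hu.1, ?_⟩
      rw [rowKey_comp, hu.2, ← rowKey_comp, comp_swap_swap]
    · intro u hu
      rw [mem_fibre] at hu
      exact hD u hu.1 _ ((hadj u hu.1).mem hu.1) (hadj u hu.1)

end Crest.Agent.Switch.TR
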