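import Mathlib
import Crest.Agent.Switch.ThreeRowCore

/-!
# The 3-row lemma: the n-step
-/

set_option autoImplicit false

namespace Crest.Agent.Switch.TR

open Finset

/-! ## more vector facts -/

def flp (k l : Fin 3) (v : Vec) : Vec :=
  fun m => if m = k then v l else if m = l then v k else v m

theorem flp_flp : ∀ (k l : Fin 3) (v : Vec), flp k l (flp k l v) = v := by decide
theorem flp_third : ∀ (i k l : Fin 3) (v : Vec), i ≠ k → i ≠ l → flp k l v i = v i := by decide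
theorem flp_left : ∀ (k l : Fin 3) (v : Vec), flp k l v k = v l := by decide
theorem flp_right : ∀ (k l : Fin 3) (v : Vec), flp k l v l = v k := by decide
theorem vec_false : ∀ (i k l : Fin 3) (v : Vec), i ≠ k → i ≠ l → k ≠ l → v k = true → v l = false →
    v i = false → v = e k ∧ flp k l v = e l := by decide
theorem vec_true : ∀ (i k l : Fin 3) (v : Vec), i ≠ k → i ≠ l → k ≠ l → v k = true → v l = false →
    v i = true → v = ne l ∧ flp k l v = ne k := by decide
theorem both_imp : ∀ (i k l : Fin 3) (v v' : Vec), i ≠ k → i ≠ l → k ≠ l → v i = v' i →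
    cnt v = cnt v' → v k = true → v l = true → v' k = true ∧ v' l = true := by decide
theorem both_iff (i k l : Fin 3) (v v' : Vec) (hik : i ≠ k) (hil : i ≠ l) (hkl : k ≠ l)
    (h1 : v i = v' i) (h2 : cnt v = cnt v') :
    ((v k = true ∧ v l = true) ↔ (v' k = true ∧ v' l = true)) :=
  ⟨fun h => both_imp i k l v v' hik hil hkl h1 h2 h.1 h.2,
    fun h => both_imp i k l v' v hik hil hkl h1.symm h2.symm h.1 h.2⟩
theorem e_self : ∀ i, e i i = true := by decide
theorem ne_self : ∀ i, ne i i = false := by decide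
theorem e_of_ne : ∀ i m, m ≠ i → e i m = false := by decide
theorem ne_of_ne : ∀ i m, m ≠ i → ne i m = true := by decide
theorem toNat_split : ∀ (a b : Bool), a.toNat
    = (if a = true ∧ b = true then 1 else 0) + (if a = true ∧ b = false then 1 else 0) := by decide

variable {J : Type*} [Fintype J] [DecidableEq J]

/-! ## counting lemmas -/

theorem card10_eq {r : Fin 3 → ℕ} {c : J → ℕ} {u w : Tab J} (hu : u ∈ tabs r c) (hw : w ∈ tabs r c)
    (i k l : Fin 3) (hik : i ≠ k) (hil : i ≠ l) (hkl : k ≠ l) (h : rowKey i u = rowKey i w) :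
    (univ.filter fun x => u x k = true ∧ u x l = false).card
      = (univ.filter fun x => w x k = true ∧ w x l = false).card := by
  rw [mem_tabs] at hu hw
  have hs : ∀ z : Tab J, rowSum z k = (univ.filter fun x => z x k = true ∧ z x l = true).card
      + (univ.filter fun x => z x k = true ∧ z x l = false).card := by
    intro z
    rw [card_filter, card_filter, ← sum_add_distrib]
    exact sum_congr rfl fun x _ => toNat_split _ _
  have hT : (univ.filter fun x => u x k = true ∧ u x l = true)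
      = (univ.filter fun x => w x k = true ∧ w x l = true) := by
    refine filter_congr fun x _ => ?_
    exact both_iff i k l _ _ hik hil hkl (congrFun h x) (by rw [hu.2, hw.2])
  have h1 := hs u
  have h2 := hs w
  rw [hu.1] at h1
  rw [hw.1] at h2
  rw [hT] at h1
  omega

theorem exists01 {r : Fin 3 → ℕ} {c : J → ℕ} {v w : Tab J} (hv : v ∈ tabs r c) (hw : w ∈ tabs r c)
    (i k l : Fin 3) (hik : i ≠ k) (hil : i ≠ l) (hkl : k ≠ l) (j' : J) (hvj' : v j' l = false)
    (hwj' : w j' l = true) (hoff : ∀ y, v y l = true → v y i = w y i) :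
    ∃ x, v x l = true ∧ v x k = false := by
  by_contra hcon
  have hcon' : ∀ x, v x l = true → v x k = true := by
    intro x hx
    by_contra h
    exact hcon ⟨x, hx, by simpa using h⟩
  rw [mem_tabs] at hv hw
  have hle : ∀ x, v x l = true → w x l = true := by
    intro x hx
    exact ((both_iff i k l _ _ hik hil hkl (hoff x hx) (by rw [hv.2, hw.2])).mp
      ⟨hcon' x hx, hx⟩).2
  have hlt : rowSum v l < rowSum w l := by
    refine sum_lt_sum (fun x _ => ?_) ⟨j', mem_univ _, ?_⟩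
    · cases hx : v x l
      · simp
      · rw [hle x hx]
    · rw [hvj', hwj']; decide
  rw [hv.1, hw.1] at hlt
  exact lt_irrefl _ hlt

/-! ## updates -/

def upd3 (u : Tab J) (j j' x : J) (p q s : Vec) : Tab J :=
  Function.update (Function.update (Function.update u j p) j' q) x s

omit [Fintype J] in
theorem upd3_x (u : Tab J) (j j' x : J) (p q s : Vec) : upd3 u j j' x p q s x = s := by
  simp [upd3]

omit [Fintype J] in
theorem upd3_j' (u : Tab J) {j j' x : J} (p q s : Vec) (h : x ≠ j') :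
    upd3 u j j' x p q s j' = q := by
  simp [upd3, Function.update_of_ne h.symm]

omit [Fintype J] in
theorem upd3_j (u : Tab J) {j j' x : J} (p q s : Vec) (h : x ≠ j) (hne : j ≠ j') :
    upd3 u j j' x p q s j = p := by
  simp [upd3, Function.update_of_ne h.symm, Function.update_of_ne hne]

omit [Fintype J] in
theorem upd3_of_ne (u : Tab J) {j j' x y : J} (p q s : Vec) (h1 : y ≠ x) (h2 : y ≠ j')
    (h3 : y ≠ j) : upd3 u j j' x p q s y = u y := by
  simp [upd3, Function.update_of_ne h1, Function.update_of_ne h2, Function.update_of_ne h3]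

omit [Fintype J] in
theorem rowKey_upd2 (u : Tab J) (i : Fin 3) (j j' : J) (p q : Vec) (ρ ρ' : J → Bool)
    (hu : rowKey i u = ρ) (hj : p i = ρ' j) (hj' : q i = ρ' j')
    (hρ : ∀ y, y ≠ j → y ≠ j' → ρ' y = ρ y) :
    rowKey i (Function.update (Function.update u j p) j' q) = ρ' := by
  funext y
  show (Function.update (Function.update u j p) j' q) y i = ρ' y
  by_cases hy' : y = j'
  · subst hy'; rw [Function.update_self, hj']
  · rw [Function.update_of_ne hy']
    by_cases hy : y = j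
    · subst hy; rw [Function.update_self, hj]
    · rw [Function.update_of_ne hy, hρ y hy hy', ← hu]; rfl

omit [Fintype J] in
theorem rowKey_upd3 (u : Tab J) (i : Fin 3) (j j' x : J) (p q s : Vec) (ρ ρ' : J → Bool)
    (hu : rowKey i u = ρ) (hj : p i = ρ' j) (hj' : q i = ρ' j') (hx : s i = u x i)
    (hne : j ≠ j') (hxj : x ≠ j) (hxj' : x ≠ j')
    (hρ : ∀ y, y ≠ j → y ≠ j' → ρ' y = ρ y) :
    rowKey i (upd3 u j j' x p q s) = ρ' := by
  funext y
  show upd3 u j j' x p q s y i = ρ' y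
  by_cases hyx : y = x
  · subst hyx; rw [upd3_x, hx, hρ y hxj hxj', ← hu]; rfl
  · by_cases hy' : y = j'
    · subst hy'; rw [upd3_j' _ _ _ _ hxj', hj']
    · by_cases hy : y = j
      · subst hy; rw [upd3_j _ _ _ _ hxj hne, hj]
      · rw [upd3_of_ne _ _ _ _ hyx hy' hy, hρ y hy hy', ← hu]; rfl

omit [Fintype J] in
theorem upd3_upd3 (u : Tab J) {j j' x : J} (p q s p' q' s' : Vec) (hne : j ≠ j') (hxj : x ≠ j)
    (hxj' : x ≠ j') (h1 : u j = p) (h2 : u j' = q) (h3 : u x = s) :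
    upd3 (upd3 u j j' x p' q' s') j j' x p q s = u := by
  funext y
  by_cases hyx : y = x
  · subst hyx; rw [upd3_x, h3]
  · by_cases hy' : y = j'
    · subst hy'; rw [upd3_j' _ _ _ _ hxj', h2]
    · by_cases hy : y = j
      · subst hy; rw [upd3_j _ _ _ _ hxj hne, h1]
      · rw [upd3_of_ne _ _ _ _ hyx hy' hy, upd3_of_ne _ _ _ _ hyx hy' hy]

omit [Fintype J] in
/-- the path `s` then `n` -/
theorem path_lemma (u : Tab J) (i k l : Fin 3) (hik : i ≠ k) (hil : i ≠ l) (hkl : k ≠ l)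
    (j j' x : J) (hne : j ≠ j') (hxj : x ≠ j) (hxj' : x ≠ j') (hj : u j = e i) (hj' : u j' = ne i)
    (hxk : u x k = true) (hxl : u x l = false) :
    ∃ u₁, SAdj u u₁ ∧ NAdj u₁ (upd3 u j j' x (e k) (ne l) (flp k l (u x))) := by
  cases hxi : u x i
  · obtain ⟨hv1, hv2⟩ := vec_false i k l (u x) hik hil hkl hxk hxl hxi
    refine ⟨u ∘ Equiv.swap j x, ⟨j, x, by rw [hj, hv1, cnt_e, cnt_e], rfl⟩,
      ⟨x, j', i, l, hil, ?_, ?_, ?_⟩⟩
    · simp [hj]
    · simp [Equiv.swap_apply_of_ne_of_ne hne.symm hxj'.symm, hj']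
    · rw [hv2]
      funext y
      by_cases hyx : y = x
      · subst hyx; rw [upd3_x, Function.update_of_ne hxj', Function.update_self]
      · by_cases hy' : y = j'
        · subst hy'; rw [upd3_j' _ _ _ _ hxj', Function.update_self]
        · rw [Function.update_of_ne hy', Function.update_of_ne hyx]
          by_cases hy : y = j
          · subst hy; rw [upd3_j _ _ _ _ hxj hne]; simp [hv1]
          · rw [upd3_of_ne _ _ _ _ hyx hy' hy]
            simp [Equiv.swap_apply_of_ne_of_ne hy hyx]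
  · obtain ⟨hv1, hv2⟩ := vec_true i k l (u x) hik hil hkl hxk hxl hxi
    refine ⟨u ∘ Equiv.swap j' x, ⟨j', x, by rw [hj', hv1, cnt_ne, cnt_ne], rfl⟩,
      ⟨j, x, i, k, hik, ?_, ?_, ?_⟩⟩
    · simp [Equiv.swap_apply_of_ne_of_ne hne hxj.symm, hj]
    · simp [hj']
    · rw [hv2]
      funext y
      by_cases hyx : y = x
      · subst hyx; rw [upd3_x, Function.update_self]
      · rw [Function.update_of_ne hyx]
        by_cases hy' : y = j'
        · subst hy'; rw [upd3_j' _ _ _ _ hxj', Function.update_of_ne hne.symm]; simp [hv1]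
        · by_cases hy : y = j
          · subst hy; rw [upd3_j _ _ _ _ hxj hne, Function.update_self]
          · rw [upd3_of_ne _ _ _ _ hyx hy' hy, Function.update_of_ne hy]
            simp [Equiv.swap_apply_of_ne_of_ne hy' hyx]

/-! ## the two cases -/

section NCore

variable (r : Fin 3 → ℕ) (c : J → ℕ) (f : Tab J → ℝ) (D : ℝ)

theorem ncase_eq
    (hD : ∀ w ∈ tabs r c, ∀ w' ∈ tabs r c, NAdj w w' → |f w - f w'| ≤ D)
    (i k : Fin 3) (hik : i ≠ k) (j j' : J) (hne : j ≠ j')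
    (ρ ρ' : J → Bool) (hρj : ρ j = true) (hρj' : ρ j' = false) (hρ'j : ρ' j = false)
    (hρ'j' : ρ' j' = true) (hρ : ∀ y, y ≠ j → y ≠ j' → ρ' y = ρ y)
    (A B : Finset (Tab J))
    (hA : ∀ u, u ∈ A ↔ u ∈ tabs r c ∧ rowKey i u = ρ ∧ u j = e i ∧ u j' = ne i)
    (hB : ∀ v, v ∈ B ↔ v ∈ tabs r c ∧ rowKey i v = ρ' ∧ v j = e k ∧ v j' = ne k) :
    A.card = B.card ∧ |∑ u ∈ A, f u - ∑ v ∈ B, f v| ≤ A.card * D := by
  refine sum_diff_le_of_bij A B f D
    (fun u => Function.update (Function.update u j (e k)) j' (ne k))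
    (fun v => Function.update (Function.update v j (e i)) j' (ne i)) ?_ ?_ ?_ ?_ ?_
  · intro u hu
    rw [hA] at hu
    rw [hB]
    have hadj : NAdj u (Function.update (Function.update u j (e k)) j' (ne k)) :=
      ⟨j, j', i, k, hik, hu.2.2.1, hu.2.2.2, rfl⟩
    refine ⟨hadj.mem hu.1, rowKey_upd2 u i j j' _ _ ρ ρ' hu.2.1 ?_ ?_ hρ, ?_, ?_⟩
    · rw [hρ'j, e_of_ne k i hik]
    · rw [hρ'j', ne_of_ne k i hik]
    · rw [Function.update_of_ne hne, Function.update_self]
    · rw [Function.update_self]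
  · intro v hv
    rw [hB] at hv
    rw [hA]
    have hadj : NAdj v (Function.update (Function.update v j (e i)) j' (ne i)) :=
      ⟨j, j', k, i, hik.symm, hv.2.2.1, hv.2.2.2, rfl⟩
    refine ⟨hadj.mem hv.1, rowKey_upd2 v i j j' _ _ ρ' ρ hv.2.1 ?_ ?_
      (fun y h1 h2 => (hρ y h1 h2).symm), ?_, ?_⟩
    · rw [hρj, e_self]
    · rw [hρj', ne_self]
    · rw [Function.update_of_ne hne, Function.update_self]
    · rw [Function.update_self]
  · intro u hu
    rw [hA] at hu
    exact update_update_back _ _ hu.2.2.1 hu.2.2.2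
  · intro v hv
    rw [hB] at hv
    exact update_update_back _ _ hv.2.2.1 hv.2.2.2
  · intro u hu
    rw [hA] at hu
    have hadj : NAdj u (Function.update (Function.update u j (e k)) j' (ne k)) :=
      ⟨j, j', i, k, hik, hu.2.2.1, hu.2.2.2, rfl⟩
    exact hD u hu.1 _ (hadj.mem hu.1) hadj

theorem ncase_ne
    (hS : ∀ w ∈ tabs r c, ∀ w' ∈ tabs r c, SAdj w w' → f w = f w')
    (hD : ∀ w ∈ tabs r c, ∀ w' ∈ tabs r c, NAdj w w' → |f w - f w'| ≤ D)
    (i k l : Fin 3) (hik : i ≠ k) (hil : i ≠ l) (hkl : k ≠ l) (j j' : J) (hne : j ≠ j')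
    (ρ ρ' : J → Bool) (hρj : ρ j = true) (hρj' : ρ j' = false) (hρ'j : ρ' j = false)
    (hρ'j' : ρ' j' = true) (hρ : ∀ y, y ≠ j → y ≠ j' → ρ' y = ρ y)
    (A B : Finset (Tab J))
    (hA : ∀ u, u ∈ A ↔ u ∈ tabs r c ∧ rowKey i u = ρ ∧ u j = e i ∧ u j' = ne i)
    (hB : ∀ v, v ∈ B ↔ v ∈ tabs r c ∧ rowKey i v = ρ' ∧ v j = e k ∧ v j' = ne l)
    (w₀ : Tab J) (hw₀ : w₀ ∈ A) (v₀ : Tab J) (hv₀ : v₀ ∈ B) :
    |(B.card : ℝ) * ∑ u ∈ A, f u - A.card * ∑ v ∈ B, f v| ≤ A.card * B.card * D := by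
  rw [hA] at hw₀
  rw [hB] at hv₀
  -- the extra column is neither `j` nor `j'`
  have hxA : ∀ (u : Tab J) (x : J), u j = e i → u j' = ne i → u x k = true → u x l = false →
      x ≠ j ∧ x ≠ j' := by
    intro u x h1 h2 h3 h4
    constructor
    · rintro rfl
      rw [h1, e_of_ne i k hik.symm] at h3
      exact Bool.false_ne_true h3
    · rintro rfl
      rw [h2, ne_of_ne i l hil.symm] at h4
      exact Bool.false_ne_true h4.symm
  have hxB : ∀ (v : Tab J) (x : J), v j = e k → v j' = ne l → v x l = true →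
      x ≠ j ∧ x ≠ j' := by
    intro v x h1 h2 h3
    constructor
    · rintro rfl
      rw [h1, e_of_ne k l hkl.symm] at h3
      exact Bool.false_ne_true h3
    · rintro rfl
      rw [h2, ne_self] at h3
      exact Bool.false_ne_true h3
  refine cross_le_of_double_count A B univ f D (fun u x => u x k = true ∧ u x l = false)
    (fun v x => v x l = true ∧ v x k = false)
    (univ.filter fun x => w₀ x k = true ∧ w₀ x l = false).card
    (univ.filter fun x => v₀ x l = true ∧ v₀ x k = false).card ?_ ?_ ?_ ?_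
  · rw [card_pos]
    obtain ⟨x, hx⟩ := exists01 hv₀.1 hw₀.1 i k l hik hil hkl j'
      (by rw [hv₀.2.2.2, ne_self]) (by rw [hw₀.2.2.2, ne_of_ne i l hil.symm])
      (fun y hy => by
        obtain ⟨h1, h2⟩ := hxB v₀ y hv₀.2.2.1 hv₀.2.2.2 hy
        have e1 : v₀ y i = ρ' y := congrFun hv₀.2.1 y
        have e2 : w₀ y i = ρ y := congrFun hw₀.2.1 y
        rw [e1, e2, hρ y h1 h2])
    exact ⟨x, by simp [hx]⟩
  · intro u hu
    rw [hA] at hu
    exact card10_eq hu.1 hw₀.1 i k l hik hil hkl (hu.2.1.trans hw₀.2.1.symm)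
  · intro v hv
    rw [hB] at hv
    exact card10_eq hv.1 hv₀.1 i l k hil hik hkl.symm (hv.2.1.trans hv₀.2.1.symm)
  · intro x _
    refine sum_diff_le_of_bij _ _ f D (fun u => upd3 u j j' x (e k) (ne l) (flp k l (u x)))
      (fun v => upd3 v j j' x (e i) (ne i) (flp k l (v x))) ?_ ?_ ?_ ?_ ?_
    · intro u hu
      rw [mem_filter, hA] at hu
      obtain ⟨⟨hu1, hu2, hu3, hu4⟩, hu5, hu6⟩ := hu
      obtain ⟨hxj, hxj'⟩ := hxA u x hu3 hu4 hu5 hu6
      obtain ⟨u₁, hs, hn⟩ := path_lemma u i k l hik hil hkl j j' x hne hxj hxj' hu3 hu4 hu5 hu6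
      rw [mem_filter, hB]
      refine ⟨⟨hn.mem (hs.mem hu1), rowKey_upd3 u i j j' x _ _ _ ρ ρ' hu2 ?_ ?_
        (flp_third i k l _ hik hil) hne hxj hxj' hρ, upd3_j _ _ _ _ hxj hne,
        upd3_j' _ _ _ _ hxj'⟩, ?_, ?_⟩
      · rw [hρ'j, e_of_ne k i hik]
      · rw [hρ'j', ne_of_ne l i hil]
      · rw [upd3_x, flp_right, hu5]
      · rw [upd3_x, flp_left, hu6]
    · intro v hv
      rw [mem_filter, hB] at hv
      obtain ⟨⟨hv1, hv2, hv3, hv4⟩, hv5, hv6⟩ := hv
      obtain ⟨hxj, hxj'⟩ := hxB v x hv3 hv4 hv5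
      have q1 : upd3 v j j' x (e i) (ne i) (flp k l (v x)) j = e i := upd3_j _ _ _ _ hxj hne
      have q2 : upd3 v j j' x (e i) (ne i) (flp k l (v x)) j' = ne i := upd3_j' _ _ _ _ hxj'
      have q3 : upd3 v j j' x (e i) (ne i) (flp k l (v x)) x = flp k l (v x) := upd3_x _ _ _ _ _ _ _
      have q4 : upd3 v j j' x (e i) (ne i) (flp k l (v x)) x k = true := by
        rw [q3, flp_left, hv5]
      have q5 : upd3 v j j' x (e i) (ne i) (flp k l (v x)) x l = false := by
        rw [q3, flp_right, hv6]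
      obtain ⟨u₁, hs, hn⟩ := path_lemma _ i k l hik hil hkl j j' x hne hxj hxj' q1 q2 q4 q5
      rw [q3, flp_flp, upd3_upd3 v _ _ _ _ _ _ hne hxj hxj' hv3 hv4 rfl] at hn
      rw [mem_filter, hA]
      refine ⟨⟨hs.symm.mem (hn.symm.mem hv1), rowKey_upd3 v i j j' x _ _ _ ρ' ρ hv2 ?_ ?_
        (flp_third i k l _ hik hil) hne hxj hxj' (fun y h1 h2 => (hρ y h1 h2).symm), q1, q2⟩,
        q4, q5⟩
      · rw [hρj, e_self]
      · rw [hρj', ne_self]
    · intro u hu
      rw [mem_filter, hA] at hu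
      obtain ⟨⟨hu1, hu2, hu3, hu4⟩, hu5, hu6⟩ := hu
      obtain ⟨hxj, hxj'⟩ := hxA u x hu3 hu4 hu5 hu6
      show upd3 (upd3 u j j' x (e k) (ne l) (flp k l (u x))) j j' x (e i) (ne i)
        (flp k l ((upd3 u j j' x (e k) (ne l) (flp k l (u x))) x)) = u
      rw [upd3_x, flp_flp]
      exact upd3_upd3 u _ _ _ _ _ _ hne hxj hxj' hu3 hu4 rfl
    · intro v hv
      rw [mem_filter, hB] at hv
      obtain ⟨⟨hv1, hv2, hv3, hv4⟩, hv5, hv6⟩ := hv
      obtain ⟨hxj, hxj'⟩ := hxB v x hv3 hv4 hv5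
      show upd3 (upd3 v j j' x (e i) (ne i) (flp k l (v x))) j j' x (e k) (ne l)
        (flp k l ((upd3 v j j' x (e i) (ne i) (flp k l (v x))) x)) = v
      rw [upd3_x, flp_flp]
      exact upd3_upd3 v _ _ _ _ _ _ hne hxj hxj' hv3 hv4 rfl
    · intro u hu
      rw [mem_filter, hA] at hu
      obtain ⟨⟨hu1, hu2, hu3, hu4⟩, hu5, hu6⟩ := hu
      obtain ⟨hxj, hxj'⟩ := hxA u x hu3 hu4 hu5 hu6
      obtain ⟨u₁, hs, hn⟩ := path_lemma u i k l hik hil hkl j j' x hne hxj hxj' hu3 hu4 hu5 hu6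
      rw [hS u hu1 u₁ (hs.mem hu1) hs]
      exact hD u₁ (hs.mem hu1) _ (hn.mem (hs.mem hu1)) hn

theorem cross_le_of_fiberwise {α κ : Type*} [Fintype κ] [DecidableEq κ] (nA : ℕ) (SA : ℝ)
    (B : Finset α) (f : α → ℝ) (D : ℝ) (g : α → κ)
    (h : ∀ v₀ ∈ B, |((B.filter (fun v => g v = g v₀)).card : ℝ) * SA
        - nA * ∑ v ∈ B.filter (fun v => g v = g v₀), f v|
        ≤ nA * (B.filter (fun v => g v = g v₀)).card * D) :
    |(B.card : ℝ) * SA - nA * ∑ v ∈ B, f v| ≤ nA * B.card * D := by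
  have h' : ∀ k : κ, |((B.filter (fun v => g v = k)).card : ℝ) * SA
      - nA * ∑ v ∈ B.filter (fun v => g v = k), f v|
      ≤ nA * (B.filter (fun v => g v = k)).card * D := by
    intro k
    by_cases hk : ∃ v₀ ∈ B, g v₀ = k
    · obtain ⟨v₀, hv₀, rfl⟩ := hk
      exact h v₀ hv₀
    · have : B.filter (fun v => g v = k) = ∅ := by
        rw [filter_eq_empty_iff]
        intro v hv hgv
        exact hk ⟨v, hv, hgv⟩
      rw [this]
      simp
  have hc : (B.card : ℝ) = ∑ k, ((B.filter (fun v => g v = k)).card : ℝ) := by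
    rw [← Nat.cast_sum]
    congr 1
    exact card_eq_sum_card_fiberwise (fun _ _ => mem_univ _)
  have hs : ∑ v ∈ B, f v = ∑ k, ∑ v ∈ B.filter (fun v => g v = k), f v :=
    (sum_fiberwise B g f).symm
  rw [hc, hs, sum_mul, mul_sum, ← sum_sub_distrib, mul_sum, sum_mul]
  exact (abs_sum_le_sum_abs _ _).trans (sum_le_sum fun k _ => h' k)

theorem nrow
    (hS : ∀ w ∈ tabs r c, ∀ w' ∈ tabs r c, SAdj w w' → f w = f w')
    (hD : ∀ w ∈ tabs r c, ∀ w' ∈ tabs r c, NAdj w w' → |f w - f w'| ≤ D)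
    (w : Tab J) (hw : w ∈ tabs r c) (j j' : J) (i i' : Fin 3) (hii : i ≠ i') (h1 : w j = e i)
    (h2 : w j' = ne i) :
    |cE (tabs r c) (rowKey i) f w
      - cE (tabs r c) (rowKey i) f (Function.update (Function.update w j (e i')) j' (ne i'))|
      ≤ D := by
  set w' := Function.update (Function.update w j (e i')) j' (ne i') with hw'def
  have hadj : NAdj w w' := ⟨j, j', i, i', hii, h1, h2, rfl⟩
  have hw' : w' ∈ tabs r c := hadj.mem hw
  have hne : j ≠ j' := by
    rintro rfl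
    exact e_ne_ne i i (h1.symm.trans h2)
  have hcj : c j = 1 := by rw [← (mem_tabs.mp hw).2 j, h1, cnt_e]
  have hcj' : c j' = 2 := by rw [← (mem_tabs.mp hw).2 j', h2, cnt_ne]
  have hρj : rowKey i w j = true := by
    show w j i = true
    rw [h1, e_self]
  have hρj' : rowKey i w j' = false := by
    show w j' i = false
    rw [h2, ne_self]
  have hρ'j : rowKey i w' j = false := by
    show w' j i = false
    rw [hw'def, Function.update_of_ne hne, Function.update_self, e_of_ne i' i hii]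
  have hρ'j' : rowKey i w' j' = true := by
    show w' j' i = true
    rw [hw'def, Function.update_self, ne_of_ne i' i hii]
  have hρ : ∀ y, y ≠ j → y ≠ j' → rowKey i w' y = rowKey i w y := by
    intro y hy hy'
    show w' y i = w y i
    rw [hw'def, Function.update_of_ne hy', Function.update_of_ne hy]
  unfold cE
  refine avg_diff_le _ _ _ _ D (card_pos.mpr ⟨w, self_mem_fibre hw⟩)
    (card_pos.mpr ⟨w', self_mem_fibre hw'⟩) ?_
  have hA : ∀ u, u ∈ fibre (tabs r c) (rowKey i) w ↔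
      u ∈ tabs r c ∧ rowKey i u = rowKey i w ∧ u j = e i ∧ u j' = ne i := by
    intro u
    rw [mem_fibre]
    constructor
    · rintro ⟨hu1, hu2⟩
      refine ⟨hu1, hu2, eq_e_of i _ ?_ ?_, eq_ne_of i _ ?_ ?_⟩
      · exact (congrFun hu2 j).trans hρj
      · rw [(mem_tabs.mp hu1).2, hcj]
      · exact (congrFun hu2 j').trans hρj'
      · rw [(mem_tabs.mp hu1).2, hcj']
    · rintro ⟨hu1, hu2, -, -⟩
      exact ⟨hu1, hu2⟩
  refine cross_le_of_fiberwise _ _ _ f D (fun v => (v j, v j')) ?_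
  intro v₀ hv₀
  have hv₀' := mem_fibre.mp hv₀
  obtain ⟨k, hki, hvk⟩ := exists_e_of i (v₀ j) ((congrFun hv₀'.2 j).trans hρ'j)
    (by rw [(mem_tabs.mp hv₀'.1).2, hcj])
  obtain ⟨l, hli, hvl⟩ := exists_ne_of i (v₀ j') ((congrFun hv₀'.2 j').trans hρ'j')
    (by rw [(mem_tabs.mp hv₀'.1).2, hcj'])
  have hB : ∀ v, v ∈ (fibre (tabs r c) (rowKey i) w').filter
      (fun v => (v j, v j') = (v₀ j, v₀ j')) ↔
      v ∈ tabs r c ∧ rowKey i v = rowKey i w' ∧ v j = e k ∧ v j' = ne l := by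
    intro v
    rw [mem_filter, mem_fibre, Prod.mk.injEq, hvk, hvl]
    tauto
  by_cases hkl : k = l
  · subst hkl
    exact cross_of_bij _ _ _ _ D (ncase_eq r c f D hD i k hki.symm j j' hne _ _ hρj hρj' hρ'j
      hρ'j' hρ _ _ hA hB)
  · exact ncase_ne r c f D hS hD i k l hki.symm hli.symm hkl j j' hne _ _ hρj hρj' hρ'j
      hρ'j' hρ _ _ hA hB w (self_mem_fibre hw) v₀ ((hB v₀).mpr ⟨hv₀'.1, hv₀'.2, hvk, hvl⟩)

theorem exists_other : ∀ i i' : Fin 3, ∃ m, m ≠ i ∧ m ≠ i' := by decide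

theorem nstep
    (hS : ∀ w ∈ tabs r c, ∀ w' ∈ tabs r c, SAdj w w' → f w = f w')
    (hD : ∀ w ∈ tabs r c, ∀ w' ∈ tabs r c, NAdj w w' → |f w - f w'| ≤ D) :
    ∀ w ∈ tabs r c, ∀ w' ∈ tabs r c, NAdj w w' →
      |∑ m, cE (tabs r c) (rowKey m) f w - ∑ m, cE (tabs r c) (rowKey m) f w'| ≤ 2 * D := by
  rintro w hw w' hw' ⟨j, j', i, i', hii, h1, h2, rfl⟩
  have hD0 : 0 ≤ D := (abs_nonneg _).trans (hD w hw _ hw' ⟨j, j', i, i', hii, h1, h2, rfl⟩)
  have hne : j ≠ j' := by
    rintro rfl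
    exact e_ne_ne i i (h1.symm.trans h2)
  have hrow : ∀ m, m ≠ i → m ≠ i' →
      rowKey m w = rowKey m (Function.update (Function.update w j (e i')) j' (ne i')) := by
    intro m hm hm'
    refine (rowKey_upd2 w m j j' _ _ (rowKey m w) (rowKey m w) rfl ?_ ?_ (fun _ _ _ => rfl)).symm
    · show e i' m = w j m
      rw [h1, e_of_ne _ _ hm, e_of_ne _ _ hm']
    · show ne i' m = w j' m
      rw [h2, ne_of_ne _ _ hm, ne_of_ne _ _ hm']
  obtain ⟨m₀, hm₀, hm₀'⟩ := exists_other i i'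
  rw [← sum_sub_distrib]
  refine abs_sum_three_le _ D m₀ ?_ fun m => ?_
  · rw [sub_eq_zero]
    exact cE_congr (hrow m₀ hm₀ hm₀') f
  · by_cases hm : m = i
    · subst hm
      exact nrow r c f D hS hD w hw j j' m i' hii h1 h2
    · by_cases hm' : m = i'
      · subst hm'
        have := nrow r c f D hS hD _ hw' j j' m i hii.symm
          (by rw [Function.update_of_ne hne, Function.update_self]) (by rw [Function.update_self])
        rw [update_update_back _ _ h1 h2] at this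
        rw [abs_sub_comm]
        exact this
      · rw [cE_congr (hrow m hm hm') f, sub_self, abs_zero]
        exact hD0

end NCore

end Crest.Agent.Switch.TR
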