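import Mathlib
import Crest.Agent.Switch.ThreeRowN

/-!
# The 3-row lemma: connectivity of the row fibres and assembly (column-wise tables)
-/

set_option autoImplicit false

namespace Crest.Agent.Switch.TR

open Finset

theorem diff_vec : ∀ (i : Fin 3) (v v' : Vec), v i = v' i → cnt v = cnt v' → v ≠ v' →
    ∃ k l, i ≠ k ∧ i ≠ l ∧ k ≠ l ∧ v k = true ∧ v l = false ∧ v' k = false ∧ v' l = true := by
  decide

theorem vec_other : ∀ (i k l : Fin 3) (v v' : Vec), i ≠ k → i ≠ l → k ≠ l → v i = v' i →
    cnt v = cnt v' → v k = true → v' k = false → v l = false ∧ v' l = true := by decide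

theorem vec_ext3 : ∀ (i k l : Fin 3), i ≠ k → i ≠ l → k ≠ l → ∀ (v v' : Vec), v i = v' i →
    v k = v' k → v l = v' l → v = v' := by decide

variable {J : Type*} [Fintype J] [DecidableEq J]

theorem exists_opposite {r : Fin 3 → ℕ} {c : J → ℕ} {u v : Tab J} (hu : u ∈ tabs r c)
    (hv : v ∈ tabs r c) (k : Fin 3) (x : J) (hux : u x k = true) (hvx : v x k = false) :
    ∃ y, v y k = true ∧ u y k = false := by
  by_contra hcon
  have hcon' : ∀ y, v y k = true → u y k = true := by
    intro y hy
    by_contra h
    exact hcon ⟨y, hy, by simpa using h⟩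
  rw [mem_tabs] at hu hv
  have hlt : rowSum v k < rowSum u k := by
    refine sum_lt_sum (fun y _ => ?_) ⟨x, mem_univ _, ?_⟩
    · cases hy : v y k
      · simp
      · rw [hcon' y hy]
    · rw [hux, hvx]; decide
  rw [hu.1, hv.1] at hlt
  exact lt_irrefl _ hlt

omit [Fintype J] in
/-- one switch towards `v` is an `s`-move or an `n`-move -/
theorem adj_of_switch (u v : Tab J) (i k l : Fin 3) (hik : i ≠ k) (hil : i ≠ l) (hkl : k ≠ l)
    (x y : J) (hxy : x ≠ y) (hxi : u x i = v x i) (hyi : u y i = v y i)
    (h1 : u x k = true) (h2 : u x l = false) (h3 : v x k = false) (h4 : v x l = true)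
    (h5 : u y k = false) (h6 : u y l = true) (h7 : v y k = true) (h8 : v y l = false) :
    SAdj u (Function.update (Function.update u x (v x)) y (v y)) ∨
      NAdj u (Function.update (Function.update u x (v x)) y (v y)) := by
  by_cases hab : u x i = u y i
  · left
    have e1 : v x = u y := vec_ext3 i k l hik hil hkl _ _ (by rw [← hxi, hab]) (by rw [h3, h5])
      (by rw [h4, h6])
    have e2 : v y = u x := vec_ext3 i k l hik hil hkl _ _ (by rw [← hyi, hab]) (by rw [h7, h1])
      (by rw [h8, h2])
    have e3 : cnt (u x) = cnt (u y) := by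
      cases ha : u x i
      · rw [(vec_false i k l (u x) hik hil hkl h1 h2 ha).1,
          (vec_false i l k (u y) hil hik hkl.symm h6 h5 (by rw [← hab, ha])).1, cnt_e, cnt_e]
      · rw [(vec_true i k l (u x) hik hil hkl h1 h2 ha).1,
          (vec_true i l k (u y) hil hik hkl.symm h6 h5 (by rw [← hab, ha])).1, cnt_ne, cnt_ne]
    refine ⟨x, y, e3, ?_⟩
    funext z
    by_cases hzy : z = y
    · subst hzy; rw [Function.update_self, e2]; simp
    · rw [Function.update_of_ne hzy]
      by_cases hzx : z = x
      · subst hzx; rw [Function.update_self, e1]; simp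
      · rw [Function.update_of_ne hzx]
        simp [Equiv.swap_apply_of_ne_of_ne hzx hzy]
  · right
    cases ha : u x i
    · have hb : u y i = true := by
        cases hb : u y i
        · exact absurd (ha.trans hb.symm) hab
        · rfl
      refine ⟨x, y, k, l, hkl, (vec_false i k l (u x) hik hil hkl h1 h2 ha).1,
        (vec_true i l k (u y) hil hik hkl.symm h6 h5 hb).1, ?_⟩
      rw [(vec_false i l k (v x) hil hik hkl.symm h4 h3 (by rw [← hxi, ha])).1,
        (vec_true i k l (v y) hik hil hkl h7 h8 (by rw [← hyi, hb])).1]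
    · have hb : u y i = false := by
        cases hb : u y i
        · rfl
        · exact absurd (ha.trans hb.symm) hab
      refine ⟨y, x, l, k, hkl.symm, (vec_false i l k (u y) hil hik hkl.symm h6 h5 hb).1,
        (vec_true i k l (u x) hik hil hkl h1 h2 ha).1, ?_⟩
      rw [Function.update_comm hxy,
        (vec_true i l k (v x) hil hik hkl.symm h4 h3 (by rw [← hxi, ha])).1,
        (vec_false i k l (v y) hik hil hkl h7 h8 (by rw [← hyi, hb])).1]

theorem const_on_fibre (r : Fin 3 → ℕ) (c : J → ℕ) (f : Tab J → ℝ)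
    (hS : ∀ w ∈ tabs r c, ∀ w' ∈ tabs r c, SAdj w w' → f w = f w')
    (hN : ∀ w ∈ tabs r c, ∀ w' ∈ tabs r c, NAdj w w' → f w = f w') (i : Fin 3) :
    ∀ (n : ℕ) (u v : Tab J), u ∈ tabs r c → v ∈ tabs r c → rowKey i u = rowKey i v →
      (univ.filter fun x => u x ≠ v x).card = n → f u = f v := by
  intro n
  induction n using Nat.strong_induction_on with
  | _ n ih =>
    intro u v hu hv huv hn
    by_cases heq : u = v
    · rw [heq]
    · obtain ⟨x, hx⟩ := Function.ne_iff.mp heq
      have hcx : ∀ z, cnt (u z) = cnt (v z) := fun z => by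
        rw [(mem_tabs.mp hu).2, (mem_tabs.mp hv).2]
      have hi : ∀ z, u z i = v z i := fun z => congrFun huv z
      obtain ⟨k, l, hik, hil, hkl, h1, h2, h3, h4⟩ := diff_vec i _ _ (hi x) (hcx x) hx
      obtain ⟨y, h7, h5⟩ := exists_opposite hu hv k x h1 h3
      obtain ⟨h8, h6⟩ := vec_other i k l (v y) (u y) hik hil hkl (hi y).symm (hcx y).symm h7 h5
      have hxy : x ≠ y := by
        rintro rfl
        rw [h1] at h5
        exact Bool.false_ne_true h5.symm
      set u₁ := Function.update (Function.update u x (v x)) y (v y) with hu₁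
      have hadj := adj_of_switch u v i k l hik hil hkl x y hxy (hi x) (hi y) h1 h2 h3 h4 h5 h6 h7 h8
      have hu₁mem : u₁ ∈ tabs r c := by
        rcases hadj with h | h
        · exact h.mem hu
        · exact h.mem hu
      have hfu : f u = f u₁ := by
        rcases hadj with h | h
        · exact hS u hu u₁ hu₁mem h
        · exact hN u hu u₁ hu₁mem h
      have hrow : rowKey i u₁ = rowKey i v := by
        rw [← huv]
        exact rowKey_upd2 u i x y _ _ (rowKey i u) (rowKey i u) rfl (hi x).symm (hi y).symm
          (fun _ _ _ => rfl)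
      have hlt : (univ.filter fun z => u₁ z ≠ v z).card < n := by
        rw [← hn]
        refine card_lt_card ?_
        rw [ssubset_iff_of_subset]
        · refine ⟨x, by simp [hx], ?_⟩
          simp [hu₁, Function.update_of_ne hxy]
        · intro z hz
          rw [mem_filter] at hz ⊢
          refine ⟨mem_univ _, ?_⟩
          have hz2 := hz.2
          by_cases hzy : z = y
          · subst hzy
            rw [hu₁, Function.update_self] at hz2
            exact absurd rfl hz2
          · by_cases hzx : z = x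
            · subst hzx
              exact hx
            · rw [hu₁, Function.update_of_ne hzy, Function.update_of_ne hzx] at hz2
              exact hz2
      rw [hfu]
      exact ih _ hlt u₁ v hu₁mem hv hrow rfl

theorem eigen_invariant (r : Fin 3 → ℕ) (c : J → ℕ) (lam : ℝ) (f : Tab J → ℝ) (hlam : 2 < lam)
    (hK : ∀ w ∈ tabs r c, ∑ m, cE (tabs r c) (rowKey m) f w = lam * f w) :
    ∀ m, ∀ w ∈ tabs r c, cE (tabs r c) (rowKey m) f w = f w := by
  have hS := lipschitz_zero (tabs r c) SAdj f (fun w => ∑ m, cE (tabs r c) (rowKey m) f w) lam hlam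
    hK (fun D hD => sstep r c f D hD)
  have hN := lipschitz_zero (tabs r c) NAdj f (fun w => ∑ m, cE (tabs r c) (rowKey m) f w) lam hlam
    hK (fun D hD => nstep r c f D hS hD)
  intro m w hw
  refine cE_eq_of_const hw fun u hu => ?_
  rw [mem_fibre] at hu
  exact const_on_fibre r c f hS hN m _ u w hu.1 hw hu.2 rfl

/-- The 3-row lemma, column-wise tables. -/
theorem three_row_col (r : Fin 3 → ℕ) (c : J → ℕ) (f : Tab J → ℝ) :
    ∑ i, ∑ w ∈ tabs r c, (f w - cE (tabs r c) (rowKey i) f w) ^ 2
      ≤ ∑ w ∈ tabs r c, (∑ i, (f w - cE (tabs r c) (rowKey i) f w)) ^ 2 :=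
  sum_proj_sq_le (tabs r c) rowKey
    (fun lam f hlam hK => eigen_invariant r c lam f (by
      have : ((Fintype.card (Fin 3) : ℕ) : ℝ) = 3 := by simp
      rw [this] at hlam
      linarith) hK) f

end Crest.Agent.Switch.TR
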