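import Crest.Agent.Switch.Basic
import Crest.Agent.Switch.ThreeRowConn

/-!
# Module M5: the 3-row lemma

For the uniform measure on the set of `3 × J` zero-one tables with prescribed row and column sums,
and `E_i` the conditional expectation given row `i`, `Q_i = 1 - E_i`:
`∑_i ‖Q_i f‖² ≤ ‖∑_i Q_i f‖²`, i.e. `∑_{i<i'} ⟨Q_i f, Q_i' f⟩ ≥ 0`.
-/

set_option autoImplicit false
open Finset

namespace Crest.Agent.Switch

variable {J : Type*} [Fintype J] [DecidableEq J]

/-- `3 × J` zero-one tables with row sums `r` and column sums `c`. -/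
def tables (r : Fin 3 → ℕ) (c : J → ℕ) : Finset (Fin 3 → J → Bool) :=
  univ.filter fun w => (∀ i, (univ.filter fun j => w i j = true).card = r i) ∧
    (∀ j, (univ.filter fun i => w i j = true).card = c j)

theorem mem_tables {r : Fin 3 → ℕ} {c : J → ℕ} {w : Fin 3 → J → Bool} :
    w ∈ tables r c ↔ (∀ i, (univ.filter fun j => w i j = true).card = r i) ∧
      (∀ j, (univ.filter fun i => w i j = true).card = c j) := by
  simp [tables]

namespace TR

/-- transposition of a table -/
def tr (w : Tab J) : Fin 3 → J → Bool := fun i j => w j i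

omit [Fintype J] [DecidableEq J] in
theorem tr_injective : Function.Injective (tr : Tab J → _) := by
  intro w w' h
  funext j i
  exact congrFun (congrFun h i) j

omit [DecidableEq J] in
theorem rowSum_eq_card (w : Tab J) (i : Fin 3) :
    rowSum w i = (univ.filter fun j => w j i = true).card := by
  rw [card_filter]
  refine sum_congr rfl fun j _ => ?_
  cases w j i <;> rfl

theorem tables_eq_image (r : Fin 3 → ℕ) (c : J → ℕ) : tables r c = (tabs r c).image tr := by
  ext w
  rw [mem_tables, mem_image]
  constructor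
  · rintro ⟨h1, h2⟩
    refine ⟨fun j i => w i j, mem_tabs.mpr ⟨fun i => ?_, fun j => h2 j⟩, rfl⟩
    rw [rowSum_eq_card]
    exact h1 i
  · rintro ⟨x, hx, rfl⟩
    rw [mem_tabs] at hx
    refine ⟨fun i => ?_, fun j => hx.2 j⟩
    rw [← hx.1 i, rowSum_eq_card]
    rfl

end TR

open TR in
/-- **The 3-row lemma.** -/
theorem three_row (r : Fin 3 → ℕ) (c : J → ℕ) (f : (Fin 3 → J → Bool) → ℝ) :
    ∑ i, ∑ w ∈ tables r c, (qe (tables r c) (fun w => w i) f w) ^ 2
      ≤ ∑ w ∈ tables r c, (∑ i, qe (tables r c) (fun w => w i) f w) ^ 2 := by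
  have hinj : Set.InjOn (tr : Tab J → _) (tabs r c) := tr_injective.injOn
  have hq : ∀ i, ∀ x ∈ tabs r c, qe (tables r c) (fun w => w i) f (tr x)
      = f (tr x) - cE (tabs r c) (rowKey i) (fun y => f (tr y)) x := by
    intro i x hx
    rw [tables_eq_image]
    exact qe_image (φ := rowKey i) (φ' := fun w : Fin 3 → J → Bool => w i) hinj
      (fun _ _ _ _ => Iff.rfl) f hx
  have h := three_row_col r c (fun y => f (tr y))
  have e1 : ∀ i, ∑ w ∈ tables r c, (qe (tables r c) (fun w => w i) f w) ^ 2
      = ∑ x ∈ tabs r c, (f (tr x) - cE (tabs r c) (rowKey i) (fun y => f (tr y)) x) ^ 2 := by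
    intro i
    conv_lhs => rw [tables_eq_image r c, sum_image hinj, ← tables_eq_image r c]
    exact sum_congr rfl fun x hx => by rw [hq i x hx]
  have e2 : ∑ w ∈ tables r c, (∑ i, qe (tables r c) (fun w => w i) f w) ^ 2
      = ∑ x ∈ tabs r c, (∑ i, (f (tr x) - cE (tabs r c) (rowKey i) (fun y => f (tr y)) x)) ^ 2 := by
    conv_lhs => rw [tables_eq_image r c, sum_image hinj, ← tables_eq_image r c]
    exact sum_congr rfl fun x hx => by rw [sum_congr rfl fun i _ => hq i x hx]
  rw [sum_congr rfl fun i _ => e1 i, e2]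
  exact h

/-- The 3-row lemma in inner-product form. -/
theorem three_row_ip (r : Fin 3 → ℕ) (c : J → ℕ) (f : (Fin 3 → J → Bool) → ℝ) :
    0 ≤ ip (tables r c) (qe (tables r c) (fun w => w 0) f) (qe (tables r c) (fun w => w 1) f)
      + ip (tables r c) (qe (tables r c) (fun w => w 0) f) (qe (tables r c) (fun w => w 2) f)
      + ip (tables r c) (qe (tables r c) (fun w => w 1) f) (qe (tables r c) (fun w => w 2) f) := by
  have h := three_row r c f
  rw [Fin.sum_univ_three] at h
  simp only [Fin.sum_univ_three] at h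
  unfold ip
  rw [← sum_add_distrib, ← sum_add_distrib] at h ⊢
  have h2 : 0 ≤ ∑ w ∈ tables r c, ((qe (tables r c) (fun w => w 0) f w
      + qe (tables r c) (fun w => w 1) f w + qe (tables r c) (fun w => w 2) f w) ^ 2
      - (qe (tables r c) (fun w => w 0) f w ^ 2 + qe (tables r c) (fun w => w 1) f w ^ 2
        + qe (tables r c) (fun w => w 2) f w ^ 2)) := by
    rw [sum_sub_distrib]
    linarith
  have h3 : ∑ w ∈ tables r c, ((qe (tables r c) (fun w => w 0) f w
      + qe (tables r c) (fun w => w 1) f w + qe (tables r c) (fun w => w 2) f w) ^ 2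
      - (qe (tables r c) (fun w => w 0) f w ^ 2 + qe (tables r c) (fun w => w 1) f w ^ 2
        + qe (tables r c) (fun w => w 2) f w ^ 2))
      = 2 * ∑ w ∈ tables r c, (qe (tables r c) (fun w => w 0) f w * qe (tables r c) (fun w => w 1) f w
        + qe (tables r c) (fun w => w 0) f w * qe (tables r c) (fun w => w 2) f w
        + qe (tables r c) (fun w => w 1) f w * qe (tables r c) (fun w => w 2) f w) := by
    rw [mul_sum]
    exact sum_congr rfl fun w _ => by ring
  rw [h3] at h2
  linarith

end Crest.Agent.Switch
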