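import Crest.Agent.Switch.TripleBij

/-! # Module M8: overlapping pairs.  `OV_T ≥ 0` at graph level from the abstract 3-row lemma. -/

set_option autoImplicit false
open Finset Crest.SwitchChain

namespace Crest.Agent.Switch
namespace Tri

variable {n : ℕ}

/-- 3-row tables with prescribed margins. -/
def tbl (r : Fin 3 → ℕ) (c : Fin n → ℕ) : Finset (Fin 3 → Fin n → Bool) :=
  univ.filter fun w => (∀ i, rs w i = r i) ∧ ∀ j, cs w j = c j

/-- the abstract three-row statement (module M5) for the column type `Fin n`. -/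
def ThreeRow (n : ℕ) : Prop :=
  ∀ (r : Fin 3 → ℕ) (c : Fin n → ℕ) (f : (Fin 3 → Fin n → Bool) → ℝ),
    ∑ i, ∑ w ∈ tbl r c, (qe (tbl r c) (fun w => w i) f w) ^ 2 ≤
      ∑ w ∈ tbl r c, (∑ i, qe (tbl r c) (fun w => w i) f w) ^ 2

theorem triple_fib (H : ThreeRow n) (d : Fin n → ℕ) (t : Fin 3 → Fin n)
    (ht : Function.Injective t) (f : Gr n → ℝ) (G₀ : Gr n) (hG₀ : G₀ ∈ realizations d) :
    0 ≤ ∑ G ∈ fib (realizations d) (fun G => G \ star3 (t 0) (t 1) (t 2)) G₀,
      ((∑ i, qe (realizations d) (fun G => G \ star2 (t (i+1)) (t (i+2))) f G) ^ 2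
        - ∑ i, (qe (realizations d) (fun G => G \ star2 (t (i+1)) (t (i+2))) f G) ^ 2) := by
  set Ω := realizations d with hΩ
  set κT : Gr n → Gr n := fun G => G \ star3 (t 0) (t 1) (t 2) with hκT
  set κ : Fin 3 → Gr n → Gr n := fun i G => G \ star2 (t (i+1)) (t (i+2)) with hκ
  set Φ := fib Ω κT G₀ with hΦ
  set Tb := tbl (rs (tab t G₀)) (cs (tab t G₀)) with hTb
  have hdegΩ : ∀ G ∈ Ω, ∀ v, deg G v = d v := by
    intro G hG; exact (mem_filter.1 hG).2
  have hΦmem : ∀ G, G ∈ Φ ↔ (G ∈ Ω ∧ AgreeOff t G G₀) := by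
    intro G
    simp only [hΦ, fib, mem_filter, hκT]
    rw [agreeOff_iff]
  have hdeg0 : ∀ G ∈ Φ, ∀ v, deg G v = deg G₀ v := by
    intro G hG v
    rw [hdegΩ G ((hΦmem G).1 hG).1 v, hdegΩ G₀ hG₀ v]
  have hfac : ∀ i, ∀ x y, κ i x = κ i y → κT x = κT y := by
    intro i x y h
    simp only [hκ, hκT] at h ⊢
    rw [sdiff_star2_eq_iff] at h
    rw [agreeOff_iff]
    intro u v hu hv
    exact h u v (not_mem_TT hu _) (not_mem_TT hu _) (not_mem_TT hv _) (not_mem_TT hv _)
  have h1 : ∀ G ∈ Φ, tab t G ∈ Tb := by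
    intro G hG
    have hag := ((hΦmem G).1 hG).2
    exact mem_filter.2 ⟨mem_univ _, fun i => rs_eq t ht (hdeg0 G hG) hag i,
      fun j => cs_eq t ht (hdeg0 G hG) hag j⟩
  have h2 : ∀ w ∈ Tb, ofTab t G₀ w ∈ Φ := by
    intro w hw
    obtain ⟨-, hr, hc⟩ := mem_filter.1 hw
    rw [hΦmem]
    refine ⟨mem_filter.2 ⟨mem_univ _, fun v => ?_⟩, agreeOff_ofTab t G₀ w⟩
    rw [deg_ofTab t ht G₀ w hr hc v, hdegΩ G₀ hG₀ v]
  have h3 : ∀ G ∈ Φ, ofTab t G₀ (tab t G) = G := by
    intro G hG
    exact ofTab_tab t ht G₀ ((hΦmem G).1 hG).2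
  have h4 : ∀ w ∈ Tb, tab t (ofTab t G₀ w) = w := by
    intro w hw
    obtain ⟨-, -, hc⟩ := mem_filter.1 hw
    apply tab_ofTab t ht G₀ w
    intro i k hk
    have h := hc (t k)
    rw [cs_in t ht G₀ k hk] at h
    unfold cs at h
    have := (Finset.sum_eq_zero_iff.1 h) i (mem_univ _)
    cases hh : w i (t k)
    · rfl
    · rw [hh] at this; simp at this
  have hk : ∀ i, ∀ x ∈ Φ, ∀ x' ∈ Φ, κ i x = κ i x' ↔ (tab t x) i = (tab t x') i := by
    intro i x hx x' hx'
    have hag : AgreeOff t x x' := by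
      intro u v hu hv
      rw [((hΦmem x).1 hx).2 u v hu hv, ((hΦmem x').1 hx').2 u v hu hv]
    have hdeg : ∀ v, deg x v = deg x' v := by
      intro v; rw [hdeg0 x hx, hdeg0 x' hx']
    exact row_eq_iff t ht hdeg hag i
  -- transfer
  have hsum : ∑ G ∈ Φ, ((∑ i, qe Ω (κ i) f G) ^ 2 - ∑ i, (qe Ω (κ i) f G) ^ 2)
      = ∑ w ∈ Tb, ((∑ i, qe Tb (fun w => w i) (fun z => f (ofTab t G₀ z)) w) ^ 2
          - ∑ i, (qe Tb (fun w => w i) (fun z => f (ofTab t G₀ z)) w) ^ 2) := by
    refine Finset.sum_nbij' (tab t) (ofTab t G₀) h1 h2 h3 h4 ?_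
    intro G hG
    have hq : ∀ i, qe Tb (fun w => w i) (fun z => f (ofTab t G₀ z)) (tab t G) = qe Ω (κ i) f G := by
      intro i
      rw [qe_transfer Φ Tb (tab t) (ofTab t G₀) h1 h2 h3 h4 (κ i) (fun w => w i) (hk i) f
        (tab t G) (h1 G hG), h3 G hG]
      exact qe_restrict Ω κT (κ i) (hfac i) f G₀ G hG
    simp only [hq]
  rw [hsum, Finset.sum_sub_distrib, sub_nonneg, Finset.sum_comm]
  exact H _ _ _

/-- **M8** (indexed form). -/
theorem triple_ov' (H : ThreeRow n) (d : Fin n → ℕ) (t : Fin 3 → Fin n)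
    (ht : Function.Injective t) (f : Gr n → ℝ) :
    ∑ G ∈ realizations d,
        ∑ i, (qe (realizations d) (fun G => G \ star2 (t (i+1)) (t (i+2))) f G) ^ 2 ≤
      ∑ G ∈ realizations d,
        (∑ i, qe (realizations d) (fun G => G \ star2 (t (i+1)) (t (i+2))) f G) ^ 2 := by
  rw [← sub_nonneg, ← Finset.sum_sub_distrib]
  exact sum_nonneg_of_fib _ (fun G => G \ star3 (t 0) (t 1) (t 2)) _
    (fun G₀ hG₀ => triple_fib H d t ht f G₀ hG₀)

theorem star2_comm (a b : Fin n) : star2 a b = star2 b a := by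
  unfold star2; exact union_comm _ _

/-- **M8**: for a triple `a,b,c` of distinct vertices,
`‖Q_ab f‖² + ‖Q_ac f‖² + ‖Q_bc f‖² ≤ ‖Q_ab f + Q_ac f + Q_bc f‖²`. -/
theorem triple_ov (H : ThreeRow n) (d : Fin n → ℕ) (a b c : Fin n) (h : dist3 a b c)
    (f : Gr n → ℝ) :
    ∑ G ∈ realizations d,
        ((qe (realizations d) (fun G => G \ star2 a b) f G) ^ 2
          + (qe (realizations d) (fun G => G \ star2 a c) f G) ^ 2
          + (qe (realizations d) (fun G => G \ star2 b c) f G) ^ 2) ≤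
      ∑ G ∈ realizations d,
        (qe (realizations d) (fun G => G \ star2 a b) f G
          + qe (realizations d) (fun G => G \ star2 a c) f G
          + qe (realizations d) (fun G => G \ star2 b c) f G) ^ 2 := by
  obtain ⟨hab, hac, hbc⟩ := h
  have ht : Function.Injective ![a, b, c] := by
    intro i j hij
    fin_cases i <;> fin_cases j <;> simp_all
  have := triple_ov' H d ![a, b, c] ht f
  simp only [Fin.sum_univ_three] at this
  have e0 : (![a, b, c] : Fin 3 → Fin n) (0 + 1) = b := rfl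
  have e1 : (![a, b, c] : Fin 3 → Fin n) (0 + 2) = c := rfl
  have e2 : (![a, b, c] : Fin 3 → Fin n) (1 + 1) = c := rfl
  have e3 : (![a, b, c] : Fin 3 → Fin n) (1 + 2) = a := rfl
  have e4 : (![a, b, c] : Fin 3 → Fin n) (2 + 1) = a := rfl
  have e5 : (![a, b, c] : Fin 3 → Fin n) (2 + 2) = b := rfl
  rw [e0, e1, e2, e3, e4, e5, star2_comm c a] at this
  calc _ = _ := by
        apply Finset.sum_congr rfl; intro G _; ring
    _ ≤ _ := this
    _ = _ := by
        apply Finset.sum_congr rfl; intro G _; ring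

/-- the exact conclusion of the skeleton theorem `triple_nonneg`, from the abstract 3-row lemma. -/
theorem triple_nonneg_of_threeRow (H : ThreeRow n) (d : Fin n → ℕ) (f : Gr n → ℝ) (a b c : Fin n)
    (h : dist3 a b c) :
    0 ≤ ip (realizations d) (Qp (realizations d) a b f) (Qp (realizations d) a c f)
      + ip (realizations d) (Qp (realizations d) a b f) (Qp (realizations d) b c f)
      + ip (realizations d) (Qp (realizations d) a c f) (Qp (realizations d) b c f) := by
  have h1 := triple_ov H d a b c h f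
  unfold ip Qp
  rw [← Finset.sum_add_distrib, ← Finset.sum_add_distrib]
  rw [← sub_nonneg, ← Finset.sum_sub_distrib] at h1
  have h2 : ∑ G ∈ realizations d,
      ((qe (realizations d) (fun G => G \ star2 a b) f G
          + qe (realizations d) (fun G => G \ star2 a c) f G
          + qe (realizations d) (fun G => G \ star2 b c) f G) ^ 2
        - ((qe (realizations d) (fun G => G \ star2 a b) f G) ^ 2
          + (qe (realizations d) (fun G => G \ star2 a c) f G) ^ 2
          + (qe (realizations d) (fun G => G \ star2 b c) f G) ^ 2))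
      = 2 * ∑ G ∈ realizations d,
        (qe (realizations d) (fun G => G \ star2 a b) f G
            * qe (realizations d) (fun G => G \ star2 a c) f G
          + qe (realizations d) (fun G => G \ star2 a b) f G
            * qe (realizations d) (fun G => G \ star2 b c) f G
          + qe (realizations d) (fun G => G \ star2 a c) f G
            * qe (realizations d) (fun G => G \ star2 b c) f G) := by
    rw [Finset.mul_sum]
    apply Finset.sum_congr rfl
    intro G _
    ring
  rw [h2] at h1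
  linarith

end Tri
end Crest.Agent.Switch
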