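import Crest.Agent.Switch.Graph
import Crest.Agent.Switch.TripleMain
import Crest.Agent.Switch.ThreeRow

/-! # Module M8: three pairs inside a triple (from the 3-row lemma) -/

set_option autoImplicit false
open Finset Crest.SwitchChain

namespace Crest.Agent.Switch

variable {n : ℕ}

namespace Tri

theorem sum_toNat_eq_card {ι : Type*} [Fintype ι] (b : ι → Bool) :
    ∑ j, (b j).toNat = (univ.filter fun j => b j = true).card := by
  rw [card_filter]
  refine sum_congr rfl fun j _ => ?_
  cases b j <;> rfl

theorem tbl_eq_tables (r : Fin 3 → ℕ) (c : Fin n → ℕ) : tbl r c = tables r c := by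
  ext w
  simp only [tbl, tables, mem_filter, mem_univ, true_and, rs, cs, sum_toNat_eq_card]

theorem threeRow (n : ℕ) : ThreeRow n := by
  intro r c f
  rw [tbl_eq_tables]
  exact three_row r c f

end Tri

/-- M8 (from the 3-row lemma) -/
theorem triple_nonneg (d : Fin n → ℕ) (f : Gr n → ℝ) (a b c : Fin n) (h : dist3 a b c) :
    0 ≤ ip (realizations d) (Qp (realizations d) a b f) (Qp (realizations d) a c f)
      + ip (realizations d) (Qp (realizations d) a b f) (Qp (realizations d) b c f)
      + ip (realizations d) (Qp (realizations d) a c f) (Qp (realizations d) b c f) :=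
  Tri.triple_nonneg_of_threeRow (Tri.threeRow n) d f a b c h

end Crest.Agent.Switch
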