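import Crest.Agent.Switch.Graph
import Crest.Agent.Switch.Spectral
import Crest.Agent.Switch.Triple
import Crest.Agent.Switch.Disjoint
import Crest.Agent.Switch.PairFibre
import Crest.Agent.Switch.Connected
import Crest.Agent.Switch.Dirichlet
import Crest.Agent.Switch.PoincareAux

/-! # Module M13: assembly, the Poincare inequality of S0453 -/

set_option autoImplicit false
open Finset Crest.SwitchChain

namespace Crest.Agent.Switch

namespace Poi

variable {n : ℕ}

lemma star2_comm (a b : Fin n) : star2 a b = star2 b a := by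
  unfold star2; rw [union_comm]

lemma Qp_comm (Ω : Finset (Gr n)) (a b : Fin n) (f : Gr n → ℝ) : Qp Ω a b f = Qp Ω b a f := by
  unfold Qp; rw [star2_comm]

/-- `S f = ∑_{a ≠ b} Q_{ab} f` (ordered pairs). -/
noncomputable def S2 (Ω : Finset (Gr n)) (f : Gr n → ℝ) : Gr n → ℝ :=
  fun x => ∑ a, ∑ b, if a ≠ b then Qp Ω a b f x else 0

/-- `F a b c e = ⟨Q_ab f, Q_ce f⟩`. -/
noncomputable def FF (Ω : Finset (Gr n)) (f : Gr n → ℝ) (a b c e : Fin n) : ℝ :=
  ip Ω (Qp Ω a b f) (Qp Ω c e f)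

lemma FF_swap12 (Ω : Finset (Gr n)) (f : Gr n → ℝ) (a b c e : Fin n) :
    FF Ω f a b c e = FF Ω f b a c e := by unfold FF; rw [Qp_comm Ω a b]

lemma FF_swap34 (Ω : Finset (Gr n)) (f : Gr n → ℝ) (a b c e : Fin n) :
    FF Ω f a b c e = FF Ω f a b e c := by unfold FF; rw [Qp_comm Ω c e]

lemma FF_swap (Ω : Finset (Gr n)) (f : Gr n → ℝ) (a b c e : Fin n) :
    FF Ω f a b c e = FF Ω f c e a b := by unfold FF; rw [ip_comm]

lemma ip_S2_left (Ω : Finset (Gr n)) (f g : Gr n → ℝ) :
    ip Ω (S2 Ω f) g = ∑ a, ∑ b, if a ≠ b then ip Ω (Qp Ω a b f) g else 0 := by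
  unfold ip S2
  simp only [Finset.sum_mul]
  rw [Finset.sum_comm]
  refine Finset.sum_congr rfl fun a _ => ?_
  rw [Finset.sum_comm]
  refine Finset.sum_congr rfl fun b _ => ?_
  by_cases h : a ≠ b
  · simp only [if_pos h]
  · simp only [if_neg h, zero_mul, Finset.sum_const_zero]

lemma ip_S2_right (Ω : Finset (Gr n)) (f g : Gr n → ℝ) :
    ip Ω g (S2 Ω f) = ∑ a, ∑ b, if a ≠ b then ip Ω g (Qp Ω a b f) else 0 := by
  rw [ip_comm, ip_S2_left]
  refine Finset.sum_congr rfl fun a _ => Finset.sum_congr rfl fun b _ => ?_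
  rw [ip_comm]

/-- `N = ∑_{a ≠ b} ‖Q_ab f‖²`. -/
noncomputable def NN (Ω : Finset (Gr n)) (f : Gr n → ℝ) : ℝ :=
  ∑ a, ∑ b, if a ≠ b then FF Ω f a b a b else 0

lemma ip_f_S2 (Ω : Finset (Gr n)) (f : Gr n → ℝ) : ip Ω f (S2 Ω f) = NN Ω f := by
  rw [ip_S2_right]
  unfold NN FF Qp
  refine Finset.sum_congr rfl fun a _ => Finset.sum_congr rfl fun b _ => ?_
  rw [ip_qe_qe]

lemma NN_nonneg (Ω : Finset (Gr n)) (f : Gr n → ℝ) : 0 ≤ NN Ω f := by
  unfold NN
  refine Finset.sum_nonneg fun a _ => Finset.sum_nonneg fun b _ => ?_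
  split_ifs
  · exact ip_self_nonneg _ _
  · exact le_rfl

/-- overlap sum -/
noncomputable def UU (Ω : Finset (Gr n)) (f : Gr n → ℝ) : ℝ :=
  ∑ a, ∑ b, ∑ e, if dist3 a b e then FF Ω f a b a e else 0

/-- disjoint sum -/
noncomputable def DD (Ω : Finset (Gr n)) (f : Gr n → ℝ) : ℝ :=
  ∑ a, ∑ b, ∑ c, ∑ e, if dist4 a b c e then FF Ω f a b c e else 0

lemma UU2_eq (Ω : Finset (Gr n)) (f : Gr n → ℝ) :
    (∑ a, ∑ b, ∑ e, if dist3 a b e then FF Ω f a b b e else 0) = UU Ω f := by
  unfold UU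
  rw [Finset.sum_comm]
  refine Finset.sum_congr rfl fun a _ => Finset.sum_congr rfl fun b _ =>
    Finset.sum_congr rfl fun e _ => ?_
  have : dist3 b a e ↔ dist3 a b e := by unfold dist3; tauto
  simp only [this, FF_swap12 Ω f b a a e]

lemma UU3_eq (Ω : Finset (Gr n)) (f : Gr n → ℝ) :
    (∑ a, ∑ b, ∑ c, if dist3 a b c then FF Ω f a c b c else 0) = UU Ω f := by
  unfold UU
  rw [sum3_rot]
  refine Finset.sum_congr rfl fun c _ => Finset.sum_congr rfl fun a _ =>
    Finset.sum_congr rfl fun b _ => ?_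
  have : dist3 a b c ↔ dist3 c a b := by unfold dist3; tauto
  simp only [this, FF_swap12 Ω f a c b c, FF_swap34 Ω f c a b c]

lemma UU_nonneg (d : Fin n → ℕ) (f : Gr n → ℝ) : 0 ≤ UU (realizations d) f := by
  have h : 0 ≤ ∑ a, ∑ b, ∑ c, ((if dist3 a b c then FF (realizations d) f a b a c else 0)
      + (if dist3 a b c then FF (realizations d) f a b b c else 0)
      + (if dist3 a b c then FF (realizations d) f a c b c else 0)) := by
    refine Finset.sum_nonneg fun a _ => Finset.sum_nonneg fun b _ => Finset.sum_nonneg fun c _ => ?_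
    by_cases h : dist3 a b c
    · simp only [if_pos h]
      exact triple_nonneg d f a b c h
    · simp only [if_neg h]; norm_num
  simp only [Finset.sum_add_distrib] at h
  rw [UU2_eq, UU3_eq] at h
  have : (∑ a, ∑ b, ∑ c, if dist3 a b c then FF (realizations d) f a b a c else 0)
      = UU (realizations d) f := rfl
  rw [this] at h
  linarith

lemma DD_nonneg (d : Fin n → ℕ) (f : Gr n → ℝ) : 0 ≤ DD (realizations d) f := by
  set Ω := realizations d with hΩ
  -- sums of Z and Y
  set SZ := ∑ a, ∑ b, ∑ c, ∑ e, if dist4 a b c e then Zt Ω f a b c e else 0 with hSZ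
  set SY := ∑ a, ∑ b, ∑ c, ∑ e, if dist4 a b c e then Yt Ω f a b c e else 0 with hSY
  have hY' : (∑ a, ∑ b, ∑ c, ∑ e, if dist4 a b c e then Yt Ω f c e a b else 0) = SY := by
    rw [hSY, sum4_swap]
    refine Finset.sum_congr rfl fun c _ => Finset.sum_congr rfl fun e _ =>
      Finset.sum_congr rfl fun a _ => Finset.sum_congr rfl fun b _ => ?_
    have : dist4 a b c e ↔ dist4 c e a b := by unfold dist4; tauto
    simp only [this]
  have h1 : SY ≤ SZ := by
    rw [hSY, hSZ]
    refine Finset.sum_le_sum fun a _ => Finset.sum_le_sum fun b _ => ?_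
    by_cases hab : a = b
    · have : ∀ c e, ¬ dist4 a b c e := fun c e h => h.1 hab
      simp only [this, if_false]; exact le_rfl
    · exact pair_cov d f a b hab
  have h2 : ∑ a, ∑ b, ∑ c, ∑ e, ((2 * if dist4 a b c e then Zt Ω f a b c e else 0)
      - (if dist4 a b c e then Yt Ω f a b c e else 0)
      - (if dist4 a b c e then Yt Ω f c e a b else 0))
      ≤ ∑ a, ∑ b, ∑ c, ∑ e, 2 * (if dist4 a b c e then FF Ω f a b c e else 0) := by
    refine Finset.sum_le_sum fun a _ => Finset.sum_le_sum fun b _ =>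
      Finset.sum_le_sum fun c _ => Finset.sum_le_sum fun e _ => ?_
    by_cases h : dist4 a b c e
    · simp only [if_pos h]
      exact disjoint_lower d f a b c e h
    · simp only [if_neg h]; norm_num
  simp only [Finset.sum_sub_distrib, ← Finset.mul_sum] at h2
  rw [hY'] at h2
  have : (∑ a, ∑ b, ∑ c, ∑ e, if dist4 a b c e then FF Ω f a b c e else 0) = DD Ω f := rfl
  rw [this] at h2
  linarith

/-- expansion of `‖S f‖²`. -/
lemma ip_S2_S2 (Ω : Finset (Gr n)) (f : Gr n → ℝ) :
    ip Ω (S2 Ω f) (S2 Ω f) = 2 * NN Ω f + 4 * UU Ω f + DD Ω f := by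
  rw [ip_S2_left]
  have h1 : ∀ a b : Fin n, (if a ≠ b then ip Ω (Qp Ω a b f) (S2 Ω f) else 0)
      = 2 * (if a ≠ b then FF Ω f a b a b else 0)
        + 2 * (∑ e, if dist3 a b e then FF Ω f a b a e else 0)
        + 2 * (∑ e, if dist3 a b e then FF Ω f a b b e else 0)
        + ∑ c, ∑ e, if dist4 a b c e then FF Ω f a b c e else 0 := by
    intro a b
    by_cases hab : a ≠ b
    · rw [if_pos hab, if_pos hab, ip_S2_right]
      have := sum_pairs_split hab (fun c e => FF Ω f a b c e)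
      unfold FF at this ⊢
      rw [this]
      have e1 : ip Ω (Qp Ω a b f) (Qp Ω b a f) = ip Ω (Qp Ω a b f) (Qp Ω a b f) := by
        rw [Qp_comm Ω b a]
      have e2 : (∑ c, if c ≠ a ∧ c ≠ b then ip Ω (Qp Ω a b f) (Qp Ω c a f) else 0)
          = ∑ e, if e ≠ a ∧ e ≠ b then ip Ω (Qp Ω a b f) (Qp Ω a e f) else 0 :=
        Finset.sum_congr rfl fun c _ => by rw [Qp_comm Ω c a]
      have e3 : (∑ c, if c ≠ a ∧ c ≠ b then ip Ω (Qp Ω a b f) (Qp Ω c b f) else 0)
          = ∑ e, if e ≠ a ∧ e ≠ b then ip Ω (Qp Ω a b f) (Qp Ω b e f) else 0 :=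
        Finset.sum_congr rfl fun c _ => by rw [Qp_comm Ω c b]
      have c3 : ∀ e, (e ≠ a ∧ e ≠ b) ↔ dist3 a b e := by
        intro e; unfold dist3
        constructor
        · rintro ⟨h1, h2⟩; exact ⟨hab, h1.symm, h2.symm⟩
        · rintro ⟨_, h1, h2⟩; exact ⟨h1.symm, h2.symm⟩
      have c4 : ∀ c e, ((c ≠ a ∧ c ≠ b) ∧ (e ≠ a ∧ e ≠ b) ∧ c ≠ e) ↔ dist4 a b c e := by
        intro c e; unfold dist4
        constructor
        · rintro ⟨⟨h1, h2⟩, ⟨h3, h4⟩, h5⟩
          exact ⟨hab, h1.symm, h3.symm, h2.symm, h4.symm, h5⟩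
        · rintro ⟨_, h1, h3, h2, h4, h5⟩
          exact ⟨⟨h1.symm, h2.symm⟩, ⟨h3.symm, h4.symm⟩, h5⟩
      rw [e1, e2, e3]
      simp only [c4]
      simp only [c3]
      ring
    · have hab' : a = b := not_not.mp hab
      have n3 : ∀ e, ¬ dist3 a b e := fun e h => h.1 hab'
      have n4 : ∀ c e, ¬ dist4 a b c e := fun c e h => h.1 hab'
      simp only [if_neg hab, n3, n4, if_false, Finset.sum_const_zero, mul_zero, add_zero]
  simp only [h1, Finset.sum_add_distrib, ← Finset.mul_sum]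
  rw [UU2_eq]
  unfold NN UU DD
  ring

/-- `T = (1/2) S` = sum over unordered pairs. -/
noncomputable def TT (Ω : Finset (Gr n)) (f : Gr n → ℝ) : Gr n → ℝ :=
  fun x => (1 / 2) * S2 Ω f x

lemma ip_TT_right (Ω : Finset (Gr n)) (f g : Gr n → ℝ) :
    ip Ω g (TT Ω f) = (1 / 2) * ip Ω g (S2 Ω f) := by
  unfold ip TT
  rw [Finset.mul_sum]
  exact Finset.sum_congr rfl fun x _ => by ring

lemma ip_TT_left (Ω : Finset (Gr n)) (f g : Gr n → ℝ) :
    ip Ω (TT Ω f) g = (1 / 2) * ip Ω (S2 Ω f) g := by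
  rw [ip_comm, ip_TT_right, ip_comm]

lemma sw_sdiff_star2 (G : Gr n) (a b c e : Fin n) :
    sw G a b c e \ star2 a b = G \ star2 a b := by
  ext x
  simp only [sw, star2, star, cell, mem_sdiff, mem_union, mem_filter, mem_univ, true_and]
  constructor
  · rintro ⟨h1, h2⟩
    refine ⟨?_, h2⟩
    rcases h1 with h1 | h1
    · exact h1.1
    · exfalso
      apply h2
      rcases h1 with h1 | h1
      · left; rw [h1]; simp
      · right; rw [h1]; simp
  · rintro ⟨h1, h2⟩
    refine ⟨Or.inl ⟨h1, ?_⟩, h2⟩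
    intro h3
    apply h2
    rcases h3 with h3 | h3
    · left; rw [h3]; simp
    · right; rw [h3]; simp

lemma sw_mem (hn : 4 ≤ n) (d : Fin n → ℕ) {G : Gr n} (hG : G ∈ realizations d) {a b c e : Fin n}
    (h : dist4 a b c e) (hs : swOK G a b c e) : sw G a b c e ∈ realizations d := by
  rw [← Dir.switchResult_eq_sw h hs]
  have hp : Dir.toProp (a, b, c, e) ∈ Dir.props n :=
    Dir.toProp_mem (by simpa [Dir.tup4] using h)
  exact Dir.switchResult_mem hn (kernel_lazyChain hn d) hG hp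

lemma NN_le (d : Fin n → ℕ) (f : Gr n → ℝ) :
    2 * NN (realizations d) f
      ≤ ∑ a, ∑ b, ∑ c, ∑ e, if dist4 a b c e then Zx (realizations d) f a b c e else 0 := by
  unfold NN
  rw [Finset.mul_sum]
  refine Finset.sum_le_sum fun a _ => ?_
  rw [Finset.mul_sum]
  refine Finset.sum_le_sum fun b _ => ?_
  by_cases hab : a ≠ b
  · rw [if_pos hab]
    refine (pair_gap d f a b hab).trans (le_of_eq ?_)
    refine Finset.sum_congr rfl fun c _ => Finset.sum_congr rfl fun e _ => ?_
    by_cases h : dist4 a b c e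
    · rw [if_pos h, if_pos h, Zt_eq_Zx d f a b c e h]
    · rw [if_neg h, if_neg h]
  · have hab' : a = b := not_not.mp hab
    have n4 : ∀ c e, ¬ dist4 a b c e := fun c e h => h.1 hab'
    simp only [if_neg hab, n4, if_false, Finset.sum_const_zero, mul_zero]
    exact le_rfl

end Poi

open Poi in
/-- **M13**: part 2 of S0453. -/
theorem poincare (n : ℕ) (hn : 4 ≤ n) (d : Fin n → ℕ) (f : Gr n → ℝ) :
    ((realizations d).card : ℝ) * (∑ G ∈ realizations d, f G ^ 2) -
        (∑ G ∈ realizations d, f G) ^ 2 ≤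
      24 * (n : ℝ) ^ 2 * (n.choose 4 : ℝ) * (realizations d).card *
        ∑ G ∈ realizations d,
          f G * (f G - ∑ G' ∈ realizations d, kernel n G G' * f G') := by
  set Ω := realizations d with hΩ
  have key := spectral_gap_of_sq Ω (TT Ω)
    (by
      intro f g x _
      unfold TT S2 Qp
      simp only [qe_add]
      rw [← mul_add, ← Finset.sum_add_distrib]
      congr 1
      refine Finset.sum_congr rfl fun a _ => ?_
      rw [← Finset.sum_add_distrib]
      refine Finset.sum_congr rfl fun b _ => ?_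
      split_ifs <;> ring)
    (by
      intro c f x _
      unfold TT S2 Qp
      simp only [qe_smul]
      have : ∀ (a b : Fin n) (y : ℝ), (if a ≠ b then c * y else 0) = c * (if a ≠ b then y else 0) := by
        intro a b y
        split_ifs <;> ring
      simp only [this, ← Finset.mul_sum]
      ring)
    (by
      intro f g hfg x hx
      unfold TT S2 Qp
      congr 1
      refine Finset.sum_congr rfl fun a _ => Finset.sum_congr rfl fun b _ => ?_
      rw [qe_congr Ω _ hfg hx])
    (by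
      intro f g
      rw [ip_TT_left, ip_TT_right, ip_S2_left, ip_S2_right]
      congr 1
      refine Finset.sum_congr rfl fun a _ => Finset.sum_congr rfl fun b _ => ?_
      unfold Qp
      rw [ip_qe_symm])
    (by
      intro x hx
      unfold TT S2 Qp
      simp only [qe_const Ω _ 1 hx]
      simp)
    (by
      intro f
      rw [ip_TT_right, ip_f_S2]
      have := NN_nonneg Ω f
      linarith)
    (by
      intro f
      rw [ip_TT_right, ip_f_S2, ip_TT_left, ip_TT_right, ip_S2_S2]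
      have h1 := UU_nonneg d f
      have h2 := DD_nonneg d f
      rw [← hΩ] at h1 h2
      linarith)
    (by
      intro f hf
      have h0 : NN Ω f = 0 := by
        have : ip Ω f (TT Ω f) = 0 := by
          unfold ip
          exact Finset.sum_eq_zero fun x hx => by rw [hf x hx, mul_zero]
        rw [ip_TT_right, ip_f_S2] at this
        linarith
      have h1 : ∀ a b : Fin n, a ≠ b → FF Ω f a b a b = 0 := by
        intro a b hab
        unfold NN at h0
        have hnn : ∀ a b : Fin n, 0 ≤ (if a ≠ b then FF Ω f a b a b else 0) := by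
          intro a b
          split_ifs
          · exact ip_self_nonneg _ _
          · exact le_rfl
        have h2 := (Finset.sum_eq_zero_iff_of_nonneg
          (fun a _ => Finset.sum_nonneg fun b _ => hnn a b)).1 h0 a (Finset.mem_univ a)
        have h3 := (Finset.sum_eq_zero_iff_of_nonneg (fun b _ => hnn a b)).1 h2 b (Finset.mem_univ b)
        rwa [if_pos hab] at h3
      refine switch_connected d f ?_
      intro G hG a b c e h4 hs
      have hq := h1 a b h4.1
      unfold FF Qp at hq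
      exact eq_of_ip_qe_eq_zero Ω _ hq (sw_mem hn d hG h4 hs) hG (sw_sdiff_star2 G a b c e))
    f
  have hC : (0 : ℝ) < (n.choose 4 : ℝ) := by exact_mod_cast Nat.choose_pos hn
  have hcard : (0 : ℝ) ≤ (Ω.card : ℝ) := by positivity
  have hN := NN_le d f
  have hD := dirichlet_lower hn d f
  rw [← hΩ] at hN hD
  rw [ip_TT_right, ip_f_S2] at key
  have e : ip Ω f f = ∑ G ∈ Ω, f G ^ 2 := Finset.sum_congr rfl fun x _ => by ring
  rw [e] at key
  set E := ∑ G ∈ Ω, f G * (f G - ∑ G' ∈ Ω, kernel n G G' * f G') with hE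
  have hNE : NN Ω f ≤ 24 * (n.choose 4 : ℝ) * E := by linarith
  have hE0 : 0 ≤ E := by
    have := NN_nonneg Ω f
    have h : 0 ≤ 24 * (n.choose 4 : ℝ) * E := this.trans hNE
    by_contra hneg
    rw [not_le] at hneg
    have : 24 * (n.choose 4 : ℝ) * E < 0 := mul_neg_of_pos_of_neg (by positivity) hneg
    linarith
  have hn2 : (1 : ℝ) ≤ (n : ℝ) ^ 2 := by
    have : (1 : ℝ) ≤ n := by exact_mod_cast (by omega : 1 ≤ n)
    nlinarith
  calc (Ω.card : ℝ) * ∑ G ∈ Ω, f G ^ 2 - (∑ G ∈ Ω, f G) ^ 2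
      ≤ (Ω.card : ℝ) * (1 / 2 * NN Ω f) := key
    _ ≤ (Ω.card : ℝ) * (12 * (n.choose 4 : ℝ) * E) :=
        mul_le_mul_of_nonneg_left (by linarith) hcard
    _ ≤ 24 * (n : ℝ) ^ 2 * (n.choose 4 : ℝ) * Ω.card * E := by
        have h1 : 0 ≤ (n.choose 4 : ℝ) * Ω.card * E := by positivity
        nlinarith

end Crest.Agent.Switch
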