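import Crest.Agent.Switch.Basic

/-!
# Elementary API for the finite conditional expectations `ce` (used by the `[D]` block of S0453)
-/

set_option autoImplicit false
set_option linter.unusedSectionVars false
set_option linter.unusedVariables false
open Finset

namespace Crest.Agent.Switch.LS

open Crest.Agent.Switch

variable {α β γ : Type*} [DecidableEq β] [DecidableEq γ]

/-- `m` is measurable w.r.t. the key `κ` on `Ω`. -/
def Meas (Ω : Finset α) (κ : α → β) (m : α → ℝ) : Prop :=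
  ∀ x ∈ Ω, ∀ y ∈ Ω, κ x = κ y → m x = m y

/-- the key `κ₂` refines the key `κ₁` on `Ω`. -/
def Ref (Ω : Finset α) (κ₂ : α → γ) (κ₁ : α → β) : Prop :=
  ∀ x ∈ Ω, ∀ y ∈ Ω, κ₂ x = κ₂ y → κ₁ x = κ₁ y

theorem mem_fib {Ω : Finset α} {κ : α → β} {x y : α} :
    y ∈ fib Ω κ x ↔ y ∈ Ω ∧ κ y = κ x := by
  simp [fib]

theorem self_mem_fib {Ω : Finset α} {κ : α → β} {x : α} (hx : x ∈ Ω) : x ∈ fib Ω κ x :=
  mem_fib.2 ⟨hx, rfl⟩

theorem fib_eq {Ω : Finset α} {κ : α → β} {x y : α} (h : κ x = κ y) :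
    fib Ω κ x = fib Ω κ y := by
  unfold fib; rw [h]

theorem card_fib_pos {Ω : Finset α} {κ : α → β} {x : α} (hx : x ∈ Ω) :
    (0 : ℝ) < ((fib Ω κ x).card : ℝ) := by
  have : 0 < (fib Ω κ x).card := Finset.card_pos.2 ⟨x, self_mem_fib hx⟩
  exact_mod_cast this

theorem card_fib_ne {Ω : Finset α} {κ : α → β} {x : α} (hx : x ∈ Ω) :
    ((fib Ω κ x).card : ℝ) ≠ 0 := (card_fib_pos hx).ne'

theorem Meas.of_ref {Ω : Finset α} {κ₂ : α → γ} {κ₁ : α → β} {m : α → ℝ}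
    (h : Ref Ω κ₂ κ₁) (hm : Meas Ω κ₁ m) : Meas Ω κ₂ m :=
  fun x hx y hy hxy => hm x hx y hy (h x hx y hy hxy)

theorem ce_congr {Ω : Finset α} {κ : α → β} {f g : α → ℝ} (h : ∀ y ∈ Ω, f y = g y) (x : α) :
    ce Ω κ f x = ce Ω κ g x := by
  unfold ce
  congr 1
  exact Finset.sum_congr rfl fun y hy => h y (mem_fib.1 hy).1

theorem ce_eq_of_key {Ω : Finset α} {κ : α → β} {f : α → ℝ} {x y : α} (h : κ x = κ y) :
    ce Ω κ f x = ce Ω κ f y := by
  unfold ce; rw [fib_eq h]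

theorem meas_ce (Ω : Finset α) (κ : α → β) (f : α → ℝ) : Meas Ω κ (ce Ω κ f) :=
  fun _ _ _ _ h => ce_eq_of_key h

theorem ce_add (Ω : Finset α) (κ : α → β) (f g : α → ℝ) (x : α) :
    ce Ω κ (fun y => f y + g y) x = ce Ω κ f x + ce Ω κ g x := by
  unfold ce; rw [Finset.sum_add_distrib, add_div]

theorem ce_sub (Ω : Finset α) (κ : α → β) (f g : α → ℝ) (x : α) :
    ce Ω κ (fun y => f y - g y) x = ce Ω κ f x - ce Ω κ g x := by
  unfold ce; rw [Finset.sum_sub_distrib, sub_div]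

theorem ce_mul_of_meas {Ω : Finset α} {κ : α → β} {m : α → ℝ} (hm : Meas Ω κ m) (f : α → ℝ)
    {x : α} (hx : x ∈ Ω) : ce Ω κ (fun y => m y * f y) x = m x * ce Ω κ f x := by
  unfold ce
  rw [← mul_div_assoc, Finset.mul_sum]
  congr 1
  refine Finset.sum_congr rfl fun y hy => ?_
  show m y * f y = m x * f y
  rw [hm y (mem_fib.1 hy).1 x hx (mem_fib.1 hy).2]

theorem ce_of_meas {Ω : Finset α} {κ : α → β} {m : α → ℝ} (hm : Meas Ω κ m)
    {x : α} (hx : x ∈ Ω) : ce Ω κ m x = m x := by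
  unfold ce
  have : ∑ y ∈ fib Ω κ x, m y = ((fib Ω κ x).card : ℝ) * m x := by
    rw [Finset.sum_congr rfl fun y hy => hm y (mem_fib.1 hy).1 x hx (mem_fib.1 hy).2]
    simp
  rw [this, mul_div_assoc, mul_comm, div_mul_cancel₀ _ (card_fib_ne hx)]

/-! ### inner product -/

theorem ip_comm (Ω : Finset α) (f g : α → ℝ) : ip Ω f g = ip Ω g f := by
  unfold ip; exact Finset.sum_congr rfl fun x _ => mul_comm _ _

theorem ip_congr {Ω : Finset α} {f f' g g' : α → ℝ} (hf : ∀ x ∈ Ω, f x = f' x)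
    (hg : ∀ x ∈ Ω, g x = g' x) : ip Ω f g = ip Ω f' g' := by
  unfold ip; exact Finset.sum_congr rfl fun x hx => by rw [hf x hx, hg x hx]

theorem ip_add_left (Ω : Finset α) (f g h : α → ℝ) :
    ip Ω (fun x => f x + g x) h = ip Ω f h + ip Ω g h := by
  unfold ip; rw [← Finset.sum_add_distrib]; exact Finset.sum_congr rfl fun x _ => by ring

theorem ip_sub_left (Ω : Finset α) (f g h : α → ℝ) :
    ip Ω (fun x => f x - g x) h = ip Ω f h - ip Ω g h := by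
  unfold ip; rw [← Finset.sum_sub_distrib]; exact Finset.sum_congr rfl fun x _ => by ring

theorem ip_add_right (Ω : Finset α) (f g h : α → ℝ) :
    ip Ω h (fun x => f x + g x) = ip Ω h f + ip Ω h g := by
  unfold ip; rw [← Finset.sum_add_distrib]; exact Finset.sum_congr rfl fun x _ => by ring

theorem ip_sub_right (Ω : Finset α) (f g h : α → ℝ) :
    ip Ω h (fun x => f x - g x) = ip Ω h f - ip Ω h g := by
  unfold ip; rw [← Finset.sum_sub_distrib]; exact Finset.sum_congr rfl fun x _ => by ring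

theorem ip_self_nonneg (Ω : Finset α) (f : α → ℝ) : 0 ≤ ip Ω f f := by
  unfold ip; exact Finset.sum_nonneg fun x _ => mul_self_nonneg _

/-- `ce` is self-adjoint. -/
theorem ip_ce_left (Ω : Finset α) (κ : α → β) (f g : α → ℝ) :
    ip Ω (ce Ω κ f) g = ip Ω f (ce Ω κ g) := by
  have h1 : ip Ω (ce Ω κ f) g =
      ∑ x ∈ Ω, ∑ y ∈ Ω, if κ y = κ x then f y * g x / ((fib Ω κ x).card : ℝ) else 0 := by
    unfold ip ce
    refine Finset.sum_congr rfl fun x _ => ?_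
    rw [fib, Finset.sum_filter, Finset.sum_div, Finset.sum_mul]
    refine Finset.sum_congr rfl fun y _ => ?_
    split_ifs <;> ring
  have h2 : ip Ω f (ce Ω κ g) =
      ∑ y ∈ Ω, ∑ x ∈ Ω, if κ y = κ x then f y * g x / ((fib Ω κ x).card : ℝ) else 0 := by
    unfold ip ce
    refine Finset.sum_congr rfl fun y _ => ?_
    rw [fib, Finset.sum_filter, Finset.sum_div, Finset.mul_sum]
    refine Finset.sum_congr rfl fun x _ => ?_
    by_cases h : κ y = κ x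
    · have h' : κ x = κ y := h.symm
      have : (Ω.filter fun z => κ z = κ y) = fib Ω κ x := by unfold fib; rw [h]
      rw [if_pos h, if_pos h', this]; ring
    · have h' : ¬ κ x = κ y := fun e => h e.symm
      rw [if_neg h, if_neg h']; simp
  rw [h1, h2, Finset.sum_comm]

/-- tower property. -/
theorem ce_ce_of_ref {Ω : Finset α} {κ₂ : α → γ} {κ₁ : α → β} (h : Ref Ω κ₂ κ₁) (f : α → ℝ)
    {x : α} (hx : x ∈ Ω) : ce Ω κ₁ (ce Ω κ₂ f) x = ce Ω κ₁ f x := by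
  -- indicator of the `κ₁`-fibre of `x`
  set ind : α → ℝ := fun y => if κ₁ y = κ₁ x then 1 else 0 with hind
  have hmeas : Meas Ω κ₂ ind := by
    intro y hy z hz hyz
    have := h y hy z hz hyz
    simp only [hind, this]
  have key : ∀ u : α → ℝ, ∑ y ∈ fib Ω κ₁ x, u y = ip Ω u ind := by
    intro u
    unfold ip fib
    rw [Finset.sum_filter]
    refine Finset.sum_congr rfl fun y _ => ?_
    simp only [hind]; split_ifs <;> simp
  unfold ce
  congr 1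
  have e1 := key (fun y => (∑ z ∈ fib Ω κ₂ y, f z) / ((fib Ω κ₂ y).card : ℝ))
  rw [e1, key f]
  have e2 := ip_ce_left Ω κ₂ f ind
  unfold ce at e2
  rw [e2]
  refine ip_congr (fun _ _ => rfl) fun y hy => ?_
  exact ce_of_meas hmeas hy

theorem ce_ce_of_ref' {Ω : Finset α} {κ₂ : α → γ} {κ₁ : α → β} (h : Ref Ω κ₂ κ₁) (f : α → ℝ)
    {x : α} (hx : x ∈ Ω) : ce Ω κ₂ (ce Ω κ₁ f) x = ce Ω κ₁ f x :=
  ce_of_meas (Meas.of_ref h (meas_ce Ω κ₁ f)) hx

theorem ip_ce_ce (Ω : Finset α) (κ : α → β) (f : α → ℝ) :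
    ip Ω (ce Ω κ f) (ce Ω κ f) = ip Ω f (ce Ω κ f) := by
  rw [ip_ce_left]
  exact ip_congr (fun _ _ => rfl) fun x hx => ce_of_meas (meas_ce Ω κ f) hx

/-- if `m` is `κ`-measurable then `⟨m, f⟩ = ⟨m, E f⟩`. -/
theorem ip_meas_ce {Ω : Finset α} {κ : α → β} {m : α → ℝ} (hm : Meas Ω κ m) (f : α → ℝ) :
    ip Ω m (ce Ω κ f) = ip Ω m f := by
  rw [← ip_ce_left]
  exact ip_congr (fun x hx => ce_of_meas hm hx) fun _ _ => rfl

theorem ip_qe_qe (Ω : Finset α) (κ : α → β) (f : α → ℝ) :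
    ip Ω (qe Ω κ f) (qe Ω κ f) = ip Ω f f - ip Ω (ce Ω κ f) (ce Ω κ f) := by
  have h1 : ip Ω (qe Ω κ f) (qe Ω κ f)
      = ip Ω f f - ip Ω f (ce Ω κ f) - (ip Ω (ce Ω κ f) f - ip Ω (ce Ω κ f) (ce Ω κ f)) := by
    unfold qe
    rw [ip_sub_left, ip_sub_right, ip_sub_right]
  rw [h1, ip_ce_ce, ip_comm Ω (ce Ω κ f) f]; ring

theorem ip_ce_le (Ω : Finset α) (κ : α → β) (f : α → ℝ) :
    ip Ω (ce Ω κ f) (ce Ω κ f) ≤ ip Ω f f := by
  have := ip_self_nonneg Ω (qe Ω κ f)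
  rw [ip_qe_qe] at this; linarith

/-- `ce` only depends on the fibres of the key. -/
theorem ce_key_congr {Ω : Finset α} {κ₂ : α → γ} {κ₁ : α → β} (h₁ : Ref Ω κ₂ κ₁) (h₂ : Ref Ω κ₁ κ₂)
    (f : α → ℝ) {x : α} (hx : x ∈ Ω) : ce Ω κ₁ f x = ce Ω κ₂ f x := by
  have : fib Ω κ₁ x = fib Ω κ₂ x := by
    ext y
    rw [mem_fib, mem_fib]
    constructor
    · rintro ⟨hy, e⟩; exact ⟨hy, h₂ y hy x hx e⟩
    · rintro ⟨hy, e⟩; exact ⟨hy, h₁ y hy x hx e⟩
  unfold ce; rw [this]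

end Crest.Agent.Switch.LS
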