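import Mathlib

/-!
# Counting in the Johnson scheme (part of module M4 = [J2] of the switch-chain proof)
-/

set_option autoImplicit false

namespace Crest.Agent.SwitchJ

open Finset

variable {ι : Type*} [DecidableEq ι]

/-- number of `u`-subsets of an `N`-set containing `i` given points and avoiding `o` given points -/
def cnt (N u i o : ℕ) : ℕ := if i ≤ u then (N - i - o).choose (u - i) else 0

lemma cnt_split (N u i o : ℕ) (h : i + o < N) :
    cnt N u i o = cnt N u (i + 1) o + cnt N u i (o + 1) := by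
  unfold cnt
  by_cases h1 : i + 1 ≤ u
  · have h0 : i ≤ u := by omega
    rw [if_pos h0, if_pos h1, if_pos h0]
    obtain ⟨m, hm⟩ : ∃ m, N - i - o = m + 1 := ⟨N - i - o - 1, by omega⟩
    obtain ⟨k, hk⟩ : ∃ k, u - i = k + 1 := ⟨u - i - 1, by omega⟩
    have e1 : N - (i + 1) - o = m := by omega
    have e2 : N - i - (o + 1) = m := by omega
    have e3 : u - (i + 1) = k := by omega
    rw [hm, hk, e1, e2, e3, Nat.choose_succ_succ]
  · by_cases h0 : i ≤ u
    · have : u - i = 0 := by omega
      rw [if_pos h0, if_neg h1, if_pos h0, this]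
      simp
    · rw [if_neg h0, if_neg h1, if_neg h0]

lemma card_filter_io (C : Finset ι) (u : ℕ) (I O : Finset ι) (hI : I ⊆ C) (hO : O ⊆ C)
    (hIO : Disjoint I O) :
    ((powersetCard u C).filter (fun U => I ⊆ U ∧ Disjoint U O)).card =
      cnt C.card u I.card O.card := by
  unfold cnt
  by_cases h : I.card ≤ u
  · rw [if_pos h]
    have hc : (C \ (I ∪ O)).card = C.card - I.card - O.card := by
      rw [card_sdiff_of_subset (union_subset hI hO), card_union_of_disjoint hIO]
      omega
    rw [← hc, ← card_powersetCard]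
    apply card_nbij' (fun U => U \ I) (fun V => V ∪ I)
    · intro U hU
      simp only [coe_filter, Set.mem_ofPred_eq, mem_powersetCard] at hU
      obtain ⟨⟨hUC, hUc⟩, hIU, hUO⟩ := hU
      simp only [mem_coe, mem_powersetCard]
      refine ⟨?_, ?_⟩
      · intro z hz
        rw [mem_sdiff] at hz
        rw [mem_sdiff, mem_union, not_or]
        exact ⟨hUC hz.1, hz.2, fun hzO => disjoint_left.1 hUO hz.1 hzO⟩
      · rw [card_sdiff_of_subset hIU, hUc]
    · intro V hV
      simp only [mem_coe, mem_powersetCard] at hV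
      obtain ⟨hVC, hVc⟩ := hV
      have hVI : Disjoint V I := by
        rw [disjoint_left]
        intro z hz hzI
        have := hVC hz
        rw [mem_sdiff, mem_union, not_or] at this
        exact this.2.1 hzI
      have hVO : Disjoint V O := by
        rw [disjoint_left]
        intro z hz hzO
        have := hVC hz
        rw [mem_sdiff, mem_union, not_or] at this
        exact this.2.2 hzO
      simp only [coe_filter, Set.mem_ofPred_eq, mem_powersetCard]
      refine ⟨⟨?_, ?_⟩, subset_union_right, ?_⟩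
      · exact union_subset (fun z hz => (mem_sdiff.1 (hVC hz)).1) hI
      · rw [card_union_of_disjoint hVI, hVc]; omega
      · rw [disjoint_union_left]; exact ⟨hVO, hIO⟩
    · intro U hU
      simp only [coe_filter, Set.mem_ofPred_eq, mem_powersetCard] at hU
      exact sdiff_union_of_subset hU.2.1
    · intro V hV
      simp only [mem_coe, mem_powersetCard] at hV
      obtain ⟨hVC, hVc⟩ := hV
      have hVI : Disjoint V I := by
        rw [disjoint_left]
        intro z hz hzI
        have := hVC hz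
        rw [mem_sdiff, mem_union, not_or] at this
        exact this.2.1 hzI
      exact union_sdiff_cancel_right hVI
  · rw [if_neg h, card_eq_zero, filter_eq_empty_iff]
    intro U hU hh
    apply h
    rw [← (mem_powersetCard.1 hU).2]
    exact card_le_card hh.1

/-- indicator of `x ∈ U, y ∉ U` -/
def ein (x y : ι) (U : Finset ι) : ℝ := if x ∈ U ∧ y ∉ U then 1 else 0

/-- indicator that exactly one of `c,d` lies in `U` -/
def gxor (c d : ι) (U : Finset ι) : ℝ := if (c ∈ U ↔ d ∈ U) then 0 else 1

lemma gxor_eq (c d : ι) (U : Finset ι) : gxor c d U = ein c d U + ein d c U := by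
  unfold gxor ein
  by_cases hc : c ∈ U <;> by_cases hd : d ∈ U <;> simp [hc, hd]

lemma gxor_comm (c d : ι) (U : Finset ι) : gxor c d U = gxor d c U := by
  rw [gxor_eq, gxor_eq, add_comm]

lemma gxor_self (c : ι) (U : Finset ι) : gxor c c U = 0 := by
  unfold gxor; simp

lemma gxor_sq (c d : ι) (U : Finset ι) : gxor c d U * gxor c d U = gxor c d U := by
  unfold gxor; split_ifs <;> simp

lemma ein_mul (a b a' b' : ι) (U : Finset ι) :
    ein a b U * ein a' b' U = if ({a, a'} ⊆ U ∧ Disjoint U {b, b'}) then 1 else 0 := by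
  unfold ein
  have : ({a, a'} ⊆ U ∧ Disjoint U {b, b'}) ↔ ((a ∈ U ∧ b ∉ U) ∧ (a' ∈ U ∧ b' ∉ U)) := by
    rw [insert_subset_iff, singleton_subset_iff, disjoint_insert_right, disjoint_singleton_right]
    tauto
  rw [if_congr this rfl rfl]
  by_cases h1 : a ∈ U ∧ b ∉ U <;> by_cases h2 : a' ∈ U ∧ b' ∉ U <;> simp [h1, h2]

lemma sum_ein_mul (C : Finset ι) (u : ℕ) {a b a' b' : ι} (ha : a ∈ C) (hb : b ∈ C) (ha' : a' ∈ C)
    (hb' : b' ∈ C) (h1 : a ≠ b) (h2 : a ≠ b') (h3 : a' ≠ b) (h4 : a' ≠ b') :
    ∑ U ∈ powersetCard u C, ein a b U * ein a' b' U =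
      (cnt C.card u ({a, a'} : Finset ι).card ({b, b'} : Finset ι).card : ℝ) := by
  simp only [ein_mul]
  rw [sum_boole, card_filter_io]
  · intro z hz
    rcases mem_insert.1 hz with rfl | hz
    · exact ha
    · rw [mem_singleton] at hz; rw [hz]; exact ha'
  · intro z hz
    rcases mem_insert.1 hz with rfl | hz
    · exact hb
    · rw [mem_singleton] at hz; rw [hz]; exact hb'
  · rw [disjoint_left]
    intro z hz hz'
    simp only [mem_insert, mem_singleton] at hz hz'
    rcases hz with rfl | rfl <;> rcases hz' with h | h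
    · exact h1 h
    · exact h2 h
    · exact h3 h
    · exact h4 h

lemma ein_sq (a b : ι) (U : Finset ι) : ein a b U * ein a b U = ein a b U := by
  unfold ein; split_ifs <;> simp

lemma ein_mul_contra (x y z : ι) (U : Finset ι) : ein x y U * ein z x U = 0 := by
  unfold ein
  by_cases hx : x ∈ U <;> simp [hx]

lemma sum_ein (C : Finset ι) (u : ℕ) {a b : ι} (ha : a ∈ C) (hb : b ∈ C) (h : a ≠ b) :
    ∑ U ∈ powersetCard u C, ein a b U = (cnt C.card u 1 1 : ℝ) := by
  have := sum_ein_mul C u ha hb ha hb h h h h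
  simp only [ein_sq, pair_eq_singleton, card_singleton] at this
  exact this

/-- (F1) -/
lemma sum_gxor (C : Finset ι) (u : ℕ) {c d : ι} (hc : c ∈ C) (hd : d ∈ C) (h : c ≠ d) :
    ∑ U ∈ powersetCard u C, gxor c d U = 2 * (cnt C.card u 1 1 : ℝ) := by
  simp only [gxor_eq, sum_add_distrib]
  rw [sum_ein C u hc hd h, sum_ein C u hd hc h.symm]
  ring

/-- (F2) -/
lemma sum_gxor_mul_one (C : Finset ι) (u : ℕ) {x y z : ι} (hx : x ∈ C) (hy : y ∈ C) (hz : z ∈ C)
    (hxy : x ≠ y) (hxz : x ≠ z) (hyz : y ≠ z) :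
    ∑ U ∈ powersetCard u C, gxor x y U * gxor x z U = (cnt C.card u 1 1 : ℝ) := by
  have hN : 1 + 1 < C.card := by
    have : ({x, y, z} : Finset ι).card = 3 := card_eq_three.2 ⟨x, y, z, hxy, hxz, hyz, rfl⟩
    have h2 : ({x, y, z} : Finset ι) ⊆ C := by
      intro w hw
      simp only [mem_insert, mem_singleton] at hw
      rcases hw with rfl | rfl | rfl <;> assumption
    have := card_le_card h2
    omega
  have e : ∀ U, gxor x y U * gxor x z U = ein x y U * ein x z U + ein y x U * ein z x U := by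
    intro U
    rw [gxor_eq, gxor_eq]
    have h1 := ein_mul_contra x y z U
    have h2 := ein_mul_contra x z y U
    have h2' : ein y x U * ein x z U = 0 := by rw [mul_comm]; exact h2
    ring_nf
    ring_nf at h1 h2'
    rw [h1, h2']
    ring
  simp only [e, sum_add_distrib]
  rw [sum_ein_mul C u hx hy hx hz hxy hxz hxy hxz, sum_ein_mul C u hy hx hz hx hxy.symm hxy.symm
    hxz.symm hxz.symm]
  simp only [pair_eq_singleton, card_singleton, card_pair hyz]
  rw [cnt_split C.card u 1 1 hN]
  push_cast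
  ring

/-- (F3) -/
lemma sum_gxor_mul_zero (C : Finset ι) (u : ℕ) {c d c' d' : ι} (hc : c ∈ C) (hd : d ∈ C)
    (hc' : c' ∈ C) (hd' : d' ∈ C) (h1 : c ≠ d) (h2 : c ≠ c') (h3 : c ≠ d') (h4 : d ≠ c')
    (h5 : d ≠ d') (h6 : c' ≠ d') :
    ∑ U ∈ powersetCard u C, gxor c d U * gxor c' d' U = 4 * (cnt C.card u 2 2 : ℝ) := by
  have e : ∀ U, gxor c d U * gxor c' d' U = ein c d U * ein c' d' U + ein c d U * ein d' c' U +
      ein d c U * ein c' d' U + ein d c U * ein d' c' U := by
    intro U
    rw [gxor_eq, gxor_eq]; ring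
  simp only [e, sum_add_distrib]
  rw [sum_ein_mul C u hc hd hc' hd' h1 h3 h4.symm h6,
    sum_ein_mul C u hc hd hd' hc' h1 h2 h5.symm h6.symm,
    sum_ein_mul C u hd hc hc' hd' h1.symm h5 h2.symm h6,
    sum_ein_mul C u hd hc hd' hc' h1.symm h4 h3.symm h6.symm]
  rw [card_pair h2, card_pair h5, card_pair h3, card_pair h4]
  ring

end Crest.Agent.SwitchJ
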