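import Crest.Prelude.Def_SwitchChain

/-!
# M12a: abstract lazy reversible chain, TV bound from a Poincare inequality

`K = 1/2 + K'/2` with `K'` symmetric, nonnegative, stochastic, `Ω` closed under `K'`.
-/

set_option autoImplicit false
open Finset

namespace Crest.Agent.Switch.Lazy

open Crest.SwitchChain

section abstract

variable {α : Type*} [Fintype α] [DecidableEq α]

/-- weighted Jensen: `(∑ w h)^2 ≤ ∑ w h^2` for probability weights. -/
lemma sq_sum_le_sum_sq_of_prob (w h : α → ℝ) (hw : ∀ a, 0 ≤ w a) (h1 : ∑ a, w a = 1) :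
    (∑ a, w a * h a) ^ 2 ≤ ∑ a, w a * h a ^ 2 := by
  have key : ∀ m : ℝ, ∑ a, w a * (h a - m) ^ 2
      = ∑ a, w a * h a ^ 2 - 2 * m * (∑ a, w a * h a) + m ^ 2 * ∑ a, w a := by
    intro m
    rw [Finset.mul_sum, Finset.mul_sum, ← Finset.sum_sub_distrib, ← Finset.sum_add_distrib]
    refine Finset.sum_congr rfl fun a _ => ?_
    ring
  have h0 : 0 ≤ ∑ a, w a * (h a - ∑ a, w a * h a) ^ 2 :=
    Finset.sum_nonneg fun a _ => mul_nonneg (hw a) (sq_nonneg _)
  rw [key, h1] at h0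
  nlinarith

/-- A symmetric stochastic matrix is an `ℓ²` contraction. -/
lemma sum_sq_mulVec_le (K' : Matrix α α ℝ) (hsymm : ∀ a b, K' a b = K' b a)
    (hnn : ∀ a b, 0 ≤ K' a b) (hrow : ∀ a, ∑ b, K' a b = 1) (h : α → ℝ) :
    ∑ a, (∑ b, K' a b * h b) ^ 2 ≤ ∑ a, h a ^ 2 := by
  calc ∑ a, (∑ b, K' a b * h b) ^ 2 ≤ ∑ a, ∑ b, K' a b * h b ^ 2 :=
        Finset.sum_le_sum fun a _ => sq_sum_le_sum_sq_of_prob _ _ (hnn a) (hrow a)
    _ = ∑ b, ∑ a, K' a b * h b ^ 2 := Finset.sum_comm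
    _ = ∑ b, h b ^ 2 := by
        refine Finset.sum_congr rfl fun b _ => ?_
        rw [← Finset.sum_mul]
        have : ∑ a, K' a b = 1 := by
          rw [← hrow b]; exact Finset.sum_congr rfl fun a _ => hsymm a b
        rw [this, one_mul]

end abstract

section chain

variable {α : Type*} [Fintype α] [DecidableEq α]

/-- hypotheses on an abstract lazy chain -/
structure LazyChain (K K' : Matrix α α ℝ) (Ω : Finset α) : Prop where
  symm : ∀ a b, K' a b = K' b a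
  nn : ∀ a b, 0 ≤ K' a b
  row : ∀ a, ∑ b, K' a b = 1
  closed : ∀ a ∈ Ω, ∀ b, b ∉ Ω → K' a b = 0
  lazy : ∀ a b, K a b = (if a = b then 1 / 2 else 0) + K' a b / 2

variable {K K' : Matrix α α ℝ} {Ω : Finset α}

lemma LazyChain.K_symm (H : LazyChain K K' Ω) (a b : α) : K a b = K b a := by
  rw [H.lazy, H.lazy, H.symm a b]
  by_cases h : a = b
  · subst h; rfl
  · rw [if_neg h, if_neg (Ne.symm h)]

lemma LazyChain.op_eq (H : LazyChain K K' Ω) (h : α → ℝ) (a : α) :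
    ∑ b, K a b * h b = h a / 2 + (∑ b, K' a b * h b) / 2 := by
  have : ∀ b, K a b * h b = (if a = b then h b / 2 else 0) + K' a b * h b / 2 := by
    intro b
    rw [H.lazy]
    split_ifs <;> ring
  rw [Finset.sum_congr rfl fun b _ => this b, Finset.sum_add_distrib, Finset.sum_ite_eq,
    if_pos (Finset.mem_univ a), Finset.sum_div]

lemma LazyChain.K_row (H : LazyChain K K' Ω) (a : α) : ∑ b, K a b = 1 := by
  have := H.op_eq (fun _ => 1) a
  simp only [mul_one] at this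
  rw [this, H.row]; norm_num

lemma LazyChain.K_closed (H : LazyChain K K' Ω) {a b : α} (ha : a ∈ Ω) (hb : b ∉ Ω) :
    K a b = 0 := by
  rw [H.lazy, H.closed a ha b hb, if_neg]
  · simp
  · rintro rfl; exact hb ha

/-- `‖K h‖² ≤ ⟨h, K h⟩` for a lazy chain. -/
lemma LazyChain.sq_op_le (H : LazyChain K K' Ω) (h : α → ℝ) :
    ∑ a, (∑ b, K a b * h b) ^ 2 ≤ ∑ a, h a * ∑ b, K a b * h b := by
  have hc := sum_sq_mulVec_le K' H.symm H.nn H.row h
  have e1 : ∑ a, (∑ b, K a b * h b) ^ 2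
      = (∑ a, h a ^ 2) / 4 + (∑ a, h a * ∑ b, K' a b * h b) / 2
        + (∑ a, (∑ b, K' a b * h b) ^ 2) / 4 := by
    rw [Finset.sum_div, Finset.sum_div, Finset.sum_div, ← Finset.sum_add_distrib,
      ← Finset.sum_add_distrib]
    refine Finset.sum_congr rfl fun a _ => ?_
    rw [H.op_eq]; ring
  have e2 : ∑ a, h a * ∑ b, K a b * h b
      = (∑ a, h a ^ 2) / 2 + (∑ a, h a * ∑ b, K' a b * h b) / 2 := by
    rw [Finset.sum_div, Finset.sum_div, ← Finset.sum_add_distrib]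
    refine Finset.sum_congr rfl fun a _ => ?_
    rw [H.op_eq]; ring
  rw [e1, e2]; linarith

/-- one step of `ℓ²` decay -/
lemma LazyChain.step (H : LazyChain K K' Ω) (Γ : ℝ) (hΓ : 0 < Γ) (hΩ : Ω.Nonempty)
    (hP : ∀ f : α → ℝ, (Ω.card : ℝ) * ∑ a ∈ Ω, f a ^ 2 - (∑ a ∈ Ω, f a) ^ 2 ≤
      Γ * Ω.card * ∑ a ∈ Ω, f a * (f a - ∑ b ∈ Ω, K a b * f b))
    (h : α → ℝ) (hs : ∀ a, a ∉ Ω → h a = 0) (h0 : ∑ a, h a = 0) :
    (∀ a, a ∉ Ω → ∑ b, K a b * h b = 0) ∧ ∑ a, ∑ b, K a b * h b = 0 ∧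
      ∑ a, (∑ b, K a b * h b) ^ 2 ≤ (1 - 1 / Γ) * ∑ a, h a ^ 2 := by
  have hcard : (0 : ℝ) < Ω.card := by exact_mod_cast hΩ.card_pos
  refine ⟨?_, ?_, ?_⟩
  · intro a ha
    refine Finset.sum_eq_zero fun b _ => ?_
    by_cases hb : b ∈ Ω
    · rw [H.K_symm, H.K_closed hb ha, zero_mul]
    · rw [hs b hb, mul_zero]
  · rw [Finset.sum_comm]
    have : ∀ b, ∑ a, K a b * h b = h b := by
      intro b
      rw [← Finset.sum_mul]
      have : ∑ a, K a b = 1 := by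
        rw [← H.K_row b]; exact Finset.sum_congr rfl fun a _ => H.K_symm a b
      rw [this, one_mul]
    rw [Finset.sum_congr rfl fun b _ => this b, h0]
  · refine (H.sq_op_le h).trans ?_
    have s1 : ∑ a ∈ Ω, h a = 0 := by
      rw [← h0]; exact Finset.sum_subset (Finset.subset_univ _) fun a _ ha => hs a ha
    have s2 : ∑ a ∈ Ω, h a ^ 2 = ∑ a, h a ^ 2 :=
      Finset.sum_subset (Finset.subset_univ _) fun a _ ha => by rw [hs a ha]; ring
    have s3 : ∀ a, ∑ b ∈ Ω, K a b * h b = ∑ b, K a b * h b := fun a =>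
      Finset.sum_subset (Finset.subset_univ _) fun b _ hb => by rw [hs b hb]; ring
    have s4 : ∑ a ∈ Ω, h a * (h a - ∑ b ∈ Ω, K a b * h b)
        = ∑ a, h a ^ 2 - ∑ a, h a * ∑ b, K a b * h b := by
      rw [← Finset.sum_sub_distrib]
      rw [Finset.sum_subset (Finset.subset_univ Ω) fun a _ ha => by rw [hs a ha]; ring]
      refine Finset.sum_congr rfl fun a _ => ?_
      rw [s3]; ring
    have := hP h
    rw [s1, s2, s4] at this
    set A := ∑ a, h a ^ 2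
    set B := ∑ a, h a * ∑ b, K a b * h b
    have h2 : (Ω.card : ℝ) * A ≤ Ω.card * (Γ * (A - B)) := by nlinarith
    have h3 : A ≤ Γ * (A - B) := le_of_mul_le_mul_left h2 hcard
    have h4 : (1 - 1 / Γ) * A = A - A / Γ := by ring
    rw [h4]
    have h5 : A / Γ ≤ A - B := by rw [div_le_iff₀ hΓ]; linarith
    linarith

end chain

section tv

variable {α : Type*} [Fintype α] [DecidableEq α]
variable {K K' : Matrix α α ℝ} {Ω : Finset α}

lemma LazyChain.op_unif (H : LazyChain K K' Ω) (a : α) :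
    ∑ b, K a b * unifOn Ω b = unifOn Ω a := by
  unfold unifOn
  by_cases ha : a ∈ Ω
  · rw [if_pos ha]
    have : ∀ b, K a b * (if b ∈ Ω then 1 / (Ω.card : ℝ) else 0) = K a b * (1 / (Ω.card : ℝ)) := by
      intro b
      by_cases hb : b ∈ Ω
      · rw [if_pos hb]
      · rw [if_neg hb, H.K_closed ha hb]; ring
    rw [Finset.sum_congr rfl fun b _ => this b, ← Finset.sum_mul, H.K_row, one_mul]
  · rw [if_neg ha]
    refine Finset.sum_eq_zero fun b _ => ?_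
    by_cases hb : b ∈ Ω
    · rw [H.K_symm, H.K_closed hb ha, zero_mul]
    · rw [if_neg hb, mul_zero]

lemma sum_unifOn (hΩ : Ω.Nonempty) : ∑ a, unifOn Ω a = 1 := by
  unfold unifOn
  rw [Finset.sum_ite_mem, Finset.univ_inter, Finset.sum_const, nsmul_eq_mul]
  have : (Ω.card : ℝ) ≠ 0 := by exact_mod_cast hΩ.card_pos.ne'
  field_simp

/-- `ℓ²` decay of `K^t(G,·) - unif`. -/
lemma LazyChain.decay (H : LazyChain K K' Ω) (Γ : ℝ) (hΓ : 1 ≤ Γ)
    (hP : ∀ f : α → ℝ, (Ω.card : ℝ) * ∑ a ∈ Ω, f a ^ 2 - (∑ a ∈ Ω, f a) ^ 2 ≤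
      Γ * Ω.card * ∑ a ∈ Ω, f a * (f a - ∑ b ∈ Ω, K a b * f b))
    (G : α) (hG : G ∈ Ω) (t : ℕ) :
    (∀ a, a ∉ Ω → (K ^ t) G a - unifOn Ω a = 0) ∧ ∑ a, ((K ^ t) G a - unifOn Ω a) = 0 ∧
      ∑ a, ((K ^ t) G a - unifOn Ω a) ^ 2 ≤ (1 - 1 / Γ) ^ t := by
  have hΩ : Ω.Nonempty := ⟨G, hG⟩
  have hcard : (0 : ℝ) < Ω.card := by exact_mod_cast hΩ.card_pos
  induction t with
  | zero =>
    refine ⟨?_, ?_, ?_⟩
    · intro a ha
      have : G ≠ a := by rintro rfl; exact ha hG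
      simp [unifOn, ha, Matrix.one_apply, this]
    · rw [Finset.sum_sub_distrib, sum_unifOn hΩ]
      simp [Matrix.one_apply]
    · have e : ∀ a, ((K ^ 0) G a - unifOn Ω a) ^ 2
          = (if G = a then 1 - 2 * unifOn Ω a else 0) + unifOn Ω a * unifOn Ω a := by
        intro a
        rw [pow_zero, Matrix.one_apply]
        split_ifs <;> ring
      rw [Finset.sum_congr rfl fun a _ => e a, Finset.sum_add_distrib, Finset.sum_ite_eq,
        if_pos (Finset.mem_univ G)]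
      have e2 : ∑ a, unifOn Ω a * unifOn Ω a = 1 / (Ω.card : ℝ) := by
        have : ∀ a, unifOn Ω a * unifOn Ω a = (1 / (Ω.card : ℝ)) * unifOn Ω a := by
          intro a
          unfold unifOn
          split_ifs <;> ring
        rw [Finset.sum_congr rfl fun a _ => this a, ← Finset.mul_sum, sum_unifOn hΩ, mul_one]
      rw [e2]
      have e3 : unifOn Ω G = 1 / (Ω.card : ℝ) := by unfold unifOn; rw [if_pos hG]
      rw [e3, pow_zero]
      have : 0 < 1 / (Ω.card : ℝ) := by positivity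
      linarith
  | succ t ih =>
    obtain ⟨i1, i2, i3⟩ := ih
    have hstep : ∀ a, (K ^ (t + 1)) G a - unifOn Ω a
        = ∑ b, K a b * ((K ^ t) G b - unifOn Ω b) := by
      intro a
      rw [pow_succ, Matrix.mul_apply]
      have : ∀ b, K a b * ((K ^ t) G b - unifOn Ω b)
          = (K ^ t) G b * K b a - K a b * unifOn Ω b := by
        intro b; rw [H.K_symm b a]; ring
      rw [Finset.sum_congr rfl fun b _ => this b, Finset.sum_sub_distrib, H.op_unif]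
    obtain ⟨j1, j2, j3⟩ := H.step Γ (by linarith) hΩ hP _ i1 i2
    refine ⟨?_, ?_, ?_⟩
    · intro a ha; rw [hstep]; exact j1 a ha
    · rw [Finset.sum_congr rfl fun a _ => hstep a]; exact j2
    · rw [Finset.sum_congr rfl fun a _ => by rw [hstep a]]
      refine j3.trans ?_
      rw [pow_succ, mul_comm]
      have : 0 ≤ 1 - 1 / Γ := by
        have : 1 / Γ ≤ 1 := by rw [div_le_one (by linarith)]; exact hΓ
        linarith
      exact mul_le_mul_of_nonneg_right i3 this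

/-- TV bound. -/
theorem LazyChain.tv_sq_le (H : LazyChain K K' Ω) (Γ : ℝ) (hΓ : 1 ≤ Γ)
    (hP : ∀ f : α → ℝ, (Ω.card : ℝ) * ∑ a ∈ Ω, f a ^ 2 - (∑ a ∈ Ω, f a) ^ 2 ≤
      Γ * Ω.card * ∑ a ∈ Ω, f a * (f a - ∑ b ∈ Ω, K a b * f b))
    (G : α) (hG : G ∈ Ω) (t : ℕ) :
    (tvDist (fun b => (K ^ t) G b) (unifOn Ω)) ^ 2 ≤ Ω.card * (1 - 1 / Γ) ^ t / 4 := by
  obtain ⟨i1, _, i3⟩ := H.decay Γ hΓ hP G hG t
  unfold tvDist
  have e1 : ∑ a, |(K ^ t) G a - unifOn Ω a| = ∑ a ∈ Ω, |(K ^ t) G a - unifOn Ω a| * 1 := by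
    rw [Finset.sum_subset (Finset.subset_univ Ω) fun a _ ha => by rw [i1 a ha]; simp]
    simp
  have e2 : ∑ a ∈ Ω, |(K ^ t) G a - unifOn Ω a| ^ 2 ≤ ∑ a, ((K ^ t) G a - unifOn Ω a) ^ 2 := by
    simp only [sq_abs]
    exact Finset.sum_le_sum_of_subset_of_nonneg (Finset.subset_univ _) fun _ _ _ => sq_nonneg _
  have cs := Finset.sum_mul_sq_le_sq_mul_sq Ω (fun a => |(K ^ t) G a - unifOn Ω a|) (fun _ => (1:ℝ))
  simp only [one_pow, Finset.sum_const, nsmul_eq_mul, mul_one] at cs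
  rw [e1]
  simp only [mul_one]
  have hc : (0 : ℝ) ≤ Ω.card := by positivity
  have : (∑ a ∈ Ω, |(K ^ t) G a - unifOn Ω a|) ^ 2 ≤ (1 - 1 / Γ) ^ t * Ω.card :=
    cs.trans (mul_le_mul_of_nonneg_right (e2.trans i3) hc)
  rw [div_pow]
  nlinarith

end tv

end Crest.Agent.Switch.Lazy
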