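import Crest.Agent.Switch.Graph

/-!
# Auxiliary material for `PairFibre.lean` (modules M7b, M7c of the S0453 development)

Part 1: cell calculus (adjacency, 0/1 cells, degrees, switches).
-/

set_option autoImplicit false
open Finset Crest.SwitchChain

namespace Crest.Agent.Switch.PF

variable {n : ℕ}

/-! ## adjacency -/

theorem adj_comm (E : Gr n) (a b : Fin n) : adj E a b ↔ adj E b a := by
  unfold adj; rw [Sym2.eq_swap]

theorem adj_symm {E : Gr n} {a b : Fin n} (h : adj E a b) : adj E b a :=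
  (adj_comm E a b).1 h

theorem adj_ne {E : Gr n} {a b : Fin n} (h : adj E a b) : a ≠ b := by
  obtain ⟨e, _, he⟩ := h
  intro hab
  apply e.2
  rw [he, hab]
  exact Sym2.mk_isDiag_iff.2 rfl

theorem not_adj_self (E : Gr n) (a : Fin n) : ¬ adj E a a := fun h => adj_ne h rfl

theorem adj_congr {E : Gr n} {a b a' b' : Fin n} (h : s(a, b) = s(a', b')) :
    adj E a b ↔ adj E a' b' := by
  unfold adj; rw [h]

/-- the edge `ab`. -/
def mkE (a b : Fin n) (h : a ≠ b) : Edge n := ⟨s(a, b), by simpa using h⟩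

theorem adj_iff_mkE {E : Gr n} {a b : Fin n} (h : a ≠ b) :
    adj E a b ↔ mkE a b h ∈ E := by
  constructor
  · rintro ⟨e, he, hab⟩
    have : e = mkE a b h := Subtype.ext hab
    rwa [← this]
  · intro hm
    exact ⟨_, hm, rfl⟩

theorem mem_iff_adj {E : Gr n} (e : Edge n) {a b : Fin n} (h : e.1 = s(a, b)) :
    e ∈ E ↔ adj E a b := by
  constructor
  · intro he; exact ⟨e, he, h⟩
  · rintro ⟨e', he', h'⟩
    have : e = e' := Subtype.ext (h.trans h'.symm)
    rwa [this]

theorem graph_ext {E E' : Gr n} (h : ∀ a b, adj E a b ↔ adj E' a b) : E = E' := by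
  ext e
  obtain ⟨e, he⟩ := e
  induction e using Sym2.ind with
  | _ a b =>
    rw [mem_iff_adj (a := a) (b := b) _ rfl, mem_iff_adj (a := a) (b := b) _ rfl]
    exact h a b

/-- equality of graphs off a set of cells. -/
theorem sdiff_eq_iff {E E' : Gr n} (S : Finset (Edge n)) :
    E \ S = E' \ S ↔ ∀ a b (h : a ≠ b), mkE a b h ∉ S → (adj E a b ↔ adj E' a b) := by
  constructor
  · intro h a b hab hS
    rw [adj_iff_mkE hab, adj_iff_mkE hab]
    have := Finset.ext_iff.1 h (mkE a b hab)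
    simpa [hS] using this
  · intro h
    ext e
    obtain ⟨e, he⟩ := e
    induction e using Sym2.ind with
    | _ a b =>
      have hab : a ≠ b := by simpa using he
      have h1 := h a b hab
      rw [adj_iff_mkE hab, adj_iff_mkE hab] at h1
      simp only [mem_sdiff]
      constructor
      · rintro ⟨h2, h3⟩; exact ⟨(h1 h3).1 h2, h3⟩
      · rintro ⟨h2, h3⟩; exact ⟨(h1 h3).2 h2, h3⟩

theorem mkE_mem_cell {a b x y : Fin n} (h : x ≠ y) : mkE x y h ∈ cell a b ↔ s(x, y) = s(a, b) := by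
  simp only [cell, mkE, mem_filter, mem_univ, true_and]

theorem mkE_mem_star {a x y : Fin n} (h : x ≠ y) : mkE x y h ∈ star a ↔ (a = x ∨ a = y) := by
  simp only [star, mkE, mem_filter, mem_univ, true_and, Sym2.mem_iff]

theorem mkE_mem_star2 {a b x y : Fin n} (h : x ≠ y) :
    mkE x y h ∈ star2 a b ↔ (a = x ∨ a = y) ∨ (b = x ∨ b = y) := by
  simp only [star2, mem_union, mkE_mem_star]

theorem mkE_mem_mcells {a b c d x y : Fin n} (h : x ≠ y) :
    mkE x y h ∈ mcells a b c d ↔
      s(x, y) = s(a, c) ∨ s(x, y) = s(a, d) ∨ s(x, y) = s(b, c) ∨ s(x, y) = s(b, d) := by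
  simp only [mcells, mem_union, mkE_mem_cell, or_assoc]

/-! ## 0/1 cells and degrees -/

/-- 0/1 cell. -/
def xc (E : Gr n) (a b : Fin n) : ℕ := if adj E a b then 1 else 0

theorem xc_comm (E : Gr n) (a b : Fin n) : xc E a b = xc E b a := by
  unfold xc; simp only [adj_comm E a b]

theorem xc_self (E : Gr n) (a : Fin n) : xc E a a = 0 := by
  unfold xc; simp [not_adj_self]

theorem xc_le_one (E : Gr n) (a b : Fin n) : xc E a b ≤ 1 := by
  unfold xc; split_ifs <;> simp

theorem xc_eq_one {E : Gr n} {a b : Fin n} : xc E a b = 1 ↔ adj E a b := by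
  unfold xc; split_ifs with h <;> simp [h]

theorem xc_eq_zero {E : Gr n} {a b : Fin n} : xc E a b = 0 ↔ ¬ adj E a b := by
  unfold xc; split_ifs with h <;> simp [h]

theorem xc_eq_iff {E E' : Gr n} {a b a' b' : Fin n} :
    xc E a b = xc E' a' b' ↔ (adj E a b ↔ adj E' a' b') := by
  unfold xc; split_ifs with h h' h' <;> simp [h, h']

theorem deg_eq_card (E : Gr n) (v : Fin n) :
    deg E v = (univ.filter fun w => adj E v w).card := by
  unfold deg
  symm
  apply Finset.card_bij (fun w hw => mkE v w (by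
    simp only [mem_filter, mem_univ, true_and] at hw; exact adj_ne hw))
  · intro w hw
    simp only [mem_filter, mem_univ, true_and] at hw ⊢
    refine ⟨(adj_iff_mkE (adj_ne hw)).1 hw, ?_⟩
    simp [mkE]
  · intro w hw w' hw' heq
    have := congrArg Subtype.val heq
    simp only [mkE, Sym2.eq_iff] at this
    simp only [mem_filter, mem_univ, true_and] at hw hw'
    rcases this with ⟨_, h⟩ | ⟨h1, h2⟩
    · exact h
    · rw [← h1, h2]
  · intro e he
    simp only [mem_filter] at he
    obtain ⟨heE, hv⟩ := he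
    obtain ⟨w, hw⟩ := Sym2.mem_iff_exists.1 hv
    refine ⟨w, ?_, ?_⟩
    · simp only [mem_filter, mem_univ, true_and]
      exact ⟨e, heE, hw⟩
    · exact Subtype.ext hw.symm

theorem deg_eq_sum (E : Gr n) (v : Fin n) : deg E v = ∑ w, xc E v w := by
  rw [deg_eq_card, Finset.card_filter]; rfl

theorem mem_realizations {d : Fin n → ℕ} {G : Gr n} :
    G ∈ realizations d ↔ ∀ v, ∑ w, xc G v w = d v := by
  simp [realizations, deg_eq_sum]

/-- the vertices other than `a`, `b`. -/
def others (a b : Fin n) : Finset (Fin n) := (univ.erase a).erase b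

theorem mem_others {a b w : Fin n} : w ∈ others a b ↔ w ≠ a ∧ w ≠ b := by
  simp [others, and_comm]

/-- split a sum over all vertices into `a`, `b` and the rest. -/
theorem sum_split {M : Type*} [AddCommMonoid M] {a b : Fin n} (hab : a ≠ b) (g : Fin n → M) :
    ∑ w, g w = g a + (g b + ∑ w ∈ others a b, g w) := by
  unfold others
  rw [← Finset.add_sum_erase univ g (mem_univ a),
    ← Finset.add_sum_erase (univ.erase a) g (mem_erase.2 ⟨hab.symm, mem_univ b⟩)]

/-! ## switches -/

theorem adj_sw (G : Gr n) (a b c d x y : Fin n) :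
    adj (sw G a b c d) x y ↔
      (adj G x y ∧ s(x, y) ≠ s(a, c) ∧ s(x, y) ≠ s(b, d)) ∨
        (x ≠ y ∧ (s(x, y) = s(a, d) ∨ s(x, y) = s(b, c))) := by
  constructor
  · rintro ⟨e, he, hxy⟩
    have hne : x ≠ y := by
      intro h; apply e.2; rw [hxy, h]; exact Sym2.mk_isDiag_iff.2 rfl
    simp only [sw, cell, mem_union, mem_sdiff, mem_filter, mem_univ, true_and, not_or] at he
    rw [hxy] at he
    rcases he with ⟨h1, h2, h3⟩ | h
    · exact Or.inl ⟨⟨e, h1, hxy⟩, h2, h3⟩
    · exact Or.inr ⟨hne, h⟩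
  · rintro (⟨⟨e, he, hxy⟩, h2, h3⟩ | ⟨hne, h⟩)
    · refine ⟨e, ?_, hxy⟩
      simp only [sw, cell, mem_union, mem_sdiff, mem_filter, mem_univ, true_and, not_or]
      rw [hxy]
      exact Or.inl ⟨he, h2, h3⟩
    · refine ⟨mkE x y hne, ?_, rfl⟩
      simp only [sw, cell, mem_union, mem_sdiff, mem_filter, mem_univ, true_and, not_or, mkE]
      exact Or.inr h

/-- indicator of `{x,y} = {a,c}`. -/
def ind (x y a c : Fin n) : ℕ := if s(x, y) = s(a, c) then 1 else 0

theorem sum_ind {a c : Fin n} (hac : a ≠ c) (x : Fin n) :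
    ∑ y, ind x y a c = (if x = a then 1 else 0) + (if x = c then 1 else 0) := by
  unfold ind
  simp only [Sym2.eq_iff]
  by_cases h1 : x = a
  · subst h1
    simp [hac]
  · by_cases h2 : x = c
    · subst h2
      simp [h1]
    · simp [h1, h2]

theorem ite_aux (A P1 P2 P3 P4 N : Prop) [Decidable A] [Decidable P1] [Decidable P2]
    [Decidable P3] [Decidable P4] [Decidable N] (hA : P1 → A) (hB : P2 → A) (hC : P3 → ¬ A)
    (hD : P4 → ¬ A) (hC' : P3 → N) (hD' : P4 → N) (h12 : P1 → ¬ P2) (h34 : P3 → ¬ P4) :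
    (if (A ∧ ¬ P1 ∧ ¬ P2) ∨ (N ∧ (P3 ∨ P4)) then 1 else 0) + (if P1 then 1 else 0)
        + (if P2 then 1 else 0)
      = (if A then 1 else 0) + (if P3 then 1 else 0) + (if P4 then 1 else 0) := by
  by_cases hA' : A <;> by_cases h1 : P1 <;> by_cases h2 : P2 <;> by_cases h3 : P3 <;>
    by_cases h4 : P4 <;> simp_all

theorem xc_sw {G : Gr n} {a b c d : Fin n} (h4 : dist4 a b c d) (hok : swOK G a b c d)
    (x y : Fin n) :
    xc (sw G a b c d) x y + ind x y a c + ind x y b d = xc G x y + ind x y a d + ind x y b c := by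
  obtain ⟨hab, hac, had, hbc, hbd, hcd⟩ := h4
  obtain ⟨k1, k2, k3, k4⟩ := hok
  have hA : s(x, y) = s(a, c) → adj G x y := fun e => (adj_congr e).2 k1
  have hB : s(x, y) = s(b, d) → adj G x y := fun e => (adj_congr e).2 k2
  have hC : s(x, y) = s(a, d) → ¬ adj G x y := fun e h => k3 ((adj_congr e).1 h)
  have hD : s(x, y) = s(b, c) → ¬ adj G x y := fun e h => k4 ((adj_congr e).1 h)
  have hC' : s(x, y) = s(a, d) → x ≠ y := by
    intro e3 h; subst h
    simp only [Sym2.eq_iff] at e3
    rcases e3 with ⟨h1, h2⟩ | ⟨h1, h2⟩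
    · exact had (h1.symm.trans h2)
    · exact had (h2.symm.trans h1)
  have hD' : s(x, y) = s(b, c) → x ≠ y := by
    intro e3 h; subst h
    simp only [Sym2.eq_iff] at e3
    rcases e3 with ⟨h1, h2⟩ | ⟨h1, h2⟩
    · exact hbc (h1.symm.trans h2)
    · exact hbc (h2.symm.trans h1)
  have h12 : s(x, y) = s(a, c) → s(x, y) ≠ s(b, d) := by
    intro e; rw [e]; simp [hab, had]
  have h34 : s(x, y) = s(a, d) → s(x, y) ≠ s(b, c) := by
    intro e; rw [e]; simp [hab, hac]
  unfold xc ind
  simp only [adj_sw]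
  exact ite_aux _ _ _ _ _ _ hA hB hC hD hC' hD' h12 h34

theorem sw_mem {d : Fin n → ℕ} {G : Gr n} {a b c e : Fin n} (h4 : dist4 a b c e)
    (hok : swOK G a b c e) (hG : G ∈ realizations d) : sw G a b c e ∈ realizations d := by
  rw [mem_realizations] at hG ⊢
  intro v
  have h := Finset.sum_congr rfl (fun y (_ : y ∈ (univ : Finset (Fin n))) => xc_sw h4 hok v y)
  simp only [Finset.sum_add_distrib] at h
  obtain ⟨hab, hac, had, hbc, hbd, hcd⟩ := h4
  rw [sum_ind hac, sum_ind hbd, sum_ind had, sum_ind hbc, hG v] at h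
  omega

end Crest.Agent.Switch.PF
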