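import Crest.Agent.Switch.Basic

/-! # Abstract transfer lemmas for `ce` used by module M8. -/

set_option autoImplicit false
open Finset

namespace Crest.Agent.Switch
namespace Tri

variable {α β γ δ γ' : Type*}

theorem fib_restrict [DecidableEq γ] [DecidableEq γ'] (Ω : Finset α) (κT : α → γ') (κ : α → γ)
    (hfac : ∀ x y, κ x = κ y → κT x = κT y) (x₀ x : α) (hx : x ∈ fib Ω κT x₀) :
    fib (fib Ω κT x₀) κ x = fib Ω κ x := by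
  ext y
  simp only [fib, mem_filter] at hx ⊢
  constructor
  · rintro ⟨⟨h1, _⟩, h3⟩; exact ⟨h1, h3⟩
  · rintro ⟨h1, h3⟩; exact ⟨⟨h1, (hfac _ _ h3).trans hx.2⟩, h3⟩

theorem ce_restrict [DecidableEq γ] [DecidableEq γ'] (Ω : Finset α) (κT : α → γ') (κ : α → γ)
    (hfac : ∀ x y, κ x = κ y → κT x = κT y) (f : α → ℝ) (x₀ x : α) (hx : x ∈ fib Ω κT x₀) :
    ce (fib Ω κT x₀) κ f x = ce Ω κ f x := by
  unfold ce
  rw [fib_restrict Ω κT κ hfac x₀ x hx]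

theorem qe_restrict [DecidableEq γ] [DecidableEq γ'] (Ω : Finset α) (κT : α → γ') (κ : α → γ)
    (hfac : ∀ x y, κ x = κ y → κT x = κT y) (f : α → ℝ) (x₀ x : α) (hx : x ∈ fib Ω κT x₀) :
    qe (fib Ω κT x₀) κ f x = qe Ω κ f x := by
  unfold qe
  rw [ce_restrict Ω κT κ hfac f x₀ x hx]

/-- transfer of a conditional expectation along a bijection `Φ ≃ Tb`. -/
theorem ce_transfer [DecidableEq γ] [DecidableEq δ] (Φ : Finset α) (Tb : Finset β)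
    (φ : α → β) (ψ : β → α)
    (h1 : ∀ x ∈ Φ, φ x ∈ Tb) (h2 : ∀ y ∈ Tb, ψ y ∈ Φ) (h3 : ∀ x ∈ Φ, ψ (φ x) = x)
    (h4 : ∀ y ∈ Tb, φ (ψ y) = y) (κ : α → γ) (ρ : β → δ)
    (hk : ∀ x ∈ Φ, ∀ x' ∈ Φ, κ x = κ x' ↔ ρ (φ x) = ρ (φ x'))
    (f : α → ℝ) (y : β) (hy : y ∈ Tb) :
    ce Tb ρ (fun z => f (ψ z)) y = ce Φ κ f (ψ y) := by
  unfold ce
  have hmem1 : ∀ z ∈ fib Tb ρ y, ψ z ∈ fib Φ κ (ψ y) := by
    intro z hz
    simp only [fib, mem_filter] at hz ⊢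
    refine ⟨h2 z hz.1, ?_⟩
    rw [hk _ (h2 z hz.1) _ (h2 y hy), h4 z hz.1, h4 y hy]
    exact hz.2
  have hmem2 : ∀ x ∈ fib Φ κ (ψ y), φ x ∈ fib Tb ρ y := by
    intro x hx
    simp only [fib, mem_filter] at hx ⊢
    refine ⟨h1 x hx.1, ?_⟩
    have := (hk _ hx.1 _ (h2 y hy)).1 hx.2
    rwa [h4 y hy] at this
  have hs : ∑ z ∈ fib Tb ρ y, f (ψ z) = ∑ x ∈ fib Φ κ (ψ y), f x := by
    refine Finset.sum_nbij' ψ φ hmem1 hmem2 ?_ ?_ ?_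
    · intro z hz; exact h4 z (mem_filter.1 hz).1
    · intro x hx; exact h3 x (mem_filter.1 hx).1
    · intro z _; rfl
  have hc : (fib Tb ρ y).card = (fib Φ κ (ψ y)).card := by
    refine Finset.card_nbij' ψ φ hmem1 hmem2 ?_ ?_
    · intro z hz; exact h4 z (mem_filter.1 hz).1
    · intro x hx; exact h3 x (mem_filter.1 hx).1
  rw [hs, hc]

theorem qe_transfer [DecidableEq γ] [DecidableEq δ] (Φ : Finset α) (Tb : Finset β)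
    (φ : α → β) (ψ : β → α)
    (h1 : ∀ x ∈ Φ, φ x ∈ Tb) (h2 : ∀ y ∈ Tb, ψ y ∈ Φ) (h3 : ∀ x ∈ Φ, ψ (φ x) = x)
    (h4 : ∀ y ∈ Tb, φ (ψ y) = y) (κ : α → γ) (ρ : β → δ)
    (hk : ∀ x ∈ Φ, ∀ x' ∈ Φ, κ x = κ x' ↔ ρ (φ x) = ρ (φ x'))
    (f : α → ℝ) (y : β) (hy : y ∈ Tb) :
    qe Tb ρ (fun z => f (ψ z)) y = qe Φ κ f (ψ y) := by
  unfold qe
  rw [ce_transfer Φ Tb φ ψ h1 h2 h3 h4 κ ρ hk f y hy]

/-- a sum over `Ω` is nonnegative as soon as it is nonnegative on each fibre of `κT`. -/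
theorem sum_nonneg_of_fib [DecidableEq γ'] (Ω : Finset α) (κT : α → γ') (F : α → ℝ)
    (h : ∀ x₀ ∈ Ω, 0 ≤ ∑ x ∈ fib Ω κT x₀, F x) : 0 ≤ ∑ x ∈ Ω, F x := by
  rw [← Finset.sum_fiberwise_of_maps_to (s := Ω) (t := Ω.image κT) (g := κT)
    (fun x hx => mem_image_of_mem _ hx)]
  apply Finset.sum_nonneg
  intro k hk
  obtain ⟨x₀, hx₀, rfl⟩ := mem_image.1 hk
  exact h x₀ hx₀

end Tri
end Crest.Agent.Switch
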