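import Crest.Agent.Switch.TripleTab

/-! # Module M8, part 2: the bijection (fibre of `G - T`) ≃ (3-row tables with fixed margins). -/

set_option autoImplicit false
open Finset Crest.SwitchChain

namespace Crest.Agent.Switch
namespace Tri

variable {n : ℕ}

/-- `G` and `G'` agree outside the triple. -/
def AgreeOff (t : Fin 3 → Fin n) (G G' : Gr n) : Prop :=
  ∀ u v, u ∉ TT t → v ∉ TT t → (adj G u v ↔ adj G' u v)

theorem agreeOff_iff (t : Fin 3 → Fin n) (G G' : Gr n) :
    G \ star3 (t 0) (t 1) (t 2) = G' \ star3 (t 0) (t 1) (t 2) ↔ AgreeOff t G G' := by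
  rw [sdiff_star3_eq_iff]
  unfold AgreeOff
  constructor
  · intro h u v hu hv; exact h u v (not_mem_TT_iff.1 hu) (not_mem_TT_iff.1 hv)
  · intro h u v hu hv; exact h u v (not_mem_TT_iff.2 hu) (not_mem_TT_iff.2 hv)

theorem pair_cases (t : Fin 3 → Fin n) (P : Fin n → Fin n → Prop) (hsymm : ∀ u v, P u v → P v u)
    (h1 : ∀ u v, u ∉ TT t → v ∉ TT t → P u v) (h2 : ∀ i v, v ∉ TT t → P (t i) v)
    (h3 : ∀ i, P (t (i+1)) (t (i+2))) (h4 : ∀ i, P (t i) (t i)) : ∀ u v, P u v := by
  intro u v
  by_cases hu : u ∈ TT t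
  · obtain ⟨i, -, rfl⟩ := mem_image.1 hu
    by_cases hv : v ∈ TT t
    · obtain ⟨k, -, rfl⟩ := mem_image.1 hv
      rcases f3h i k with rfl | rfl | rfl
      · exact h4 _
      · have := h3 (i+2)
        rwa [f3c, f3d] at this
      · have := h3 (i+1)
        rw [f3a, f3b] at this
        exact hsymm _ _ this
    · exact h2 i v hv
  · by_cases hv : v ∈ TT t
    · obtain ⟨k, -, rfl⟩ := mem_image.1 hv
      exact hsymm _ _ (h2 k u hu)
    · exact h1 u v hu hv

section margins

variable (t : Fin 3 → Fin n) (ht : Function.Injective t)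

include ht in
theorem cs_out_eq {G G' : Gr n} (hdeg : ∀ v, deg G v = deg G' v) (hag : AgreeOff t G G')
    {j : Fin n} (hj : j ∉ TT t) : cs (tab t G) j = cs (tab t G') j := by
  have h1 := deg_out t ht G hj
  have h2 := deg_out t ht G' hj
  have h3 : ∑ u ∈ univ \ TT t, (decide (adj G j u)).toNat
      = ∑ u ∈ univ \ TT t, (decide (adj G' j u)).toNat := by
    apply Finset.sum_congr rfl
    intro u hu
    congr 1
    exact decide_eq_decide.2 (hag j u hj (mem_sdiff.1 hu).2)
  have := hdeg j
  omega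

include ht in
theorem cs_in (G : Gr n) (k : Fin 3) (hk : k ≠ 0) : cs (tab t G) (t k) = 0 := by
  unfold cs
  apply Finset.sum_eq_zero
  intro i _
  rw [tab_in t ht G i k hk]; rfl

include ht in
theorem key_count (G : Gr n) :
    ∑ j ∈ univ \ TT t, cs (tab t G) j + 6 = ∑ i, deg G (t i) + 2 * cs (tab t G) (t 0) := by
  have h := sum_rs_eq_sum_cs (tab t G)
  rw [sum_split t ht (cs (tab t G)), Fin.sum_univ_three, Fin.sum_univ_three,
    cs_in t ht G 1 (by decide), cs_in t ht G 2 (by decide)] at h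
  have h0 := deg_in t ht G 0
  have h1 := deg_in t ht G 1
  have h2 := deg_in t ht G 2
  rw [Fin.sum_univ_three]
  omega

include ht in
theorem cs_zero_eq {G G' : Gr n} (hdeg : ∀ v, deg G v = deg G' v) (hag : AgreeOff t G G') :
    cs (tab t G) (t 0) = cs (tab t G') (t 0) := by
  have h1 := key_count t ht G
  have h2 := key_count t ht G'
  have h3 : ∑ j ∈ univ \ TT t, cs (tab t G) j = ∑ j ∈ univ \ TT t, cs (tab t G') j := by
    apply Finset.sum_congr rfl
    intro j hj
    exact cs_out_eq t ht hdeg hag (mem_sdiff.1 hj).2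
  have h4 : ∑ i, deg G (t i) = ∑ i, deg G' (t i) := by
    apply Finset.sum_congr rfl
    intro i _; exact hdeg _
  omega

include ht in
theorem cs_eq {G G' : Gr n} (hdeg : ∀ v, deg G v = deg G' v) (hag : AgreeOff t G G')
    (j : Fin n) : cs (tab t G) j = cs (tab t G') j := by
  by_cases hj : j ∈ TT t
  · obtain ⟨k, -, rfl⟩ := mem_image.1 hj
    by_cases hk : k = 0
    · subst hk; exact cs_zero_eq t ht hdeg hag
    · rw [cs_in t ht G k hk, cs_in t ht G' k hk]
  · exact cs_out_eq t ht hdeg hag hj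

include ht in
theorem rs_eq {G G' : Gr n} (hdeg : ∀ v, deg G v = deg G' v) (hag : AgreeOff t G G')
    (i : Fin 3) : rs (tab t G) i = rs (tab t G') i := by
  have h1 := deg_in t ht G i
  have h2 := deg_in t ht G' i
  have h3 := cs_zero_eq t ht hdeg hag
  have h4 := hdeg (t i)
  omega

end margins

/-- the graph rebuilt from the part of `G₀` outside the triple and a table. -/
def ofTab (t : Fin 3 → Fin n) (G₀ : Gr n) (w : Fin 3 → Fin n → Bool) : Gr n :=
  ofAdj (fun u v => (u ∉ TT t ∧ v ∉ TT t ∧ adj G₀ u v) ∨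
     (∃ i, u = t i ∧ v ∉ TT t ∧ w i v = true) ∨
     (∃ i, u = t (i+1) ∧ v = t (i+2) ∧ w i (t 0) = false))

section oftab

variable (t : Fin 3 → Fin n) (ht : Function.Injective t) (G₀ : Gr n) (w : Fin 3 → Fin n → Bool)

theorem adj_ofTab_out {u v : Fin n} (hu : u ∉ TT t) (hv : v ∉ TT t) :
    adj (ofTab t G₀ w) u v ↔ adj G₀ u v := by
  unfold ofTab
  rw [adj_ofAdj]
  constructor
  · rintro ⟨-, (⟨-, -, h⟩ | ⟨i, rfl, -⟩ | ⟨i, rfl, -⟩) | (⟨-, -, h⟩ | ⟨i, rfl, -⟩ | ⟨i, rfl, -⟩)⟩
    · exact h
    · exact absurd (mem_TT t _) hu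
    · exact absurd (mem_TT t _) hu
    · exact (adj_comm _ _ _).1 h
    · exact absurd (mem_TT t _) hv
    · exact absurd (mem_TT t _) hv
  · intro h
    exact ⟨adj_ne h, Or.inl (Or.inl ⟨hu, hv, h⟩)⟩

include ht in
theorem adj_ofTab_row (i : Fin 3) {v : Fin n} (hv : v ∉ TT t) :
    adj (ofTab t G₀ w) (t i) v ↔ w i v = true := by
  unfold ofTab
  rw [adj_ofAdj]
  constructor
  · rintro ⟨-, (⟨h, -, -⟩ | ⟨k, hk, -, h⟩ | ⟨k, -, rfl, -⟩) | (⟨-, h, -⟩ | ⟨k, rfl, -⟩ | ⟨k, rfl, -⟩)⟩
    · exact absurd (mem_TT t _) h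
    · rw [ht hk]; exact h
    · exact absurd (mem_TT t _) hv
    · exact absurd (mem_TT t _) h
    · exact absurd (mem_TT t _) hv
    · exact absurd (mem_TT t _) hv
  · intro h
    exact ⟨(not_mem_TT hv i).symm, Or.inl (Or.inr (Or.inl ⟨i, rfl, hv, h⟩))⟩

include ht in
theorem adj_ofTab_in (i : Fin 3) :
    adj (ofTab t G₀ w) (t (i+1)) (t (i+2)) ↔ w i (t 0) = false := by
  unfold ofTab
  rw [adj_ofAdj]
  constructor
  · rintro ⟨-, (⟨h, -, -⟩ | ⟨k, -, h, -⟩ | ⟨k, hk, -, h⟩) | (⟨h, -, -⟩ | ⟨k, -, h, -⟩ | ⟨k, hk, hk', -⟩)⟩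
    · exact absurd (mem_TT t _) h
    · exact absurd (mem_TT t _) h
    · have : i = k := by simpa using ht hk
      rw [this]; exact h
    · exact absurd (mem_TT t _) h
    · exact absurd (mem_TT t _) h
    · exfalso
      have h1 := ht hk
      have h2 := ht hk'
      clear hk hk'
      revert h1 h2; revert i k; decide
  · intro h
    exact ⟨fun h' => f3g i (ht h'), Or.inl (Or.inr (Or.inr ⟨i, rfl, rfl, h⟩))⟩

include ht in
theorem tab_ofTab (hw : ∀ i k, k ≠ 0 → w i (t k) = false) : tab t (ofTab t G₀ w) = w := by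
  funext i j
  by_cases hj : j ∈ TT t
  · obtain ⟨k, -, rfl⟩ := mem_image.1 hj
    by_cases hk : k = 0
    · subst hk
      rw [tab_zero]
      by_cases h : w i (t 0) = false
      · rw [decide_eq_true ((adj_ofTab_in t ht G₀ w i).2 h), h]; rfl
      · rw [decide_eq_false (fun h' => h ((adj_ofTab_in t ht G₀ w i).1 h'))]
        simpa using h
    · rw [tab_in t ht _ i k hk, hw i k hk]
  · rw [tab_out t _ i hj]
    by_cases h : w i j = true
    · rw [decide_eq_true ((adj_ofTab_row t ht G₀ w i hj).2 h), h]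
    · rw [decide_eq_false (fun h' => h ((adj_ofTab_row t ht G₀ w i hj).1 h'))]
      simpa using h

include ht in
theorem ofTab_tab {G : Gr n} (hag : AgreeOff t G G₀) : ofTab t G₀ (tab t G) = G := by
  apply ext_adj
  apply pair_cases t
  · intro u v h; rw [adj_comm _ v u, adj_comm _ v u]; exact h
  · intro u v hu hv
    rw [adj_ofTab_out t G₀ _ hu hv]; exact (hag u v hu hv).symm
  · intro i v hv
    rw [adj_ofTab_row t ht G₀ _ i hv, tab_out t G i hv]; simp
  · intro i
    rw [adj_ofTab_in t ht G₀ _ i, tab_zero]; simp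
  · intro i
    exact ⟨fun h => absurd h (not_adj_self _ _), fun h => absurd h (not_adj_self _ _)⟩

theorem agreeOff_ofTab : AgreeOff t (ofTab t G₀ w) G₀ := fun _ _ hu hv =>
  adj_ofTab_out t G₀ w hu hv

include ht in
theorem deg_ofTab (hr : ∀ i, rs w i = rs (tab t G₀) i) (hc : ∀ j, cs w j = cs (tab t G₀) j)
    (v : Fin n) : deg (ofTab t G₀ w) v = deg G₀ v := by
  have hw : ∀ i k, k ≠ 0 → w i (t k) = false := by
    intro i k hk
    have h := hc (t k)
    rw [cs_in t ht G₀ k hk] at h
    unfold cs at h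
    have := (Finset.sum_eq_zero_iff.1 h) i (mem_univ _)
    cases hh : w i (t k)
    · rfl
    · rw [hh] at this; simp at this
  have htab := tab_ofTab t ht G₀ w hw
  by_cases hv : v ∈ TT t
  · obtain ⟨i, -, rfl⟩ := mem_image.1 hv
    have h1 := deg_in t ht (ofTab t G₀ w) i
    have h2 := deg_in t ht G₀ i
    rw [htab] at h1
    have h3 := hr i
    have h4 := hc (t 0)
    omega
  · have h1 := deg_out t ht (ofTab t G₀ w) hv
    have h2 := deg_out t ht G₀ hv
    rw [htab] at h1
    have h3 : ∑ u ∈ univ \ TT t, (decide (adj (ofTab t G₀ w) v u)).toNat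
        = ∑ u ∈ univ \ TT t, (decide (adj G₀ v u)).toNat := by
      apply Finset.sum_congr rfl
      intro u hu
      congr 1
      exact decide_eq_decide.2 (adj_ofTab_out t G₀ w hv (mem_sdiff.1 hu).2)
    have h4 := hc v
    omega

end oftab

section rows

variable (t : Fin 3 → Fin n) (ht : Function.Injective t)

include ht in
/-- inside a fibre of `G - T`: same `G - t(i+1) - t(i+2)` iff same `i`-th row of the table. -/
theorem row_eq_iff {G G' : Gr n} (hdeg : ∀ v, deg G v = deg G' v) (hag : AgreeOff t G G')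
    (i : Fin 3) :
    G \ star2 (t (i+1)) (t (i+2)) = G' \ star2 (t (i+1)) (t (i+2)) ↔ tab t G i = tab t G' i := by
  rw [sdiff_star2_eq_iff]
  constructor
  · intro h
    have hout : ∀ j, j ∉ TT t → (adj G (t i) j ↔ adj G' (t i) j) := by
      intro j hj
      exact h (t i) j (fun h' => f3e i (ht h')) (fun h' => f3f i (ht h'))
        (not_mem_TT hj _) (not_mem_TT hj _)
    funext j
    by_cases hj : j ∈ TT t
    · obtain ⟨k, -, rfl⟩ := mem_image.1 hj
      by_cases hk : k = 0
      · subst hk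
        have h1 := rs_tab t ht G i
        have h2 := rs_tab t ht G' i
        have h3 := rs_eq t ht hdeg hag i
        have h4 : ∑ u ∈ univ \ TT t, (decide (adj G (t i) u)).toNat
            = ∑ u ∈ univ \ TT t, (decide (adj G' (t i) u)).toNat := by
          apply Finset.sum_congr rfl
          intro u hu
          congr 1
          exact decide_eq_decide.2 (hout u (mem_sdiff.1 hu).2)
        have h5 : (tab t G i (t 0)).toNat = (tab t G' i (t 0)).toNat := by omega
        revert h5
        cases tab t G i (t 0) <;> cases tab t G' i (t 0) <;> simp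
      · rw [tab_in t ht G i k hk, tab_in t ht G' i k hk]
    · rw [tab_out t G i hj, tab_out t G' i hj]
      exact decide_eq_decide.2 (hout j hj)
  · intro h u v hu1 hu2 hv1 hv2
    have hrow : ∀ j, j ∉ TT t → (adj G (t i) j ↔ adj G' (t i) j) := by
      intro j hj
      have := congrFun h j
      rw [tab_out t G i hj, tab_out t G' i hj] at this
      exact decide_eq_decide.1 this
    have hin : ∀ x, x ∈ TT t → x ≠ t (i+1) → x ≠ t (i+2) → x = t i := by
      intro x hx h1 h2
      obtain ⟨k, -, rfl⟩ := mem_image.1 hx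
      rcases f3h i k with rfl | rfl | rfl
      · rfl
      · exact absurd rfl h1
      · exact absurd rfl h2
    by_cases hu : u ∈ TT t
    · have hu' := hin u hu hu1 hu2
      subst hu'
      by_cases hv : v ∈ TT t
      · have hv' := hin v hv hv1 hv2
        subst hv'
        exact ⟨fun h => absurd h (not_adj_self _ _), fun h => absurd h (not_adj_self _ _)⟩
      · exact hrow v hv
    · by_cases hv : v ∈ TT t
      · have hv' := hin v hv hv1 hv2
        subst hv'
        rw [adj_comm G, adj_comm G']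
        exact hrow u hu
      · exact hag u v hu hv

end rows

end Tri
end Crest.Agent.Switch
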