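import Crest.Agent.Switch.Graph

/-! # Adjacency calculus used by module M8 (triple fibre → 3-row table). -/

set_option autoImplicit false
open Finset Crest.SwitchChain

namespace Crest.Agent.Switch
namespace Tri

variable {n : ℕ}

theorem adj_comm (G : Gr n) (a b : Fin n) : adj G a b ↔ adj G b a := by
  unfold adj; rw [Sym2.eq_swap]

theorem not_adj_self (G : Gr n) (a : Fin n) : ¬ adj G a a := by
  rintro ⟨e, -, he⟩
  exact e.2 (by rw [he]; exact Sym2.mk_isDiag_iff.2 rfl)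

theorem adj_ne {G : Gr n} {a b : Fin n} (h : adj G a b) : a ≠ b := by
  rintro rfl; exact not_adj_self G a h

/-- the edge `{a,b}`. -/
def mkE (a b : Fin n) (h : a ≠ b) : Edge n := ⟨s(a, b), by simpa using h⟩

theorem adj_iff_mkE (G : Gr n) (a b : Fin n) (h : a ≠ b) : adj G a b ↔ mkE a b h ∈ G := by
  constructor
  · rintro ⟨e, he, hab⟩
    have : e = mkE a b h := Subtype.ext hab
    rwa [← this]
  · intro hm; exact ⟨_, hm, rfl⟩

theorem ext_adj {G G' : Gr n} (h : ∀ a b, adj G a b ↔ adj G' a b) : G = G' := by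
  ext ⟨e, he⟩
  induction e using Sym2.ind with
  | _ a b =>
    have hab : a ≠ b := by simpa using he
    have := h a b
    rw [adj_iff_mkE _ _ _ hab, adj_iff_mkE _ _ _ hab] at this
    exact this

theorem adj_ofAdj (r : Fin n → Fin n → Prop) [DecidableRel r] (a b : Fin n) :
    adj (ofAdj r) a b ↔ a ≠ b ∧ (r a b ∨ r b a) := by
  constructor
  · rintro ⟨e, he, hab⟩
    have hne : a ≠ b := by
      have := e.2; rw [hab] at this; simpa using this
    refine ⟨hne, ?_⟩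
    simp only [ofAdj, mem_filter, mem_univ, true_and] at he
    obtain ⟨x, y, hxy, hr⟩ := he
    rw [hab] at hxy
    rcases Sym2.eq_iff.1 hxy with ⟨rfl, rfl⟩ | ⟨rfl, rfl⟩
    · exact Or.inl hr
    · exact Or.inr hr
  · rintro ⟨hne, h | h⟩
    · refine ⟨mkE a b hne, ?_, rfl⟩
      simp only [ofAdj, mem_filter, mem_univ, true_and]
      exact ⟨a, b, rfl, h⟩
    · refine ⟨mkE a b hne, ?_, rfl⟩
      simp only [ofAdj, mem_filter, mem_univ, true_and]
      exact ⟨b, a, Sym2.eq_swap, h⟩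

theorem deg_eq (G : Gr n) (v : Fin n) : deg G v = (univ.filter fun w => adj G v w).card := by
  unfold deg
  symm
  refine Finset.card_bij (fun w hw => mkE v w (adj_ne (mem_filter.1 hw).2)) ?_ ?_ ?_
  · intro w hw
    have h := (mem_filter.1 hw).2
    refine mem_filter.2 ⟨(adj_iff_mkE _ _ _ (adj_ne h)).1 h, ?_⟩
    simp [mkE]
  · intro w hw w' hw' h
    have : s(v, w) = s(v, w') := congrArg Subtype.val h
    exact Sym2.congr_right.1 this
  · rintro ⟨e, he⟩ hmem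
    obtain ⟨hG, hv⟩ := mem_filter.1 hmem
    simp only at hv
    obtain ⟨w, rfl⟩ := Sym2.mem_iff_exists.1 hv
    refine ⟨w, mem_filter.2 ⟨mem_univ _, ⟨_, hG, rfl⟩⟩, rfl⟩

theorem adj_sdiff_star2 (G : Gr n) (a b u v : Fin n) :
    adj (G \ star2 a b) u v ↔ adj G u v ∧ u ≠ a ∧ u ≠ b ∧ v ≠ a ∧ v ≠ b := by
  unfold adj star2 star
  constructor
  · rintro ⟨e, he, huv⟩
    simp only [mem_sdiff, mem_union, mem_filter, mem_univ, true_and, not_or, huv, Sym2.mem_iff] at he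
    obtain ⟨h1, h2, h3⟩ := he
    refine ⟨⟨e, h1, huv⟩, ?_, ?_, ?_, ?_⟩ <;> rintro rfl <;> simp at h2 h3
  · rintro ⟨⟨e, he, huv⟩, h1, h2, h3, h4⟩
    refine ⟨e, ?_, huv⟩
    simp only [mem_sdiff, mem_union, mem_filter, mem_univ, true_and, not_or, huv, Sym2.mem_iff]
    exact ⟨he, ⟨h1.symm, h3.symm⟩, ⟨h2.symm, h4.symm⟩⟩

theorem adj_sdiff_star3 (G : Gr n) (a b c u v : Fin n) :
    adj (G \ star3 a b c) u v ↔
      adj G u v ∧ (u ≠ a ∧ u ≠ b ∧ u ≠ c) ∧ (v ≠ a ∧ v ≠ b ∧ v ≠ c) := by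
  unfold adj star3 star
  constructor
  · rintro ⟨e, he, huv⟩
    simp only [mem_sdiff, mem_union, mem_filter, mem_univ, true_and, not_or, huv, Sym2.mem_iff] at he
    obtain ⟨h1, ⟨h2, h3⟩, h4⟩ := he
    refine ⟨⟨e, h1, huv⟩, ⟨?_, ?_, ?_⟩, ⟨?_, ?_, ?_⟩⟩ <;> rintro rfl <;> simp at h2 h3 h4
  · rintro ⟨⟨e, he, huv⟩, ⟨h1, h2, h3⟩, ⟨h4, h5, h6⟩⟩
    refine ⟨e, ?_, huv⟩
    simp only [mem_sdiff, mem_union, mem_filter, mem_univ, true_and, not_or, huv, Sym2.mem_iff]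
    exact ⟨he, ⟨⟨h1.symm, h4.symm⟩, ⟨h2.symm, h5.symm⟩⟩, ⟨h3.symm, h6.symm⟩⟩

theorem sdiff_star2_eq_iff (G G' : Gr n) (a b : Fin n) :
    G \ star2 a b = G' \ star2 a b ↔
      ∀ u v, u ≠ a → u ≠ b → v ≠ a → v ≠ b → (adj G u v ↔ adj G' u v) := by
  constructor
  · intro h u v h1 h2 h3 h4
    have := adj_sdiff_star2 G a b u v
    rw [h, adj_sdiff_star2] at this
    constructor
    · intro hG; exact (this.2 ⟨hG, h1, h2, h3, h4⟩).1
    · intro hG; exact (this.1 ⟨hG, h1, h2, h3, h4⟩).1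
  · intro h
    apply ext_adj
    intro u v
    rw [adj_sdiff_star2, adj_sdiff_star2]
    constructor
    · rintro ⟨hG, h1, h2, h3, h4⟩; exact ⟨(h u v h1 h2 h3 h4).1 hG, h1, h2, h3, h4⟩
    · rintro ⟨hG, h1, h2, h3, h4⟩; exact ⟨(h u v h1 h2 h3 h4).2 hG, h1, h2, h3, h4⟩

theorem sdiff_star3_eq_iff (G G' : Gr n) (a b c : Fin n) :
    G \ star3 a b c = G' \ star3 a b c ↔
      ∀ u v, (u ≠ a ∧ u ≠ b ∧ u ≠ c) → (v ≠ a ∧ v ≠ b ∧ v ≠ c) → (adj G u v ↔ adj G' u v) := by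
  constructor
  · intro h u v h1 h2
    have := adj_sdiff_star3 G a b c u v
    rw [h, adj_sdiff_star3] at this
    constructor
    · intro hG; exact (this.2 ⟨hG, h1, h2⟩).1
    · intro hG; exact (this.1 ⟨hG, h1, h2⟩).1
  · intro h
    apply ext_adj
    intro u v
    rw [adj_sdiff_star3, adj_sdiff_star3]
    constructor
    · rintro ⟨hG, h1, h2⟩; exact ⟨(h u v h1 h2).1 hG, h1, h2⟩
    · rintro ⟨hG, h1, h2⟩; exact ⟨(h u v h1 h2).2 hG, h1, h2⟩

end Tri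
end Crest.Agent.Switch
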