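import Crest.Agent.Switch.TripleGraph
import Crest.Agent.Switch.TripleAbs

/-! # Module M8, part 1: the table of a graph relative to a triple of vertices. -/

set_option autoImplicit false
open Finset Crest.SwitchChain

namespace Crest.Agent.Switch
namespace Tri

variable {n : ℕ}

/-- the vertex set of the triple. -/
def TT (t : Fin 3 → Fin n) : Finset (Fin n) := univ.image t

theorem mem_TT (t : Fin 3 → Fin n) (k : Fin 3) : t k ∈ TT t := mem_image_of_mem _ (mem_univ _)

theorem not_mem_TT {t : Fin 3 → Fin n} {j : Fin n} (h : j ∉ TT t) (k : Fin 3) : j ≠ t k := by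
  rintro rfl; exact h (mem_TT t k)

theorem not_mem_TT_iff {t : Fin 3 → Fin n} {j : Fin n} :
    j ∉ TT t ↔ (j ≠ t 0 ∧ j ≠ t 1 ∧ j ≠ t 2) := by
  constructor
  · intro h; exact ⟨not_mem_TT h 0, not_mem_TT h 1, not_mem_TT h 2⟩
  · rintro ⟨h0, h1, h2⟩ hm
    obtain ⟨k, -, rfl⟩ := mem_image.1 hm
    fin_cases k
    · exact h0 rfl
    · exact h1 rfl
    · exact h2 rfl

/-- the `3 × n` table of `G`: real columns `j ∉ T`, virtual column `t 0`, zero columns `t 1, t 2`. -/
def tab (t : Fin 3 → Fin n) (G : Gr n) : Fin 3 → Fin n → Bool := fun i j =>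
  if j ∈ TT t then (if j = t 0 then !decide (adj G (t (i+1)) (t (i+2))) else false)
  else decide (adj G (t i) j)

/-- row sums. -/
def rs (w : Fin 3 → Fin n → Bool) (i : Fin 3) : ℕ := ∑ j, (w i j).toNat
/-- column sums. -/
def cs (w : Fin 3 → Fin n → Bool) (j : Fin n) : ℕ := ∑ i, (w i j).toNat

theorem tab_out (t : Fin 3 → Fin n) (G : Gr n) (i : Fin 3) {j : Fin n} (hj : j ∉ TT t) :
    tab t G i j = decide (adj G (t i) j) := by
  simp [tab, hj]

theorem tab_zero (t : Fin 3 → Fin n) (G : Gr n) (i : Fin 3) :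
    tab t G i (t 0) = !decide (adj G (t (i+1)) (t (i+2))) := by
  simp [tab, mem_TT]

theorem tab_in (t : Fin 3 → Fin n) (ht : Function.Injective t) (G : Gr n) (i k : Fin 3)
    (hk : k ≠ 0) : tab t G i (t k) = false := by
  have : t k ≠ t 0 := fun h => hk (ht h)
  simp [tab, mem_TT, this]

theorem sum_split (t : Fin 3 → Fin n) (ht : Function.Injective t) (F : Fin n → ℕ) :
    ∑ j, F j = ∑ j ∈ univ \ TT t, F j + ∑ k, F (t k) := by
  rw [← Finset.sum_sdiff (subset_univ (TT t))]
  congr 1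
  exact Finset.sum_image (fun x _ y _ h => ht h)

theorem sum_fin3 (F : Fin 3 → ℕ) (i : Fin 3) : ∑ k, F k = F i + F (i+1) + F (i+2) := by
  rw [Fin.sum_univ_three]
  fin_cases i
  · rfl
  · show F 0 + F 1 + F 2 = F 1 + F 2 + F 0
    omega
  · show F 0 + F 1 + F 2 = F 2 + F 0 + F 1
    omega

theorem f3a (i : Fin 3) : i + 1 + 1 = i + 2 := by revert i; decide
theorem f3b (i : Fin 3) : i + 1 + 2 = i := by revert i; decide
theorem f3c (i : Fin 3) : i + 2 + 1 = i := by revert i; decide
theorem f3d (i : Fin 3) : i + 2 + 2 = i + 1 := by revert i; decide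
theorem f3e (i : Fin 3) : i ≠ i + 1 := by revert i; decide
theorem f3f (i : Fin 3) : i ≠ i + 2 := by revert i; decide
theorem f3g (i : Fin 3) : i + 1 ≠ i + 2 := by revert i; decide
theorem f3h (i k : Fin 3) : k = i ∨ k = i + 1 ∨ k = i + 2 := by revert i k; decide

theorem deg_sum (G : Gr n) (v : Fin n) : deg G v = ∑ u, (decide (adj G v u)).toNat := by
  rw [deg_eq, Finset.card_filter]
  apply Finset.sum_congr rfl
  intro u _
  by_cases h : adj G v u <;> simp [h]

theorem deg_out (t : Fin 3 → Fin n) (ht : Function.Injective t) (G : Gr n) {v : Fin n}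
    (hv : v ∉ TT t) :
    deg G v = ∑ u ∈ univ \ TT t, (decide (adj G v u)).toNat + cs (tab t G) v := by
  rw [deg_sum, sum_split t ht]
  congr 1
  unfold cs
  apply Finset.sum_congr rfl
  intro k _
  rw [tab_out t G k hv]
  congr 1
  exact decide_eq_decide.2 (adj_comm G v (t k))

theorem rs_tab (t : Fin 3 → Fin n) (ht : Function.Injective t) (G : Gr n) (i : Fin 3) :
    rs (tab t G) i = ∑ u ∈ univ \ TT t, (decide (adj G (t i) u)).toNat
      + (tab t G i (t 0)).toNat := by
  unfold rs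
  rw [sum_split t ht]
  congr 1
  · apply Finset.sum_congr rfl
    intro u hu
    rw [tab_out t G i (mem_sdiff.1 hu).2]
  · rw [Fin.sum_univ_three, tab_in t ht G i 1 (by decide), tab_in t ht G i 2 (by decide)]
    simp

theorem deg_in (t : Fin 3 → Fin n) (ht : Function.Injective t) (G : Gr n) (i : Fin 3) :
    deg G (t i) + cs (tab t G) (t 0) = rs (tab t G) i + 2 := by
  rw [rs_tab t ht, deg_sum, sum_split t ht]
  unfold cs
  rw [sum_fin3 _ i, sum_fin3 (fun k => (tab t G k (t 0)).toNat) i]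
  simp only [tab_zero, f3a, f3b, f3c, f3d]
  have h0 : ¬ adj G (t i) (t i) := not_adj_self G _
  have h1 : adj G (t (i+2)) (t i) ↔ adj G (t i) (t (i+2)) := adj_comm _ _ _
  by_cases hA : adj G (t i) (t (i+1)) <;> by_cases hB : adj G (t i) (t (i+2)) <;>
    by_cases hC : adj G (t (i+1)) (t (i+2)) <;> simp [h1, hA, hB, hC]

theorem sum_rs_eq_sum_cs (w : Fin 3 → Fin n → Bool) : ∑ i, rs w i = ∑ j, cs w j := by
  unfold rs cs; exact Finset.sum_comm

end Tri
end Crest.Agent.Switch
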